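import Mathlib

/-!
The value `expZeta a 1 = - log (1 - e(a))` for `a ≠ 0`, and the classical nonvanishing of
`∑ χ(j) log |2 sin (π j / N)|` for primitive even `χ`.
-/

open Complex Filter Topology Finset HurwitzZeta

namespace Vale.Agent.Lib.P268

/-- Partial sums of `z^(k+1)`. -/
noncomputable def pS (z : ℂ) (n : ℕ) : ℂ := ∑ k ∈ range n, z ^ (k + 1)

lemma norm_pS_le {z : ℂ} (hz : ‖z‖ = 1) (h1 : z ≠ 1) (n : ℕ) : ‖pS z n‖ ≤ 2 / ‖z - 1‖ := by
  have hne : z - 1 ≠ 0 := sub_ne_zero.mpr h1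
  have h2 : pS z n = z * ((z ^ n - 1) / (z - 1)) := by
    unfold pS
    rw [← geom_sum_eq h1, Finset.mul_sum]
    apply Finset.sum_congr rfl
    intro k _
    ring
  rw [h2, norm_mul, hz, one_mul, norm_div]
  apply div_le_div_of_nonneg_right _ (norm_nonneg _)
  calc ‖z ^ n - 1‖ ≤ ‖z ^ n‖ + ‖(1 : ℂ)‖ := norm_sub_le _ _
    _ = 2 := by rw [norm_pow, hz]; norm_num

lemma sum_by_parts (z : ℂ) (c : ℕ → ℝ) (N : ℕ) :
    ∑ k ∈ range N, z ^ (k + 1) * (c k : ℂ) =
      pS z N * (c N : ℂ) + ∑ k ∈ range N, pS z (k + 1) * ((c k - c (k + 1) : ℝ) : ℂ) := by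
  induction N with
  | zero => simp [pS]
  | succ N ih =>
    rw [Finset.sum_range_succ, ih, Finset.sum_range_succ]
    have : pS z (N + 1) = pS z N + z ^ (N + 1) := by
      unfold pS; rw [Finset.sum_range_succ]
    rw [this]
    push_cast
    ring

lemma tendsto_sum_of_parts {z : ℂ} (hz : ‖z‖ = 1) (h1 : z ≠ 1) {c : ℕ → ℝ}
    (hc0 : Tendsto c atTop (𝓝 0))
    (hsum : Summable fun k => pS z (k + 1) * ((c k - c (k + 1) : ℝ) : ℂ)) :
    Tendsto (fun N => ∑ k ∈ range N, z ^ (k + 1) * (c k : ℂ)) atTop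
      (𝓝 (∑' k, pS z (k + 1) * ((c k - c (k + 1) : ℝ) : ℂ))) := by
  have h2 : Tendsto (fun N => pS z N * (c N : ℂ)) atTop (𝓝 0) := by
    apply squeeze_zero_norm (a := fun N => 2 / ‖z - 1‖ * |c N|)
    · intro N
      rw [norm_mul, Complex.norm_real, Real.norm_eq_abs]
      exact mul_le_mul_of_nonneg_right (norm_pS_le hz h1 N) (abs_nonneg _)
    · have := (hc0.abs).const_mul (2 / ‖z - 1‖)
      simpa using this
  have h3 := hsum.hasSum.tendsto_sum_nat
  have h4 := h2.add h3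
  rw [zero_add] at h4
  refine h4.congr ?_
  intro N
  rw [sum_by_parts]

/-- The coefficients `(k+1)^(-s)`. -/
noncomputable def cs (s : ℝ) (k : ℕ) : ℝ := ((k : ℝ) + 1) ^ (-s)

lemma cs_pos (s : ℝ) (k : ℕ) : 0 < cs s k := by
  unfold cs; positivity

lemma cs_succ_le {s : ℝ} (hs : 0 ≤ s) (k : ℕ) : cs s (k + 1) ≤ cs s k := by
  unfold cs
  push_cast
  apply Real.rpow_le_rpow_of_nonpos (by positivity) (by linarith) (by linarith)

lemma cs_diff_le {s : ℝ} (hs1 : 1 ≤ s) (hs2 : s ≤ 2) (k : ℕ) :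
    cs s k - cs s (k + 1) ≤ 2 / ((k : ℝ) + 1) ^ 2 := by
  set A : ℝ := (k : ℝ) + 1 with hA
  set B : ℝ := (k : ℝ) + 2 with hB
  have hA1 : 1 ≤ A := by rw [hA]; have : (0 : ℝ) ≤ k := Nat.cast_nonneg k; linarith
  have hApos : 0 < A := by linarith
  have hBpos : 0 < B := by rw [hB]; positivity
  have hAB : A ≤ B := by rw [hA, hB]; linarith
  set ρ : ℝ := A / B with hρ
  have hρ0 : 0 < ρ := div_pos hApos hBpos
  have hρ1 : ρ ≤ 1 := (div_le_one hBpos).mpr hAB
  have hc1 : cs s k = A ^ (-s) := rfl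
  have hc2 : cs s (k + 1) = A ^ (-s) * ρ ^ s := by
    unfold cs
    push_cast
    have hB' : (k : ℝ) + 1 + 1 = B := by rw [hB]; ring
    rw [hB', hρ, Real.div_rpow hApos.le hBpos.le, Real.rpow_neg hApos.le, Real.rpow_neg hBpos.le]
    have h5 : A ^ s ≠ 0 := (Real.rpow_pos_of_pos hApos s).ne'
    have h6 : B ^ s ≠ 0 := (Real.rpow_pos_of_pos hBpos s).ne'
    field_simp
  have h7 : ρ ^ (2 : ℝ) ≤ ρ ^ s := Real.rpow_le_rpow_of_exponent_ge hρ0 hρ1 hs2
  have h8 : ρ ^ (2 : ℝ) = ρ ^ 2 := by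
    rw [← Real.rpow_natCast]; norm_num
  have h9 : A ^ (-s) ≤ A ^ (-1 : ℝ) := Real.rpow_le_rpow_of_exponent_le hA1 (by linarith)
  have h10 : A ^ (-1 : ℝ) = 1 / A := by
    rw [Real.rpow_neg_one]; simp
  rw [h8] at h7
  have h11 : 1 - ρ ^ s ≤ 1 - ρ ^ 2 := by linarith
  have h12 : 0 ≤ 1 - ρ ^ s := by
    have : ρ ^ s ≤ 1 := Real.rpow_le_one hρ0.le hρ1 (by linarith)
    linarith
  have h13 : 0 < A ^ (-s) := Real.rpow_pos_of_pos hApos _
  rw [hc1, hc2]
  have h14 : A ^ (-s) - A ^ (-s) * ρ ^ s = A ^ (-s) * (1 - ρ ^ s) := by ring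
  rw [h14]
  have h15 : 1 - ρ ^ 2 ≤ 2 / A := by
    -- 1 - ρ² ≤ 2(1-ρ) = 2/B ≤ 2/A
    have h16 : 1 - ρ ^ 2 ≤ 2 * (1 - ρ) := by nlinarith
    have h17 : 1 - ρ = 1 / B := by
      rw [hρ]; field_simp; rw [hA, hB]; ring
    rw [h17] at h16
    have h18 : 2 * (1 / B) ≤ 2 / A := by
      rw [mul_one_div]
      exact div_le_div_of_nonneg_left (by norm_num) hApos hAB
    linarith
  calc A ^ (-s) * (1 - ρ ^ s) ≤ (1 / A) * (2 / A) := by
        apply mul_le_mul (by rw [← h10]; exact h9) (h11.trans h15) h12 (by positivity)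
    _ = 2 / A ^ 2 := by field_simp

lemma summable_bound : Summable (fun k : ℕ => 2 / ((k : ℝ) + 1) ^ 2) := by
  have h := (Real.summable_one_div_nat_pow (p := 2)).mpr (by norm_num)
  have h2 := (summable_nat_add_iff 1).mpr h
  have h3 := h2.mul_left 2
  refine h3.congr ?_
  intro k
  push_cast
  ring

lemma cs_tendsto_zero {s : ℝ} (hs : 0 < s) : Tendsto (cs s) atTop (𝓝 0) := by
  unfold cs
  have h1 : Tendsto (fun k : ℕ => (k : ℝ) + 1) atTop atTop :=
    tendsto_atTop_add_const_right _ _ tendsto_natCast_atTop_atTop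
  exact (tendsto_rpow_neg_atTop hs).comp h1

lemma summable_parts {z : ℂ} (hz : ‖z‖ = 1) (h1 : z ≠ 1) {s : ℝ} (hs1 : 1 ≤ s) (hs2 : s ≤ 2) :
    Summable fun k => pS z (k + 1) * ((cs s k - cs s (k + 1) : ℝ) : ℂ) := by
  apply Summable.of_norm_bounded (g := fun k : ℕ => 2 / ‖z - 1‖ * (2 / ((k : ℝ) + 1) ^ 2))
    (summable_bound.mul_left _)
  intro k
  rw [norm_mul, Complex.norm_real, Real.norm_eq_abs,
    abs_of_nonneg (by linarith [cs_succ_le (by linarith : (0:ℝ) ≤ s) k])]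
  apply mul_le_mul (norm_pS_le hz h1 _) (cs_diff_le hs1 hs2 k)
    (by linarith [cs_succ_le (by linarith : (0:ℝ) ≤ s) k]) (by positivity)

/-- The limit of the by-parts series as `s → 1⁺`. -/
lemma tendsto_parts {z : ℂ} (hz : ‖z‖ = 1) (h1 : z ≠ 1) :
    Tendsto (fun s : ℝ => ∑' k, pS z (k + 1) * ((cs s k - cs s (k + 1) : ℝ) : ℂ)) (𝓝[>] 1)
      (𝓝 (∑' k, pS z (k + 1) * ((cs 1 k - cs 1 (k + 1) : ℝ) : ℂ))) := by
  apply tendsto_tsum_of_dominated_convergence
    (bound := fun k : ℕ => 2 / ‖z - 1‖ * (2 / ((k : ℝ) + 1) ^ 2))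
    (summable_bound.mul_left _)
  · intro k
    apply Tendsto.const_mul
    have hcont : ∀ j : ℕ, ContinuousAt (fun s : ℝ => cs s j) 1 := by
      intro j
      unfold cs
      have hb : (0 : ℝ) < (j : ℝ) + 1 := by positivity
      exact (Real.continuousAt_const_rpow hb.ne').comp (continuousAt_neg)
    have h2 : ContinuousAt (fun s : ℝ => ((cs s k - cs s (k + 1) : ℝ) : ℂ)) 1 := by
      apply Complex.continuous_ofReal.continuousAt.comp
      exact (hcont k).sub (hcont (k + 1))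
    exact (h2.tendsto).mono_left nhdsWithin_le_nhds
  · have h3 : Set.Ioc (1 : ℝ) 2 ∈ 𝓝[>] (1 : ℝ) := Ioc_mem_nhdsGT (by norm_num)
    filter_upwards [h3] with s hs k
    rw [norm_mul, Complex.norm_real, Real.norm_eq_abs,
      abs_of_nonneg (by linarith [cs_succ_le (by linarith [hs.1] : (0:ℝ) ≤ s) k])]
    apply mul_le_mul (norm_pS_le hz h1 _) (cs_diff_le hs.1.le hs.2 k)
      (by linarith [cs_succ_le (by linarith [hs.1] : (0:ℝ) ≤ s) k]) (by positivity)

/-- The Dirichlet series for `expZeta` in the shifted form. -/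
lemma hasSum_expZeta_shift (a : ℝ) {s : ℝ} (hs : 1 < s) :
    HasSum (fun k : ℕ => (cexp (2 * Real.pi * I * a)) ^ (k + 1) * (cs s k : ℂ))
      (expZeta a (s : ℂ)) := by
  have hs' : 1 < ((s : ℂ)).re := by simpa using hs
  have h := hasSum_expZeta_of_one_lt_re a hs'
  have h2 := (hasSum_nat_add_iff' (f := fun n : ℕ => cexp (2 * Real.pi * I * a * n) / (n : ℂ) ^ (s : ℂ)) 1).mpr h
  have hs0 : (s : ℂ) ≠ 0 := by
    intro h0
    have : s = 0 := by exact_mod_cast h0
    linarith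
  have h0 : (∑ i ∈ range 1, (fun n : ℕ => cexp (2 * Real.pi * I * a * n) / (n : ℂ) ^ (s : ℂ)) i) = 0 := by
    simp [Complex.zero_cpow hs0]
  rw [h0, sub_zero] at h2
  have hfun : (fun k : ℕ => (cexp (2 * Real.pi * I * a)) ^ (k + 1) * (cs s k : ℂ)) =
      fun n : ℕ => (fun n : ℕ => cexp (2 * Real.pi * I * a * n) / (n : ℂ) ^ (s : ℂ)) (n + 1) := by
    funext k
    have hk : (0 : ℝ) ≤ (k : ℝ) + 1 := by positivity
    have h3 : (cs s k : ℂ) = (((k + 1 : ℕ) : ℂ) ^ (s : ℂ))⁻¹ := by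
      unfold cs
      rw [Complex.ofReal_cpow hk]
      push_cast
      rw [Complex.cpow_neg]
    simp only []
    rw [h3, div_eq_mul_inv, ← Complex.exp_nat_mul]
    congr 2
    push_cast
    ring
  rw [hfun]
  exact h2

lemma norm_exp_two_pi (a : ℝ) : ‖cexp (2 * Real.pi * I * a)‖ = 1 := by
  have : (2 * Real.pi * I * a : ℂ) = ((2 * Real.pi * a : ℝ) : ℂ) * I := by
    push_cast; ring
  rw [this, Complex.norm_exp_ofReal_mul_I]

/-- The Abel limit: the by-parts sum at `s = 1` is `- log (1 - z)`. -/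
lemma parts_eq_log {z : ℂ} (hz : ‖z‖ = 1) (h1 : z ≠ 1) :
    ∑' k, pS z (k + 1) * ((cs 1 k - cs 1 (k + 1) : ℝ) : ℂ) = -Complex.log (1 - z) := by
  set l := ∑' k, pS z (k + 1) * ((cs 1 k - cs 1 (k + 1) : ℝ) : ℂ) with hl
  have hpart := tendsto_sum_of_parts hz h1 (cs_tendsto_zero (s := 1) (by norm_num))
    (summable_parts hz h1 (le_refl 1) (by norm_num))
  rw [← hl] at hpart
  -- the power series
  set f : ℕ → ℂ := fun n => z ^ n / n with hf
  have hfsum : Tendsto (fun n => ∑ i ∈ range n, f i) atTop (𝓝 l) := by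
    rw [← tendsto_add_atTop_iff_nat 1]
    refine hpart.congr ?_
    intro N
    rw [Finset.sum_range_succ']
    simp only [hf, Nat.cast_zero, div_zero, add_zero]
    apply Finset.sum_congr rfl
    intro k _
    have : (cs 1 k : ℂ) = ((k + 1 : ℕ) : ℂ)⁻¹ := by
      unfold cs
      rw [Real.rpow_neg_one]
      push_cast
      rfl
    rw [this, div_eq_mul_inv]
  have habel := Complex.tendsto_tsum_powerSeries_nhdsWithin_lt hfsum
  rw [tendsto_map'_iff] at habel
  -- identify the power series for x ∈ (0, 1)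
  have hev : ∀ᶠ x : ℝ in 𝓝[<] 1, (Function.comp (fun w : ℂ => ∑' n, f n * w ^ n) ((↑) : ℝ → ℂ)) x =
      -Complex.log (1 - z * x) := by
    have hmem : Set.Ioo (0 : ℝ) 1 ∈ 𝓝[<] (1 : ℝ) := Ioo_mem_nhdsLT (by norm_num)
    filter_upwards [hmem] with x hx
    have hnorm : ‖z * (x : ℂ)‖ < 1 := by
      rw [norm_mul, hz, one_mul, Complex.norm_real, Real.norm_eq_abs, abs_of_pos hx.1]
      exact hx.2
    have := Complex.hasSum_taylorSeries_neg_log hnorm
    simp only [Function.comp_apply]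
    rw [← this.tsum_eq]
    apply tsum_congr
    intro n
    simp only [hf]
    rw [mul_pow]
    ring
  have h2 := habel.congr' hev
  -- the limit of the logs
  have hre : 0 < (1 - z).re := by
    have h3 : z.re < 1 := by
      by_contra hcon
      push Not at hcon
      have h4 : z.re ≤ ‖z‖ := Complex.re_le_norm z
      rw [hz] at h4
      have h5 : z.re = 1 := le_antisymm h4 hcon
      have h6 : ‖z‖ ^ 2 = z.re ^ 2 + z.im ^ 2 := by
        rw [Complex.sq_norm, Complex.normSq_apply]; ring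
      rw [hz, h5] at h6
      have h7 : z.im = 0 := by nlinarith
      exact h1 (Complex.ext (by simp [h5]) (by simp [h7]))
    simp only [Complex.sub_re, Complex.one_re]
    linarith
  have hcont : ContinuousAt (fun x : ℝ => -Complex.log (1 - z * x)) 1 := by
    apply ContinuousAt.neg
    apply ContinuousAt.clog
    · fun_prop
    · simp only [Complex.ofReal_one, mul_one]
      exact Or.inl hre
  have h3 : Tendsto (fun x : ℝ => -Complex.log (1 - z * x)) (𝓝[<] 1) (𝓝 (-Complex.log (1 - z))) := by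
    have := hcont.tendsto.mono_left (nhdsWithin_le_nhds (s := Set.Iio (1 : ℝ)))
    simpa using this
  exact tendsto_nhds_unique h2 h3

/-- The value of the exponential zeta function at `s = 1`. -/
theorem expZeta_one (a : ℝ) (h1 : cexp (2 * Real.pi * I * a) ≠ 1) :
    expZeta (a : UnitAddCircle) 1 = -Complex.log (1 - cexp (2 * Real.pi * I * a)) := by
  set z := cexp (2 * Real.pi * I * a) with hzdef
  have hz : ‖z‖ = 1 := norm_exp_two_pi a
  rw [← parts_eq_log hz h1]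
  -- a ≠ 0 in the circle
  have ha : (a : UnitAddCircle) ≠ 0 := by
    intro h0
    apply h1
    rw [AddCircle.coe_eq_zero_iff] at h0
    obtain ⟨n, hn⟩ := h0
    have : (a : ℝ) = n := by simpa using hn.symm
    rw [hzdef, this]
    have h5 : (2 * (Real.pi : ℂ) * I * ((n : ℝ) : ℂ)) = (n : ℂ) * (2 * Real.pi * I) := by
      push_cast; ring
    rw [h5, Complex.exp_int_mul_two_pi_mul_I]
  -- continuity at s = 1 along reals
  have hcont : ContinuousAt (fun s : ℝ => expZeta (a : UnitAddCircle) (s : ℂ)) 1 := by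
    have h2 := (differentiableAt_expZeta (a : UnitAddCircle) ((1 : ℝ) : ℂ) (Or.inr ha)).continuousAt
    exact ContinuousAt.comp (f := fun s : ℝ => (s : ℂ)) h2 Complex.continuous_ofReal.continuousAt
  have h3 : Tendsto (fun s : ℝ => expZeta (a : UnitAddCircle) (s : ℂ)) (𝓝[>] 1)
      (𝓝 (expZeta (a : UnitAddCircle) 1)) := by
    have := hcont.tendsto.mono_left (nhdsWithin_le_nhds (s := Set.Ioi (1 : ℝ)))
    simpa using this
  -- identify with the by-parts series for s ∈ (1, 2]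
  have hev : ∀ᶠ s : ℝ in 𝓝[>] 1, expZeta (a : UnitAddCircle) (s : ℂ) =
      ∑' k, pS z (k + 1) * ((cs s k - cs s (k + 1) : ℝ) : ℂ) := by
    have hmem : Set.Ioc (1 : ℝ) 2 ∈ 𝓝[>] (1 : ℝ) := Ioc_mem_nhdsGT (by norm_num)
    filter_upwards [hmem] with s hs
    have h4 := (hasSum_expZeta_shift a hs.1).tendsto_sum_nat
    have h5 := tendsto_sum_of_parts hz h1 (cs_tendsto_zero (s := s) (by linarith [hs.1]))
      (summable_parts hz h1 hs.1.le hs.2)
    exact tendsto_nhds_unique h4 h5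
  have h4 := (tendsto_parts hz h1)
  exact tendsto_nhds_unique (h3.congr' hev) h4

end Vale.Agent.Lib.P268
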