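import Mathlib
import Vale.Agent.Lib.P268.ExpZetaOne

/-!
The classical nonvanishing: for a primitive even character `χ ≠ 1` modulo `N`,
`∑ χ(j) log (2 |sin (π j / N)|) ≠ 0`; and its cotangent form for odd `N`.
-/

open Complex Finset HurwitzZeta
open scoped ZMod

namespace Vale.Agent.Lib.P268

variable {N : ℕ} [NeZero N]

/-- `ℓ j = log (2 |sin (π j / N)|)`. -/
noncomputable def ell (N : ℕ) (j : ZMod N) : ℝ :=
  Real.log (2 * |Real.sin (Real.pi * (j.val : ℝ) / (N : ℝ))|)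

lemma dft_char_ne {χ : DirichletCharacter ℂ N} (hp : χ.IsPrimitive) :
    gaussSum χ (ZMod.stdAddChar (N := N)) ≠ 0 := by
  intro h0
  have h1 : 𝓕 (χ : ZMod N → ℂ) = 𝓕 (0 : ZMod N → ℂ) := by
    funext k
    rw [hp.fourierTransform_eq_inv_mul_gaussSum, h0, mul_zero, map_zero]
    rfl
  have h2 : (χ : ZMod N → ℂ) = 0 := (ZMod.dft (N := N) (E := ℂ)).injective h1
  have h3 := congrFun h2 1
  simp at h3

/-- `L(1, χ⁻¹) τ(χ)` is a sum of `expZeta`s. -/
lemma sum_expZeta_ne_zero {χ : DirichletCharacter ℂ N} (hN : 1 < N)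
    (hp : χ.IsPrimitive) (h1 : χ ≠ 1) :
    ∑ j : ZMod N, χ j * expZeta (ZMod.toAddCircle (-j)) 1 ≠ 0 := by
  have h0 : χ 0 = 0 := χ.map_zero' (by omega)
  have hd := ZMod.LFunction_dft (χ : ZMod N → ℂ) (s := 1) (Or.inl h0)
  rw [← hd]
  have hF : 𝓕 (χ : ZMod N → ℂ) = fun k => (χ⁻¹ (-1) * gaussSum χ (ZMod.stdAddChar (N := N))) * χ⁻¹ k := by
    funext k
    rw [hp.fourierTransform_eq_inv_mul_gaussSum]
    have : -k = (-1) * k := by ring
    rw [this, map_mul]
    ring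
  rw [hF]
  have hL : ZMod.LFunction (fun k => (χ⁻¹ (-1) * gaussSum χ (ZMod.stdAddChar (N := N))) * χ⁻¹ k) 1 =
      (χ⁻¹ (-1) * gaussSum χ (ZMod.stdAddChar (N := N))) * DirichletCharacter.LFunction χ⁻¹ 1 := by
    unfold DirichletCharacter.LFunction ZMod.LFunction
    rw [Finset.mul_sum, Finset.mul_sum, Finset.mul_sum]
    apply Finset.sum_congr rfl
    intro j _
    ring
  rw [hL]
  have hinv : χ⁻¹ ≠ 1 := by
    intro h
    exact h1 (inv_eq_one.mp h)
  have hu : IsUnit (-1 : ZMod N) := isUnit_one.neg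
  apply mul_ne_zero (mul_ne_zero ?_ (dft_char_ne hp))
    (DirichletCharacter.LFunction_apply_one_ne_zero hinv)
  have := (DirichletCharacter.unit_norm_eq_one χ⁻¹ hu.unit)
  intro h
  simp only [IsUnit.unit_spec] at this
  rw [h] at this
  simp at this


lemma exp_ne_one_of_mem {x : ℝ} (h0 : 0 < x) (h1 : x < 1) :
    cexp (2 * Real.pi * I * x) ≠ 1 := by
  intro h
  rw [Complex.exp_eq_one_iff] at h
  obtain ⟨n, hn⟩ := h
  have hpi : (2 * (Real.pi : ℂ) * I) ≠ 0 := by
    simp [Real.pi_ne_zero]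
  have h2 : (x : ℂ) = n := by
    apply mul_left_cancel₀ hpi
    rw [hn]; ring
  have h3 : x = n := by exact_mod_cast h2
  have h4 : (0 : ℝ) < n := by rw [← h3]; exact h0
  have h5 : (n : ℝ) < 1 := by rw [← h3]; exact h1
  have h6 : (0 : ℤ) < n := by exact_mod_cast h4
  have h7 : n < (1 : ℤ) := by exact_mod_cast h5
  omega

lemma re_one_sub_pos {z : ℂ} (hz : ‖z‖ = 1) (h1 : z ≠ 1) : 0 < (1 - z).re := by
  have h3 : z.re < 1 := by
    by_contra hcon
    push Not at hcon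
    have h4 : z.re ≤ ‖z‖ := Complex.re_le_norm z
    rw [hz] at h4
    have h5 : z.re = 1 := le_antisymm h4 hcon
    have h6 : ‖z‖ ^ 2 = z.re ^ 2 + z.im ^ 2 := by
      rw [Complex.sq_norm, Complex.normSq_apply]; ring
    rw [hz, h5] at h6
    have h7 : z.im = 0 := by nlinarith
    exact h1 (Complex.ext (by simp [h5]) (by simp [h7]))
  simp only [Complex.sub_re, Complex.one_re]
  linarith

/-- `expZeta a 1 + expZeta (-a) 1 = - 2 log (2 |sin π a|)` for `a = x ∈ (0, 1)`. -/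
lemma expZeta_add_neg {x : ℝ} (h0 : 0 < x) (h1 : x < 1) :
    expZeta (x : UnitAddCircle) 1 + expZeta (-(x : UnitAddCircle)) 1 =
      -2 * (Real.log (2 * |Real.sin (Real.pi * x)|) : ℂ) := by
  have hne := exp_ne_one_of_mem h0 h1
  set z := cexp (2 * Real.pi * I * x) with hz
  have hzn : ‖z‖ = 1 := norm_exp_two_pi x
  have h2 : expZeta (x : UnitAddCircle) 1 = -Complex.log (1 - z) := expZeta_one x hne
  have hconj : cexp (2 * Real.pi * I * ((-x : ℝ) : ℂ)) = (starRingEnd ℂ) z := by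
    rw [hz, ← Complex.exp_conj]
    congr 1
    rw [map_mul, map_mul, map_mul, Complex.conj_ofReal, Complex.conj_ofReal, Complex.conj_I,
      map_ofNat]
    push_cast
    ring
  have hne2 : cexp (2 * Real.pi * I * ((-x : ℝ) : ℂ)) ≠ 1 := by
    rw [hconj]
    intro h
    apply hne
    have := congrArg (starRingEnd ℂ) h
    simpa using this
  have h3 : expZeta (-(x : UnitAddCircle)) 1 = -Complex.log (1 - (starRingEnd ℂ) z) := by
    have := expZeta_one (-x) hne2
    rw [hconj] at this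
    rw [← this]
    simp
  have hre := re_one_sub_pos hzn hne
  have harg : (1 - z).arg ≠ Real.pi := by
    have h4 : |(1 - z).arg| < Real.pi / 2 :=
      Complex.abs_arg_lt_pi_div_two_iff.mpr (Or.inl hre)
    intro h5
    rw [h5, abs_of_pos Real.pi_pos] at h4
    linarith [Real.pi_pos]
  have h5 : Complex.log (1 - (starRingEnd ℂ) z) = (starRingEnd ℂ) (Complex.log (1 - z)) := by
    rw [← Complex.log_conj _ harg]
    simp
  rw [h2, h3, h5]
  have h6 : Complex.log (1 - z) + (starRingEnd ℂ) (Complex.log (1 - z)) =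
      ((2 * Real.log ‖1 - z‖ : ℝ) : ℂ) := by
    rw [Complex.add_conj, Complex.log_re]
  have h7 : ‖1 - z‖ = 2 * |Real.sin (Real.pi * x)| := by
    rw [norm_sub_rev]
    have h8 : z = cexp (I * ((2 * Real.pi * x : ℝ) : ℂ)) := by
      rw [hz]; congr 1; push_cast; ring
    rw [h8, Complex.norm_exp_I_mul_ofReal_sub_one, norm_mul, Real.norm_eq_abs, Real.norm_eq_abs]
    have h9 : 2 * Real.pi * x / 2 = Real.pi * x := by ring
    rw [h9]; simp
  have h10 : -Complex.log (1 - z) + -(starRingEnd ℂ) (Complex.log (1 - z)) =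
      -(Complex.log (1 - z) + (starRingEnd ℂ) (Complex.log (1 - z))) := by ring
  rw [h10, h6, h7]
  push_cast
  ring

/-- The classical nonvanishing. -/
theorem sum_ell_ne_zero {χ : DirichletCharacter ℂ N} (hN : 1 < N)
    (hp : χ.IsPrimitive) (h1 : χ ≠ 1) (heven : χ.Even) :
    ∑ j : ZMod N, χ j * (ell N j : ℂ) ≠ 0 := by
  have h0 : χ 0 = 0 := χ.map_zero' (by omega)
  have hne := sum_expZeta_ne_zero hN hp h1
  intro hzero
  apply hne
  set A := ∑ j : ZMod N, χ j * expZeta (ZMod.toAddCircle (-j)) 1 with hA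
  have hA2 : A = ∑ j : ZMod N, χ j * expZeta (ZMod.toAddCircle j) 1 := by
    rw [hA, ← Equiv.sum_comp (Equiv.neg (ZMod N)) (fun j => χ j * expZeta (ZMod.toAddCircle (-j)) 1)]
    apply Finset.sum_congr rfl
    intro j _
    simp only [Equiv.neg_apply, neg_neg]
    have : χ (-j) = χ j := by
      have h2 : -j = (-1) * j := by ring
      rw [h2, map_mul, heven, one_mul]
    rw [this]
  have h3 : A + A = -2 * ∑ j : ZMod N, χ j * (ell N j : ℂ) := by
    nth_rewrite 1 [hA2]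
    rw [hA, ← Finset.sum_add_distrib, Finset.mul_sum]
    apply Finset.sum_congr rfl
    intro j _
    by_cases hj : j = 0
    · rw [hj, h0]; ring
    · have hv0 : 0 < j.val := Nat.pos_of_ne_zero ((ZMod.val_ne_zero j).mpr hj)
      have hv1 : j.val < N := ZMod.val_lt j
      have hNpos : (0 : ℝ) < N := by exact_mod_cast (by omega : 0 < N)
      set x : ℝ := (j.val : ℝ) / (N : ℝ) with hx
      have hx0 : 0 < x := by
        rw [hx]; exact div_pos (by exact_mod_cast hv0) hNpos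
      have hx1 : x < 1 := by
        rw [hx, div_lt_one hNpos]; exact_mod_cast hv1
      have h4 := expZeta_add_neg hx0 hx1
      have h5 : ZMod.toAddCircle j = (x : UnitAddCircle) := ZMod.toAddCircle_apply j
      have h6 : ZMod.toAddCircle (-j) = -(x : UnitAddCircle) := by
        rw [map_neg, h5]
      rw [h5, h6, ← mul_add, h4]
      unfold ell
      have h7 : Real.pi * x = Real.pi * (j.val : ℝ) / (N : ℝ) := by
        rw [hx]; ring
      rw [h7]
      ring
  rw [hzero, mul_zero] at h3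
  have h4 : (2 : ℂ) * A = 0 := by rw [two_mul]; exact h3
  exact (mul_eq_zero.mp h4).resolve_left (by norm_num)

/-- `Γ t = log |cot (π t / N)|`. -/
noncomputable def Gam (N : ℕ) (t : ZMod N) : ℝ :=
  Real.log |Real.cos (Real.pi * (t.val : ℝ) / (N : ℝ)) / Real.sin (Real.pi * (t.val : ℝ) / (N : ℝ))|

lemma abs_sin_natCast_val (m : ℕ) :
    |Real.sin (Real.pi * (((m : ZMod N)).val : ℝ) / (N : ℝ))| =
      |Real.sin (Real.pi * (m : ℝ) / (N : ℝ))| := by
  have hNne : (N : ℝ) ≠ 0 := by exact_mod_cast NeZero.ne N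
  rw [ZMod.val_natCast]
  have hm : m = N * (m / N) + m % N := (Nat.div_add_mod m N).symm
  have h2 : Real.pi * (m : ℝ) / (N : ℝ) = Real.pi * ((m % N : ℕ) : ℝ) / (N : ℝ) + ((m / N : ℕ) : ℝ) * Real.pi := by
    have h3 : (m : ℝ) = (N : ℝ) * ((m / N : ℕ) : ℝ) + ((m % N : ℕ) : ℝ) := by exact_mod_cast hm
    rw [h3]
    field_simp
    ring
  rw [h2, Real.sin_add_nat_mul_pi, abs_mul, abs_pow, abs_neg, abs_one, one_pow, one_mul]

lemma abs_cos_natCast_val (m : ℕ) :
    |Real.cos (Real.pi * (((m : ZMod N)).val : ℝ) / (N : ℝ))| =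
      |Real.cos (Real.pi * (m : ℝ) / (N : ℝ))| := by
  have hNne : (N : ℝ) ≠ 0 := by exact_mod_cast NeZero.ne N
  rw [ZMod.val_natCast]
  have hm : m = N * (m / N) + m % N := (Nat.div_add_mod m N).symm
  have h2 : Real.pi * (m : ℝ) / (N : ℝ) = Real.pi * ((m % N : ℕ) : ℝ) / (N : ℝ) + ((m / N : ℕ) : ℝ) * Real.pi := by
    have h3 : (m : ℝ) = (N : ℝ) * ((m / N : ℕ) : ℝ) + ((m % N : ℕ) : ℝ) := by exact_mod_cast hm
    rw [h3]
    field_simp
    ring
  rw [h2, Real.cos_add_nat_mul_pi, abs_mul, abs_pow, abs_neg, abs_one, one_pow, one_mul]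

lemma Gam_eq_ell (hodd : Odd N) {t : ZMod N} (ht : t ≠ 0) :
    Gam N t = ell N (2 * t) - 2 * ell N t := by
  have hNpos : (0 : ℝ) < N := by exact_mod_cast Nat.pos_of_ne_zero (NeZero.ne N)
  have hv0 : 0 < t.val := Nat.pos_of_ne_zero ((ZMod.val_ne_zero t).mpr ht)
  have hv1 : t.val < N := ZMod.val_lt t
  set θ : ℝ := Real.pi * (t.val : ℝ) / (N : ℝ) with hθ
  have hθ0 : 0 < θ := by
    rw [hθ]; have : (0 : ℝ) < t.val := by exact_mod_cast hv0
    positivity
  have hθ1 : θ < Real.pi := by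
    rw [hθ, div_lt_iff₀ hNpos]
    have : (t.val : ℝ) < N := by exact_mod_cast hv1
    nlinarith [Real.pi_pos]
  have hs : 0 < Real.sin θ := Real.sin_pos_of_pos_of_lt_pi hθ0 hθ1
  have hc : Real.cos θ ≠ 0 := by
    intro h0
    rw [Real.cos_eq_zero_iff] at h0
    obtain ⟨n, hn⟩ := h0
    have hpi := Real.pi_ne_zero
    have h3 : 2 * (t.val : ℝ) = (2 * (n : ℝ) + 1) * (N : ℝ) := by
      rw [hθ] at hn
      field_simp at hn
      linarith
    have h4 : (2 * (t.val : ℤ)) = (2 * n + 1) * (N : ℤ) := by exact_mod_cast h3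
    obtain ⟨k, hk⟩ := hodd
    have hk' : (N : ℤ) = 2 * (k : ℤ) + 1 := by exact_mod_cast hk
    rw [hk'] at h4
    have h5 : (2 : ℤ) ∣ (2 * n + 1) * (2 * (k : ℤ) + 1) := ⟨(t.val : ℤ), h4.symm⟩
    have h6 : ¬ (2 : ℤ) ∣ (2 * n + 1) * (2 * (k : ℤ) + 1) := by
      intro hd
      have := Int.emod_emod_of_dvd ((2 * n + 1) * (2 * (k : ℤ) + 1)) (dvd_refl 2)
      have h7 : ((2 * n + 1) * (2 * (k : ℤ) + 1)) = 2 * (2 * n * k + n + k) + 1 := by ring
      rw [h7] at hd
      omega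
    exact h6 h5
  have h2t : (2 * t : ZMod N) = ((2 * t.val : ℕ) : ZMod N) := by
    push_cast
    rw [ZMod.natCast_zmod_val]
  have hsin2 : |Real.sin (Real.pi * ((2 * t : ZMod N).val : ℝ) / (N : ℝ))| =
      2 * Real.sin θ * |Real.cos θ| := by
    rw [h2t, abs_sin_natCast_val]
    have h3 : Real.pi * ((2 * t.val : ℕ) : ℝ) / (N : ℝ) = 2 * θ := by
      rw [hθ]; push_cast; ring
    rw [h3, Real.sin_two_mul, abs_mul, abs_mul, abs_of_pos hs]
    norm_num
  unfold Gam ell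
  rw [hsin2, ← hθ, abs_div, abs_of_pos hs]
  have hcabs : 0 < |Real.cos θ| := abs_pos.mpr hc
  have h7 : Real.log (2 * (2 * Real.sin θ * |Real.cos θ|)) =
      Real.log 2 + (Real.log 2 + Real.log (Real.sin θ) + Real.log |Real.cos θ|) := by
    rw [Real.log_mul (by norm_num) (by positivity), Real.log_mul (by positivity) hcabs.ne',
      Real.log_mul (by norm_num) hs.ne']
  have h8 : Real.log (2 * Real.sin θ) = Real.log 2 + Real.log (Real.sin θ) :=
    Real.log_mul (by norm_num) hs.ne'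
  rw [h7, h8, Real.log_div hcabs.ne' hs.ne']
  ring

/-- The cotangent form of the nonvanishing, for odd modulus. -/
theorem sum_gam_ne_zero {χ : DirichletCharacter ℂ N} (hN : 1 < N) (hodd : Odd N)
    (hp : χ.IsPrimitive) (h1 : χ ≠ 1) (heven : χ.Even) :
    ∑ t : ZMod N, χ t * (Gam N t : ℂ) ≠ 0 := by
  have h0 : χ 0 = 0 := χ.map_zero' (by omega)
  have hcop : Nat.Coprime 2 N := (Nat.coprime_two_left).mpr hodd
  set u2 : (ZMod N)ˣ := ZMod.unitOfCoprime 2 hcop with hu2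
  have hu2c : ((u2 : (ZMod N)ˣ) : ZMod N) = 2 := by
    rw [hu2, ZMod.coe_unitOfCoprime]; rfl
  have hS := sum_ell_ne_zero hN hp h1 heven
  set S := ∑ j : ZMod N, χ j * (ell N j : ℂ) with hSdef
  have h2 : ∑ t : ZMod N, χ t * (ell N (2 * t) : ℂ) = χ ((u2⁻¹ : (ZMod N)ˣ) : ZMod N) * S := by
    rw [hSdef, Finset.mul_sum]
    apply Fintype.sum_equiv (Units.mulLeft u2)
    intro t
    simp only [Units.mulLeft_apply, hu2c]
    rw [← mul_assoc, ← map_mul]
    have : ((u2⁻¹ : (ZMod N)ˣ) : ZMod N) * (2 * t) = t := by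
      rw [← hu2c, ← mul_assoc, Units.inv_mul, one_mul]
    rw [this]
  have h3 : ∑ t : ZMod N, χ t * (Gam N t : ℂ) = (χ ((u2⁻¹ : (ZMod N)ˣ) : ZMod N) - 2) * S := by
    rw [sub_mul, ← h2, hSdef, Finset.mul_sum, ← Finset.sum_sub_distrib]
    apply Finset.sum_congr rfl
    intro t _
    by_cases ht : t = 0
    · rw [ht, h0]; ring
    · rw [Gam_eq_ell hodd ht]
      push_cast
      ring
  rw [h3]
  apply mul_ne_zero _ hS
  intro h4
  have h5 : χ ((u2⁻¹ : (ZMod N)ˣ) : ZMod N) = 2 := by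
    linear_combination h4
  have h6 := DirichletCharacter.unit_norm_eq_one χ u2⁻¹
  rw [h5] at h6
  norm_num at h6

end Vale.Agent.Lib.P268
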