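import Mathlib

/-!
Analytic core for P268: the function `C/A` is strictly decreasing on `(0, π/2)`, where
`A x = log ((π - x)/x)` and `C x = log (cos (x/2) / sin (x/2))`.
-/

open Real

namespace Vale.Agent.Lib.P268

/-- Auxiliary function `U x = x(π-x) cos x - (π-2x) sin x`. -/
noncomputable def U (x : ℝ) : ℝ := x * (π - x) * cos x - (π - 2 * x) * sin x

lemma hasDerivAt_mulsub (x : ℝ) :
    HasDerivAt (fun y : ℝ => y * (π - y)) (π - 2 * x) x := by
  have := (hasDerivAt_id' x).fun_mul ((hasDerivAt_const x π).fun_sub (hasDerivAt_id' x))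
  exact this.congr_deriv (by ring)

lemma hasDerivAt_U (x : ℝ) : HasDerivAt U (sin x * (2 - x * (π - x))) x := by
  have h1 := hasDerivAt_mulsub x
  have h2 : HasDerivAt (fun y : ℝ => π - 2 * y) (-(2 : ℝ)) x := by
    have := (hasDerivAt_const x π).fun_sub ((hasDerivAt_id' x).const_mul 2)
    exact this.congr_deriv (by ring)
  have h3 := (h1.fun_mul (hasDerivAt_cos x)).fun_sub (h2.fun_mul (hasDerivAt_sin x))
  exact h3.congr_deriv (by ring)

lemma U_zero : U 0 = 0 := by simp [U]

lemma U_pi_div_two : U (π / 2) = 0 := by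
  have : π - 2 * (π / 2) = 0 := by ring
  simp [U, this]

lemma U_pos {x : ℝ} (h0 : 0 < x) (h1 : x < π / 2) : 0 < U x := by
  have hpi := Real.pi_pos
  have hcont : Continuous U := by
    unfold U; fun_prop
  by_cases hx : x * (π - x) ≤ 2
  · -- U is strictly increasing on [0, x]
    have hmono : StrictMonoOn U (Set.Icc 0 x) := by
      apply strictMonoOn_of_deriv_pos (convex_Icc _ _) hcont.continuousOn
      intro t ht
      rw [interior_Icc] at ht
      rw [(hasDerivAt_U t).deriv]
      have hs : 0 < sin t := Real.sin_pos_of_pos_of_lt_pi ht.1 (by nlinarith [ht.2])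
      have : t * (π - t) < x * (π - x) := by nlinarith [ht.1, ht.2]
      exact mul_pos hs (by linarith)
    have := hmono ⟨le_refl 0, h0.le⟩ ⟨h0.le, le_refl x⟩ h0
    rwa [U_zero] at this
  · -- U is strictly decreasing on [x, π/2]
    push Not at hx
    have hanti : StrictAntiOn U (Set.Icc x (π / 2)) := by
      apply strictAntiOn_of_deriv_neg (convex_Icc _ _) hcont.continuousOn
      intro t ht
      rw [interior_Icc] at ht
      rw [(hasDerivAt_U t).deriv]
      have hs : 0 < sin t := Real.sin_pos_of_pos_of_lt_pi (by linarith [ht.1]) (by linarith [ht.2])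
      have : x * (π - x) < t * (π - t) := by nlinarith [ht.1, ht.2]
      exact mul_neg_of_pos_of_neg hs (by linarith)
    have := hanti ⟨le_refl x, h1.le⟩ ⟨h1.le, le_refl _⟩ h1
    rwa [U_pi_div_two] at this

/-- `S x = x(π-x)/sin x`. -/
noncomputable def S (x : ℝ) : ℝ := x * (π - x) / sin x

lemma hasDerivAt_S {x : ℝ} (h0 : 0 < x) (h1 : x < π / 2) :
    HasDerivAt S (-(U x) / (sin x) ^ 2) x := by
  have hs : sin x ≠ 0 := (Real.sin_pos_of_pos_of_lt_pi h0 (by linarith [Real.pi_pos])).ne'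
  have h3 := (hasDerivAt_mulsub x).fun_div (hasDerivAt_sin x) hs
  refine h3.congr_deriv ?_
  unfold U
  ring

lemma S_deriv_neg {x : ℝ} (h0 : 0 < x) (h1 : x < π / 2) : -(U x) / (sin x) ^ 2 < 0 := by
  have hs : 0 < sin x := Real.sin_pos_of_pos_of_lt_pi h0 (by linarith [Real.pi_pos])
  exact div_neg_of_neg_of_pos (by linarith [U_pos h0 h1]) (by positivity)

/-- `A x = log ((π-x)/x)`. -/
noncomputable def A (x : ℝ) : ℝ := log ((π - x) / x)

/-- `C x = log (cos (x/2)/sin (x/2))`. -/
noncomputable def C (x : ℝ) : ℝ := log (cos (x / 2) / sin (x / 2))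

lemma hasDerivAt_A {x : ℝ} (h0 : 0 < x) (h1 : x < π / 2) :
    HasDerivAt A (-π / (x * (π - x))) x := by
  have hpi := Real.pi_pos
  have hne : x ≠ 0 := h0.ne'
  have hne2 : π - x ≠ 0 := by linarith
  have h3 : HasDerivAt (fun y : ℝ => π - y) (-1) x := by
    have := (hasDerivAt_const x π).fun_sub (hasDerivAt_id' x)
    exact this.congr_deriv (by ring)
  have h2 := h3.fun_div (hasDerivAt_id' x) hne
  have h4 := h2.log (div_ne_zero hne2 hne)
  refine h4.congr_deriv ?_
  field_simp
  ring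

lemma half_angle_pos {x : ℝ} (h0 : 0 < x) (h1 : x < π / 2) :
    0 < sin (x / 2) ∧ 0 < cos (x / 2) := by
  have hpi := Real.pi_pos
  exact ⟨Real.sin_pos_of_pos_of_lt_pi (by linarith) (by linarith),
    Real.cos_pos_of_mem_Ioo ⟨by linarith, by linarith⟩⟩

lemma sin_double_half (x : ℝ) : sin x = 2 * sin (x / 2) * cos (x / 2) := by
  have := Real.sin_two_mul (x / 2)
  rw [← this]; congr 1; ring

lemma hasDerivAt_C {x : ℝ} (h0 : 0 < x) (h1 : x < π / 2) :
    HasDerivAt C (-1 / sin x) x := by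
  obtain ⟨hs, hc⟩ := half_angle_pos h0 h1
  have hhalf : HasDerivAt (fun y : ℝ => y / 2) (1 / 2) x := (hasDerivAt_id' x).div_const 2
  have hcos : HasDerivAt (fun y : ℝ => cos (y / 2)) (-sin (x / 2) * (1 / 2)) x := hhalf.cos
  have hsin : HasDerivAt (fun y : ℝ => sin (y / 2)) (cos (x / 2) * (1 / 2)) x := hhalf.sin
  have hq := hcos.fun_div hsin hs.ne'
  have hlog := hq.log (div_ne_zero hc.ne' hs.ne')
  refine hlog.congr_deriv ?_
  rw [sin_double_half x]
  have h5 : sin (x / 2) ^ 2 + cos (x / 2) ^ 2 = 1 := Real.sin_sq_add_cos_sq _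
  have hs' := hs.ne'
  have hc' := hc.ne'
  field_simp
  nlinarith [h5]

lemma A_pos {x : ℝ} (h0 : 0 < x) (h1 : x < π / 2) : 0 < A x := by
  apply Real.log_pos
  rw [lt_div_iff₀ h0]; linarith

lemma A_pi_div_two : A (π / 2) = 0 := by
  have hpi := Real.pi_pos
  unfold A
  have : (π - π / 2) / (π / 2) = 1 := by field_simp; ring
  rw [this, Real.log_one]

lemma C_pi_div_two : C (π / 2) = 0 := by
  unfold C
  have h : π / 2 / 2 = π / 4 := by ring
  rw [h, Real.cos_pi_div_four, Real.sin_pi_div_four]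
  have : (√2 / 2 : ℝ) / (√2 / 2) = 1 := div_self (by positivity)
  rw [this, Real.log_one]

/-- `h x = S x * A x - π * C x`. -/
noncomputable def H (x : ℝ) : ℝ := S x * A x - π * C x

lemma hasDerivAt_H {x : ℝ} (h0 : 0 < x) (h1 : x < π / 2) :
    HasDerivAt H ((-(U x) / (sin x) ^ 2) * A x) x := by
  have hpi := Real.pi_pos
  have hs : sin x ≠ 0 := (Real.sin_pos_of_pos_of_lt_pi h0 (by linarith)).ne'
  have h2 := ((hasDerivAt_S h0 h1).fun_mul (hasDerivAt_A h0 h1)).fun_sub
    ((hasDerivAt_C h0 h1).const_mul π)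
  have hne : π - x ≠ 0 := by linarith
  refine h2.congr_deriv ?_
  unfold S
  field_simp
  ring

/-- Continuity of `H` on `(0, π/2]`. -/
lemma continuousOn_H {a : ℝ} (ha : 0 < a) (hb : a ≤ π / 2) :
    ContinuousOn H (Set.Icc a (π / 2)) := by
  have hpi := Real.pi_pos
  intro x hx
  have hx0 : 0 < x := lt_of_lt_of_le ha hx.1
  have hx1 : x ≤ π / 2 := hx.2
  have hs : sin x ≠ 0 := (Real.sin_pos_of_pos_of_lt_pi hx0 (by linarith)).ne'
  have hsh : sin (x / 2) ≠ 0 :=
    (Real.sin_pos_of_pos_of_lt_pi (by linarith) (by linarith)).ne'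
  have hch : cos (x / 2) ≠ 0 :=
    (Real.cos_pos_of_mem_Ioo ⟨by linarith, by linarith⟩).ne'
  have hcS : ContinuousAt S x := by
    unfold S
    exact ContinuousAt.div (by fun_prop) (by fun_prop) hs
  have hcA : ContinuousAt A x := by
    unfold A
    apply ContinuousAt.log
    · exact ContinuousAt.div (by fun_prop) (by fun_prop) hx0.ne'
    · exact div_ne_zero (by linarith) hx0.ne'
  have hcC : ContinuousAt C x := by
    unfold C
    apply ContinuousAt.log
    · exact ContinuousAt.div (by fun_prop) (by fun_prop) hsh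
    · exact div_ne_zero hch hsh
  have : ContinuousAt H x := by
    unfold H
    exact (hcS.mul hcA).sub (continuousAt_const.mul hcC)
  exact this.continuousWithinAt

lemma H_pi_div_two : H (π / 2) = 0 := by
  unfold H
  rw [A_pi_div_two, C_pi_div_two]; ring

lemma H_pos {x : ℝ} (h0 : 0 < x) (h1 : x < π / 2) : 0 < H x := by
  have hanti : StrictAntiOn H (Set.Icc x (π / 2)) := by
    apply strictAntiOn_of_deriv_neg (convex_Icc _ _) (continuousOn_H h0 h1.le)
    intro t ht
    rw [interior_Icc] at ht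
    have ht0 : 0 < t := by linarith [ht.1]
    rw [(hasDerivAt_H ht0 ht.2).deriv]
    exact mul_neg_of_neg_of_pos (S_deriv_neg ht0 ht.2) (A_pos ht0 ht.2)
  have := hanti ⟨le_refl x, h1.le⟩ ⟨h1.le, le_refl _⟩ h1
  rwa [H_pi_div_two] at this

/-- The ratio `R x = C x / A x`. -/
noncomputable def R (x : ℝ) : ℝ := C x / A x

lemma hasDerivAt_R {x : ℝ} (h0 : 0 < x) (h1 : x < π / 2) :
    HasDerivAt R (-(H x) / (x * (π - x)) / (A x) ^ 2) x := by
  have hpi := Real.pi_pos
  have hs : sin x ≠ 0 := (Real.sin_pos_of_pos_of_lt_pi h0 (by linarith)).ne'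
  have hA : A x ≠ 0 := (A_pos h0 h1).ne'
  have h2 := (hasDerivAt_C h0 h1).fun_div (hasDerivAt_A h0 h1) hA
  have hne : π - x ≠ 0 := by linarith
  refine h2.congr_deriv ?_
  unfold H S
  field_simp
  ring

/-- `R` is strictly decreasing on `(0, π/2)`. -/
lemma R_strictAntiOn : StrictAntiOn R (Set.Ioo 0 (π / 2)) := by
  have hpi := Real.pi_pos
  apply strictAntiOn_of_deriv_neg (convex_Ioo _ _)
  · intro x hx
    exact (hasDerivAt_R hx.1 hx.2).continuousAt.continuousWithinAt
  · intro t ht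
    rw [interior_Ioo] at ht
    rw [(hasDerivAt_R ht.1 ht.2).deriv]
    have hA := A_pos ht.1 ht.2
    have h4 : 0 < t * (π - t) := mul_pos ht.1 (by linarith [ht.2])
    apply div_neg_of_neg_of_pos _ (by positivity)
    exact div_neg_of_neg_of_pos (by linarith [H_pos ht.1 ht.2]) h4

/-- Cross-multiplied form of the monotonicity. -/
lemma C_mul_A_lt {x x' : ℝ} (h0 : 0 < x) (hxx' : x < x') (h1 : x' < π / 2) :
    C x' * A x < C x * A x' := by
  have h0' : 0 < x' := h0.trans hxx'
  have hx : x < π / 2 := hxx'.trans h1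
  have := R_strictAntiOn ⟨h0, hx⟩ ⟨h0', h1⟩ hxx'
  unfold R at this
  rwa [div_lt_div_iff₀ (A_pos h0' h1) (A_pos h0 hx)] at this

end Vale.Agent.Lib.P268
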