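import Mathlib
import Vale.Agent.Lib.P268.CotConvex

/-!
Numerator classes of normalized weights: Möbius inversion of the monodromy traces.
-/

open Finset

namespace Vale.Agent.Lib.P268

variable {N : ℕ}

/-- The numerator of a rational number, as a natural number. -/
def nm (x : ℚ) : ℕ := x.num.natAbs

/-- Milnor–Orlik: trace of the `m`-th power of the monodromy on the middle homology of the Milnor
fibre of an isolated weighted homogeneous germ with normalized weights `1 / q i`. -/
def monodromyTrace (q : Fin N → ℚ) (m : ℕ) : ℚ :=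
  ∏ i, ((if nm (q i) ∣ m then q i else 0) - 1)

lemma nm_ge_two {x : ℚ} (hx : 2 ≤ x) : 2 ≤ nm x := by
  have hd : (0 : ℚ) < x.den := by exact_mod_cast x.den_pos
  have hx' : (x.num : ℚ) / x.den = x := Rat.num_div_den x
  have h1 : (2 : ℚ) * x.den ≤ x.num := by
    rw [← hx'] at hx
    rwa [le_div_iff₀ hd] at hx
  have h2 : (2 : ℤ) * (x.den : ℤ) ≤ x.num := by exact_mod_cast h1
  have h3 : (1 : ℤ) ≤ (x.den : ℤ) := by exact_mod_cast x.den_pos
  unfold nm
  omega

lemma num_pos_of_two_le {x : ℚ} (hx : 2 ≤ x) : 0 < x.num := by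
  have : 0 < x := by linarith
  exact Rat.num_pos.mpr this

lemma cast_nm_of_two_le {x : ℚ} (hx : 2 ≤ x) : ((nm x : ℕ) : ℚ) = (x.num : ℚ) := by
  have h := num_pos_of_two_le hx
  unfold nm
  have h2 : ((x.num.natAbs : ℕ) : ℤ) = x.num := Int.natAbs_of_nonneg h.le
  rw [← Int.cast_natCast, h2]

/-- `x ≤ numerator of x` for `x ≥ 2`. -/
lemma le_nm {x : ℚ} (hx : 2 ≤ x) : x ≤ (nm x : ℚ) := by
  rw [cast_nm_of_two_le hx]
  have hd : (1 : ℚ) ≤ x.den := by exact_mod_cast x.den_pos
  have hnum : (0 : ℚ) < x.num := by exact_mod_cast num_pos_of_two_le hx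
  have hx' : (x.num : ℚ) / x.den = x := Rat.num_div_den x
  calc x = (x.num : ℚ) / x.den := hx'.symm
    _ ≤ x.num := div_le_self hnum.le hd

/-- If `x` has denominator one, then `x` is its numerator. -/
lemma eq_nm_of_den_one {x : ℚ} (hx : 2 ≤ x) (hd : x.den = 1) : x = (nm x : ℚ) := by
  rw [cast_nm_of_two_le hx]
  have hx' : (x.num : ℚ) / x.den = x := Rat.num_div_den x
  rw [hd] at hx'
  simpa using hx'.symm

/-- `nm x = 2` forces `x = 2` when `x ≥ 2`. -/
lemma eq_two_of_nm_eq_two {x : ℚ} (hx : 2 ≤ x) (h : nm x = 2) : x = 2 := by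
  have := le_nm hx
  rw [h] at this
  push_cast at this
  linarith

lemma nm_two : nm (2 : ℚ) = 2 := by
  unfold nm; norm_num

/-- The product of `q i - 1` over the numerator class `b`. -/
def cp (q : Fin N → ℚ) (b : ℕ) : ℚ :=
  ∏ i ∈ univ.filter (fun i => nm (q i) = b), (q i - 1)

lemma one_le_sub {x : ℚ} (hx : 2 ≤ x) : 1 ≤ x - 1 := by linarith

lemma cp_pos (q : Fin N → ℚ) (hq : ∀ i, 2 ≤ q i) (b : ℕ) : 0 < cp q b := by
  apply Finset.prod_pos
  intro i _
  linarith [hq i]

lemma abs_trace (q : Fin N → ℚ) (hq : ∀ i, 2 ≤ q i) (m : ℕ) :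
    |monodromyTrace q m| = ∏ i ∈ univ.filter (fun i => nm (q i) ∣ m), (q i - 1) := by
  unfold monodromyTrace
  rw [Finset.abs_prod, Finset.prod_filter]
  apply Finset.prod_congr rfl
  intro i _
  split_ifs with h
  · exact abs_of_pos (by linarith [hq i])
  · simp

lemma prod_dvd_eq (q : Fin N → ℚ) (hq : ∀ i, 2 ≤ q i) {m : ℕ} (hm : m ≠ 0) :
    ∏ i ∈ univ.filter (fun i => nm (q i) ∣ m), (q i - 1) = ∏ d ∈ m.divisors, cp q d := by
  unfold cp
  rw [← Finset.prod_fiberwise_of_maps_to (s := univ.filter (fun i => nm (q i) ∣ m))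
    (t := m.divisors) (g := fun i => nm (q i))]
  · apply Finset.prod_congr rfl
    intro d hd
    apply Finset.prod_congr _ (fun _ _ => rfl)
    ext i
    simp only [mem_filter, mem_univ, true_and]
    constructor
    · exact fun h => h.2
    · intro h
      exact ⟨h ▸ Nat.dvd_of_mem_divisors hd, h⟩
  · intro i hi
    simp only [mem_filter, mem_univ, true_and] at hi
    exact Nat.mem_divisors.mpr ⟨hi, hm⟩

/-- Möbius inversion: equal traces imply equal class products. -/
lemma cp_eq_of_trace (q q' : Fin N → ℚ) (hq : ∀ i, 2 ≤ q i) (hq' : ∀ i, 2 ≤ q' i)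
    (h : ∀ m : ℕ, 1 ≤ m → monodromyTrace q m = monodromyTrace q' m) :
    ∀ b : ℕ, 1 ≤ b → cp q b = cp q' b := by
  intro b
  induction b using Nat.strong_induction_on with
  | _ b ih =>
    intro hb
    have hb0 : b ≠ 0 := by omega
    have h1 := h b hb
    have h2 : |monodromyTrace q b| = |monodromyTrace q' b| := by rw [h1]
    rw [abs_trace q hq, abs_trace q' hq', prod_dvd_eq q hq hb0, prod_dvd_eq q' hq' hb0] at h2
    rw [← Nat.insert_self_properDivisors hb0, Finset.prod_insert Nat.self_notMem_properDivisors,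
      Finset.prod_insert Nat.self_notMem_properDivisors] at h2
    have h3 : ∏ d ∈ b.properDivisors, cp q d = ∏ d ∈ b.properDivisors, cp q' d := by
      apply Finset.prod_congr rfl
      intro d hd
      have hd' := Nat.mem_properDivisors.mp hd
      have hdpos : 1 ≤ d := Nat.pos_of_dvd_of_pos hd'.1 (by omega)
      exact ih d hd'.2 hdpos
    rw [h3] at h2
    have hpos : ∏ d ∈ b.properDivisors, cp q' d ≠ 0 :=
      (Finset.prod_pos (fun d _ => cp_pos q' hq' d)).ne'
    exact mul_right_cancel₀ hpos h2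

/-- The trace at `m = 2` is `(-1)^(number of q i ≠ 2)`. -/
lemma trace_two (q : Fin N → ℚ) (hq : ∀ i, 2 ≤ q i) :
    monodromyTrace q 2 = (-1) ^ (univ.filter (fun i => q i ≠ 2)).card := by
  unfold monodromyTrace
  have h : ∀ i, ((if nm (q i) ∣ 2 then q i else 0) - 1) = (if q i ≠ 2 then (-1 : ℚ) else 1) := by
    intro i
    by_cases h2 : q i = 2
    · have : nm (q i) ∣ 2 := by rw [h2, nm_two]
      rw [if_pos this, h2]; norm_num
    · have hn : ¬ nm (q i) ∣ 2 := by
        intro hd
        have h3 := Nat.le_of_dvd (by norm_num) hd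
        have h4 := nm_ge_two (hq i)
        exact h2 (eq_two_of_nm_eq_two (hq i) (by omega))
      rw [if_neg hn, if_pos h2]; norm_num
  rw [Finset.prod_congr rfl (fun i _ => h i), Finset.prod_ite]
  simp

lemma neg_one_pow_parity {a b : ℕ} (h : ((-1 : ℚ)) ^ a = (-1) ^ b) : a % 2 = b % 2 := by
  rcases Nat.even_or_odd a with ha | ha <;> rcases Nat.even_or_odd b with hb | hb
  · rw [Nat.even_iff] at ha hb; omega
  · rw [ha.neg_one_pow, hb.neg_one_pow] at h; norm_num at h
  · rw [ha.neg_one_pow, hb.neg_one_pow] at h; norm_num at h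
  · rw [Nat.odd_iff] at ha hb; omega

/-- Parity of the number of squares: an odd number of `q i = 2` forces some `q' j = 2`. -/
lemma exists_two_of_odd (q q' : Fin N → ℚ) (hq : ∀ i, 2 ≤ q i) (hq' : ∀ i, 2 ≤ q' i)
    (h : ∀ m : ℕ, 1 ≤ m → monodromyTrace q m = monodromyTrace q' m)
    (hodd : Odd (univ.filter (fun i => q i = 2)).card) : ∃ j, q' j = 2 := by
  by_contra hno
  push Not at hno
  have h2 := h 2 (by norm_num)
  rw [trace_two q hq, trace_two q' hq'] at h2
  have hpar := neg_one_pow_parity h2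
  have hc1 : (univ.filter (fun i => q i = 2)).card + (univ.filter (fun i => q i ≠ 2)).card = N := by
    have := Finset.card_filter_add_card_filter_not (s := (univ : Finset (Fin N))) (fun i => q i = 2)
    simpa using this
  have hc2 : (univ.filter (fun i => q' i ≠ 2)).card = N := by
    have : univ.filter (fun i => q' i ≠ 2) = univ := by
      ext i; simp [hno i]
    rw [this]; simp
  rw [Nat.odd_iff] at hodd
  omega

end Vale.Agent.Lib.P268
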