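import Mathlib
import Vale.Agent.Lib.P268.Classes

/-!
Rigid numerator classes: the convexity argument.
-/

open Finset

namespace Vale.Agent.Lib.P268

variable {N : ℕ}

/-- `log (x - 1)`. -/
noncomputable def y (x : ℚ) : ℝ := Real.log ((x : ℝ) - 1)

/-- `log cot (π / (2x))`. -/
noncomputable def γ (x : ℚ) : ℝ :=
  Real.log (Real.cos (Real.pi / (2 * (x : ℝ))) / Real.sin (Real.pi / (2 * (x : ℝ))))

/-- The invariant `∏ i, cot (π / (2 q i))`. -/
noncomputable def cotInvariant (q : Fin N → ℚ) : ℝ :=
  ∏ i, (Real.cos (Real.pi / (2 * (q i : ℝ))) / Real.sin (Real.pi / (2 * (q i : ℝ))))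

/-- Rigidity of the numerator classes: a numerator shared by two coordinates occurs only for
integer `q`. -/
def Rigid (q : Fin N → ℚ) : Prop :=
  ∀ i j, i ≠ j → nm (q i) = nm (q j) → (q i).den = 1

lemma two_lt_real {x : ℚ} (hx : 2 < x) : (2 : ℝ) < (x : ℝ) := by exact_mod_cast hx

lemma y_eq_A {x : ℚ} (hx : 2 ≤ x) : y x = A (Real.pi / (x : ℝ)) := by
  have hx' : (2 : ℝ) ≤ (x : ℝ) := by exact_mod_cast hx
  have h0 : (x : ℝ) ≠ 0 := by linarith
  have hpi := Real.pi_pos
  unfold y A
  congr 1
  field_simp

lemma γ_eq_C {x : ℚ} (hx : 2 ≤ x) : γ x = C (Real.pi / (x : ℝ)) := by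
  have hx' : (2 : ℝ) ≤ (x : ℝ) := by exact_mod_cast hx
  have h0 : (x : ℝ) ≠ 0 := by linarith
  unfold γ C
  have : Real.pi / (x : ℝ) / 2 = Real.pi / (2 * (x : ℝ)) := by field_simp
  rw [this]

lemma y_two : y 2 = 0 := by
  unfold y; norm_num

lemma γ_two : γ 2 = 0 := by
  rw [γ_eq_C (le_refl 2)]
  push_cast
  exact C_pi_div_two

/-- The key inequality. -/
lemma key_ineq {Q' Q : ℚ} (h2 : 2 < Q') (hlt : Q' < Q) : γ Q' * y Q < γ Q * y Q' := by
  have h2Q : 2 < Q := h2.trans hlt
  have hQ'r := two_lt_real h2
  have hQr := two_lt_real h2Q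
  have hltr : (Q' : ℝ) < (Q : ℝ) := by exact_mod_cast hlt
  have hpi := Real.pi_pos
  rw [y_eq_A h2Q.le, y_eq_A h2.le, γ_eq_C h2Q.le, γ_eq_C h2.le]
  apply C_mul_A_lt
  · positivity
  · exact div_lt_div_of_pos_left hpi (by linarith) hltr
  · rw [div_lt_div_iff₀ (by linarith) (by norm_num)]
    nlinarith

lemma y_pos {x : ℚ} (hx : 2 < x) : 0 < y x := by
  have := two_lt_real hx
  unfold y
  apply Real.log_pos
  linarith

lemma y_nonneg {x : ℚ} (hx : 2 ≤ x) : 0 ≤ y x := by
  have : (2 : ℝ) ≤ (x : ℝ) := by exact_mod_cast hx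
  unfold y
  apply Real.log_nonneg
  linarith

/-- `y` is monotone: used in the singleton case. -/
lemma le_of_y_le {a b : ℚ} (ha : 2 ≤ a) (hb : 2 < b) (h : y a ≤ y b) : a ≤ b := by
  have ha' : (2 : ℝ) ≤ (a : ℝ) := by exact_mod_cast ha
  have hb' : (2 : ℝ) < (b : ℝ) := by exact_mod_cast hb
  unfold y at h
  have := (Real.log_le_log_iff (by linarith) (by linarith)).mp h
  have h3 : (a : ℝ) ≤ (b : ℝ) := by linarith
  exact_mod_cast h3

/-- The sum of `y` over a class is the log of the class product. -/
lemma sum_y_class (q : Fin N → ℚ) (hq : ∀ i, 2 ≤ q i) (b : ℕ) :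
    ∑ i ∈ univ.filter (fun i => nm (q i) = b), y (q i) = Real.log ((cp q b : ℚ) : ℝ) := by
  unfold cp y
  rw [Rat.cast_prod, Real.log_prod]
  · apply Finset.sum_congr rfl
    intro i _
    push_cast
    rfl
  · intro i _
    have : (2 : ℝ) ≤ (q i : ℝ) := by exact_mod_cast hq i
    push_cast
    linarith

lemma sum_y_eq (q q' : Fin N → ℚ) (hq : ∀ i, 2 ≤ q i) (hq' : ∀ i, 2 ≤ q' i)
    (h : ∀ m : ℕ, 1 ≤ m → monodromyTrace q m = monodromyTrace q' m) {b : ℕ} (hb : 1 ≤ b) :
    ∑ i ∈ univ.filter (fun i => nm (q i) = b), y (q i) =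
      ∑ j ∈ univ.filter (fun j => nm (q' j) = b), y (q' j) := by
  rw [sum_y_class q hq, sum_y_class q' hq', cp_eq_of_trace q q' hq hq' h b hb]

/-- The class inequality. -/
lemma class_ineq (s s' : Finset (Fin N)) (q q' : Fin N → ℚ) (Q : ℚ) (hQ : 2 < Q)
    (hs : ∀ i ∈ s, q i = Q) (hs' : ∀ j ∈ s', 2 < q' j ∧ q' j ≤ Q)
    (hsum : ∑ i ∈ s, y (q i) = ∑ j ∈ s', y (q' j)) :
    ∑ j ∈ s', γ (q' j) ≤ ∑ i ∈ s, γ (q i) ∧
      (∑ j ∈ s', γ (q' j) = ∑ i ∈ s, γ (q i) → (∀ j ∈ s', q' j = Q) ∧ s.card = s'.card) := by
  have hY := y_pos hQ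
  have hsy : ∑ i ∈ s, y (q i) = s.card * y Q := by
    rw [Finset.sum_congr rfl (fun i hi => by rw [hs i hi]), Finset.sum_const, nsmul_eq_mul]
  have hsγ : ∑ i ∈ s, γ (q i) = s.card * γ Q := by
    rw [Finset.sum_congr rfl (fun i hi => by rw [hs i hi]), Finset.sum_const, nsmul_eq_mul]
  have hterm : ∀ j ∈ s', γ (q' j) * y Q ≤ γ Q * y (q' j) := by
    intro j hj
    obtain ⟨h1, h2⟩ := hs' j hj
    rcases h2.lt_or_eq with h3 | h3
    · exact (key_ineq h1 h3).le
    · rw [h3]
  have hmain : (∑ j ∈ s', γ (q' j)) * y Q ≤ γ Q * ∑ j ∈ s', y (q' j) := by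
    rw [Finset.sum_mul, Finset.mul_sum]
    exact Finset.sum_le_sum hterm
  have hR : γ Q * ∑ j ∈ s', y (q' j) = (∑ i ∈ s, γ (q i)) * y Q := by
    rw [← hsum, hsy, hsγ]; ring
  constructor
  · rw [hR] at hmain
    exact le_of_mul_le_mul_right hmain hY
  · intro heq
    have hall : ∀ j ∈ s', q' j = Q := by
      by_contra hne
      push Not at hne
      obtain ⟨j, hj, hjne⟩ := hne
      have hlt : q' j < Q := lt_of_le_of_ne (hs' j hj).2 hjne
      have hstrict : (∑ j ∈ s', γ (q' j)) * y Q < γ Q * ∑ j ∈ s', y (q' j) := by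
        rw [Finset.sum_mul, Finset.mul_sum]
        exact Finset.sum_lt_sum hterm ⟨j, hj, key_ineq (hs' j hj).1 hlt⟩
      rw [hR, heq] at hstrict
      exact lt_irrefl _ hstrict
    refine ⟨hall, ?_⟩
    have h5 : ∑ j ∈ s', y (q' j) = s'.card * y Q := by
      rw [Finset.sum_congr rfl (fun j hj => by rw [hall j hj]), Finset.sum_const, nsmul_eq_mul]
    rw [hsy, h5] at hsum
    have h6 : (s.card : ℝ) = s'.card := mul_right_cancel₀ hY.ne' hsum
    exact_mod_cast h6

/-- In a rigid class, all elements coincide. -/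
lemma class_const (q : Fin N → ℚ) (hq : ∀ i, 2 ≤ q i) (hr : Rigid q) {i i0 : Fin N}
    (h : nm (q i) = nm (q i0)) : q i = q i0 := by
  by_cases hne : i = i0
  · rw [hne]
  · have h1 := hr i i0 hne h
    have h2 := hr i0 i (Ne.symm hne) h.symm
    rw [eq_nm_of_den_one (hq i) h1, eq_nm_of_den_one (hq i0) h2, h]

/-- The conclusion for a single class. -/
lemma class_conclusion (q q' : Fin N → ℚ) (hq : ∀ i, 2 ≤ q i) (hq' : ∀ i, 2 ≤ q' i)
    (hr : Rigid q)
    (h : ∀ m : ℕ, 1 ≤ m → monodromyTrace q m = monodromyTrace q' m) {b : ℕ} (hb : 3 ≤ b) :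
    ∑ j ∈ univ.filter (fun j => nm (q' j) = b), γ (q' j) ≤
      ∑ i ∈ univ.filter (fun i => nm (q i) = b), γ (q i) ∧
    (∑ j ∈ univ.filter (fun j => nm (q' j) = b), γ (q' j) =
      ∑ i ∈ univ.filter (fun i => nm (q i) = b), γ (q i) →
      ∀ v : ℚ, ((univ.filter (fun i => nm (q i) = b)).filter (fun i => q i = v)).card =
        ((univ.filter (fun j => nm (q' j) = b)).filter (fun j => q' j = v)).card) := by
  have hsum := sum_y_eq q q' hq hq' h (b := b) (by omega)
  have hgt : ∀ j ∈ univ.filter (fun j => nm (q' j) = b), 2 < q' j := by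
    intro j hj
    simp only [mem_filter, mem_univ, true_and] at hj
    refine lt_of_le_of_ne (hq' j) ?_
    intro h2
    rw [← h2, nm_two] at hj
    omega
  by_cases hne : (univ.filter (fun i => nm (q i) = b)).Nonempty
  · obtain ⟨i0, hi0⟩ := hne
    simp only [mem_filter, mem_univ, true_and] at hi0
    have hQ : 2 < q i0 := by
      refine lt_of_le_of_ne (hq i0) ?_
      intro h2
      rw [← h2, nm_two] at hi0
      omega
    have hs : ∀ i ∈ univ.filter (fun i => nm (q i) = b), q i = q i0 := by
      intro i hi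
      simp only [mem_filter, mem_univ, true_and] at hi
      exact class_const q hq hr (hi.trans hi0.symm)
    have hs' : ∀ j ∈ univ.filter (fun j => nm (q' j) = b), 2 < q' j ∧ q' j ≤ q i0 := by
      intro j hj
      refine ⟨hgt j hj, ?_⟩
      by_cases hden : (q i0).den = 1
      · have h1 := le_nm (hq' j)
        simp only [mem_filter, mem_univ, true_and] at hj
        rw [hj] at h1
        rw [eq_nm_of_den_one (hq i0) hden, hi0]
        exact h1
      · -- singleton class
        have hsingle : univ.filter (fun i => nm (q i) = b) = {i0} := by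
          ext i
          simp only [mem_filter, mem_univ, true_and, mem_singleton]
          constructor
          · intro hi
            by_contra hne
            exact hden (hr i0 i (Ne.symm hne) (hi0.trans hi.symm))
          · rintro rfl; exact hi0
        rw [hsingle, Finset.sum_singleton] at hsum
        apply le_of_y_le (hq' j) hQ
        rw [hsum]
        exact Finset.single_le_sum (f := fun j => y (q' j)) (fun j _ => y_nonneg (hq' j)) hj
    obtain ⟨h1, h2⟩ := class_ineq _ _ q q' (q i0) hQ hs hs' hsum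
    refine ⟨h1, fun heq v => ?_⟩
    obtain ⟨h3, h4⟩ := h2 heq
    by_cases hv : v = q i0
    · subst hv
      have e1 : (univ.filter (fun i => nm (q i) = b)).filter (fun i => q i = q i0) =
          univ.filter (fun i => nm (q i) = b) := by
        apply Finset.filter_true_of_mem
        exact hs
      have e2 : (univ.filter (fun j => nm (q' j) = b)).filter (fun j => q' j = q i0) =
          univ.filter (fun j => nm (q' j) = b) := by
        apply Finset.filter_true_of_mem
        exact h3
      rw [e1, e2, h4]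
    · have e1 : (univ.filter (fun i => nm (q i) = b)).filter (fun i => q i = v) = ∅ := by
        apply Finset.filter_false_of_mem
        intro i hi hiv
        exact hv (hiv.symm.trans (hs i hi))
      have e2 : (univ.filter (fun j => nm (q' j) = b)).filter (fun j => q' j = v) = ∅ := by
        apply Finset.filter_false_of_mem
        intro j hj hjv
        exact hv (hjv.symm.trans (h3 j hj))
      rw [e1, e2]
  · rw [Finset.not_nonempty_iff_eq_empty] at hne
    rw [hne, Finset.sum_empty] at hsum
    have hempty : univ.filter (fun j => nm (q' j) = b) = ∅ := by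
      by_contra hne2
      obtain ⟨j, hj⟩ := Finset.nonempty_iff_ne_empty.mpr hne2
      have := Finset.sum_pos (s := univ.filter (fun j => nm (q' j) = b))
        (f := fun j => y (q' j)) (fun j hj => y_pos (hgt j hj)) ⟨j, hj⟩
      linarith
    rw [hne, hempty]
    simp

/-- The main weight theorem. -/
theorem weights_eq (q q' : Fin N → ℚ) (hq : ∀ i, 2 ≤ q i) (hq' : ∀ i, 2 ≤ q' i)
    (hr : Rigid q)
    (h : ∀ m : ℕ, 1 ≤ m → monodromyTrace q m = monodromyTrace q' m)
    (hc : cotInvariant q = cotInvariant q') :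
    ∀ v : ℚ, (univ.filter (fun i => q i = v)).card = (univ.filter (fun j => q' j = v)).card := by
  -- positivity of cot
  have hpos : ∀ x : ℚ, 2 ≤ x → 0 < Real.cos (Real.pi / (2 * (x : ℝ))) / Real.sin (Real.pi / (2 * (x : ℝ))) := by
    intro x hx
    have hx' : (2 : ℝ) ≤ (x : ℝ) := by exact_mod_cast hx
    have hpi := Real.pi_pos
    have h1 : Real.pi / (2 * (x : ℝ)) ≤ Real.pi / 4 := by
      apply div_le_div_of_nonneg_left hpi.le (by norm_num)
      linarith
    have h0 : 0 < Real.pi / (2 * (x : ℝ)) := by positivity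
    apply div_pos
    · exact Real.cos_pos_of_mem_Ioo ⟨by linarith, by linarith⟩
    · exact Real.sin_pos_of_pos_of_lt_pi h0 (by linarith)
  have hlog : ∑ i, γ (q i) = ∑ j, γ (q' j) := by
    unfold γ
    rw [← Real.log_prod (fun i _ => (hpos _ (hq i)).ne'),
      ← Real.log_prod (fun i _ => (hpos _ (hq' i)).ne')]
    unfold cotInvariant at hc
    rw [hc]
  -- the set of classes
  set B : Finset ℕ := (univ.image fun i => nm (q i)) ∪ (univ.image fun j => nm (q' j)) with hB
  have hmaps : ∀ i ∈ (univ : Finset (Fin N)), nm (q i) ∈ B := by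
    intro i _
    exact mem_union_left _ (mem_image_of_mem _ (mem_univ i))
  have hmaps' : ∀ j ∈ (univ : Finset (Fin N)), nm (q' j) ∈ B := by
    intro j _
    exact mem_union_right _ (mem_image_of_mem _ (mem_univ j))
  have hB2 : ∀ b ∈ B, 2 ≤ b := by
    intro b hb
    rw [hB, mem_union, mem_image, mem_image] at hb
    rcases hb with ⟨i, _, rfl⟩ | ⟨j, _, rfl⟩
    · exact nm_ge_two (hq i)
    · exact nm_ge_two (hq' j)
  have hfib : ∑ b ∈ B, ∑ i ∈ univ.filter (fun i => nm (q i) = b), γ (q i) = ∑ i, γ (q i) :=
    Finset.sum_fiberwise_of_maps_to hmaps _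
  have hfib' : ∑ b ∈ B, ∑ j ∈ univ.filter (fun j => nm (q' j) = b), γ (q' j) = ∑ j, γ (q' j) :=
    Finset.sum_fiberwise_of_maps_to hmaps' _
  -- class 2 is trivial
  have hclass2 : ∀ (r : Fin N → ℚ), (∀ i, 2 ≤ r i) →
      ∑ i ∈ univ.filter (fun i => nm (r i) = 2), γ (r i) = 0 := by
    intro r hr2
    apply Finset.sum_eq_zero
    intro i hi
    simp only [mem_filter, mem_univ, true_and] at hi
    rw [eq_two_of_nm_eq_two (hr2 i) hi, γ_two]
  -- termwise nonnegativity
  have hnonneg : ∀ b ∈ B, 0 ≤ ∑ i ∈ univ.filter (fun i => nm (q i) = b), γ (q i) -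
      ∑ j ∈ univ.filter (fun j => nm (q' j) = b), γ (q' j) := by
    intro b hb
    by_cases hb2 : b = 2
    · subst hb2
      rw [hclass2 q hq, hclass2 q' hq']; simp
    · have hb3 : 3 ≤ b := by have := hB2 b hb; omega
      have := (class_conclusion q q' hq hq' hr h hb3).1
      linarith
  have hzero : ∑ b ∈ B, (∑ i ∈ univ.filter (fun i => nm (q i) = b), γ (q i) -
      ∑ j ∈ univ.filter (fun j => nm (q' j) = b), γ (q' j)) = 0 := by
    rw [Finset.sum_sub_distrib, hfib, hfib', hlog, sub_self]
  have hallzero := (Finset.sum_eq_zero_iff_of_nonneg hnonneg).mp hzero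
  -- counts for v ≠ 2
  have hcount : ∀ v : ℚ, v ≠ 2 →
      (univ.filter (fun i => q i = v)).card = (univ.filter (fun j => q' j = v)).card := by
    intro v hv
    by_cases hex : (univ.filter (fun i => q i = v)).Nonempty ∨
        (univ.filter (fun j => q' j = v)).Nonempty
    · have hb : nm v ∈ B ∧ 3 ≤ nm v := by
        rcases hex with ⟨i, hi⟩ | ⟨j, hj⟩
        · simp only [mem_filter, mem_univ, true_and] at hi
          subst hi
          refine ⟨hmaps i (mem_univ i), ?_⟩
          have h2 := nm_ge_two (hq i)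
          have : nm (q i) ≠ 2 := fun h3 => hv (eq_two_of_nm_eq_two (hq i) h3)
          omega
        · simp only [mem_filter, mem_univ, true_and] at hj
          subst hj
          refine ⟨hmaps' j (mem_univ j), ?_⟩
          have h2 := nm_ge_two (hq' j)
          have : nm (q' j) ≠ 2 := fun h3 => hv (eq_two_of_nm_eq_two (hq' j) h3)
          omega
      have hconc := (class_conclusion q q' hq hq' hr h hb.2).2
      have heq := hallzero (nm v) hb.1
      have := hconc (by linarith) v
      have e1 : (univ.filter (fun i => nm (q i) = nm v)).filter (fun i => q i = v) =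
          univ.filter (fun i => q i = v) := by
        ext i
        simp only [mem_filter, mem_univ, true_and]
        constructor
        · exact fun h => h.2
        · intro h; exact ⟨by rw [h], h⟩
      have e2 : (univ.filter (fun j => nm (q' j) = nm v)).filter (fun j => q' j = v) =
          univ.filter (fun j => q' j = v) := by
        ext j
        simp only [mem_filter, mem_univ, true_and]
        constructor
        · exact fun h => h.2
        · intro h; exact ⟨by rw [h], h⟩
      rwa [e1, e2] at this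
    · push Not at hex
      rw [hex.1, hex.2]
  intro v
  by_cases hv : v = 2
  · subst hv
    -- count of 2's by complement
    set V : Finset ℚ := ((univ.image q) ∪ (univ.image q')).erase 2 with hV
    have hc1 : (univ.filter (fun i => q i ≠ 2)).card =
        ∑ v ∈ V, (univ.filter (fun i => q i = v)).card := by
      rw [Finset.card_eq_sum_card_fiberwise (f := q) (t := V)]
      · apply Finset.sum_congr rfl
        intro v hv
        have hv2 : v ≠ 2 := (mem_erase.mp hv).1
        congr 1
        ext i
        simp only [mem_filter, mem_univ, true_and]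
        constructor
        · exact fun h => h.2
        · intro h; exact ⟨by rw [h]; exact hv2, h⟩
      · intro i hi
        simp only [coe_filter, mem_univ, true_and, Set.mem_ofPred_eq] at hi
        simp only [hV, coe_erase, coe_union, coe_image, coe_univ, Set.image_univ, Set.mem_sdiff,
          Set.mem_union, Set.mem_range, exists_apply_eq_apply, true_or, Set.mem_singleton_iff,
          true_and]
        exact hi
    have hc2 : (univ.filter (fun i => q' i ≠ 2)).card =
        ∑ v ∈ V, (univ.filter (fun i => q' i = v)).card := by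
      rw [Finset.card_eq_sum_card_fiberwise (f := q') (t := V)]
      · apply Finset.sum_congr rfl
        intro v hv
        have hv2 : v ≠ 2 := (mem_erase.mp hv).1
        congr 1
        ext i
        simp only [mem_filter, mem_univ, true_and]
        constructor
        · exact fun h => h.2
        · intro h; exact ⟨by rw [h]; exact hv2, h⟩
      · intro i hi
        simp only [coe_filter, mem_univ, true_and, Set.mem_ofPred_eq] at hi
        simp only [hV, coe_erase, coe_union, coe_image, coe_univ, Set.image_univ, Set.mem_sdiff,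
          Set.mem_union, Set.mem_range, exists_apply_eq_apply, or_true, Set.mem_singleton_iff,
          true_and]
        exact hi
    have hne : (univ.filter (fun i => q i ≠ 2)).card = (univ.filter (fun i => q' i ≠ 2)).card := by
      rw [hc1, hc2]
      apply Finset.sum_congr rfl
      intro v hv
      exact hcount v (mem_erase.mp hv).1
    have e1 : (univ.filter (fun i => q i = 2)).card + (univ.filter (fun i => q i ≠ 2)).card = N := by
      have := Finset.card_filter_add_card_filter_not (s := (univ : Finset (Fin N))) (fun i => q i = 2)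
      simpa using this
    have e2 : (univ.filter (fun i => q' i = 2)).card + (univ.filter (fun i => q' i ≠ 2)).card = N := by
      have := Finset.card_filter_add_card_filter_not (s := (univ : Finset (Fin N))) (fun i => q' i = 2)
      simpa using this
    omega
  · exact hcount v hv

end Vale.Agent.Lib.P268
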