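import Mathlib
import Vale.Agent.Lib.P268.Rigid

/-!
Final algebra for an odd numerator class: character sums vanish and the class products agree, hence
the two classes coincide.
-/

open Finset

namespace Vale.Agent.Lib.P268

variable {N : ℕ}

/-- Facts on the denominator of `x ≥ 2` with numerator `b`. -/
lemma den_facts {x : ℚ} (hx : 2 ≤ x) {b : ℕ} (h : nm x = b) :
    x = (b : ℚ) / (x.den : ℚ) ∧ Nat.Coprime x.den b ∧ 2 * x.den ≤ b ∧ 0 < x.den := by
  have hc := cast_nm_of_two_le hx
  rw [h] at hc
  have hd : (0 : ℚ) < x.den := by exact_mod_cast x.den_pos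
  have h1 : x = (b : ℚ) / (x.den : ℚ) := by
    rw [hc]; exact (Rat.num_div_den x).symm
  refine ⟨h1, ?_, ?_, x.den_pos⟩
  · have := x.reduced
    rw [Nat.Coprime, Nat.gcd_comm] at this
    rw [← h]
    exact this
  · have h2 : 2 ≤ (b : ℚ) / (x.den : ℚ) := h1 ▸ hx
    rw [le_div_iff₀ hd] at h2
    have h3 : ((2 * x.den : ℕ) : ℚ) ≤ (b : ℚ) := by push_cast; exact h2
    exact_mod_cast h3

/-- The admissible denominators of the class `b`. -/
def admis (b : ℕ) : Finset ℕ :=
  (range b).filter (fun a => 0 < a ∧ 2 * a < b ∧ Nat.Coprime a b)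

lemma den_mem_admis {x : ℚ} (hx : 2 ≤ x) {b : ℕ} (hb : Odd b) (h : nm x = b) :
    x.den ∈ admis b := by
  obtain ⟨_, h2, h3, h4⟩ := den_facts hx h
  have h5 : 2 * x.den ≠ b := by
    intro h6
    rw [← h6] at hb
    exact (Nat.not_odd_iff_even.mpr (even_two_mul _)) hb
  have h7 : 2 * x.den < b := lt_of_le_of_ne h3 h5
  simp only [admis, mem_filter, mem_range]
  exact ⟨by omega, h4, h7, h2⟩

/-- The signed count. -/
def dcount (q q' : Fin N → ℚ) (b a : ℕ) : ℤ :=
  (((univ.filter (fun i => nm (q i) = b)).filter (fun i => (q i).den = a)).card : ℤ) -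
    (((univ.filter (fun j => nm (q' j) = b)).filter (fun j => (q' j).den = a)).card : ℤ)

/-- The sign `(-1)^a` in `ℂ`. -/
def sg (a : ℕ) : ℂ := (-1) ^ a

/-- Fourier inversion on the unit group. -/
lemma count_const (q q' : Fin N → ℚ) (hq : ∀ i, 2 ≤ q i) (hq' : ∀ i, 2 ≤ q' i)
    {b : ℕ} (hb : Odd b) (hb3 : 3 ≤ b)
    (hchar : ∀ ψ : DirichletCharacter ℂ b, ψ ≠ 1 → ψ.Even →
      ∑ i ∈ univ.filter (fun i => nm (q i) = b), sg (q i).den * ψ ((q i).den : ZMod b) =
        ∑ j ∈ univ.filter (fun j => nm (q' j) = b), sg (q' j).den * ψ ((q' j).den : ZMod b)) :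
    ∀ a ∈ admis b, sg a * (dcount q q' b a : ℂ) = sg 1 * (dcount q q' b 1 : ℂ) := by
  have : NeZero b := ⟨by omega⟩
  set S := univ.filter (fun i => nm (q i) = b) with hS
  set S' := univ.filter (fun j => nm (q' j) = b) with hS'
  -- the function Cnt
  let Cnt : ZMod b → ℂ := fun x =>
    ∑ i ∈ S, sg (q i).den * ((if x = ((q i).den : ZMod b) then 1 else 0) +
        (if x = -((q i).den : ZMod b) then 1 else 0)) -
    ∑ j ∈ S', sg (q' j).den * ((if x = ((q' j).den : ZMod b) then 1 else 0) +
        (if x = -((q' j).den : ZMod b) then 1 else 0))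
  let B : DirichletCharacter ℂ b → ℂ := fun ψ =>
    ∑ i ∈ S, sg (q i).den * (ψ ((q i).den : ZMod b) + ψ (-((q i).den : ZMod b))) -
    ∑ j ∈ S', sg (q' j).den * (ψ ((q' j).den : ZMod b) + ψ (-((q' j).den : ZMod b)))
  have hB0 : ∀ ψ : DirichletCharacter ℂ b, ψ ≠ 1 → B ψ = 0 := by
    intro ψ hψ
    rcases ψ.even_or_odd with he | ho
    · have h1 := hchar ψ hψ he
      have hneg : ∀ a : ZMod b, ψ (-a) = ψ a := by
        intro a
        have : -a = (-1) * a := by ring
        rw [this, map_mul, he, one_mul]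
      simp only [B, hneg]
      have h2 : ∀ (s : Finset (Fin N)) (r : Fin N → ℚ),
          ∑ i ∈ s, sg (r i).den * (ψ ((r i).den : ZMod b) + ψ ((r i).den : ZMod b)) =
            2 * ∑ i ∈ s, sg (r i).den * ψ ((r i).den : ZMod b) := by
        intro s r
        rw [Finset.mul_sum]
        apply Finset.sum_congr rfl
        intro i _
        ring
      rw [h2, h2, h1, sub_self]
    · have hneg : ∀ a : ZMod b, ψ (-a) = -ψ a := by
        intro a
        have : -a = (-1) * a := by ring
        rw [this, map_mul, ho]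
        ring
      simp only [B, hneg]
      simp
  have hinv : ∀ x : ZMod b, IsUnit x → (b.totient : ℂ) * Cnt x = B 1 := by
    intro x hx
    have hhelp : ∀ (s : Finset (Fin N)) (r : Fin N → ℚ),
        ∑ ψ : DirichletCharacter ℂ b, ψ x⁻¹ *
            ∑ i ∈ s, sg (r i).den * (ψ ((r i).den : ZMod b) + ψ (-((r i).den : ZMod b))) =
          (b.totient : ℂ) * ∑ i ∈ s, sg (r i).den * ((if x = ((r i).den : ZMod b) then 1 else 0) +
            (if x = -((r i).den : ZMod b) then 1 else 0)) := by
      intro s r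
      simp only [Finset.mul_sum]
      rw [Finset.sum_comm]
      apply Finset.sum_congr rfl
      intro i _
      have h1 := DirichletCharacter.sum_char_inv_mul_char_eq ℂ hx ((r i).den : ZMod b)
      have h2 := DirichletCharacter.sum_char_inv_mul_char_eq ℂ hx (-((r i).den : ZMod b))
      calc ∑ ψ : DirichletCharacter ℂ b, ψ x⁻¹ * (sg (r i).den * (ψ ((r i).den : ZMod b) + ψ (-((r i).den : ZMod b))))
          = sg (r i).den * (∑ ψ : DirichletCharacter ℂ b, ψ x⁻¹ * ψ ((r i).den : ZMod b) +
              ∑ ψ : DirichletCharacter ℂ b, ψ x⁻¹ * ψ (-((r i).den : ZMod b))) := by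
            rw [← Finset.sum_add_distrib, Finset.mul_sum]
            apply Finset.sum_congr rfl
            intro ψ _
            ring
        _ = _ := by
            rw [h1, h2]
            split_ifs <;> ring
    have hsum : ∑ ψ : DirichletCharacter ℂ b, ψ x⁻¹ * B ψ = (b.totient : ℂ) * Cnt x := by
      simp only [B, Cnt, mul_sub, Finset.sum_sub_distrib]
      rw [hhelp S q, hhelp S' q']
    rw [← hsum]
    rw [Finset.sum_eq_single (1 : DirichletCharacter ℂ b)]
    · have hxi : IsUnit x⁻¹ := IsUnit.of_mul_eq_one x (ZMod.inv_mul_of_unit x hx)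
      rw [MulChar.one_apply hxi, one_mul]
    · intro ψ _ hψ
      rw [hB0 ψ hψ, mul_zero]
    · intro h
      exact absurd (Finset.mem_univ _) h
  -- evaluate `Cnt` at admissible `a`
  have hb1 : (1 : ℕ) ∈ admis b := by
    simp only [admis, mem_filter, mem_range]
    refine ⟨by omega, by norm_num, by omega, Nat.coprime_one_left b⟩
  have hval : ∀ a ∈ admis b, Cnt (a : ZMod b) = sg a * (dcount q q' b a : ℂ) := by
    intro a ha
    simp only [admis, mem_filter, mem_range] at ha
    obtain ⟨ha0, ha1, ha2, ha3⟩ := ha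
    have hterm : ∀ (s : Finset (Fin N)) (r : Fin N → ℚ), (∀ i, 2 ≤ r i) →
        s = univ.filter (fun i => nm (r i) = b) →
        ∑ i ∈ s, sg (r i).den * ((if (a : ZMod b) = ((r i).den : ZMod b) then 1 else 0) +
          (if (a : ZMod b) = -((r i).den : ZMod b) then 1 else 0)) =
        sg a * ((s.filter (fun i => (r i).den = a)).card : ℂ) := by
      intro s r hr hs
      rw [Finset.card_filter]
      push_cast
      rw [Finset.mul_sum]
      apply Finset.sum_congr rfl
      intro i hi
      rw [hs] at hi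
      simp only [mem_filter, mem_univ, true_and] at hi
      have hden := den_mem_admis (hr i) hb hi
      simp only [admis, mem_filter, mem_range] at hden
      obtain ⟨hd0, hd1, hd2, hd3⟩ := hden
      have h1 : (a : ZMod b) = ((r i).den : ZMod b) ↔ (r i).den = a := by
        rw [ZMod.natCast_eq_natCast_iff']
        rw [Nat.mod_eq_of_lt ha0, Nat.mod_eq_of_lt hd0]
        exact eq_comm
      have h2 : ¬ (a : ZMod b) = -((r i).den : ZMod b) := by
        intro h3
        have h4 : ((a + (r i).den : ℕ) : ZMod b) = 0 := by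
          push_cast
          rw [h3]; ring
        rw [ZMod.natCast_eq_zero_iff] at h4
        have h5 := Nat.le_of_dvd (by omega) h4
        omega
      by_cases h3 : (r i).den = a
      · rw [if_pos (h1.mpr h3), if_neg h2, if_pos h3, h3]
        ring
      · rw [if_neg (fun h => h3 (h1.mp h)), if_neg h2, if_neg h3]
        ring
    simp only [Cnt, dcount]
    rw [hterm S q hq hS, hterm S' q' hq' hS']
    push_cast
    ring
  intro a ha
  have hua : IsUnit (a : ZMod b) := by
    simp only [admis, mem_filter, mem_range] at ha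
    exact (ZMod.isUnit_iff_coprime a b).mpr ha.2.2.2
  have hu1 : IsUnit ((1 : ℕ) : ZMod b) := by
    simp
  have hphi : (b.totient : ℂ) ≠ 0 := by
    exact_mod_cast (Nat.totient_pos.mpr (by omega)).ne'
  have h1 := hinv _ hua
  have h2 := hinv _ hu1
  have h3 : Cnt (a : ZMod b) = Cnt ((1 : ℕ) : ZMod b) :=
    mul_left_cancel₀ hphi (h1.trans h2.symm)
  rw [← hval a ha, ← hval 1 hb1, h3]

lemma padic_prod {ι : Type*} (s : Finset ι) (f : ι → ℚ) (hf : ∀ i ∈ s, f i ≠ 0) :
    padicValRat 2 (∏ i ∈ s, f i) = ∑ i ∈ s, padicValRat 2 (f i) := by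
  classical
  induction s using Finset.induction_on with
  | empty => simp
  | insert a s ha ih =>
    rw [Finset.prod_insert ha, Finset.sum_insert ha, padicValRat.mul (hf a (mem_insert_self a s))
      (Finset.prod_ne_zero_iff.mpr (fun i hi => hf i (mem_insert_of_mem hi))),
      ih (fun i hi => hf i (mem_insert_of_mem hi))]

/-- The 2-adic value of `b / a - 1`. -/
noncomputable def tau (b a : ℕ) : ℤ := padicValRat 2 ((b : ℚ) / (a : ℚ) - 1)

lemma tau_sign {b a : ℕ} (hb : Odd b) (ha : a ∈ admis b) : (-1 : ℤ) ^ a * tau b a ≤ -1 := by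
  simp only [admis, mem_filter, mem_range] at ha
  obtain ⟨ha0, ha1, ha2, ha3⟩ := ha
  have hane : (a : ℚ) ≠ 0 := by exact_mod_cast ha1.ne'
  have hba : 0 < b - a := by omega
  have hbane : ((b - a : ℕ) : ℚ) ≠ 0 := by exact_mod_cast hba.ne'
  have h1 : (b : ℚ) / (a : ℚ) - 1 = ((b - a : ℕ) : ℚ) / (a : ℚ) := by
    rw [Nat.cast_sub (by omega)]
    field_simp
  have h2 : tau b a = (padicValNat 2 (b - a) : ℤ) - (padicValNat 2 a : ℤ) := by
    unfold tau
    rw [h1, padicValRat.div hbane hane, padicValRat.of_nat, padicValRat.of_nat]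
  rcases Nat.even_or_odd a with he | ho
  · rw [he.neg_one_pow, one_mul, h2]
    have h3 : ¬ 2 ∣ b - a := by
      intro hd
      have h4 : Even (b - a) := even_iff_two_dvd.mpr hd
      have h5 : Even b := by
        have := h4.add he
        rwa [Nat.sub_add_cancel (by omega)] at this
      exact (Nat.not_even_iff_odd.mpr hb) h5
    rw [padicValNat.eq_zero_of_not_dvd h3]
    have h6 : 1 ≤ padicValNat 2 a := one_le_padicValNat_of_dvd ha1.ne' (even_iff_two_dvd.mp he)
    omega
  · rw [ho.neg_one_pow, h2]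
    have h3 : ¬ 2 ∣ a := by
      intro hd
      exact (Nat.not_even_iff_odd.mpr ho) (even_iff_two_dvd.mpr hd)
    rw [padicValNat.eq_zero_of_not_dvd h3]
    have h4 : 2 ∣ b - a := by
      have : Even (b - a) := by
        have h5 := Nat.Odd.sub_odd hb ho
        exact h5
      exact even_iff_two_dvd.mp this
    have h6 : 1 ≤ padicValNat 2 (b - a) := one_le_padicValNat_of_dvd hba.ne' h4
    omega

/-- The valuation of a class product. -/
lemma padic_cp (r : Fin N → ℚ) (hr : ∀ i, 2 ≤ r i) {b : ℕ} (hb : Odd b) :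
    padicValRat 2 (cp r b) = ∑ a ∈ admis b,
      (((univ.filter (fun i => nm (r i) = b)).filter (fun i => (r i).den = a)).card : ℤ) * tau b a := by
  unfold cp
  have hne : ∀ i ∈ univ.filter (fun i => nm (r i) = b), r i - 1 ≠ 0 := by
    intro i _
    have := hr i
    intro h0
    linarith
  rw [padic_prod _ _ hne]
  rw [← Finset.sum_fiberwise_of_maps_to (t := admis b) (g := fun i => (r i).den)]
  · apply Finset.sum_congr rfl
    intro a _
    rw [Finset.sum_congr rfl (g := fun _ => tau b a)]
    · rw [Finset.sum_const, nsmul_eq_mul]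
    · intro i hi
      simp only [mem_filter, mem_univ, true_and] at hi
      obtain ⟨hi1, hi2⟩ := hi
      have h1 := (den_facts (hr i) hi1).1
      unfold tau
      congr 1
      rw [← hi2, ← h1]
  · intro i hi
    simp only [mem_filter, mem_univ, true_and] at hi
    exact den_mem_admis (hr i) hb hi

/-- The class equality from vanishing character sums and equal class products. -/
theorem class_eq_of_char (q q' : Fin N → ℚ) (hq : ∀ i, 2 ≤ q i) (hq' : ∀ i, 2 ≤ q' i)
    {b : ℕ} (hb : Odd b) (hb3 : 3 ≤ b) (hcp : cp q b = cp q' b)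
    (hchar : ∀ ψ : DirichletCharacter ℂ b, ψ ≠ 1 → ψ.Even →
      ∑ i ∈ univ.filter (fun i => nm (q i) = b), sg (q i).den * ψ ((q i).den : ZMod b) =
        ∑ j ∈ univ.filter (fun j => nm (q' j) = b), sg (q' j).den * ψ ((q' j).den : ZMod b)) :
    ∀ v : ℚ, ((univ.filter (fun i => nm (q i) = b)).filter (fun i => q i = v)).card =
      ((univ.filter (fun j => nm (q' j) = b)).filter (fun j => q' j = v)).card := by
  have hconst := count_const q q' hq hq' hb hb3 hchar
  have hb1 : (1 : ℕ) ∈ admis b := by
    simp only [admis, mem_filter, mem_range]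
    refine ⟨by omega, by norm_num, by omega, Nat.coprime_one_left b⟩
  -- integer form
  have hint : ∀ a ∈ admis b, dcount q q' b a = (-1) ^ a * (-dcount q q' b 1) := by
    intro a ha
    have h1 := hconst a ha
    have h2 : (((-1 : ℤ) ^ a * dcount q q' b a : ℤ) : ℂ) = ((-dcount q q' b 1 : ℤ) : ℂ) := by
      push_cast
      simp only [sg] at h1
      rw [h1]
      ring
    have h3 : (-1 : ℤ) ^ a * dcount q q' b a = -dcount q q' b 1 := by exact_mod_cast h2
    rw [← h3, ← mul_assoc, ← mul_pow]
    norm_num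
  -- valuation equation
  have hval : ∑ a ∈ admis b, dcount q q' b a * tau b a = 0 := by
    have h1 := padic_cp q hq hb
    have h2 := padic_cp q' hq' hb
    rw [hcp, h2] at h1
    unfold dcount
    simp only [sub_mul]
    rw [Finset.sum_sub_distrib, sub_eq_zero]
    exact h1.symm
  -- d1 = 0
  have hd1 : dcount q q' b 1 = 0 := by
    by_contra hne
    have h2 : ∑ a ∈ admis b, dcount q q' b a * tau b a =
        (-dcount q q' b 1) * ∑ a ∈ admis b, ((-1 : ℤ) ^ a * tau b a) := by
      rw [Finset.mul_sum]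
      apply Finset.sum_congr rfl
      intro a ha
      rw [hint a ha]
      ring
    rw [hval] at h2
    have h3 : ∑ a ∈ admis b, ((-1 : ℤ) ^ a * tau b a) < 0 := by
      apply Finset.sum_neg
      · intro a ha
        have := tau_sign hb ha
        omega
      · exact ⟨1, hb1⟩
    have h4 := mul_ne_zero (neg_ne_zero.mpr hne) h3.ne
    exact h4 h2.symm
  have hd : ∀ a ∈ admis b, dcount q q' b a = 0 := by
    intro a ha
    rw [hint a ha, hd1]
    ring
  intro v
  by_cases hv : 2 ≤ v ∧ nm v = b
  · obtain ⟨hv1, hv2⟩ := hv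
    have hset : ∀ (r : Fin N → ℚ), (∀ i, 2 ≤ r i) →
        (univ.filter (fun i => nm (r i) = b)).filter (fun i => r i = v) =
        (univ.filter (fun i => nm (r i) = b)).filter (fun i => (r i).den = v.den) := by
      intro r hr
      ext i
      simp only [mem_filter, mem_univ, true_and]
      constructor
      · rintro ⟨h1, h2⟩
        exact ⟨h1, by rw [h2]⟩
      · rintro ⟨h1, h2⟩
        refine ⟨h1, ?_⟩
        rw [(den_facts (hr i) h1).1, (den_facts hv1 hv2).1, h2]
    rw [hset q hq, hset q' hq']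
    have hmem := den_mem_admis hv1 hb hv2
    have := hd _ hmem
    unfold dcount at this
    omega
  · have hemp : ∀ (r : Fin N → ℚ), (∀ i, 2 ≤ r i) →
        (univ.filter (fun i => nm (r i) = b)).filter (fun i => r i = v) = ∅ := by
      intro r hr
      apply Finset.filter_false_of_mem
      intro i hi h2
      simp only [mem_filter, mem_univ, true_and] at hi
      exact hv ⟨h2 ▸ hr i, h2 ▸ hi⟩
    rw [hemp q hq, hemp q' hq']

end Vale.Agent.Lib.P268
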