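import Mathlib
import Vale.Agent.Lib.P268.CharLog
import Vale.Agent.Lib.P268.ClassAlg

/-!
Separated odd numerator classes: the cotangent invariants at odd `k` kill all even character sums.
-/

open Finset

namespace Vale.Agent.Lib.P268

variable {N : ℕ}

/-- `log |cot x|`. -/
noncomputable def lc (x : ℝ) : ℝ := Real.log |Real.cos x / Real.sin x|

lemma lc_add_nat_mul_pi (x : ℝ) (n : ℕ) : lc (x + n * Real.pi) = lc x := by
  unfold lc
  rw [Real.cos_add_nat_mul_pi, Real.sin_add_nat_mul_pi, abs_div, abs_div, abs_mul, abs_mul, abs_pow,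
    abs_neg, abs_one, one_pow, one_mul, one_mul]

lemma lc_add_pi_div_two (x : ℝ) : lc (x + Real.pi / 2) = - lc x := by
  unfold lc
  rw [Real.cos_add_pi_div_two, Real.sin_add_pi_div_two, abs_div, abs_div, abs_neg, ← Real.log_inv,
    inv_div]

lemma Gam_natCast {f : ℕ} [NeZero f] (m : ℕ) :
    Gam f (m : ZMod f) = lc (Real.pi * (m : ℝ) / (f : ℝ)) := by
  unfold Gam lc
  rw [abs_div, abs_div, abs_sin_natCast_val, abs_cos_natCast_val]

/-- The inverse of two modulo an odd number. -/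
def inv2 (f : ℕ) : ZMod f := (((f + 1) / 2 : ℕ) : ZMod f)

lemma two_mul_inv2 {f : ℕ} (hf : Odd f) : (2 : ZMod f) * inv2 f = 1 := by
  unfold inv2
  obtain ⟨w, hw⟩ := hf
  have h1 : (f + 1) / 2 = w + 1 := by omega
  rw [h1]
  have h2 : ((f : ℕ) : ZMod f) = 0 := ZMod.natCast_self f
  have h3 : ((2 * (w + 1) : ℕ) : ZMod f) = ((f + 1 : ℕ) : ZMod f) := by
    congr 1
    omega
  push_cast at h3 ⊢
  rw [h3, h2, zero_add]

lemma lc_half {f : ℕ} [NeZero f] (hf : Odd f) (n : ℕ) :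
    lc ((n : ℝ) * Real.pi / (2 * (f : ℝ))) = (-1) ^ n * Gam f ((n : ZMod f) * inv2 f) := by
  have hf0 : (f : ℝ) ≠ 0 := by exact_mod_cast NeZero.ne f
  have h2 := two_mul_inv2 hf
  rcases Nat.even_or_odd n with he | ho
  · have he' := he
    obtain ⟨m, hm⟩ := he
    have hm' : n = 2 * m := by omega
    have e1 : ((n : ZMod f)) * inv2 f = (m : ZMod f) := by
      rw [hm']
      push_cast
      calc (2 : ZMod f) * (m : ZMod f) * inv2 f = (2 * inv2 f) * (m : ZMod f) := by ring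
        _ = (m : ZMod f) := by rw [h2, one_mul]
    rw [e1, Gam_natCast, he'.neg_one_pow, one_mul]
    congr 1
    rw [hm']
    push_cast
    field_simp
  · obtain ⟨w, hw⟩ := hf
    obtain ⟨u, hu⟩ := ho
    set m : ℕ := u + w + 1 with hm
    have h3 : n + f = 2 * m := by omega
    have e1 : ((n : ZMod f)) * inv2 f = (m : ZMod f) := by
      have h4 : ((n + f : ℕ) : ZMod f) = ((2 * m : ℕ) : ZMod f) := by rw [h3]
      push_cast at h4
      rw [ZMod.natCast_self, add_zero] at h4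
      rw [h4]
      calc (2 : ZMod f) * (m : ZMod f) * inv2 f = (2 * inv2 f) * (m : ZMod f) := by ring
        _ = (m : ZMod f) := by rw [two_mul_inv2 ⟨w, hw⟩, one_mul]
    rw [e1, Gam_natCast, (Odd.neg_one_pow ⟨u, hu⟩)]
    have e2 : Real.pi * (m : ℝ) / (f : ℝ) = (n : ℝ) * Real.pi / (2 * (f : ℝ)) + Real.pi / 2 := by
      have h4 : (n : ℝ) + (f : ℝ) = 2 * (m : ℝ) := by exact_mod_cast h3
      have h5 : (m : ℝ) = ((n : ℝ) + (f : ℝ)) / 2 := by linarith
      rw [h5]
      field_simp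
    rw [e2, lc_add_pi_div_two]
    ring

/-- The value of the angle on the class. -/
lemma angle_class {x : ℚ} (hx : 2 ≤ x) {f g v : ℕ} (hb : nm x = f * g) (hf : f ≠ 0) (hg : g ≠ 0) :
    ((g * v : ℕ) : ℝ) * Real.pi / (2 * (x : ℝ)) =
      ((v * x.den : ℕ) : ℝ) * Real.pi / (2 * (f : ℝ)) := by
  have h1 := (den_facts hx hb).1
  have hd : (x.den : ℝ) ≠ 0 := by exact_mod_cast x.den_pos.ne'
  have hf' : (f : ℝ) ≠ 0 := by exact_mod_cast hf
  have hg' : (g : ℝ) ≠ 0 := by exact_mod_cast hg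
  have h2 : (x : ℝ) = ((f : ℝ) * (g : ℝ)) / (x.den : ℝ) := by
    have := congrArg (Rat.cast : ℚ → ℝ) h1
    push_cast at this
    exact this
  rw [h2]
  push_cast
  field_simp

/-- Shifting the angle for another class. -/
lemma lc_other {x : ℚ} (hx : 2 ≤ x) {c g w : ℕ} (hc : nm x = c) :
    lc (((g * (1 + 2 * c * w) : ℕ) : ℝ) * Real.pi / (2 * (x : ℝ))) =
      lc ((g : ℝ) * Real.pi / (2 * (x : ℝ))) := by
  subst hc
  have hd : (x.den : ℝ) ≠ 0 := by exact_mod_cast x.den_pos.ne'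
  have hx0 : (x : ℝ) ≠ 0 := by
    have : (2 : ℝ) ≤ (x : ℝ) := by exact_mod_cast hx
    linarith
  have h2 : (x : ℝ) * (x.den : ℝ) = (nm x : ℝ) := by
    have h3 : x * (x.den : ℚ) = (nm x : ℚ) := by
      rw [cast_nm_of_two_le hx, Rat.mul_den_eq_num]
    exact_mod_cast h3
  have e : ((g * (1 + 2 * nm x * w) : ℕ) : ℝ) * Real.pi / (2 * (x : ℝ)) =
      (g : ℝ) * Real.pi / (2 * (x : ℝ)) + ((g * x.den * w : ℕ) : ℝ) * Real.pi := by
    push_cast
    rw [← h2]
    field_simp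
  rw [e, lc_add_nat_mul_pi]

/-- Nonvanishing at regular `k`. -/
lemma sin_cos_ne {x : ℚ} (hx : 2 ≤ x) {k : ℕ} (hk : ¬ nm x ∣ k) :
    Real.cos ((k : ℝ) * Real.pi / (2 * (x : ℝ))) ≠ 0 ∧
      Real.sin ((k : ℝ) * Real.pi / (2 * (x : ℝ))) ≠ 0 := by
  obtain ⟨h1, h2, _, _⟩ := den_facts hx (rfl : nm x = nm x)
  have hd : (x.den : ℝ) ≠ 0 := by exact_mod_cast x.den_pos.ne'
  have hx0 : (x : ℝ) ≠ 0 := by
    have : (2 : ℝ) ≤ (x : ℝ) := by exact_mod_cast hx
    linarith
  have hb0 : (nm x : ℝ) ≠ 0 := by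
    have := nm_ge_two hx
    exact_mod_cast (by omega : nm x ≠ 0)
  have hsin : Real.sin (2 * ((k : ℝ) * Real.pi / (2 * (x : ℝ)))) ≠ 0 := by
    intro h0
    rw [Real.sin_eq_zero_iff] at h0
    obtain ⟨n, hn⟩ := h0
    have hpi := Real.pi_ne_zero
    have h3 : (x : ℝ) = (nm x : ℝ) / (x.den : ℝ) := by
      have := congrArg (Rat.cast : ℚ → ℝ) h1
      push_cast at this
      exact this
    have h4 : (n : ℝ) * (nm x : ℝ) = (k : ℝ) * (x.den : ℝ) := by
      rw [h3] at hn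
      field_simp at hn
      linarith
    have h5 : n * (nm x : ℤ) = (k : ℤ) * (x.den : ℤ) := by exact_mod_cast h4
    have h6 : (nm x : ℤ) ∣ (k : ℤ) * (x.den : ℤ) := ⟨n, by rw [← h5]; ring⟩
    have h7 : nm x ∣ k * x.den := by exact_mod_cast h6
    have h8 : Nat.Coprime (nm x) x.den := h2.symm
    exact hk (h8.dvd_of_dvd_mul_right h7)
  rw [Real.sin_two_mul] at hsin
  constructor
  · intro h0
    apply hsin
    rw [h0]
    ring
  · intro h0
    apply hsin
    rw [h0]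
    ring

/-- The `k`-th cotangent product. -/
noncomputable def cotK (q : Fin N → ℚ) (k : ℕ) : ℝ :=
  ∏ i, (Real.cos ((k : ℝ) * Real.pi / (2 * (q i : ℝ))) / Real.sin ((k : ℝ) * Real.pi / (2 * (q i : ℝ))))

lemma log_cotK (q : Fin N → ℚ) (hq : ∀ i, 2 ≤ q i) {k : ℕ} (hk : ∀ i, ¬ nm (q i) ∣ k) :
    Real.log |cotK q k| = ∑ i, lc ((k : ℝ) * Real.pi / (2 * (q i : ℝ))) := by
  unfold cotK lc
  rw [Finset.abs_prod, Real.log_prod]
  intro i _
  obtain ⟨h1, h2⟩ := sin_cos_ne (hq i) (hk i)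
  exact abs_ne_zero.mpr (div_ne_zero h1 h2)

/-- The character sum against `Gam`, twisted by a unit. -/
lemma sum_char_gam_mul {f : ℕ} [NeZero f] (χ : DirichletCharacter ℂ f) {u : ZMod f} (hu : IsUnit u) :
    ∑ t : ZMod f, χ t * (Gam f (t * u) : ℂ) = (χ u)⁻¹ * ∑ t : ZMod f, χ t * (Gam f t : ℂ) := by
  obtain ⟨w, rfl⟩ := hu
  have hne : χ (w : ZMod f) ≠ 0 := by
    have := (DirichletCharacter.unit_norm_eq_one χ w)
    intro h0
    rw [h0] at this
    simp at this
  rw [Finset.mul_sum]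
  apply Fintype.sum_equiv (Units.mulRight w)
  intro t
  simp only [Units.mulRight_apply]
  rw [map_mul]
  field_simp

/-- The relation on a primitive even character for a separated odd class. -/
theorem prim_relation (q q' : Fin N → ℚ) (hq : ∀ i, 2 ≤ q i) (hq' : ∀ i, 2 ≤ q' i)
    {b f g : ℕ} (hb : Odd b) (hbfg : b = f * g) (hf1 : 1 < f)
    (hcop : ∀ i, nm (q i) ≠ b → Nat.Coprime (nm (q i)) b)
    (hcop' : ∀ j, nm (q' j) ≠ b → Nat.Coprime (nm (q' j)) b)
    (hk : ∀ k : ℕ, Odd k → (∀ i, ¬ nm (q i) ∣ k) → (∀ j, ¬ nm (q' j) ∣ k) →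
      ∑ i, lc ((k : ℝ) * Real.pi / (2 * (q i : ℝ))) = ∑ j, lc ((k : ℝ) * Real.pi / (2 * (q' j : ℝ))))
    [NeZero f] (χ : DirichletCharacter ℂ f) (hp : χ.IsPrimitive) (h1 : χ ≠ 1) (he : χ.Even) :
    ∑ i ∈ univ.filter (fun i => nm (q i) = b), sg (q i).den * (χ ((q i).den : ZMod f))⁻¹ =
      ∑ j ∈ univ.filter (fun j => nm (q' j) = b), sg (q' j).den * (χ ((q' j).den : ZMod f))⁻¹ := by
  have hb0 : b ≠ 0 := by
    intro h0
    rw [h0] at hb
    exact absurd hb (by decide)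
  have hg0 : g ≠ 0 := by
    intro h0
    rw [h0, mul_zero] at hbfg
    exact hb0 hbfg
  have hf0 : f ≠ 0 := by omega
  have hfodd : Odd f := by
    rw [hbfg] at hb
    exact (Nat.odd_mul.mp hb).1
  have hgodd : Odd g := by
    rw [hbfg] at hb
    exact (Nat.odd_mul.mp hb).2
  -- the set of other numerators
  set O : Finset ℕ := ((univ.image fun i => nm (q i)) ∪ (univ.image fun j => nm (q' j))).erase b
    with hO
  set P : ℕ := 2 * ∏ c ∈ O, (2 * c) with hP
  have hOcop : ∀ c ∈ O, Nat.Coprime c b := by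
    intro c hc
    rw [hO, mem_erase, mem_union, mem_image, mem_image] at hc
    obtain ⟨hne, ⟨i, _, rfl⟩ | ⟨j, _, rfl⟩⟩ := hc
    · exact hcop i hne
    · exact hcop' j hne
  have hfb : f ∣ b := ⟨g, hbfg⟩
  have hfP : Nat.Coprime f P := by
    have h2 : Nat.Coprime f 2 := (Nat.coprime_two_right).mpr hfodd
    rw [hP]
    apply Nat.Coprime.mul_right h2
    apply Nat.Coprime.prod_right
    intro c hc
    apply Nat.Coprime.mul_right h2
    exact Nat.Coprime.coprime_dvd_left hfb (hOcop c hc).symm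
  have hdvdP : ∀ c ∈ O, 2 * c ∣ P := by
    intro c hc
    rw [hP]
    exact Dvd.dvd.mul_left (Finset.dvd_prod_of_mem _ hc) 2
  have h2P : 2 ∣ P := ⟨_, rfl⟩
  -- the value `v t`
  have hv : ∀ t : ZMod f, ∃ v : ℕ, (v : ZMod f) = t ∧ Odd v ∧ ∀ c ∈ O, ∃ w, v = 1 + 2 * c * w := by
    intro t
    obtain ⟨v, hv1, hv2⟩ := Nat.chineseRemainder hfP t.val 1
    have h3 : (v : ZMod f) = t := by
      have := (ZMod.natCast_eq_natCast_iff v t.val f).mpr hv1
      rw [this, ZMod.natCast_zmod_val]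
    have h4 : Odd v := by
      have h5 : v ≡ 1 [MOD 2] := hv2.of_dvd h2P
      rw [Nat.odd_iff]
      exact h5
    refine ⟨v, h3, h4, ?_⟩
    intro c hc
    have h5 : v ≡ 1 [MOD 2 * c] := hv2.of_dvd (hdvdP c hc)
    have h6 : 2 * c ∣ v - 1 := (Nat.modEq_iff_dvd' h4.pos).mp h5.symm
    obtain ⟨w, hw⟩ := h6
    refine ⟨w, ?_⟩
    have := h4.pos
    omega
  choose v hv1 hv2 hv3 using hv
  -- the relation
  have hmemO : ∀ c ∈ ((univ.image fun i => nm (q i)) ∪ (univ.image fun j => nm (q' j)) : Finset ℕ),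
      c ≠ b → c ∈ O := by
    intro c hc hne
    exact mem_erase.mpr ⟨hne, hc⟩
  have hmem1 : ∀ i, nm (q i) ≠ b → nm (q i) ∈ O := fun i hne =>
    hmemO _ (mem_union_left _ (mem_image_of_mem _ (mem_univ i))) hne
  have hmem2 : ∀ j, nm (q' j) ≠ b → nm (q' j) ∈ O := fun j hne =>
    hmemO _ (mem_union_right _ (mem_image_of_mem _ (mem_univ j))) hne
  -- regularity
  have hreg : ∀ (r : Fin N → ℚ), (∀ i, 2 ≤ r i) → (∀ i, nm (r i) ≠ b → nm (r i) ∈ O) →
      ∀ t : ZMod f, IsUnit t → ∀ i, ¬ nm (r i) ∣ g * v t := by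
    intro r hr hmem t ht i hd
    by_cases hi : nm (r i) = b
    · rw [hi, hbfg] at hd
      have h3 : f ∣ v t := by
        have := Nat.dvd_of_mul_dvd_mul_right (Nat.pos_of_ne_zero hg0)
          (by rw [mul_comm (v t) g]; exact hd : f * g ∣ v t * g)
        exact this
      have h4 : (v t : ZMod f) = 0 := (ZMod.natCast_eq_zero_iff _ _).mpr h3
      rw [hv1] at h4
      have : Fact (1 < f) := ⟨hf1⟩
      rw [h4] at ht
      exact not_isUnit_zero ht
    · have hc := hmem i hi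
      obtain ⟨w, hw⟩ := hv3 t _ hc
      have h5 : Nat.Coprime (nm (r i)) (v t) := by
        rw [hw]
        have : 1 + 2 * nm (r i) * w = 1 + nm (r i) * (2 * w) := by ring
        rw [this]
        simp
      have h6 : nm (r i) ∣ g := h5.dvd_of_dvd_mul_right hd
      have h7 : nm (r i) ∣ b := by rw [hbfg]; exact Dvd.dvd.mul_left h6 f
      have h8 := Nat.Coprime.eq_one_of_dvd (hOcop _ hc) h7
      have := nm_ge_two (hr i)
      omega
  -- the sum of one side at unit `t`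
  have hside : ∀ (r : Fin N → ℚ), (∀ i, 2 ≤ r i) → (∀ i, nm (r i) ≠ b → nm (r i) ∈ O) →
      ∀ t : ZMod f, ∑ i, lc (((g * v t : ℕ) : ℝ) * Real.pi / (2 * (r i : ℝ))) =
        ∑ i ∈ univ.filter (fun i => nm (r i) ≠ b), lc ((g : ℝ) * Real.pi / (2 * (r i : ℝ))) +
        ∑ i ∈ univ.filter (fun i => nm (r i) = b),
          (-1) ^ (r i).den * Gam f (t * (((r i).den : ZMod f) * inv2 f)) := by
    intro r hr hmem t
    rw [← Finset.sum_filter_add_sum_filter_not univ (fun i => nm (r i) = b), add_comm]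
    congr 1
    · apply Finset.sum_congr rfl
      intro i hi
      simp only [mem_filter, mem_univ, true_and] at hi
      obtain ⟨w, hw⟩ := hv3 t _ (hmem i hi)
      rw [hw]
      exact lc_other (hr i) rfl
    · apply Finset.sum_congr rfl
      intro i hi
      simp only [mem_filter, mem_univ, true_and] at hi
      rw [angle_class (hr i) (hi.trans hbfg) hf0 hg0, lc_half hfodd]
      have hpar : (-1 : ℝ) ^ (v t * (r i).den) = (-1) ^ (r i).den := by
        rw [pow_mul, (hv2 t).neg_one_pow]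
      rw [hpar]
      push_cast
      rw [hv1, mul_assoc]
  have hrel : ∀ t : ZMod f, IsUnit t →
      ∑ i ∈ univ.filter (fun i => nm (q i) ≠ b), lc ((g : ℝ) * Real.pi / (2 * (q i : ℝ))) +
        ∑ i ∈ univ.filter (fun i => nm (q i) = b),
          (-1) ^ (q i).den * Gam f (t * (((q i).den : ZMod f) * inv2 f)) =
      ∑ i ∈ univ.filter (fun i => nm (q' i) ≠ b), lc ((g : ℝ) * Real.pi / (2 * (q' i : ℝ))) +
        ∑ i ∈ univ.filter (fun i => nm (q' i) = b),
          (-1) ^ (q' i).den * Gam f (t * (((q' i).den : ZMod f) * inv2 f)) := by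
    intro t ht
    rw [← hside q hq hmem1 t, ← hside q' hq' hmem2 t]
    apply hk
    · exact hgodd.mul (hv2 t)
    · exact hreg q hq hmem1 t ht
    · exact hreg q' hq' hmem2 t ht
  -- summing over characters
  set T : ℂ := ∑ t : ZMod f, χ t * (Gam f t : ℂ) with hT
  have hTne : T ≠ 0 := sum_gam_ne_zero hf1 hfodd hp h1 he
  have hunit2 : IsUnit (inv2 f) := IsUnit.of_mul_eq_one _ (by rw [mul_comm]; exact two_mul_inv2 hfodd)
  have hunit : ∀ (r : Fin N → ℚ), (∀ i, 2 ≤ r i) → ∀ i, nm (r i) = b →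
      IsUnit (((r i).den : ZMod f) * inv2 f) := by
    intro r hr i hi
    apply IsUnit.mul _ hunit2
    rw [ZMod.isUnit_iff_coprime]
    have := (den_facts (hr i) hi).2.1
    exact Nat.Coprime.coprime_dvd_right hfb this
  have hsum : ∀ (r : Fin N → ℚ), (∀ i, 2 ≤ r i) → ∀ C : ℝ,
      ∑ t : ZMod f, χ t * (((C + ∑ i ∈ univ.filter (fun i => nm (r i) = b),
          (-1) ^ (r i).den * Gam f (t * (((r i).den : ZMod f) * inv2 f)) : ℝ)) : ℂ) =
        (χ (inv2 f))⁻¹ * T * ∑ i ∈ univ.filter (fun i => nm (r i) = b),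
          sg (r i).den * (χ ((r i).den : ZMod f))⁻¹ := by
    intro r hr C
    push_cast
    simp only [mul_add, Finset.sum_add_distrib, Finset.mul_sum]
    rw [← Finset.sum_mul, MulChar.sum_eq_zero_of_ne_one h1, zero_mul, zero_add]
    rw [Finset.sum_comm]
    apply Finset.sum_congr rfl
    intro i hi
    simp only [mem_filter, mem_univ, true_and] at hi
    have h2 := sum_char_gam_mul χ (hunit r hr i hi)
    rw [← hT] at h2
    have h3 : ∑ t : ZMod f, χ t * ((-1) ^ (r i).den *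
        (Gam f (t * (((r i).den : ZMod f) * inv2 f)) : ℂ)) =
        sg (r i).den * ∑ t : ZMod f, χ t * (Gam f (t * (((r i).den : ZMod f) * inv2 f)) : ℂ) := by
      rw [Finset.mul_sum]
      apply Finset.sum_congr rfl
      intro t _
      unfold sg
      ring
    rw [h3, h2, map_mul, mul_inv]
    ring
  have hall : ∑ t : ZMod f, χ t * (((∑ i ∈ univ.filter (fun i => nm (q i) ≠ b),
        lc ((g : ℝ) * Real.pi / (2 * (q i : ℝ))) + ∑ i ∈ univ.filter (fun i => nm (q i) = b),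
          (-1) ^ (q i).den * Gam f (t * (((q i).den : ZMod f) * inv2 f)) : ℝ)) : ℂ) =
      ∑ t : ZMod f, χ t * (((∑ i ∈ univ.filter (fun i => nm (q' i) ≠ b),
        lc ((g : ℝ) * Real.pi / (2 * (q' i : ℝ))) + ∑ i ∈ univ.filter (fun i => nm (q' i) = b),
          (-1) ^ (q' i).den * Gam f (t * (((q' i).den : ZMod f) * inv2 f)) : ℝ)) : ℂ) := by
    apply Finset.sum_congr rfl
    intro t _
    by_cases ht : IsUnit t
    · rw [hrel t ht]
    · rw [MulChar.map_nonunit χ ht, zero_mul, zero_mul]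
  rw [hsum q hq, hsum q' hq'] at hall
  have hχ2 : χ (inv2 f) ≠ 0 := by
    obtain ⟨w, hw⟩ := hunit2
    have := DirichletCharacter.unit_norm_eq_one χ w
    rw [hw] at this
    intro h0
    rw [h0] at this
    simp at this
  exact mul_left_cancel₀ (mul_ne_zero (inv_ne_zero hχ2) hTne) hall

/-- The hypothesis of `class_eq_of_char` for a separated odd class. -/
theorem char_of_separated (q q' : Fin N → ℚ) (hq : ∀ i, 2 ≤ q i) (hq' : ∀ i, 2 ≤ q' i)
    {b : ℕ} (hb : Odd b)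
    (hcop : ∀ i, nm (q i) ≠ b → Nat.Coprime (nm (q i)) b)
    (hcop' : ∀ j, nm (q' j) ≠ b → Nat.Coprime (nm (q' j)) b)
    (hk : ∀ k : ℕ, Odd k → (∀ i, ¬ nm (q i) ∣ k) → (∀ j, ¬ nm (q' j) ∣ k) →
      ∑ i, lc ((k : ℝ) * Real.pi / (2 * (q i : ℝ))) = ∑ j, lc ((k : ℝ) * Real.pi / (2 * (q' j : ℝ))))
    (ψ : DirichletCharacter ℂ b) (hψ : ψ ≠ 1) (he : ψ.Even) :
    ∑ i ∈ univ.filter (fun i => nm (q i) = b), sg (q i).den * ψ ((q i).den : ZMod b) =
      ∑ j ∈ univ.filter (fun j => nm (q' j) = b), sg (q' j).den * ψ ((q' j).den : ZMod b) := by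
  have hb0 : b ≠ 0 := by
    intro h0
    rw [h0] at hb
    exact absurd hb (by decide)
  have : NeZero b := ⟨hb0⟩
  set φ : DirichletCharacter ℂ b := ψ⁻¹ with hφ
  have hφ1 : φ ≠ 1 := by
    intro h
    exact hψ (inv_eq_one.mp h)
  have : NeZero φ.conductor := ⟨φ.conductor_ne_zero⟩
  have hf1 : 1 < φ.conductor := by
    have h0 := φ.conductor_ne_zero
    have h1 : φ.conductor ≠ 1 := fun h => hφ1 (φ.eq_one_iff_conductor_eq_one.mpr h)
    omega
  obtain ⟨g, hg⟩ := φ.conductor_dvd_level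
  set χ : DirichletCharacter ℂ φ.conductor := φ.primitiveCharacter with hχ
  have hp : χ.IsPrimitive := φ.primitiveCharacter_isPrimitive
  have hχ1 : χ ≠ 1 := by
    intro h
    have h2 : χ.conductor = φ.conductor := hp
    rw [h, DirichletCharacter.conductor_one] at h2
    omega
  have hval : ∀ a : ℕ, Nat.Coprime a b → (χ (a : ZMod φ.conductor))⁻¹ = ψ (a : ZMod b) := by
    intro a ha
    have h2 : IsCoprime (a : ℤ) (b : ℤ) := Nat.isCoprime_iff_coprime.mpr ha
    have h3 := φ.primitiveCharacter_apply_of_isCoprime h2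
    rw [Int.cast_natCast, Int.cast_natCast] at h3
    rw [← hχ] at h3
    rw [h3, hφ, MulChar.inv_apply_eq_inv', inv_inv]
  have hχe : χ.Even := by
    have h2 : IsCoprime (-1 : ℤ) (b : ℤ) := by
      exact isCoprime_one_left.neg_left
    have h3 := φ.primitiveCharacter_apply_of_isCoprime h2
    rw [← hχ] at h3
    push_cast at h3
    show χ (-1) = 1
    rw [h3, hφ, MulChar.inv_apply_eq_inv', he]
    simp
  have h := prim_relation q q' hq hq' hb hg hf1 hcop hcop' hk χ hp hχ1 hχe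
  have e : ∀ (r : Fin N → ℚ), (∀ i, 2 ≤ r i) →
      ∑ i ∈ univ.filter (fun i => nm (r i) = b), sg (r i).den * (χ ((r i).den : ZMod φ.conductor))⁻¹ =
      ∑ i ∈ univ.filter (fun i => nm (r i) = b), sg (r i).den * ψ ((r i).den : ZMod b) := by
    intro r hr
    apply Finset.sum_congr rfl
    intro i hi
    simp only [mem_filter, mem_univ, true_and] at hi
    rw [hval _ (den_facts (hr i) hi).2.1]
  rw [e q hq, e q' hq'] at h
  exact h

end Vale.Agent.Lib.P268
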