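import Mathlib
import Vale.Agent.Lib.P268.Separate

/-!
The distribution relation for `log |cot|`.
-/

open Finset

namespace Vale.Agent.Lib.P268

lemma prod_range_one_sub {p : ℕ} (hp : 0 < p) (y : ℂ) :
    ∏ j ∈ range p, (1 - Complex.exp (2 * Real.pi * Complex.I / p) ^ j * y) = 1 - y ^ p := by
  have hp0 : p ≠ 0 := hp.ne'
  have h := Complex.isPrimitiveRoot_exp p hp0
  set ζ := Complex.exp (2 * Real.pi * Complex.I / p) with hζ
  have h1 := h.pow_sub_pow_eq_prod_sub_mul 1 y hp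
  rw [one_pow] at h1
  rw [h1]
  have hsub : (range p).image (fun j => ζ ^ j) ⊆ Polynomial.nthRootsFinset p (1 : ℂ) := by
    intro x hx
    rw [mem_image] at hx
    obtain ⟨j, _, rfl⟩ := hx
    rw [Polynomial.mem_nthRootsFinset hp]
    rw [← pow_mul, mul_comm, pow_mul, h.pow_eq_one, one_pow]
  have hinj : Set.InjOn (fun j => ζ ^ j) (range p : Set ℕ) := by
    intro a ha b hb hab
    exact h.pow_inj (by simpa using ha) (by simpa using hb) hab
  have hcard : (Polynomial.nthRootsFinset p (1 : ℂ)).card ≤ ((range p).image (fun j => ζ ^ j)).card := by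
    rw [h.card_nthRootsFinset, Finset.card_image_of_injOn hinj, card_range]
  have heq := Finset.eq_of_subset_of_card_le hsub hcard
  rw [← heq, Finset.prod_image hinj]

lemma prod_two_abs_sin {p : ℕ} (hp : 0 < p) (θ : ℝ) :
    ∏ j ∈ range p, (2 * |Real.sin (θ + (j : ℝ) * Real.pi / (p : ℝ))|) =
      2 * |Real.sin ((p : ℝ) * θ)| := by
  have hp0 : (p : ℂ) ≠ 0 := by exact_mod_cast hp.ne'
  have hpr : (p : ℝ) ≠ 0 := by exact_mod_cast hp.ne'
  have h := prod_range_one_sub hp (Complex.exp (Complex.I * ((2 * θ : ℝ) : ℂ)))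
  have hn : ∀ x : ℝ, ‖(1 : ℂ) - Complex.exp (Complex.I * (x : ℂ))‖ = 2 * |Real.sin (x / 2)| := by
    intro x
    rw [norm_sub_rev, Complex.norm_exp_I_mul_ofReal_sub_one, norm_mul, Real.norm_eq_abs,
      Real.norm_eq_abs]
    simp
  have h2 := congrArg norm h
  rw [norm_prod] at h2
  have e1 : ∀ j ∈ range p, ‖(1 : ℂ) - Complex.exp (2 * Real.pi * Complex.I / p) ^ j *
      Complex.exp (Complex.I * ((2 * θ : ℝ) : ℂ))‖ =
      2 * |Real.sin (θ + (j : ℝ) * Real.pi / (p : ℝ))| := by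
    intro j _
    have e2 : Complex.exp (2 * Real.pi * Complex.I / p) ^ j *
        Complex.exp (Complex.I * ((2 * θ : ℝ) : ℂ)) =
        Complex.exp (Complex.I * ((2 * (θ + (j : ℝ) * Real.pi / (p : ℝ)) : ℝ) : ℂ)) := by
      rw [← Complex.exp_nat_mul, ← Complex.exp_add]
      congr 1
      push_cast
      field_simp
      ring
    rw [e2, hn]
    congr 3
    ring
  rw [Finset.prod_congr rfl e1] at h2
  rw [h2]
  have e3 : (Complex.exp (Complex.I * ((2 * θ : ℝ) : ℂ))) ^ p =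
      Complex.exp (Complex.I * (((p : ℝ) * (2 * θ) : ℝ) : ℂ)) := by
    rw [← Complex.exp_nat_mul]
    congr 1
    push_cast
    ring
  rw [e3, hn]
  congr 3
  ring

/-- The distribution relation. -/
lemma lc_distrib {p : ℕ} (hp : Odd p) (θ : ℝ) (hs : Real.sin ((p : ℝ) * θ) ≠ 0)
    (hc : Real.cos ((p : ℝ) * θ) ≠ 0) :
    ∑ j ∈ range p, lc (θ + (j : ℝ) * Real.pi / (p : ℝ)) = lc ((p : ℝ) * θ) := by
  have hp0 : 0 < p := hp.pos
  have h1 := prod_two_abs_sin hp0 θ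
  have h2 := prod_two_abs_sin hp0 (θ + Real.pi / 2)
  have e : |Real.sin ((p : ℝ) * (θ + Real.pi / 2))| = |Real.cos ((p : ℝ) * θ)| := by
    obtain ⟨m, hm⟩ := hp
    have e1 : (p : ℝ) * (θ + Real.pi / 2) = ((p : ℝ) * θ + (m : ℝ) * Real.pi) + Real.pi / 2 := by
      rw [hm]
      push_cast
      ring
    rw [e1, Real.sin_add_pi_div_two, Real.cos_add_nat_mul_pi, abs_mul, abs_pow, abs_neg, abs_one,
      one_pow, one_mul]
  rw [e] at h2
  have e2 : ∀ j ∈ range p, 2 * |Real.sin (θ + Real.pi / 2 + (j : ℝ) * Real.pi / (p : ℝ))| =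
      2 * |Real.cos (θ + (j : ℝ) * Real.pi / (p : ℝ))| := by
    intro j _
    have : θ + Real.pi / 2 + (j : ℝ) * Real.pi / (p : ℝ) =
        (θ + (j : ℝ) * Real.pi / (p : ℝ)) + Real.pi / 2 := by ring
    rw [this, Real.sin_add_pi_div_two]
  rw [Finset.prod_congr rfl e2] at h2
  have hsne : ∀ j ∈ range p, 2 * |Real.sin (θ + (j : ℝ) * Real.pi / (p : ℝ))| ≠ 0 := by
    intro j hj h0
    have : ∏ j ∈ range p, (2 * |Real.sin (θ + (j : ℝ) * Real.pi / (p : ℝ))|) = 0 :=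
      Finset.prod_eq_zero hj h0
    rw [h1] at this
    have h3 : |Real.sin ((p : ℝ) * θ)| ≠ 0 := abs_ne_zero.mpr hs
    apply mul_ne_zero (by norm_num : (2 : ℝ) ≠ 0) h3 this
  have hcne : ∀ j ∈ range p, 2 * |Real.cos (θ + (j : ℝ) * Real.pi / (p : ℝ))| ≠ 0 := by
    intro j hj h0
    have : ∏ j ∈ range p, (2 * |Real.cos (θ + (j : ℝ) * Real.pi / (p : ℝ))|) = 0 :=
      Finset.prod_eq_zero hj h0
    rw [h2] at this
    have h3 : |Real.cos ((p : ℝ) * θ)| ≠ 0 := abs_ne_zero.mpr hc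
    apply mul_ne_zero (by norm_num : (2 : ℝ) ≠ 0) h3 this
  have e3 : ∀ j ∈ range p, lc (θ + (j : ℝ) * Real.pi / (p : ℝ)) =
      Real.log (2 * |Real.cos (θ + (j : ℝ) * Real.pi / (p : ℝ))|) -
        Real.log (2 * |Real.sin (θ + (j : ℝ) * Real.pi / (p : ℝ))|) := by
    intro j hj
    have h3 := hcne j hj
    have h4 := hsne j hj
    have h5 : |Real.cos (θ + (j : ℝ) * Real.pi / (p : ℝ))| ≠ 0 := right_ne_zero_of_mul h3
    have h6 : |Real.sin (θ + (j : ℝ) * Real.pi / (p : ℝ))| ≠ 0 := right_ne_zero_of_mul h4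
    unfold lc
    rw [abs_div, Real.log_div h5 h6, Real.log_mul (by norm_num) h5, Real.log_mul (by norm_num) h6]
    ring
  rw [Finset.sum_congr rfl e3, Finset.sum_sub_distrib, ← Real.log_prod hcne, ← Real.log_prod hsne,
    h1, h2]
  have h5 : |Real.cos ((p : ℝ) * θ)| ≠ 0 := abs_ne_zero.mpr hc
  have h6 : |Real.sin ((p : ℝ) * θ)| ≠ 0 := abs_ne_zero.mpr hs
  unfold lc
  rw [abs_div, Real.log_div h5 h6, Real.log_mul (by norm_num) h5, Real.log_mul (by norm_num) h6]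
  ring

lemma lc_add_int_mul_pi (x : ℝ) (n : ℤ) : lc (x + n * Real.pi) = lc x := by
  unfold lc
  rw [Real.cos_add_int_mul_pi, Real.sin_add_int_mul_pi, abs_div, abs_div, abs_mul, abs_mul]
  have : |((-1 : ℝ) ^ n)| = 1 := by
    rw [abs_zpow, abs_neg, abs_one, one_zpow]
  rw [this, one_mul, one_mul]

lemma lc_add_pi_div_two_int (x : ℝ) (n : ℤ) :
    lc (x + Real.pi / 2 + n * Real.pi) = - lc x := by
  rw [lc_add_int_mul_pi, lc_add_pi_div_two]

/-- Two arguments congruent modulo `n`, with `n y` an integer, give the same value. -/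
lemma lc_congr {a b n : ℕ} {y : ℝ} {w : ℤ} (h : a ≡ b [MOD n]) (hy : (n : ℝ) * y = w) :
    lc (Real.pi * (a : ℝ) * y) = lc (Real.pi * (b : ℝ) * y) := by
  have h1 : (n : ℤ) ∣ (a : ℤ) - (b : ℤ) := (Nat.modEq_iff_dvd.mp h.symm)
  obtain ⟨t, ht⟩ := h1
  have h2 : (a : ℝ) = (b : ℝ) + (n : ℝ) * (t : ℝ) := by
    have : (a : ℤ) = (b : ℤ) + (n : ℤ) * t := by linarith
    exact_mod_cast this
  have e : Real.pi * (a : ℝ) * y = Real.pi * (b : ℝ) * y + ((t * w : ℤ) : ℝ) * Real.pi := by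
    rw [h2]
    push_cast
    rw [← hy]
    ring
  rw [e, lc_add_int_mul_pi]

end Vale.Agent.Lib.P268
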