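import Mathlib
import Vale.Agent.Lib.P268.Distrib

/-!
Character sums of `log |cot|` over the units modulo `M`.
-/

open Finset

namespace Vale.Agent.Lib.P268

section
set_option linter.unusedSectionVars false
variable {M f : ℕ} [NeZero M] [NeZero f] (hfM : f ∣ M) (χ : DirichletCharacter ℂ f)

/-- The value of `χ` on a unit modulo `M`. -/
noncomputable def kap (v : (ZMod M)ˣ) : ℂ := χ ((ZMod.unitsMap hfM v : (ZMod f)ˣ) : ZMod f)

lemma kap_mul (u v : (ZMod M)ˣ) : kap hfM χ (u * v) = kap hfM χ u * kap hfM χ v := by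
  unfold kap
  rw [map_mul, Units.val_mul, map_mul]

lemma kap_ne_zero (u : (ZMod M)ˣ) : kap hfM χ u ≠ 0 := by
  unfold kap
  have := DirichletCharacter.unit_norm_eq_one χ (ZMod.unitsMap hfM u)
  intro h
  rw [h] at this
  simp at this

lemma kap_eq_of_modEq {u : (ZMod M)ˣ} {U : ℕ} (h : (u : ZMod M).val ≡ U [MOD f]) :
    kap hfM χ u = χ (U : ZMod f) := by
  unfold kap
  rw [ZMod.unitsMap_val, ← ZMod.natCast_val, (ZMod.natCast_eq_natCast_iff _ _ _).mpr h]

/-- The twisted sum. -/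
noncomputable def Wy (y : ℝ) : ℂ :=
  ∑ v : (ZMod M)ˣ, kap hfM χ v * (lc (Real.pi * (((v : ZMod M).val : ℕ) : ℝ) * y) : ℂ)

include hfM in
lemma exists_unit_lift {n U : ℕ} (hn : n ∣ M) (hU : Nat.Coprime U n) :
    ∃ u : (ZMod M)ˣ, (u : ZMod M).val ≡ U [MOD n] := by
  have hn0 : NeZero n := ⟨fun h => NeZero.ne M (Nat.eq_zero_of_zero_dvd (h ▸ hn))⟩
  obtain ⟨u, hu⟩ := ZMod.unitsMap_surjective hn (ZMod.unitOfCoprime U hU)
  refine ⟨u, ?_⟩
  rw [← ZMod.natCast_eq_natCast_iff, ZMod.natCast_val, ← ZMod.unitsMap_val hn, hu,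
    ZMod.coe_unitOfCoprime]

lemma Wy_twist (u : (ZMod M)ˣ) {y : ℝ} {w : ℤ} (hy : (M : ℝ) * y = w) :
    Wy hfM χ ((((u : ZMod M).val : ℕ) : ℝ) * y) = (kap hfM χ u)⁻¹ * Wy hfM χ y := by
  unfold Wy
  rw [Finset.mul_sum]
  apply Fintype.sum_equiv (Equiv.mulRight u)
  intro v
  simp only [Equiv.coe_mulRight]
  have h1 : ((v : ZMod M).val * (u : ZMod M).val) ≡ (((v * u : (ZMod M)ˣ) : ZMod M)).val [MOD M] := by
    rw [Units.val_mul, ZMod.val_mul]
    exact (Nat.mod_modEq _ _).symm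
  have h2 := lc_congr h1 hy
  have e : Real.pi * (((v : ZMod M).val : ℕ) : ℝ) * ((((u : ZMod M).val : ℕ) : ℝ) * y) =
      Real.pi * (((v : ZMod M).val * (u : ZMod M).val : ℕ) : ℝ) * y := by
    push_cast
    ring
  rw [e, h2, kap_mul]
  have := kap_ne_zero hfM χ u
  field_simp

lemma Wy_twist_nat {n U : ℕ} (hn : n ∣ M) {u : (ZMod M)ˣ} (hu : (u : ZMod M).val ≡ U [MOD n])
    {y : ℝ} {w : ℤ} (hy : (n : ℝ) * y = w) :
    Wy hfM χ ((U : ℝ) * y) = (kap hfM χ u)⁻¹ * Wy hfM χ y := by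
  obtain ⟨n', hn'⟩ := hn
  have hyM : (M : ℝ) * y = ((n' * w : ℤ) : ℝ) := by
    rw [hn']
    push_cast
    rw [← hy]
    ring
  rw [← Wy_twist hfM χ u hyM]
  unfold Wy
  apply Finset.sum_congr rfl
  intro v _
  have h1 : ((v : ZMod M).val * U) ≡ ((v : ZMod M).val * (u : ZMod M).val) [MOD n] :=
    Nat.ModEq.mul_left _ hu.symm
  have h2 := lc_congr h1 hy
  have e1 : Real.pi * (((v : ZMod M).val : ℕ) : ℝ) * ((U : ℝ) * y) =
      Real.pi * (((v : ZMod M).val * U : ℕ) : ℝ) * y := by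
    push_cast
    ring
  have e2 : Real.pi * (((v : ZMod M).val : ℕ) : ℝ) * ((((u : ZMod M).val : ℕ) : ℝ) * y) =
      Real.pi * (((v : ZMod M).val * (u : ZMod M).val : ℕ) : ℝ) * y := by
    push_cast
    ring
  rw [e1, e2, h2]

/-- Vanishing below the conductor. -/
theorem Wy_eq_zero_of_not_dvd (hp : χ.IsPrimitive) {n : ℕ} (hn : n ∣ M) (hfn : ¬ f ∣ n)
    {y : ℝ} {w : ℤ} (hy : (n : ℝ) * y = w) : Wy hfM χ y = 0 := by
  have hn0 : n ≠ 0 := fun h => NeZero.ne M (Nat.eq_zero_of_zero_dvd (h ▸ hn))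
  set d := Nat.gcd f n with hd
  have hdf : d ∣ f := Nat.gcd_dvd_left f n
  have hd0 : NeZero d := ⟨fun h => NeZero.ne f (Nat.eq_zero_of_zero_dvd (h ▸ hdf))⟩
  have hdne : d ≠ f := by
    intro h
    apply hfn
    rw [← h]
    exact Nat.gcd_dvd_right f n
  obtain ⟨t, ht1, ht2⟩ : ∃ t : (ZMod f)ˣ, ZMod.unitsMap hdf t = 1 ∧ χ (t : ZMod f) ≠ 1 := by
    by_contra hall
    push Not at hall
    have hker : (ZMod.unitsMap hdf).ker ≤ χ.toUnitHom.ker := by
      intro t ht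
      rw [MonoidHom.mem_ker] at ht ⊢
      apply Units.ext
      rw [MulChar.coe_toUnitHom, hall t ht]
      rfl
    have hft : χ.FactorsThrough d := (DirichletCharacter.factorsThrough_iff_ker_unitsMap hdf).mpr hker
    have hle : χ.conductor ≤ d := Nat.sInf_le hft
    rw [hp] at hle
    have := Nat.le_of_dvd (Nat.pos_of_ne_zero (NeZero.ne f)) hdf
    omega
  have hmod : (t : ZMod f).val ≡ 1 [MOD Nat.gcd f n] := by
    rw [← ZMod.natCast_eq_natCast_iff, ZMod.natCast_val, ← ZMod.unitsMap_val hdf, ht1]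
    simp
  obtain ⟨U, hU1, hU2⟩ := Nat.chineseRemainder' hmod
  have hcop1 : Nat.Coprime U f := by
    have h1 : Nat.Coprime (t : ZMod f).val f := ZMod.val_coe_unit_coprime t
    rw [Nat.Coprime, hU1.gcd_eq]
    exact h1
  have hcop2 : Nat.Coprime U n := by
    rw [Nat.Coprime, hU2.gcd_eq]
    simp
  have hcop3 : Nat.Coprime U (Nat.lcm f n) :=
    Nat.Coprime.coprime_dvd_right (Nat.lcm_dvd_mul f n) (Nat.Coprime.mul_right hcop1 hcop2)
  obtain ⟨u, hu⟩ := exists_unit_lift hfM (Nat.lcm_dvd hfM hn) hcop3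
  have hu1 : (u : ZMod M).val ≡ (t : ZMod f).val [MOD f] :=
    (hu.of_dvd (Nat.dvd_lcm_left f n)).trans hU1
  have hu2 : (u : ZMod M).val ≡ 1 [MOD n] := (hu.of_dvd (Nat.dvd_lcm_right f n)).trans hU2
  have hkap : kap hfM χ u = χ (t : ZMod f) := by
    rw [kap_eq_of_modEq hfM χ hu1, ZMod.natCast_zmod_val]
  have h1 := Wy_twist_nat hfM χ hn hu2 hy
  rw [Nat.cast_one, one_mul, hkap] at h1
  have hne : χ (t : ZMod f) ≠ 0 := by
    rw [← hkap]
    exact kap_ne_zero hfM χ u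
  have h2 : (χ (t : ZMod f) - 1) * Wy hfM χ y = 0 := by
    have h3 : χ (t : ZMod f) * Wy hfM χ y = Wy hfM χ y := by
      rw [h1, ← mul_assoc, mul_inv_cancel₀ hne, one_mul, ← h1]
    linear_combination h3
  exact (mul_eq_zero.mp h2).resolve_left (sub_ne_zero.mpr ht2)

/-- Vanishing by the half shift. -/
theorem Wy_eq_zero_half (hM2 : 2 ∣ M) {n : ℕ} (hn : n ∣ M) (h4 : 4 ∣ n) (hfn : f ∣ n / 2)
    {y : ℝ} {w : ℕ} (hw : Odd w) (hy : (n : ℝ) * y = w) : Wy hfM χ y = 0 := by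
  obtain ⟨m, hm⟩ := h4
  have hn2 : n / 2 = 2 * m := by omega
  have hcop : Nat.Coprime (1 + n / 2) n := by
    apply Nat.coprime_of_mul_modEq_one (1 + n / 2)
    have h3 : (1 + n / 2) * (1 + n / 2) = 1 + n * (1 + m) := by
      rw [hn2, hm]; ring
    rw [h3]
    simp [Nat.ModEq]
  obtain ⟨u, hu⟩ := exists_unit_lift hfM hn hcop
  have hnd : n / 2 ∣ n := ⟨2, by omega⟩
  have hu1 : (u : ZMod M).val ≡ 1 [MOD f] := by
    have h3 : (u : ZMod M).val ≡ 1 + n / 2 [MOD n / 2] := hu.of_dvd hnd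
    have h4 : 1 + n / 2 ≡ 1 [MOD n / 2] := by simp [Nat.ModEq]
    exact (h3.trans h4).of_dvd hfn
  have hkap : kap hfM χ u = 1 := by
    rw [kap_eq_of_modEq hfM χ hu1]
    simp
  obtain ⟨n', hn'⟩ := hn
  have hyM : (M : ℝ) * y = ((n' * w : ℕ) : ℤ) := by
    rw [hn']
    push_cast
    rw [← hy]
    ring
  have h1 := Wy_twist hfM χ u hyM
  rw [hkap, inv_one, one_mul] at h1
  have h2 : Wy hfM χ (((((u : ZMod M).val : ℕ) : ℝ)) * y) = - Wy hfM χ y := by
    unfold Wy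
    rw [← Finset.sum_neg_distrib]
    apply Finset.sum_congr rfl
    intro v _
    have hvodd : Odd ((v : ZMod M).val) := by
      have h3 : Nat.Coprime (v : ZMod M).val M := ZMod.val_coe_unit_coprime v
      exact (Nat.coprime_two_right).mp (Nat.Coprime.coprime_dvd_right hM2 h3)
    obtain ⟨μ, hμ⟩ := hvodd.mul hw
    obtain ⟨τ, hτ⟩ := (Nat.modEq_iff_dvd.mp hu.symm : (n : ℤ) ∣ ((u : ZMod M).val : ℤ) - ((1 + n / 2 : ℕ) : ℤ))
    have hτ' : (((u : ZMod M).val : ℕ) : ℤ) = 1 + 2 * (m : ℤ) + (n : ℤ) * τ := by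
      rw [hn2] at hτ
      push_cast at hτ
      linarith
    have hval : (((u : ZMod M).val : ℕ) : ℝ) = 1 + (n : ℝ) / 2 + (n : ℝ) * (τ : ℝ) := by
      have h4 : (((u : ZMod M).val : ℕ) : ℝ) = 1 + 2 * (m : ℝ) + (n : ℝ) * (τ : ℝ) := by
        exact_mod_cast hτ'
      have h5 : (n : ℝ) = 4 * (m : ℝ) := by exact_mod_cast hm
      rw [h4, h5]
      ring
    have e : Real.pi * (((v : ZMod M).val : ℕ) : ℝ) * ((((u : ZMod M).val : ℕ) : ℝ) * y) =
        Real.pi * (((v : ZMod M).val : ℕ) : ℝ) * y + Real.pi / 2 +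
          (((μ + (v : ZMod M).val * w * τ : ℤ)) : ℝ) * Real.pi := by
      have h3 : (((v : ZMod M).val : ℕ) : ℝ) * (w : ℝ) = 2 * (μ : ℝ) + 1 := by exact_mod_cast hμ
      rw [hval]
      have h5 : (n : ℝ) * y = w := hy
      push_cast
      have e2 : Real.pi * (((v : ZMod M).val : ℕ) : ℝ) * ((1 + (n : ℝ) / 2 + (n : ℝ) * (τ : ℝ)) * y) =
          Real.pi * (((v : ZMod M).val : ℕ) : ℝ) * y +
            Real.pi * (((v : ZMod M).val : ℕ) : ℝ) * ((n : ℝ) * y) / 2 +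
            Real.pi * (((v : ZMod M).val : ℕ) : ℝ) * ((n : ℝ) * y) * (τ : ℝ) := by ring
      rw [e2, h5]
      have e3 : Real.pi * (((v : ZMod M).val : ℕ) : ℝ) * (w : ℝ) = Real.pi * (2 * (μ : ℝ) + 1) := by
        rw [← h3]; ring
      rw [e3]
      linear_combination (-(Real.pi * (τ : ℝ))) * h3
    rw [e, lc_add_pi_div_two_int]
    push_cast
    ring
  have h3 : Wy hfM χ y = - Wy hfM χ y := by rw [← h2, h1]
  have h4 : (2 : ℂ) * Wy hfM χ y = 0 := by linear_combination h3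
  exact (mul_eq_zero.mp h4).resolve_left (by norm_num)

/-- Multiplication by a prime outside the denominator. -/
theorem Wy_prime_mul (hp : χ.IsPrimitive) {p n : ℕ} (hpn : Nat.Coprime p n) (hn : n ∣ M)
    {y : ℝ} {w : ℤ} (hy : (n : ℝ) * y = w) :
    Wy hfM χ ((p : ℝ) * y) = (χ (p : ZMod f))⁻¹ * Wy hfM χ y := by
  by_cases hfn : f ∣ n
  · obtain ⟨u, hu⟩ := exists_unit_lift hfM hn hpn
    rw [Wy_twist_nat hfM χ hn hu hy, kap_eq_of_modEq hfM χ (hu.of_dvd hfn)]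
  · have hy2 : (n : ℝ) * ((p : ℝ) * y) = ((p * w : ℤ) : ℝ) := by
      push_cast
      rw [← hy]
      ring
    rw [Wy_eq_zero_of_not_dvd hfM χ hp hn hfn hy2, Wy_eq_zero_of_not_dvd hfM χ hp hn hfn hy, mul_zero]

/-- The relation at a prime exactly dividing the denominator. -/
theorem Wy_prime_level {p n₀ : ℕ} (hpp : p.Prime) (hodd : Odd p) (hpn : Nat.Coprime p n₀)
    (hfn : f ∣ n₀) (hn : p * n₀ ∣ M) (h2 : 2 < n₀) :
    ((p : ℂ) - 1) * Wy hfM χ (1 / ((p * n₀ : ℕ) : ℝ)) =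
      (1 - χ (p : ZMod f)) * Wy hfM χ (1 / (n₀ : ℝ)) := by
  have : Fact p.Prime := ⟨hpp⟩
  have hp0 : (p : ℝ) ≠ 0 := by exact_mod_cast hpp.ne_zero
  have hn0 : (n₀ : ℝ) ≠ 0 := by exact_mod_cast (by omega : n₀ ≠ 0)
  set n := p * n₀ with hndef
  have hnr : (n : ℝ) = (p : ℝ) * (n₀ : ℝ) := by rw [hndef]; push_cast; ring
  have hnr0 : (n : ℝ) ≠ 0 := by rw [hnr]; exact mul_ne_zero hp0 hn0
  set y : ℝ := 1 / (n : ℝ) with hy
  have hyn : (n : ℝ) * y = ((1 : ℤ) : ℝ) := by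
    rw [hy]; push_cast; field_simp
  have hn₀M : n₀ ∣ M := (Dvd.intro_left p rfl).trans hn
  -- the lifts
  have hAex : ∀ x : ZMod p, ∃ k : ℕ, k ≡ x.val [MOD p] ∧ k ≡ 1 [MOD n₀] := by
    intro x
    obtain ⟨k, h⟩ := Nat.chineseRemainder hpn x.val 1
    exact ⟨k, h⟩
  choose A hA1 hA2 using hAex
  have hAz : ∀ x : ZMod p, (A x : ZMod p) = x := by
    intro x
    rw [(ZMod.natCast_eq_natCast_iff _ _ _).mpr (hA1 x), ZMod.natCast_zmod_val]
  -- the key identity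
  have hkey : ∀ w : ℕ, Nat.Coprime w n →
      ∑ x : ZMod p, lc (Real.pi * (w : ℝ) * ((A x : ℝ) * y)) =
        lc (Real.pi * (w : ℝ) * (1 / (n₀ : ℝ))) := by
    intro w hw
    have hwn₀ : Nat.Coprime w n₀ := Nat.Coprime.coprime_dvd_right (Dvd.intro_left p rfl) hw
    have hwp : Nat.Coprime w p := Nat.Coprime.coprime_dvd_right (Dvd.intro n₀ rfl) hw
    set θ : ℝ := Real.pi * (w : ℝ) * y with hθ
    have hpθ : (p : ℝ) * θ = Real.pi * (w : ℝ) * (1 / (n₀ : ℝ)) := by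
      rw [hθ, hy, hnr]
      field_simp
    have hpi := Real.pi_ne_zero
    have hs : Real.sin ((p : ℝ) * θ) ≠ 0 := by
      rw [hpθ]
      intro h0
      rw [Real.sin_eq_zero_iff] at h0
      obtain ⟨m, hm⟩ := h0
      have h3 : (m : ℝ) * (n₀ : ℝ) = (w : ℝ) := by
        field_simp at hm
        linarith
      have h4 : m * (n₀ : ℤ) = (w : ℤ) := by exact_mod_cast h3
      have h5 : (n₀ : ℤ) ∣ (w : ℤ) := ⟨m, by rw [← h4]; ring⟩
      have h6 : n₀ ∣ w := by exact_mod_cast h5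
      have h7 := Nat.Coprime.eq_one_of_dvd hwn₀.symm h6
      omega
    have hc : Real.cos ((p : ℝ) * θ) ≠ 0 := by
      rw [hpθ]
      intro h0
      rw [Real.cos_eq_zero_iff] at h0
      obtain ⟨m, hm⟩ := h0
      have h3 : (2 : ℝ) * (w : ℝ) = (2 * (m : ℝ) + 1) * (n₀ : ℝ) := by
        field_simp at hm
        linarith
      have h4 : (2 : ℤ) * (w : ℤ) = (2 * m + 1) * (n₀ : ℤ) := by exact_mod_cast h3
      have h5 : (n₀ : ℤ) ∣ ((2 * w : ℕ) : ℤ) := ⟨2 * m + 1, by push_cast; rw [h4]; ring⟩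
      have h6 : n₀ ∣ 2 * w := by exact_mod_cast h5
      have h7 : n₀ ∣ 2 := Nat.Coprime.dvd_of_dvd_mul_right hwn₀.symm h6
      have := Nat.le_of_dvd (by norm_num) h7
      omega
    rw [← hpθ, ← lc_distrib hodd θ hs hc]
    -- the bijection
    have hn₀u : (n₀ : ZMod p) ≠ 0 := by
      intro h0
      rw [ZMod.natCast_eq_zero_iff] at h0
      have := Nat.Coprime.eq_one_of_dvd hpn h0
      exact hpp.one_lt.ne' this
    have hwu : (w : ZMod p) ≠ 0 := by
      intro h0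
      rw [ZMod.natCast_eq_zero_iff] at h0
      have := Nat.Coprime.eq_one_of_dvd hwp.symm h0
      exact hpp.one_lt.ne' this
    set c : ZMod p := (w : ZMod p) * (n₀ : ZMod p)⁻¹ with hc'
    have hc0 : c ≠ 0 := mul_ne_zero hwu (inv_ne_zero hn₀u)
    let τ : ZMod p ≃ ZMod p :=
      { toFun := fun x => c * (x - 1)
        invFun := fun j => c⁻¹ * j + 1
        left_inv := fun x => by field_simp; ring
        right_inv := fun j => by field_simp; ring }
    have hrange : ∑ j ∈ range p, lc (θ + (j : ℝ) * Real.pi / (p : ℝ)) =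
        ∑ j : ZMod p, lc (θ + ((j.val : ℕ) : ℝ) * Real.pi / (p : ℝ)) := by
      symm
      apply Finset.sum_nbij (fun j : ZMod p => j.val)
      · intro j _
        exact mem_range.mpr (ZMod.val_lt j)
      · intro a _ b _ hab
        exact ZMod.val_injective p hab
      · intro j hj
        refine ⟨(j : ZMod p), by simp, ?_⟩
        exact ZMod.val_cast_of_lt (mem_coe.mp hj |> mem_range.mp)
      · intro j _
        rfl
    rw [hrange]
    apply Fintype.sum_equiv τ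
    intro x
    have hmod : w * A x ≡ w + n₀ * (τ x).val [MOD p * n₀] := by
      rw [← Nat.modEq_and_modEq_iff_modEq_mul hpn]
      constructor
      · rw [← ZMod.natCast_eq_natCast_iff]
        push_cast
        rw [hAz, ZMod.natCast_zmod_val]
        show (w : ZMod p) * x = (w : ZMod p) + (n₀ : ZMod p) * (c * (x - 1))
        rw [hc']
        field_simp
        ring
      · have h3 : w * A x ≡ w * 1 [MOD n₀] := Nat.ModEq.mul_left _ (hA2 x)
        have h4 : w + n₀ * (τ x).val ≡ w [MOD n₀] := by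
          simp [Nat.ModEq]
        rw [mul_one] at h3
        exact h3.trans h4.symm
    have h5 := lc_congr hmod hyn
    have e1 : Real.pi * (w : ℝ) * ((A x : ℝ) * y) = Real.pi * ((w * A x : ℕ) : ℝ) * y := by
      push_cast
      ring
    have e2 : θ + (((τ x).val : ℕ) : ℝ) * Real.pi / (p : ℝ) =
        Real.pi * ((w + n₀ * (τ x).val : ℕ) : ℝ) * y := by
      rw [hθ, hy, hnr]
      push_cast
      field_simp
    rw [e1, e2]
    exact h5
  -- the sum over `x ≠ 0`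
  have hnz : ∀ x : ZMod p, x ≠ 0 → Wy hfM χ ((A x : ℝ) * y) = Wy hfM χ y := by
    intro x hx
    have hcop : Nat.Coprime (A x) n := by
      apply Nat.Coprime.mul_right
      · rw [Nat.Coprime, (hA1 x).gcd_eq]
        have h3 : Nat.Coprime p x.val := by
          rw [Nat.Prime.coprime_iff_not_dvd hpp]
          intro hd
          have h4 := Nat.le_of_dvd (Nat.pos_of_ne_zero ((ZMod.val_ne_zero x).mpr hx)) hd
          have h5 := ZMod.val_lt x
          omega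
        exact h3.symm
      · rw [Nat.Coprime, (hA2 x).gcd_eq]
        simp
    obtain ⟨u, hu⟩ := exists_unit_lift hfM hn hcop
    rw [Wy_twist_nat hfM χ hn hu hyn]
    have h3 : (u : ZMod M).val ≡ 1 [MOD f] :=
      ((hu.of_dvd (Dvd.intro_left p rfl : n₀ ∣ n)).trans (hA2 x)).of_dvd hfn
    rw [kap_eq_of_modEq hfM χ h3]
    simp
  -- the term `x = 0`
  have hp0dvd : p ∣ A 0 := by
    have h3 := hA1 0
    rw [ZMod.val_zero] at h3
    exact (Nat.modEq_zero_iff_dvd).mp h3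
  obtain ⟨P, hP⟩ := hp0dvd
  have hPcop : Nat.Coprime P n₀ := by
    have h3 : P * p ≡ 1 [MOD n₀] := by
      rw [mul_comm, ← hP]
      exact hA2 0
    exact Nat.coprime_of_mul_modEq_one p h3
  have hchiP : (χ (P : ZMod f))⁻¹ = χ (p : ZMod f) := by
    have h3 : χ (p : ZMod f) * χ (P : ZMod f) = 1 := by
      rw [← map_mul, ← Nat.cast_mul, ← hP]
      have h4 : ((A 0 : ℕ) : ZMod f) = ((1 : ℕ) : ZMod f) :=
        (ZMod.natCast_eq_natCast_iff _ _ _).mpr ((hA2 0).of_dvd hfn)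
      rw [h4]
      simp
    exact (eq_inv_of_mul_eq_one_left h3).symm
  have hzero : ∑ v : (ZMod M)ˣ, kap hfM χ v *
      (lc (Real.pi * (((v : ZMod M).val : ℕ) : ℝ) * ((A 0 : ℝ) * y)) : ℂ) =
      χ (p : ZMod f) * Wy hfM χ (1 / (n₀ : ℝ)) := by
    obtain ⟨u, hu⟩ := exists_unit_lift hfM hn₀M hPcop
    have hyn₀ : (n₀ : ℝ) * (1 / (n₀ : ℝ)) = ((1 : ℤ) : ℝ) := by
      push_cast; field_simp
    have h3 := Wy_twist_nat hfM χ hn₀M hu hyn₀
    rw [kap_eq_of_modEq hfM χ (hu.of_dvd hfn), hchiP] at h3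
    rw [← h3]
    unfold Wy
    apply Finset.sum_congr rfl
    intro v _
    have e : (A 0 : ℝ) * y = (P : ℝ) * (1 / (n₀ : ℝ)) := by
      rw [hP, hy, hnr]
      push_cast
      field_simp
    rw [e]
  -- assembly
  have hcard : ((univ.erase (0 : ZMod p)).card : ℂ) = (p : ℂ) - 1 := by
    rw [Finset.card_erase_of_mem (mem_univ _), Finset.card_univ, ZMod.card]
    rw [Nat.cast_sub hpp.one_lt.le]
    simp
  have hsum1 : ((p : ℂ) - 1) * Wy hfM χ y =
      ∑ x ∈ univ.erase (0 : ZMod p), Wy hfM χ ((A x : ℝ) * y) := by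
    rw [Finset.sum_congr rfl (fun x hx => hnz x (mem_erase.mp hx).1), Finset.sum_const, nsmul_eq_mul,
      hcard]
  have hsum2 : ∑ x ∈ univ.erase (0 : ZMod p), Wy hfM χ ((A x : ℝ) * y) =
      ∑ v : (ZMod M)ˣ, kap hfM χ v *
        ∑ x ∈ univ.erase (0 : ZMod p),
          (lc (Real.pi * (((v : ZMod M).val : ℕ) : ℝ) * ((A x : ℝ) * y)) : ℂ) := by
    unfold Wy
    rw [Finset.sum_comm]
    apply Finset.sum_congr rfl
    intro v _
    rw [Finset.mul_sum]
  have hsum3 : ∀ v : (ZMod M)ˣ, ∑ x ∈ univ.erase (0 : ZMod p),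
      (lc (Real.pi * (((v : ZMod M).val : ℕ) : ℝ) * ((A x : ℝ) * y)) : ℂ) =
      (lc (Real.pi * (((v : ZMod M).val : ℕ) : ℝ) * (1 / (n₀ : ℝ))) : ℂ) -
        (lc (Real.pi * (((v : ZMod M).val : ℕ) : ℝ) * ((A 0 : ℝ) * y)) : ℂ) := by
    intro v
    have hcopv : Nat.Coprime (v : ZMod M).val n :=
      Nat.Coprime.coprime_dvd_right hn (ZMod.val_coe_unit_coprime v)
    have h3 := hkey _ hcopv
    rw [← h3, ← Finset.add_sum_erase univ _ (mem_univ (0 : ZMod p))]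
    push_cast
    ring
  rw [hsum1, hsum2, Finset.sum_congr rfl (fun v _ => by rw [hsum3 v])]
  simp only [mul_sub, Finset.sum_sub_distrib]
  rw [hzero]
  show Wy hfM χ (1 / (n₀ : ℝ)) - _ = _
  ring

end

end Vale.Agent.Lib.P268
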