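import Mathlib
import Vale.Agent.Lib.P268.WSum

/-!
Elimination among numerator levels.
-/

open Finset

namespace Vale.Agent.Lib.P268

section
set_option linter.unusedSectionVars false
variable {M f : ℕ} [NeZero M] [NeZero f] (hfM : f ∣ M) (χ : DirichletCharacter ℂ f)

/-- The base value at the conductor. -/
theorem Wy_base_ne_zero (hT : ∑ t : ZMod f, χ t * (Gam f t : ℂ) ≠ 0) :
    Wy hfM χ (1 / (f : ℝ)) ≠ 0 := by
  classical
  set π' := ZMod.unitsMap hfM with hπ
  have hsurj : Function.Surjective π' := ZMod.unitsMap_surjective hfM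
  let F : (ZMod f)ˣ → ℂ := fun t => χ (t : ZMod f) * (Gam f (t : ZMod f) : ℂ)
  have h1 : Wy hfM χ (1 / (f : ℝ)) = ∑ v : (ZMod M)ˣ, F (π' v) := by
    unfold Wy kap
    apply Finset.sum_congr rfl
    intro v _
    simp only [F]
    congr 2
    have e : ((π' v : (ZMod f)ˣ) : ZMod f) = (((v : ZMod M).val : ℕ) : ZMod f) := by
      rw [hπ, ZMod.unitsMap_val, ZMod.natCast_val]
    rw [e, Gam_natCast]
    congr 1
    ring
  set κ := (univ.filter (fun v : (ZMod M)ˣ => π' v = 1)).card with hκ
  have hκ0 : κ ≠ 0 := by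
    apply Finset.card_ne_zero_of_mem (a := (1 : (ZMod M)ˣ))
    simp
  have h2 : ∑ v : (ZMod M)ˣ, F (π' v) = (κ : ℂ) * ∑ t : (ZMod f)ˣ, F t := by
    rw [← Finset.sum_fiberwise univ π' (fun v => F (π' v)), Finset.mul_sum]
    apply Finset.sum_congr rfl
    intro t _
    have h3 : (univ.filter (fun v : (ZMod M)ˣ => π' v = t)).card = κ :=
      MonoidHom.card_fiber_eq_of_mem_range π' (hsurj t) (hsurj 1)
    rw [Finset.sum_congr rfl (g := fun _ => F t)]
    · rw [Finset.sum_const, nsmul_eq_mul, h3]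
    · intro v hv
      rw [(mem_filter.mp hv).2]
  have h3 : ∑ t : (ZMod f)ˣ, F t = ∑ t : ZMod f, χ t * (Gam f t : ℂ) := by
    have hinj : Function.Injective (fun t : (ZMod f)ˣ => (t : ZMod f)) := Units.val_injective
    have h4 : ∑ t : ZMod f, χ t * (Gam f t : ℂ) =
        ∑ t ∈ univ.image (fun t : (ZMod f)ˣ => (t : ZMod f)), χ t * (Gam f t : ℂ) := by
      symm
      apply Finset.sum_subset (subset_univ _)
      intro x _ hx
      have : ¬ IsUnit x := by
        rintro ⟨u, rfl⟩
        exact hx (mem_image_of_mem _ (mem_univ u))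
      rw [MulChar.map_nonunit χ this, zero_mul]
    rw [h4, Finset.sum_image (fun a _ b _ h => hinj h)]
  rw [h1, h2, h3]
  exact mul_ne_zero (by exact_mod_cast hκ0) hT

/-- The elimination. -/
theorem elim (hp : χ.IsPrimitive) (hf2 : 2 < f) (hT : Wy hfM χ (1 / (f : ℝ)) ≠ 0)
    (C : Finset ℕ) (hC : ∀ N ∈ C, f ∣ N ∧ N ∣ M ∧ Odd (N / f)) (E : ℕ → ℂ)
    (hrow : ∀ N ∈ C, ∀ g : ℕ, g ∣ N / f → ∑ N' ∈ C, E N' * Wy hfM χ ((g : ℝ) / (N' : ℝ)) = 0) :
    ∀ N ∈ C, E N = 0 := by
  classical
  by_contra hne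
  push Not at hne
  obtain ⟨N₁, hN₁, hE₁⟩ := hne
  set S := C.filter (fun N => E N ≠ 0) with hS
  have hSne : S.Nonempty := ⟨N₁, mem_filter.mpr ⟨hN₁, hE₁⟩⟩
  obtain ⟨N, hNS, hmax⟩ := Finset.exists_max_image S id hSne
  obtain ⟨hNC, hEN⟩ := mem_filter.mp hNS
  obtain ⟨hfN, hNM, hodd⟩ := hC N hNC
  have hM0 : M ≠ 0 := NeZero.ne M
  have hf0 : f ≠ 0 := NeZero.ne f
  have hne0 : ∀ {A : ℕ}, A ∣ M → A ≠ 0 := fun {A} h h0 => hM0 (Nat.eq_zero_of_zero_dvd (h0 ▸ h))
  set r := N / f with hr
  have hNr : N = f * r := (Nat.mul_div_cancel' hfN).symm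
  have hr0 : r ≠ 0 := by
    intro h0
    rw [h0, mul_zero] at hNr
    exact hne0 hNM hNr
  set P := r.primeFactors.filter (fun p => ¬ p ∣ f) with hP
  have hPmem : ∀ p ∈ P, p.Prime ∧ p ∣ r ∧ ¬ p ∣ f := by
    intro p hp'
    rw [hP, mem_filter, Nat.mem_primeFactors] at hp'
    exact ⟨hp'.1.1, hp'.1.2.1, hp'.2⟩
  let m : Finset ℕ → ℕ := fun T => ∏ p ∈ T, p
  let c : Finset ℕ → ℂ := fun T => ∏ p ∈ T, (-(χ (p : ZMod f))⁻¹)
  have hmdvd : ∀ T ∈ P.powerset, m T ∣ r := by
    intro T hT
    have hsub : T ⊆ r.primeFactors := (mem_powerset.mp hT).trans (filter_subset _ _)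
    exact (Finset.prod_dvd_prod_of_subset _ _ _ hsub).trans (Nat.prod_primeFactors_dvd r)
  have hgdvd : ∀ T ∈ P.powerset, r / m T ∣ N / f := by
    intro T hT
    exact Nat.div_dvd_of_dvd (hmdvd T hT)
  let D : ℕ → ℂ := fun N' => ∑ T ∈ P.powerset, c T * Wy hfM χ (((r / m T : ℕ) : ℝ) / (N' : ℝ))
  -- main relation
  have hmain : ∑ N' ∈ C, E N' * D N' = 0 := by
    have h1 : ∑ T ∈ P.powerset, c T *
        ∑ N' ∈ C, E N' * Wy hfM χ (((r / m T : ℕ) : ℝ) / (N' : ℝ)) = 0 := by
      apply Finset.sum_eq_zero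
      intro T hT
      rw [hrow N hNC _ (hgdvd T hT), mul_zero]
    rw [← h1]
    simp only [D, Finset.mul_sum]
    rw [Finset.sum_comm]
    apply Finset.sum_congr rfl
    intro T _
    apply Finset.sum_congr rfl
    intro N' _
    ring
  -- lower levels die
  have hlow : ∀ N' ∈ C, N' < N → D N' = 0 := by
    intro N' hN'C hlt
    obtain ⟨hfN', hN'M, _⟩ := hC N' hN'C
    set r' := N' / f with hr'
    have hNr' : N' = f * r' := (Nat.mul_div_cancel' hfN').symm
    have hN'0 : N' ≠ 0 := hne0 hN'M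
    have hr'0 : r' ≠ 0 := by
      intro h0
      rw [h0, mul_zero] at hNr'
      exact hN'0 hNr'
    have hrlt : r' < r := by
      rw [hNr, hNr'] at hlt
      exact lt_of_mul_lt_mul_left hlt (Nat.zero_le f)
    have hnd : ¬ r ∣ r' := fun h => absurd (Nat.le_of_dvd (Nat.pos_of_ne_zero hr'0) h) (by omega)
    have hexp : ∃ p, p.Prime ∧ r'.factorization p < r.factorization p := by
      by_contra hall
      push Not at hall
      exact hnd ((Nat.factorization_prime_le_iff_dvd hr0 hr'0).mp hall)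
    obtain ⟨p, hpp, hlt2⟩ := hexp
    set e := r'.factorization p with he
    have hpe1 : p ^ (e + 1) ∣ r := (hpp.pow_dvd_iff_le_factorization hr0).mpr hlt2
    have hpe2 : ¬ p ^ (e + 1) ∣ r' := by
      intro h
      have := (hpp.pow_dvd_iff_le_factorization hr'0).mp h
      omega
    have hpe3 : p ^ e ∣ r' := (hpp.pow_dvd_iff_le_factorization hr'0).mpr (le_refl _)
    have hpr : p ∣ r := (dvd_pow_self p (by omega)).trans hpe1
    -- a power of `p` stays in the rows avoiding `p`
    have hpow : ∀ T ∈ P.powerset, p ∉ T → p ^ (e + 1) ∣ r / m T := by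
      intro T hT hpT
      have hmd := hmdvd T hT
      have hcop : Nat.Coprime (p ^ (e + 1)) (m T) := by
        apply Nat.Coprime.pow_left
        apply Nat.Coprime.prod_right
        intro x hx
        have hxP := (hPmem x ((mem_powerset.mp hT) hx)).1
        rw [Nat.coprime_primes hpp hxP]
        rintro rfl
        exact hpT hx
      obtain ⟨g, hg⟩ := hmd
      have hrg : r / m T = g := by
        rw [hg]
        exact Nat.mul_div_cancel_left _ (Nat.pos_of_dvd_of_pos ⟨g, hg⟩ (Nat.pos_of_ne_zero hr0))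
      rw [hrg]
      rw [hg] at hpe1
      exact hcop.dvd_of_dvd_mul_left hpe1
    by_cases hpf : p ∣ f
    · -- the conductor case
      apply Finset.sum_eq_zero
      intro T hT
      have hpT : p ∉ T := by
        intro h
        exact (hPmem p ((mem_powerset.mp hT) h)).2.2 hpf
      obtain ⟨w, hw⟩ := hpow T hT hpT
      have hdN' : p ^ (e + 1) ∣ N' := by
        rw [hNr', pow_succ, mul_comm (p ^ e) p]
        exact mul_dvd_mul hpf hpe3
      obtain ⟨n, hn⟩ := hdN'
      have hnM : n ∣ M := (Dvd.intro_left _ hn.symm).trans hN'M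
      have hfn : ¬ f ∣ n := by
        rintro ⟨x, hx⟩
        apply hpe2
        refine ⟨x, ?_⟩
        have h3 : f * r' = f * (p ^ (e + 1) * x) := by
          rw [← hNr', hn, hx]
          ring
        exact mul_left_cancel₀ hf0 h3
      have hpe0 : ((p ^ (e + 1) : ℕ) : ℝ) ≠ 0 := by
        exact_mod_cast pow_ne_zero _ hpp.ne_zero
      have hn0 : (n : ℝ) ≠ 0 := by
        have : n ≠ 0 := hne0 hnM
        exact_mod_cast this
      have hy : (n : ℝ) * (((r / m T : ℕ) : ℝ) / (N' : ℝ)) = ((w : ℤ) : ℝ) := by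
        rw [hw, hn]
        push_cast
        have hpp0 : (p : ℝ) ≠ 0 := by exact_mod_cast hpp.ne_zero
        field_simp
      rw [Wy_eq_zero_of_not_dvd hfM χ hp hnM hfn hy, mul_zero]
    · -- the pairing case
      have hpP : p ∈ P := by
        rw [hP, mem_filter, Nat.mem_primeFactors]
        exact ⟨⟨hpp, hpr, hr0⟩, hpf⟩
      have hcopf : Nat.Coprime (p ^ (e + 1)) f :=
        Nat.Coprime.pow_left _ ((Nat.Prime.coprime_iff_not_dvd hpp).mpr hpf)
      have hinsert : P = insert p (P.erase p) := (Finset.insert_erase hpP).symm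
      have hnot : p ∉ P.erase p := Finset.notMem_erase p P
      simp only [D]
      rw [hinsert, Finset.sum_powerset_insert hnot]
      rw [← Finset.sum_add_distrib]
      apply Finset.sum_eq_zero
      intro T hT
      have hTP : T ∈ P.powerset := by
        rw [mem_powerset] at hT ⊢
        exact hT.trans (Finset.erase_subset _ _)
      have hpT : p ∉ T := fun h => hnot ((mem_powerset.mp hT) h)
      have hins : insert p T ∈ P.powerset := by
        rw [mem_powerset] at hT ⊢
        intro x hx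
        rcases mem_insert.mp hx with rfl | hx
        · exact hpP
        · exact Finset.mem_of_mem_erase (hT hx)
      have hc : c (insert p T) = -(χ (p : ZMod f))⁻¹ * c T := by
        simp only [c]
        rw [Finset.prod_insert hpT]
      have hm : m (insert p T) = p * m T := by
        simp only [m]
        rw [Finset.prod_insert hpT]
      rw [hc, hm]
      obtain ⟨g₁, hg₁⟩ := hpow T hTP hpT
      have hmT : m T ∣ r := hmdvd T hTP
      have hmT0 : 0 < m T := Nat.pos_of_dvd_of_pos hmT (Nat.pos_of_ne_zero hr0)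
      have hrm : r = m T * (p ^ (e + 1) * g₁) := by
        rw [← hg₁]
        exact (Nat.mul_div_cancel' hmT).symm
      have hg : r / (p * m T) = p ^ e * g₁ := by
        apply Nat.div_eq_of_eq_mul_left (Nat.mul_pos hpp.pos hmT0)
        rw [hrm, pow_succ]
        ring
      obtain ⟨x, hx⟩ := hpe3
      have hN'x : N' = p ^ e * (f * x) := by
        rw [hNr', hx]
        ring
      have hnM : f * x ∣ M := (Dvd.intro_left _ hN'x.symm).trans hN'M
      have hpx : ¬ p ∣ x := by
        rintro ⟨z, hz⟩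
        apply hpe2
        refine ⟨z, ?_⟩
        rw [hx, hz, pow_succ]
        ring
      have hpn : Nat.Coprime p (f * x) :=
        Nat.Coprime.mul_right ((Nat.Prime.coprime_iff_not_dvd hpp).mpr hpf)
          ((Nat.Prime.coprime_iff_not_dvd hpp).mpr hpx)
      have hn0 : ((f * x : ℕ) : ℝ) ≠ 0 := by
        have : f * x ≠ 0 := hne0 hnM
        exact_mod_cast this
      have hpr0 : (p : ℝ) ≠ 0 := by exact_mod_cast hpp.ne_zero
      have hy : ((f * x : ℕ) : ℝ) * (((p ^ e * g₁ : ℕ) : ℝ) / (N' : ℝ)) = ((g₁ : ℤ) : ℝ) := by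
        rw [hN'x]
        push_cast at hn0 ⊢
        have hx0 : (x : ℝ) ≠ 0 := right_ne_zero_of_mul hn0
        have hf0r : (f : ℝ) ≠ 0 := left_ne_zero_of_mul hn0
        field_simp
      have hWy := Wy_prime_mul hfM χ hp hpn hnM hy
      have e1 : ((r / m T : ℕ) : ℝ) / (N' : ℝ) = (p : ℝ) * (((p ^ e * g₁ : ℕ) : ℝ) / (N' : ℝ)) := by
        rw [hg₁, pow_succ]
        push_cast
        ring
      rw [hg, e1, hWy]
      ring
  -- the top level
  have hB1 : ∀ T : Finset ℕ, T ⊆ P →
      Wy hfM χ (1 / ((f * m T : ℕ) : ℝ)) =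
        (∏ p ∈ T, ((1 - χ (p : ZMod f)) / ((p : ℂ) - 1))) * Wy hfM χ (1 / (f : ℝ)) := by
    intro T
    induction T using Finset.induction_on with
    | empty =>
      intro _
      simp [m]
    | insert p T hpT ih =>
      intro hsub
      have hTP : T ⊆ P := (Finset.subset_insert p T).trans hsub
      have ih' := ih hTP
      obtain ⟨hpp, hpr, hpf⟩ := hPmem p (hsub (mem_insert_self p T))
      have hmT : m (insert p T) = p * m T := by
        simp only [m]
        rw [Finset.prod_insert hpT]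
      have hcopm : Nat.Coprime p (m T) := by
        apply Nat.Coprime.prod_right
        intro x hx
        have hxP := (hPmem x (hTP hx)).1
        rw [Nat.coprime_primes hpp hxP]
        rintro rfl
        exact hpT hx
      have hpn : Nat.Coprime p (f * m T) :=
        Nat.Coprime.mul_right ((Nat.Prime.coprime_iff_not_dvd hpp).mpr hpf) hcopm
      have hdvd : p * (f * m T) ∣ M := by
        have h3 : m (insert p T) ∣ r := hmdvd _ (mem_powerset.mpr hsub)
        have h4 : f * m (insert p T) ∣ N := by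
          rw [hNr]
          exact mul_dvd_mul_left f h3
        have h5 : p * (f * m T) = f * m (insert p T) := by
          rw [hmT]; ring
        rw [h5]
        exact h4.trans hNM
      have hmpos : 0 < m T := by
        have h3 : m T ∣ r := hmdvd _ (mem_powerset.mpr hTP)
        exact Nat.pos_of_dvd_of_pos h3 (Nat.pos_of_ne_zero hr0)
      have h2n : 2 < f * m T := lt_of_lt_of_le hf2 (Nat.le_mul_of_pos_right f hmpos)
      have hoddp : Odd p := Odd.of_dvd_nat hodd hpr
      have hlev := Wy_prime_level hfM χ hpp hoddp hpn (Dvd.intro _ rfl) hdvd h2n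
      have hp1 : (p : ℂ) - 1 ≠ 0 := by
        have h3 : (p : ℂ) ≠ 1 := by exact_mod_cast hpp.one_lt.ne'
        exact sub_ne_zero.mpr h3
      have e1 : f * m (insert p T) = p * (f * m T) := by
        rw [hmT]; ring
      rw [e1, Finset.prod_insert hpT]
      have h6 : Wy hfM χ (1 / ((p * (f * m T) : ℕ) : ℝ)) =
          (1 - χ (p : ZMod f)) / ((p : ℂ) - 1) * Wy hfM χ (1 / ((f * m T : ℕ) : ℝ)) := by
        field_simp
        linear_combination hlev
      rw [h6, ih']
      ring
  have hD : D N = Wy hfM χ (1 / (f : ℝ)) *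
      ∏ p ∈ P, (1 + (-(χ (p : ZMod f))⁻¹ * ((1 - χ (p : ZMod f)) / ((p : ℂ) - 1)))) := by
    rw [Finset.prod_one_add, Finset.mul_sum]
    apply Finset.sum_congr rfl
    intro T hT
    have hmT := hmdvd T hT
    have hmpos : 0 < m T := Nat.pos_of_dvd_of_pos hmT (Nat.pos_of_ne_zero hr0)
    have e1 : ((r / m T : ℕ) : ℝ) / (N : ℝ) = 1 / ((f * m T : ℕ) : ℝ) := by
      obtain ⟨g, hg⟩ := hmT
      have hrg : r / m T = g := by
        rw [hg]
        exact Nat.mul_div_cancel_left _ hmpos
      have hg0 : (g : ℝ) ≠ 0 := by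
        have : g ≠ 0 := by
          rintro rfl
          rw [mul_zero] at hg
          exact hr0 hg
        exact_mod_cast this
      have hf0' : (f : ℝ) ≠ 0 := by exact_mod_cast hf0
      have hm0' : ((m T : ℕ) : ℝ) ≠ 0 := by exact_mod_cast hmpos.ne'
      rw [hrg, hNr, hg]
      push_cast
      field_simp
    rw [e1, hB1 T (mem_powerset.mp hT), Finset.prod_mul_distrib]
    simp only [c]
    ring
  have hDne : D N ≠ 0 := by
    rw [hD]
    apply mul_ne_zero hT
    rw [Finset.prod_ne_zero_iff]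
    intro p hp'
    obtain ⟨hpp, _, hpf⟩ := hPmem p hp'
    have hunit : IsUnit (p : ZMod f) := by
      rw [ZMod.isUnit_iff_coprime]
      exact ((Nat.Prime.coprime_iff_not_dvd hpp).mpr hpf)
    obtain ⟨u, hu⟩ := hunit
    have hnorm := DirichletCharacter.unit_norm_eq_one χ u
    rw [hu] at hnorm
    set z := χ (p : ZMod f) with hz
    have hz0 : z ≠ 0 := by
      intro h0
      rw [h0] at hnorm
      simp at hnorm
    have hp1 : (p : ℂ) - 1 ≠ 0 := by
      have h3 : (p : ℂ) ≠ 1 := by exact_mod_cast hpp.one_lt.ne'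
      exact sub_ne_zero.mpr h3
    intro h0
    have h4 : z⁻¹ = (p : ℂ) := by
      field_simp at h0
      have h3 : z * (p : ℂ) = 1 := by linear_combination h0
      exact (eq_inv_of_mul_eq_one_right h3).symm
    have h5 : ‖z⁻¹‖ = 1 := by
      rw [norm_inv, hnorm, inv_one]
    rw [h4] at h5
    have h6 : (p : ℝ) = 1 := by
      simpa using h5
    have h7 : p = 1 := by exact_mod_cast h6
    exact hpp.one_lt.ne' h7
  have hsingle : ∑ N' ∈ C, E N' * D N' = E N * D N := by
    apply Finset.sum_eq_single N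
    · intro N' hN' hne'
      rcases lt_or_gt_of_ne hne' with hlt | hgt
      · rw [hlow N' hN' hlt, mul_zero]
      · by_cases h0 : E N' = 0
        · rw [h0, zero_mul]
        · have := hmax N' (mem_filter.mpr ⟨hN', h0⟩)
          simp only [id] at this
          omega
    · intro h
      exact absurd hNC h
  rw [hsingle] at hmain
  exact (mul_ne_zero hEN hDne) hmain

end

end Vale.Agent.Lib.P268
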