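import Mathlib
import Vale.Agent.Lib.P268.Rigid

/-!
Multiplicity of a weighted homogeneous polynomial with isolated critical point:
`ord₀ f = ⌈min q⌉`.
-/

open Finset MvPolynomial

namespace Vale.Agent.Lib.P268

variable {N : ℕ}

/-- `f` is weighted homogeneous of degree `1` for the weights `1 / q i`. -/
def IsWeightedHomog (q : Fin N → ℚ) (f : MvPolynomial (Fin N) ℂ) : Prop :=
  ∀ α ∈ f.support, ∑ i, (α i : ℚ) / q i = 1

/-- The origin is an isolated critical point of `f`. -/
def IsolatedCrit (f : MvPolynomial (Fin N) ℂ) : Prop :=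
  ∃ ε : ℝ, 0 < ε ∧ ∀ z : Fin N → ℂ, (∀ i, ‖z i‖ < ε) →
    (∀ j, eval z (pderiv j f) = 0) → z = 0

/-- The multiplicity at the origin: the least total degree of a monomial occurring in `f`. -/
noncomputable def ord0 (f : MvPolynomial (Fin N) ℂ) : ℕ :=
  sInf {d | ∃ α ∈ f.support, α.degree = d}

/-- The pointer monomial: a monomial `z_{i0}^k z_j` occurs in `f`. -/
lemma exists_pointer (f : MvPolynomial (Fin N) ℂ) (hi : IsolatedCrit f) (i0 : Fin N) :
    ∃ α : Fin N →₀ ℕ, α ∈ f.support ∧ ∃ j : Fin N, α j ≠ 0 ∧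
      ∀ l, l ≠ i0 → (α - (Finsupp.single j 1 : Fin N →₀ ℕ)) l = 0 := by
  obtain ⟨ε, hε, hcrit⟩ := hi
  set t : ℝ := ε / 2 with ht
  have htpos : 0 < t := by positivity
  set z : Fin N → ℂ := fun l => if l = i0 then (t : ℂ) else 0 with hz
  have hzsmall : ∀ l, ‖z l‖ < ε := by
    intro l
    by_cases hl : l = i0
    · simp only [hz, hl, if_true, Complex.norm_real, Real.norm_eq_abs, abs_of_pos htpos]
      rw [ht]; linarith
    · simp only [hz, hl, if_false, norm_zero]; exact hε
  have hzne : z ≠ 0 := by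
    intro h0
    have := congrFun h0 i0
    simp only [hz, if_true, Pi.zero_apply] at this
    have h2 : t = 0 := by exact_mod_cast this
    exact htpos.ne' h2
  have hnot : ¬ ∀ j, eval z (pderiv j f) = 0 := fun hall => hzne (hcrit z hzsmall hall)
  push Not at hnot
  obtain ⟨j, hj⟩ := hnot
  have hexp : pderiv j f = ∑ α ∈ f.support, pderiv j (monomial α (coeff α f)) := by
    conv_lhs => rw [f.as_sum]
    rw [map_sum]
  rw [hexp, map_sum] at hj
  obtain ⟨α, hα, hne⟩ := Finset.exists_ne_zero_of_sum_ne_zero hj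
  refine ⟨α, hα, j, ?_, ?_⟩
  · intro h0
    rw [pderiv_monomial, h0] at hne
    simp at hne
  · intro l hl
    rw [pderiv_monomial, eval_monomial] at hne
    have hprod := right_ne_zero_of_mul hne
    rw [Finsupp.prod] at hprod
    by_contra hβ
    have hmem : l ∈ (α - (Finsupp.single j 1 : Fin N →₀ ℕ)).support := Finsupp.mem_support_iff.mpr hβ
    have hzl : z l = 0 := by simp only [hz, hl, if_false]
    apply hprod
    apply Finset.prod_eq_zero hmem
    rw [hzl]; exact zero_pow hβ

/-- Formula for the multiplicity. -/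
theorem ord0_eq (q : Fin N → ℚ) (f : MvPolynomial (Fin N) ℂ) (hq : ∀ i, 2 ≤ q i)
    (hf : IsWeightedHomog q f) (hi : IsolatedCrit f) (i0 : Fin N) (hmin : ∀ k, q i0 ≤ q k) :
    ord0 f = ⌈q i0⌉₊ := by
  have hQ : 2 ≤ q i0 := hq i0
  have hQpos : 0 < q i0 := by linarith
  -- lower bound
  have hlow : ∀ α ∈ f.support, ⌈q i0⌉₊ ≤ α.degree := by
    intro α hα
    have h1 := hf α hα
    have h2 : (1 : ℚ) ≤ (α.degree : ℚ) / q i0 := by
      rw [Finsupp.degree_eq_sum]
      push_cast
      rw [Finset.sum_div, ← h1]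
      apply Finset.sum_le_sum
      intro l _
      apply div_le_div_of_nonneg_left (by positivity) hQpos (hmin l)
    rw [le_div_iff₀ hQpos, one_mul] at h2
    exact Nat.ceil_le.mpr h2
  -- upper bound
  obtain ⟨α, hα, j, hj, hβ⟩ := exists_pointer f hi i0
  have hup : α.degree ≤ ⌈q i0⌉₊ := by
    set β := α - Finsupp.single j 1 with hβdef
    have hle : Finsupp.single j 1 ≤ α := by
      rw [Finsupp.single_le_iff]
      exact Nat.one_le_iff_ne_zero.mpr hj
    have hαβ : α = β + Finsupp.single j 1 := by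
      rw [hβdef]; exact (tsub_add_cancel_of_le hle).symm
    have hsumβ : ∑ l, (β l : ℚ) / q l = (β i0 : ℚ) / q i0 := by
      apply Finset.sum_eq_single i0
      · intro l _ hl
        rw [hβ l hl]; simp
      · simp
    have hsumα : ∑ l, (α l : ℚ) / q l = (β i0 : ℚ) / q i0 + 1 / q j := by
      rw [← hsumβ]
      have : ∀ l, (α l : ℚ) / q l = (β l : ℚ) / q l + (if l = j then 1 / q j else 0) := by
        intro l
        rw [hαβ]
        simp only [Finsupp.coe_add, Pi.add_apply, Finsupp.single_apply]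
        by_cases hl : l = j
        · subst hl; simp; ring
        · have : ¬ j = l := fun h => hl h.symm
          simp [hl, this]
      rw [Finset.sum_congr rfl (fun l _ => this l), Finset.sum_add_distrib]
      simp
    have h1 := hf α hα
    rw [hsumα] at h1
    have hqj : 0 < 1 / q j := by
      have : 0 < q j := by linarith [hq j]
      positivity
    have hlt : (β i0 : ℚ) < q i0 := by
      have : (β i0 : ℚ) / q i0 < 1 := by linarith
      rwa [div_lt_one hQpos] at this
    have hceil : β i0 < ⌈q i0⌉₊ := Nat.lt_ceil.mpr hlt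
    have hdeg : α.degree = β i0 + 1 := by
      rw [hαβ, map_add, Finsupp.degree_single]
      congr 1
      rw [Finsupp.degree_eq_sum]
      apply Finset.sum_eq_single i0
      · intro l _ hl
        exact hβ l hl
      · simp
    omega
  -- conclude
  have hmem : α.degree ∈ {d | ∃ α ∈ f.support, α.degree = d} := ⟨α, hα, rfl⟩
  apply le_antisymm
  · exact (Nat.sInf_le hmem).trans hup
  · apply le_csInf ⟨_, hmem⟩
    rintro d ⟨γ', hγ', rfl⟩
    exact hlow γ' hγ'

/-- The top coordinate of `q` is rigid: the smallest `q i` is an integer `≠ 2`, or is alone in its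
numerator class, or equals `2` and the number of coordinates equal to `2` is odd. -/
def TopRigid (q : Fin N → ℚ) : Prop :=
  ∃ i, (∀ k, q i ≤ q k) ∧
    (((q i).den = 1 ∧ q i ≠ 2) ∨ ((∀ j, nm (q j) = nm (q i) → j = i)) ∨
      (q i = 2 ∧ Odd (univ.filter (fun k => q k = 2)).card))

lemma one_le_prod_aux {ι : Type*} (s : Finset ι) (F : ι → ℚ) (h : ∀ x ∈ s, 1 ≤ F x) :
    1 ≤ ∏ x ∈ s, F x :=
  Finset.prod_induction F (fun x => 1 ≤ x) (fun _ _ ha hb => one_le_mul_of_one_le_of_one_le ha hb)
    le_rfl h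

lemma le_prod_aux {ι : Type*} [DecidableEq ι] {s : Finset ι} {a : ι} (ha : a ∈ s) (F : ι → ℚ)
    (h : ∀ x ∈ s, 1 ≤ F x) : F a ≤ ∏ x ∈ s, F x := by
  rw [← Finset.mul_prod_erase s F ha]
  have h1 : 1 ≤ ∏ x ∈ s.erase a, F x :=
    one_le_prod_aux _ _ (fun x hx => h x (Finset.mem_of_mem_erase hx))
  have h2 : 0 ≤ F a := by linarith [h a ha]
  nlinarith

/-- If the top of `q` is rigid then `q'` has a coordinate at most the smallest `q i`. -/
lemma exists_le_of_topRigid (q q' : Fin N → ℚ) (hq : ∀ i, 2 ≤ q i) (hq' : ∀ i, 2 ≤ q' i)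
    (h : ∀ m : ℕ, 1 ≤ m → monodromyTrace q m = monodromyTrace q' m)
    (i : Fin N) (hcase : ((q i).den = 1 ∧ q i ≠ 2) ∨ ((∀ j, nm (q j) = nm (q i) → j = i)) ∨
      (q i = 2 ∧ Odd (univ.filter (fun k => q k = 2)).card)) :
    ∃ j, q' j ≤ q i := by
  have hsquare : q i = 2 → Odd (univ.filter (fun k => q k = 2)).card → ∃ j, q' j ≤ q i := by
    intro h2 hodd
    obtain ⟨j, hj⟩ := exists_two_of_odd q q' hq hq' h hodd
    exact ⟨j, by rw [hj, h2]⟩
  -- the class product of `b = nm (q i)` when `q i ≠ 2`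
  have hne : q i ≠ 2 → ∃ j, nm (q' j) = nm (q i) := by
    intro h2
    have hb3 : 3 ≤ nm (q i) := by
      have h3 := nm_ge_two (hq i)
      have : nm (q i) ≠ 2 := fun h4 => h2 (eq_two_of_nm_eq_two (hq i) h4)
      omega
    have hc := cp_eq_of_trace q q' hq hq' h (nm (q i)) (by omega)
    have hgt : 1 < q i - 1 := by
      have : 2 < q i := lt_of_le_of_ne (hq i) (Ne.symm h2)
      linarith
    have h1 : q i - 1 ≤ cp q (nm (q i)) := by
      unfold cp
      apply le_prod_aux (F := fun k => q k - 1) (a := i)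
      · simp
      · intro x _; linarith [hq x]
    by_contra hno
    push Not at hno
    have hempty : univ.filter (fun j => nm (q' j) = nm (q i)) = ∅ := by
      apply Finset.filter_false_of_mem
      intro j _
      exact hno j
    have h5 : cp q' (nm (q i)) = 1 := by
      unfold cp
      rw [hempty, Finset.prod_empty]
    rw [hc, h5] at h1
    linarith
  rcases hcase with ⟨hd, h2⟩ | hsing | ⟨h2, hodd⟩
  · obtain ⟨j, hj⟩ := hne h2
    refine ⟨j, ?_⟩
    have := le_nm (hq' j)
    rw [hj, ← eq_nm_of_den_one (hq i) hd] at this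
    exact this
  · by_cases h2 : q i = 2
    · apply hsquare h2
      have : univ.filter (fun k => q k = 2) = {i} := by
        ext k
        simp only [mem_filter, mem_univ, true_and, mem_singleton]
        constructor
        · intro hk
          exact hsing k (by rw [hk, h2])
        · rintro rfl; exact h2
      rw [this]; simp
    · obtain ⟨j, hj⟩ := hne h2
      refine ⟨j, ?_⟩
      have hc := cp_eq_of_trace q q' hq hq' h (nm (q i))
        (by have := nm_ge_two (hq i); omega)
      have hsingle : univ.filter (fun k => nm (q k) = nm (q i)) = {i} := by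
        ext k
        simp only [mem_filter, mem_univ, true_and, mem_singleton]
        constructor
        · exact hsing k
        · rintro rfl; rfl
      have h1 : cp q (nm (q i)) = q i - 1 := by
        unfold cp
        rw [hsingle, Finset.prod_singleton]
      have h3 : q' j - 1 ≤ cp q' (nm (q i)) := by
        unfold cp
        apply le_prod_aux (F := fun k => q' k - 1) (a := j)
        · simp [hj]
        · intro x _; linarith [hq' x]
      rw [← hc, h1] at h3
      linarith
  · exact hsquare h2 hodd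

/-- Inequality of multiplicities from the traces alone. -/
theorem ord_le_of_topRigid (hN : 0 < N) (q q' : Fin N → ℚ) (f g : MvPolynomial (Fin N) ℂ)
    (hq : ∀ i, 2 ≤ q i) (hq' : ∀ i, 2 ≤ q' i)
    (hf : IsWeightedHomog q f) (hg : IsWeightedHomog q' g)
    (hfi : IsolatedCrit f) (hgi : IsolatedCrit g)
    (h : ∀ m : ℕ, 1 ≤ m → monodromyTrace q m = monodromyTrace q' m)
    (ht : TopRigid q) : ord0 g ≤ ord0 f := by
  obtain ⟨i, hmin, hcase⟩ := ht
  obtain ⟨j, hj⟩ := exists_le_of_topRigid q q' hq hq' h i hcase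
  have : Nonempty (Fin N) := ⟨⟨0, hN⟩⟩
  obtain ⟨j0, hj0⟩ := Finite.exists_min q'
  rw [ord0_eq q f hq hf hfi i hmin, ord0_eq q' g hq' hg hgi j0 hj0]
  exact Nat.ceil_le_ceil ((hj0 j).trans hj)

/-- Equal multisets of weights give equal multiplicities. -/
theorem ord_eq_of_counts (hN : 0 < N) (q q' : Fin N → ℚ) (f g : MvPolynomial (Fin N) ℂ)
    (hq : ∀ i, 2 ≤ q i) (hq' : ∀ i, 2 ≤ q' i)
    (hf : IsWeightedHomog q f) (hg : IsWeightedHomog q' g)
    (hfi : IsolatedCrit f) (hgi : IsolatedCrit g)
    (hcount : ∀ v : ℚ, (univ.filter (fun i => q i = v)).card =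
      (univ.filter (fun j => q' j = v)).card) : ord0 f = ord0 g := by
  have : Nonempty (Fin N) := ⟨⟨0, hN⟩⟩
  obtain ⟨i0, hi0⟩ := Finite.exists_min q
  obtain ⟨j0, hj0⟩ := Finite.exists_min q'
  have h1 : ∃ j, q' j = q i0 := by
    have : (univ.filter (fun i => q i = q i0)).card ≠ 0 := by
      apply Finset.card_ne_zero_of_mem (a := i0); simp
    rw [hcount] at this
    obtain ⟨j, hj⟩ := Finset.card_pos.mp (Nat.pos_of_ne_zero this)
    simp only [mem_filter, mem_univ, true_and] at hj
    exact ⟨j, hj⟩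
  have h2 : ∃ i, q i = q' j0 := by
    have : (univ.filter (fun j => q' j = q' j0)).card ≠ 0 := by
      apply Finset.card_ne_zero_of_mem (a := j0); simp
    rw [← hcount] at this
    obtain ⟨j, hj⟩ := Finset.card_pos.mp (Nat.pos_of_ne_zero this)
    simp only [mem_filter, mem_univ, true_and] at hj
    exact ⟨j, hj⟩
  obtain ⟨j, hj⟩ := h1
  obtain ⟨i, hi⟩ := h2
  have h3 : q i0 = q' j0 := le_antisymm (hi ▸ hi0 i) (hj ▸ hj0 j)
  rw [ord0_eq q f hq hf hfi i0 hi0, ord0_eq q' g hq' hg hgi j0 hj0, h3]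

end Vale.Agent.Lib.P268
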