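import Mathlib
import Vale.Agent.Lib.P268.Separate
import Vale.Agent.Lib.P268.Poly

/-!
Assembly: numerator classes that are rigid or separated.
-/

open Finset

namespace Vale.Agent.Lib.P268

variable {N : ℕ}

/-- The class of numerator `b` is rigid: a numerator `b` shared by two coordinates occurs only for
integer `q`. -/
def ClassRigid (q : Fin N → ℚ) (b : ℕ) : Prop :=
  ∀ i j, i ≠ j → nm (q i) = b → nm (q j) = b → (q i).den = 1

/-- The class of numerator `b` is separated: `b` is odd and coprime to all other numerators. -/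
def Separated (q : Fin N → ℚ) (b : ℕ) : Prop :=
  Odd b ∧ ∀ i, nm (q i) ≠ b → Nat.Coprime (nm (q i)) b

lemma class_const' (q : Fin N → ℚ) (hq : ∀ i, 2 ≤ q i) {b : ℕ} (hr : ClassRigid q b) {i i0 : Fin N}
    (h : nm (q i) = b) (h0 : nm (q i0) = b) : q i = q i0 := by
  by_cases hne : i = i0
  · rw [hne]
  · have h1 := hr i i0 hne h h0
    have h2 := hr i0 i (Ne.symm hne) h0 h
    rw [eq_nm_of_den_one (hq i) h1, eq_nm_of_den_one (hq i0) h2, h, h0]

/-- The conclusion for a single rigid class. -/
lemma class_conclusion' (q q' : Fin N → ℚ) (hq : ∀ i, 2 ≤ q i) (hq' : ∀ i, 2 ≤ q' i)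
    {b : ℕ} (hr : ClassRigid q b)
    (h : ∀ m : ℕ, 1 ≤ m → monodromyTrace q m = monodromyTrace q' m) (hb : 3 ≤ b) :
    ∑ j ∈ univ.filter (fun j => nm (q' j) = b), γ (q' j) ≤
      ∑ i ∈ univ.filter (fun i => nm (q i) = b), γ (q i) ∧
    (∑ j ∈ univ.filter (fun j => nm (q' j) = b), γ (q' j) =
      ∑ i ∈ univ.filter (fun i => nm (q i) = b), γ (q i) →
      ∀ v : ℚ, ((univ.filter (fun i => nm (q i) = b)).filter (fun i => q i = v)).card =
        ((univ.filter (fun j => nm (q' j) = b)).filter (fun j => q' j = v)).card) := by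
  have hsum := sum_y_eq q q' hq hq' h (b := b) (by omega)
  have hgt : ∀ j ∈ univ.filter (fun j => nm (q' j) = b), 2 < q' j := by
    intro j hj
    simp only [mem_filter, mem_univ, true_and] at hj
    refine lt_of_le_of_ne (hq' j) ?_
    intro h2
    rw [← h2, nm_two] at hj
    omega
  by_cases hne : (univ.filter (fun i => nm (q i) = b)).Nonempty
  · obtain ⟨i0, hi0⟩ := hne
    simp only [mem_filter, mem_univ, true_and] at hi0
    have hQ : 2 < q i0 := by
      refine lt_of_le_of_ne (hq i0) ?_
      intro h2
      rw [← h2, nm_two] at hi0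
      omega
    have hs : ∀ i ∈ univ.filter (fun i => nm (q i) = b), q i = q i0 := by
      intro i hi
      simp only [mem_filter, mem_univ, true_and] at hi
      exact class_const' q hq hr hi hi0
    have hs' : ∀ j ∈ univ.filter (fun j => nm (q' j) = b), 2 < q' j ∧ q' j ≤ q i0 := by
      intro j hj
      refine ⟨hgt j hj, ?_⟩
      by_cases hden : (q i0).den = 1
      · have h1 := le_nm (hq' j)
        simp only [mem_filter, mem_univ, true_and] at hj
        rw [hj] at h1
        rw [eq_nm_of_den_one (hq i0) hden, hi0]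
        exact h1
      · -- singleton class
        have hsingle : univ.filter (fun i => nm (q i) = b) = {i0} := by
          ext i
          simp only [mem_filter, mem_univ, true_and, mem_singleton]
          constructor
          · intro hi
            by_contra hne
            exact hden (hr i0 i (Ne.symm hne) hi0 hi)
          · rintro rfl; exact hi0
        rw [hsingle, Finset.sum_singleton] at hsum
        apply le_of_y_le (hq' j) hQ
        rw [hsum]
        exact Finset.single_le_sum (f := fun j => y (q' j)) (fun j _ => y_nonneg (hq' j)) hj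
    obtain ⟨h1, h2⟩ := class_ineq _ _ q q' (q i0) hQ hs hs' hsum
    refine ⟨h1, fun heq v => ?_⟩
    obtain ⟨h3, h4⟩ := h2 heq
    by_cases hv : v = q i0
    · subst hv
      have e1 : (univ.filter (fun i => nm (q i) = b)).filter (fun i => q i = q i0) =
          univ.filter (fun i => nm (q i) = b) := by
        apply Finset.filter_true_of_mem
        exact hs
      have e2 : (univ.filter (fun j => nm (q' j) = b)).filter (fun j => q' j = q i0) =
          univ.filter (fun j => nm (q' j) = b) := by
        apply Finset.filter_true_of_mem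
        exact h3
      rw [e1, e2, h4]
    · have e1 : (univ.filter (fun i => nm (q i) = b)).filter (fun i => q i = v) = ∅ := by
        apply Finset.filter_false_of_mem
        intro i hi hiv
        exact hv (hiv.symm.trans (hs i hi))
      have e2 : (univ.filter (fun j => nm (q' j) = b)).filter (fun j => q' j = v) = ∅ := by
        apply Finset.filter_false_of_mem
        intro j hj hjv
        exact hv (hjv.symm.trans (h3 j hj))
      rw [e1, e2]
  · rw [Finset.not_nonempty_iff_eq_empty] at hne
    rw [hne, Finset.sum_empty] at hsum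
    have hempty : univ.filter (fun j => nm (q' j) = b) = ∅ := by
      by_contra hne2
      obtain ⟨j, hj⟩ := Finset.nonempty_iff_ne_empty.mpr hne2
      have := Finset.sum_pos (s := univ.filter (fun j => nm (q' j) = b))
        (f := fun j => y (q' j)) (fun j hj => y_pos (hgt j hj)) ⟨j, hj⟩
      linarith
    rw [hne, hempty]
    simp

/-- Equal counts in the classes give equal sums. -/
lemma sum_eq_of_counts (q q' : Fin N → ℚ) (F : ℚ → ℝ) (s s' : Finset (Fin N))
    (h : ∀ v : ℚ, (s.filter (fun i => q i = v)).card = (s'.filter (fun j => q' j = v)).card) :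
    ∑ i ∈ s, F (q i) = ∑ j ∈ s', F (q' j) := by
  classical
  set V : Finset ℚ := (s.image q) ∪ (s'.image q') with hV
  have h1 : ∀ (r : Fin N → ℚ) (t : Finset (Fin N)), (∀ i ∈ t, r i ∈ V) →
      ∑ i ∈ t, F (r i) = ∑ v ∈ V, ((t.filter (fun i => r i = v)).card : ℝ) * F v := by
    intro r t ht
    rw [← Finset.sum_fiberwise_of_maps_to ht]
    apply Finset.sum_congr rfl
    intro v _
    rw [Finset.sum_congr rfl (g := fun _ => F v)]
    · rw [Finset.sum_const, nsmul_eq_mul]
    · intro i hi
      rw [(mem_filter.mp hi).2]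
  rw [h1 q s (fun i hi => mem_union_left _ (mem_image_of_mem _ hi)),
    h1 q' s' (fun i hi => mem_union_right _ (mem_image_of_mem _ hi))]
  apply Finset.sum_congr rfl
  intro v _
  rw [h v]

/-- A numerator `c ≥ 3` of `q'` is a numerator of `q`. -/
lemma exists_of_numerator (q q' : Fin N → ℚ) (hq : ∀ i, 2 ≤ q i) (hq' : ∀ i, 2 ≤ q' i)
    (h : ∀ m : ℕ, 1 ≤ m → monodromyTrace q m = monodromyTrace q' m) (j : Fin N)
    (hj : 3 ≤ nm (q' j)) : ∃ i, nm (q i) = nm (q' j) := by
  by_contra hno
  push Not at hno
  have hsum := sum_y_eq q q' hq hq' h (b := nm (q' j)) (by omega)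
  have hemp : univ.filter (fun i => nm (q i) = nm (q' j)) = ∅ := by
    apply Finset.filter_false_of_mem
    intro i _
    exact hno i
  rw [hemp, Finset.sum_empty] at hsum
  have hgt : 2 < q' j := by
    refine lt_of_le_of_ne (hq' j) ?_
    intro h2
    rw [← h2, nm_two] at hj
    omega
  have hmem : j ∈ univ.filter (fun k => nm (q' k) = nm (q' j)) := by simp
  have := Finset.single_le_sum (f := fun k => y (q' k)) (fun k _ => y_nonneg (hq' k)) hmem
  have h3 := y_pos hgt
  linarith

/-- The assembly from the class statements. -/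
theorem weights_eq_of_classes (q q' : Fin N → ℚ) (hq : ∀ i, 2 ≤ q i) (hq' : ∀ i, 2 ≤ q' i)
    (hlog : ∑ i, γ (q i) = ∑ j, γ (q' j))
    (hclass : ∀ b : ℕ, 3 ≤ b →
      ∑ j ∈ univ.filter (fun j => nm (q' j) = b), γ (q' j) ≤
        ∑ i ∈ univ.filter (fun i => nm (q i) = b), γ (q i) ∧
      (∑ j ∈ univ.filter (fun j => nm (q' j) = b), γ (q' j) =
        ∑ i ∈ univ.filter (fun i => nm (q i) = b), γ (q i) →
        ∀ v : ℚ, ((univ.filter (fun i => nm (q i) = b)).filter (fun i => q i = v)).card =
          ((univ.filter (fun j => nm (q' j) = b)).filter (fun j => q' j = v)).card)) :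
    ∀ v : ℚ, (univ.filter (fun i => q i = v)).card = (univ.filter (fun j => q' j = v)).card := by
  -- the set of classes
  set B : Finset ℕ := (univ.image fun i => nm (q i)) ∪ (univ.image fun j => nm (q' j)) with hB
  have hmaps : ∀ i ∈ (univ : Finset (Fin N)), nm (q i) ∈ B := by
    intro i _
    exact mem_union_left _ (mem_image_of_mem _ (mem_univ i))
  have hmaps' : ∀ j ∈ (univ : Finset (Fin N)), nm (q' j) ∈ B := by
    intro j _
    exact mem_union_right _ (mem_image_of_mem _ (mem_univ j))
  have hB2 : ∀ b ∈ B, 2 ≤ b := by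
    intro b hb
    rw [hB, mem_union, mem_image, mem_image] at hb
    rcases hb with ⟨i, _, rfl⟩ | ⟨j, _, rfl⟩
    · exact nm_ge_two (hq i)
    · exact nm_ge_two (hq' j)
  have hfib : ∑ b ∈ B, ∑ i ∈ univ.filter (fun i => nm (q i) = b), γ (q i) = ∑ i, γ (q i) :=
    Finset.sum_fiberwise_of_maps_to hmaps _
  have hfib' : ∑ b ∈ B, ∑ j ∈ univ.filter (fun j => nm (q' j) = b), γ (q' j) = ∑ j, γ (q' j) :=
    Finset.sum_fiberwise_of_maps_to hmaps' _
  -- class 2 is trivial
  have hclass2 : ∀ (r : Fin N → ℚ), (∀ i, 2 ≤ r i) →
      ∑ i ∈ univ.filter (fun i => nm (r i) = 2), γ (r i) = 0 := by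
    intro r hr2
    apply Finset.sum_eq_zero
    intro i hi
    simp only [mem_filter, mem_univ, true_and] at hi
    rw [eq_two_of_nm_eq_two (hr2 i) hi, γ_two]
  -- termwise nonnegativity
  have hnonneg : ∀ b ∈ B, 0 ≤ ∑ i ∈ univ.filter (fun i => nm (q i) = b), γ (q i) -
      ∑ j ∈ univ.filter (fun j => nm (q' j) = b), γ (q' j) := by
    intro b hb
    by_cases hb2 : b = 2
    · subst hb2
      rw [hclass2 q hq, hclass2 q' hq']; simp
    · have hb3 : 3 ≤ b := by have := hB2 b hb; omega
      have := (hclass b hb3).1
      linarith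
  have hzero : ∑ b ∈ B, (∑ i ∈ univ.filter (fun i => nm (q i) = b), γ (q i) -
      ∑ j ∈ univ.filter (fun j => nm (q' j) = b), γ (q' j)) = 0 := by
    rw [Finset.sum_sub_distrib, hfib, hfib', hlog, sub_self]
  have hallzero := (Finset.sum_eq_zero_iff_of_nonneg hnonneg).mp hzero
  -- counts for v ≠ 2
  have hcount : ∀ v : ℚ, v ≠ 2 →
      (univ.filter (fun i => q i = v)).card = (univ.filter (fun j => q' j = v)).card := by
    intro v hv
    by_cases hex : (univ.filter (fun i => q i = v)).Nonempty ∨
        (univ.filter (fun j => q' j = v)).Nonempty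
    · have hb : nm v ∈ B ∧ 3 ≤ nm v := by
        rcases hex with ⟨i, hi⟩ | ⟨j, hj⟩
        · simp only [mem_filter, mem_univ, true_and] at hi
          subst hi
          refine ⟨hmaps i (mem_univ i), ?_⟩
          have h2 := nm_ge_two (hq i)
          have : nm (q i) ≠ 2 := fun h3 => hv (eq_two_of_nm_eq_two (hq i) h3)
          omega
        · simp only [mem_filter, mem_univ, true_and] at hj
          subst hj
          refine ⟨hmaps' j (mem_univ j), ?_⟩
          have h2 := nm_ge_two (hq' j)
          have : nm (q' j) ≠ 2 := fun h3 => hv (eq_two_of_nm_eq_two (hq' j) h3)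
          omega
      have hconc := (hclass _ hb.2).2
      have heq := hallzero (nm v) hb.1
      have := hconc (by linarith) v
      have e1 : (univ.filter (fun i => nm (q i) = nm v)).filter (fun i => q i = v) =
          univ.filter (fun i => q i = v) := by
        ext i
        simp only [mem_filter, mem_univ, true_and]
        constructor
        · exact fun h => h.2
        · intro h; exact ⟨by rw [h], h⟩
      have e2 : (univ.filter (fun j => nm (q' j) = nm v)).filter (fun j => q' j = v) =
          univ.filter (fun j => q' j = v) := by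
        ext j
        simp only [mem_filter, mem_univ, true_and]
        constructor
        · exact fun h => h.2
        · intro h; exact ⟨by rw [h], h⟩
      rwa [e1, e2] at this
    · push Not at hex
      rw [hex.1, hex.2]
  intro v
  by_cases hv : v = 2
  · subst hv
    -- count of 2's by complement
    set V : Finset ℚ := ((univ.image q) ∪ (univ.image q')).erase 2 with hV
    have hc1 : (univ.filter (fun i => q i ≠ 2)).card =
        ∑ v ∈ V, (univ.filter (fun i => q i = v)).card := by
      rw [Finset.card_eq_sum_card_fiberwise (f := q) (t := V)]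
      · apply Finset.sum_congr rfl
        intro v hv
        have hv2 : v ≠ 2 := (mem_erase.mp hv).1
        congr 1
        ext i
        simp only [mem_filter, mem_univ, true_and]
        constructor
        · exact fun h => h.2
        · intro h; exact ⟨by rw [h]; exact hv2, h⟩
      · intro i hi
        simp only [coe_filter, mem_univ, true_and, Set.mem_ofPred_eq] at hi
        simp only [hV, coe_erase, coe_union, coe_image, coe_univ, Set.image_univ, Set.mem_sdiff,
          Set.mem_union, Set.mem_range, exists_apply_eq_apply, true_or, Set.mem_singleton_iff,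
          true_and]
        exact hi
    have hc2 : (univ.filter (fun i => q' i ≠ 2)).card =
        ∑ v ∈ V, (univ.filter (fun i => q' i = v)).card := by
      rw [Finset.card_eq_sum_card_fiberwise (f := q') (t := V)]
      · apply Finset.sum_congr rfl
        intro v hv
        have hv2 : v ≠ 2 := (mem_erase.mp hv).1
        congr 1
        ext i
        simp only [mem_filter, mem_univ, true_and]
        constructor
        · exact fun h => h.2
        · intro h; exact ⟨by rw [h]; exact hv2, h⟩
      · intro i hi
        simp only [coe_filter, mem_univ, true_and, Set.mem_ofPred_eq] at hi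
        simp only [hV, coe_erase, coe_union, coe_image, coe_univ, Set.image_univ, Set.mem_sdiff,
          Set.mem_union, Set.mem_range, exists_apply_eq_apply, or_true, Set.mem_singleton_iff,
          true_and]
        exact hi
    have hne : (univ.filter (fun i => q i ≠ 2)).card = (univ.filter (fun i => q' i ≠ 2)).card := by
      rw [hc1, hc2]
      apply Finset.sum_congr rfl
      intro v hv
      exact hcount v (mem_erase.mp hv).1
    have e1 : (univ.filter (fun i => q i = 2)).card + (univ.filter (fun i => q i ≠ 2)).card = N := by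
      have := Finset.card_filter_add_card_filter_not (s := (univ : Finset (Fin N))) (fun i => q i = 2)
      simpa using this
    have e2 : (univ.filter (fun i => q' i = 2)).card + (univ.filter (fun i => q' i ≠ 2)).card = N := by
      have := Finset.card_filter_add_card_filter_not (s := (univ : Finset (Fin N))) (fun i => q' i = 2)
      simpa using this
    omega
  · exact hcount v hv

/-- `lc` at `k = 1` is `γ`. -/
lemma lc_one_eq_γ {x : ℚ} (hx : 2 ≤ x) :
    lc (((1 : ℕ) : ℝ) * Real.pi / (2 * (x : ℝ))) = γ x := by
  have hx' : (2 : ℝ) ≤ (x : ℝ) := by exact_mod_cast hx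
  have hpi := Real.pi_pos
  have h1 : Real.pi / (2 * (x : ℝ)) ≤ Real.pi / 4 := by
    apply div_le_div_of_nonneg_left hpi.le (by norm_num)
    linarith
  have h0 : 0 < Real.pi / (2 * (x : ℝ)) := by positivity
  have hp : 0 < Real.cos (Real.pi / (2 * (x : ℝ))) / Real.sin (Real.pi / (2 * (x : ℝ))) := by
    apply div_pos
    · exact Real.cos_pos_of_mem_Ioo ⟨by linarith, by linarith⟩
    · exact Real.sin_pos_of_pos_of_lt_pi h0 (by linarith)
  unfold lc γ
  have e : ((1 : ℕ) : ℝ) * Real.pi / (2 * (x : ℝ)) = Real.pi / (2 * (x : ℝ)) := by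
    push_cast; ring
  rw [e, abs_of_pos hp]

/-- The main theorem for rigid or separated classes. -/
theorem weights_eq_mixed (q q' : Fin N → ℚ) (hq : ∀ i, 2 ≤ q i) (hq' : ∀ i, 2 ≤ q' i)
    (h : ∀ m : ℕ, 1 ≤ m → monodromyTrace q m = monodromyTrace q' m)
    (hcot : ∀ k : ℕ, Odd k → (∀ i, ¬ nm (q i) ∣ k) → (∀ j, ¬ nm (q' j) ∣ k) →
      |cotK q k| = |cotK q' k|)
    (hsep : ∀ b : ℕ, 3 ≤ b → ClassRigid q b ∨ Separated q b) :
    ∀ v : ℚ, (univ.filter (fun i => q i = v)).card = (univ.filter (fun j => q' j = v)).card := by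
  have hk : ∀ k : ℕ, Odd k → (∀ i, ¬ nm (q i) ∣ k) → (∀ j, ¬ nm (q' j) ∣ k) →
      ∑ i, lc ((k : ℝ) * Real.pi / (2 * (q i : ℝ))) =
        ∑ j, lc ((k : ℝ) * Real.pi / (2 * (q' j : ℝ))) := by
    intro k hk1 hk2 hk3
    rw [← log_cotK q hq hk2, ← log_cotK q' hq' hk3, hcot k hk1 hk2 hk3]
  have hlog : ∑ i, γ (q i) = ∑ j, γ (q' j) := by
    have h1 := hk 1 odd_one
      (fun i hd => by have := nm_ge_two (hq i); have := Nat.le_of_dvd one_pos hd; omega)
      (fun j hd => by have := nm_ge_two (hq' j); have := Nat.le_of_dvd one_pos hd; omega)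
    rw [Finset.sum_congr rfl (fun i _ => lc_one_eq_γ (hq i)),
      Finset.sum_congr rfl (fun j _ => lc_one_eq_γ (hq' j))] at h1
    exact h1
  apply weights_eq_of_classes q q' hq hq' hlog
  intro b hb3
  rcases hsep b hb3 with hr | ⟨hodd, hcop⟩
  · exact class_conclusion' q q' hq hq' hr h hb3
  · have hcop' : ∀ j, nm (q' j) ≠ b → Nat.Coprime (nm (q' j)) b := by
      intro j hne
      by_cases h2 : nm (q' j) = 2
      · rw [h2]
        exact (Nat.coprime_two_left).mpr hodd
      · have h3 := nm_ge_two (hq' j)
        obtain ⟨i, hi⟩ := exists_of_numerator q q' hq hq' h j (by omega)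
        rw [← hi]
        exact hcop i (by rw [hi]; exact hne)
    have hcount := class_eq_of_char q q' hq hq' hodd hb3
      (cp_eq_of_trace q q' hq hq' h b (by omega))
      (char_of_separated q q' hq hq' hodd hcop hcop' hk)
    have hs := sum_eq_of_counts q q' γ _ _ hcount
    exact ⟨hs.ge, fun _ => hcount⟩

end Vale.Agent.Lib.P268
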