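import Mathlib
import Vale.Agent.Lib.P268.Mixed

/-!
Separated even numerator classes.
-/

open Finset

namespace Vale.Agent.Lib.P268

variable {N : ℕ}

/-- The square coordinates give nothing at odd `k`. -/
lemma lc_two {k : ℕ} (hk : Odd k) : lc ((k : ℝ) * Real.pi / (2 * (((2 : ℚ)) : ℝ))) = 0 := by
  set x : ℝ := (k : ℝ) * Real.pi / (2 * (((2 : ℚ)) : ℝ)) with hx
  have hne : ¬ nm (2 : ℚ) ∣ k := by
    rw [nm_two]
    intro hd
    exact (Nat.not_even_iff_odd.mpr hk) (even_iff_two_dvd.mpr hd)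
  obtain ⟨h1, h2⟩ := sin_cos_ne (le_refl (2 : ℚ)) hne
  rw [← hx] at h1 h2
  have h3 : Real.cos (2 * x) = 0 := by
    rw [Real.cos_eq_zero_iff]
    obtain ⟨m, hm⟩ := hk
    refine ⟨m, ?_⟩
    rw [hx, hm]
    push_cast
    ring
  have h4 : Real.cos x ^ 2 = Real.sin x ^ 2 := by
    have h5 := Real.cos_two_mul x
    have h6 := Real.sin_sq_add_cos_sq x
    rw [h3] at h5
    nlinarith
  have h5 : |Real.cos x| = |Real.sin x| := (sq_eq_sq_iff_abs_eq_abs _ _).mp h4
  unfold lc
  rw [abs_div, h5, div_self (abs_ne_zero.mpr h2), Real.log_one]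

/-- The cotangent nonvanishing for an even modulus divisible by four. -/
theorem sum_gam_even_ne_zero {f : ℕ} [NeZero f] {χ : DirichletCharacter ℂ f} (hf : 1 < f)
    (hf4 : 4 ∣ f) (hp : χ.IsPrimitive) (h1 : χ ≠ 1) (he : χ.Even)
    (hu : χ (((1 + f / 2 : ℕ)) : ZMod f) = -1) :
    ∑ t : ZMod f, χ t * (Gam f t : ℂ) ≠ 0 := by
  have hfpos : (0 : ℝ) < f := by exact_mod_cast (by omega : 0 < f)
  have hS := sum_ell_ne_zero hf hp h1 he
  set S := ∑ j : ZMod f, χ j * (ell f j : ℂ) with hSdef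
  set u : ZMod f := ((1 + f / 2 : ℕ) : ZMod f) with hudef
  have huu : u * u = 1 := by
    obtain ⟨m, hm⟩ := hf4
    have h2 : f / 2 = 2 * m := by omega
    have h3 : (1 + f / 2) * (1 + f / 2) = 1 + f * (1 + m) := by
      rw [h2, hm]; ring
    rw [hudef, ← Nat.cast_mul, h3]
    push_cast
    rw [ZMod.natCast_self]
    ring
  have huunit : IsUnit u := IsUnit.of_mul_eq_one _ huu
  have hterm : ∀ t : ZMod f, IsUnit t → Gam f t = ell f (t * u) - ell f t := by
    intro t ht
    have hcop : Nat.Coprime t.val f := by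
      have : ((t.val : ℕ) : ZMod f) = t := ZMod.natCast_zmod_val t
      rw [← this] at ht
      exact (ZMod.isUnit_iff_coprime _ _).mp ht
    have hodd : Odd t.val := by
      have h2 : Nat.Coprime t.val 2 := Nat.Coprime.coprime_dvd_right (Dvd.dvd.trans (by norm_num) hf4) hcop
      exact (Nat.coprime_two_right).mp h2
    have ht0 : t ≠ 0 := by
      intro h0
      rw [h0] at ht
      have : Fact (1 < f) := ⟨hf⟩
      exact not_isUnit_zero ht
    have hv0 : 0 < t.val := Nat.pos_of_ne_zero ((ZMod.val_ne_zero t).mpr ht0)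
    have hv1 : t.val < f := ZMod.val_lt t
    set θ : ℝ := Real.pi * (t.val : ℝ) / (f : ℝ) with hθ
    have hθ0 : 0 < θ := by
      rw [hθ]; have : (0 : ℝ) < t.val := by exact_mod_cast hv0
      positivity
    have hθ1 : θ < Real.pi := by
      rw [hθ, div_lt_iff₀ hfpos]
      have : (t.val : ℝ) < f := by exact_mod_cast hv1
      nlinarith [Real.pi_pos]
    have hs : 0 < Real.sin θ := Real.sin_pos_of_pos_of_lt_pi hθ0 hθ1
    have hc : Real.cos θ ≠ 0 := by
      intro h0
      rw [Real.cos_eq_zero_iff] at h0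
      obtain ⟨n, hn⟩ := h0
      have hpi := Real.pi_ne_zero
      have h3 : 2 * (t.val : ℝ) = (2 * (n : ℝ) + 1) * (f : ℝ) := by
        rw [hθ] at hn
        field_simp at hn
        linarith
      have h4 : (2 * (t.val : ℤ)) = (2 * n + 1) * (f : ℤ) := by exact_mod_cast h3
      obtain ⟨m, hm⟩ := hf4
      obtain ⟨w, hw⟩ := hodd
      have hf' : (f : ℤ) = 4 * (m : ℤ) := by exact_mod_cast hm
      have ht' : (t.val : ℤ) = 2 * (w : ℤ) + 1 := by exact_mod_cast hw
      rw [hf', ht'] at h4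
      have h5 : (2 * (w : ℤ) + 1) = 2 * ((2 * n + 1) * (m : ℤ)) := by linarith
      omega
    obtain ⟨w, hw⟩ := hodd
    have hm : (t * u : ZMod f) = ((t.val * (1 + f / 2) : ℕ) : ZMod f) := by
      push_cast
      rw [ZMod.natCast_zmod_val, hudef]
      push_cast
      ring
    have hsin : |Real.sin (Real.pi * ((t * u : ZMod f).val : ℝ) / (f : ℝ))| = |Real.cos θ| := by
      rw [hm, abs_sin_natCast_val]
      obtain ⟨m', hm'⟩ := hf4
      have h2 : f / 2 = 2 * m' := by omega
      have e : Real.pi * ((t.val * (1 + f / 2) : ℕ) : ℝ) / (f : ℝ) =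
          θ + ((w : ℕ) : ℝ) * Real.pi + Real.pi / 2 := by
        rw [h2, hθ, hw]
        push_cast
        have hf' : (f : ℝ) = 4 * (m' : ℝ) := by exact_mod_cast hm'
        have hm0 : (m' : ℝ) ≠ 0 := by
          intro h0
          rw [h0] at hf'
          linarith
        rw [hf']
        field_simp
        ring
      rw [e, Real.sin_add_pi_div_two, Real.cos_add_nat_mul_pi, abs_mul, abs_pow, abs_neg, abs_one,
        one_pow, one_mul]
    unfold Gam ell
    rw [hsin, ← hθ, abs_div, abs_of_pos hs]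
    have hcabs : 0 < |Real.cos θ| := abs_pos.mpr hc
    rw [Real.log_mul (by norm_num) hcabs.ne', Real.log_mul (by norm_num) hs.ne',
      Real.log_div hcabs.ne' hs.ne']
    ring
  have h2 : ∑ t : ZMod f, χ t * (ell f (t * u) : ℂ) = (χ u)⁻¹ * S := by
    rw [hSdef, Finset.mul_sum]
    obtain ⟨w, hw⟩ := huunit
    have hne : χ (w : ZMod f) ≠ 0 := by
      have := (DirichletCharacter.unit_norm_eq_one χ w)
      intro h0
      rw [h0] at this
      simp at this
    rw [← hw]
    apply Fintype.sum_equiv (Units.mulRight w)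
    intro t
    simp only [Units.mulRight_apply]
    rw [map_mul]
    field_simp
  have h3 : ∑ t : ZMod f, χ t * (Gam f t : ℂ) = ((χ u)⁻¹ - 1) * S := by
    rw [sub_mul, ← h2, one_mul, hSdef, ← Finset.sum_sub_distrib]
    apply Finset.sum_congr rfl
    intro t _
    by_cases ht : IsUnit t
    · rw [hterm t ht]
      push_cast
      ring
    · rw [MulChar.map_nonunit χ ht]
      ring
  rw [h3]
  apply mul_ne_zero _ hS
  rw [hudef, hu]
  norm_num

/-- The angle on an even class. -/
lemma angle_class_even {x : ℚ} (hx : 2 ≤ x) {b f g v : ℕ} (hb : nm x = b) (h2b : 2 * b = f * g)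
    (hf : f ≠ 0) (hg : g ≠ 0) :
    ((g * v : ℕ) : ℝ) * Real.pi / (2 * (x : ℝ)) =
      Real.pi * ((v * x.den : ℕ) : ℝ) / (f : ℝ) := by
  have h1 := (den_facts hx hb).1
  have hd : (x.den : ℝ) ≠ 0 := by exact_mod_cast x.den_pos.ne'
  have hf' : (f : ℝ) ≠ 0 := by exact_mod_cast hf
  have hg' : (g : ℝ) ≠ 0 := by exact_mod_cast hg
  have h2b' : 2 * (b : ℝ) = (f : ℝ) * (g : ℝ) := by exact_mod_cast h2b
  have hb0 : (b : ℝ) ≠ 0 := by
    intro h0
    rw [h0, mul_zero] at h2b'
    exact mul_ne_zero hf' hg' h2b'.symm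
  have h2 : (x : ℝ) = (b : ℝ) / (x.den : ℝ) := by
    have := congrArg (Rat.cast : ℚ → ℝ) h1
    push_cast at this
    exact this
  rw [h2]
  have h3 : (b : ℝ) = (f : ℝ) * (g : ℝ) / 2 := by linarith
  rw [h3]
  push_cast
  field_simp

/-- The relation on a primitive even character for a separated even class. -/
theorem prim_relation_even (q q' : Fin N → ℚ) (hq : ∀ i, 2 ≤ q i) (hq' : ∀ i, 2 ≤ q' i)
    {b f g : ℕ} (hb : Even b) (h2b : 2 * b = f * g) (hgodd : Odd g) (hf1 : 1 < f)
    (hf4 : 4 ∣ f)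
    (hcop : ∀ i, nm (q i) ≠ b → nm (q i) = 2 ∨ Nat.Coprime (nm (q i)) b)
    (hcop' : ∀ j, nm (q' j) ≠ b → nm (q' j) = 2 ∨ Nat.Coprime (nm (q' j)) b)
    (hk : ∀ k : ℕ, Odd k → (∀ i, ¬ nm (q i) ∣ k) → (∀ j, ¬ nm (q' j) ∣ k) →
      ∑ i, lc ((k : ℝ) * Real.pi / (2 * (q i : ℝ))) = ∑ j, lc ((k : ℝ) * Real.pi / (2 * (q' j : ℝ))))
    [NeZero f] (χ : DirichletCharacter ℂ f) (hp : χ.IsPrimitive) (h1 : χ ≠ 1) (he : χ.Even)
    (hu : χ (((1 + f / 2 : ℕ)) : ZMod f) = -1) :
    ∑ i ∈ univ.filter (fun i => nm (q i) = b), (χ ((q i).den : ZMod f))⁻¹ =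
      ∑ j ∈ univ.filter (fun j => nm (q' j) = b), (χ ((q' j).den : ZMod f))⁻¹ := by
  have hg0 : g ≠ 0 := by
    intro h0
    rw [h0] at hgodd
    exact absurd hgodd (by decide)
  have hf0 : f ≠ 0 := by omega
  have h2f : 2 ∣ f := Dvd.dvd.trans (by norm_num) hf4
  -- the set of other numerators
  set O : Finset ℕ := (((univ.image fun i => nm (q i)) ∪ (univ.image fun j => nm (q' j))).erase b).erase 2
    with hO
  set P : ℕ := ∏ c ∈ O, c with hP
  have hOcop : ∀ c ∈ O, Nat.Coprime c b := by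
    intro c hc
    rw [hO, mem_erase, mem_erase, mem_union, mem_image, mem_image] at hc
    obtain ⟨hne2, hne, ⟨i, _, rfl⟩ | ⟨j, _, rfl⟩⟩ := hc
    · exact (hcop i hne).resolve_left hne2
    · exact (hcop' j hne).resolve_left hne2
  have hOodd : ∀ c ∈ O, Odd c := by
    intro c hc
    have h2 := hOcop c hc
    have h3 : Nat.Coprime c 2 := Nat.Coprime.coprime_dvd_right (even_iff_two_dvd.mp hb) h2
    exact (Nat.coprime_two_right).mp h3
  have hOcop2 : ∀ c ∈ O, Nat.Coprime f c := by
    intro c hc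
    have h2 : Nat.Coprime c (2 * b) :=
      Nat.Coprime.mul_right ((Nat.coprime_two_right).mpr (hOodd c hc)) (hOcop c hc)
    exact (Nat.Coprime.coprime_dvd_right ⟨g, h2b⟩ h2).symm
  have hfP : Nat.Coprime f P := by
    rw [hP]
    apply Nat.Coprime.prod_right
    intro c hc
    exact hOcop2 c hc
  have hdvdP : ∀ c ∈ O, c ∣ P := fun c hc => Finset.dvd_prod_of_mem _ hc
  -- the value `v t`
  have hv : ∀ t : ZMod f, ∃ v : ℕ, (v : ZMod f) = t ∧ ∀ c ∈ O, v ≡ 1 [MOD c] := by
    intro t
    obtain ⟨v, hv1, hv2⟩ := Nat.chineseRemainder hfP t.val 1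
    have h3 : (v : ZMod f) = t := by
      have := (ZMod.natCast_eq_natCast_iff v t.val f).mpr hv1
      rw [this, ZMod.natCast_zmod_val]
    exact ⟨v, h3, fun c hc => hv2.of_dvd (hdvdP c hc)⟩
  choose v hv1 hv2 using hv
  have hvodd : ∀ t : ZMod f, IsUnit t → Odd (v t) := by
    intro t ht
    rw [← hv1 t] at ht
    have h2 : Nat.Coprime (v t) f := (ZMod.isUnit_iff_coprime _ _).mp ht
    exact (Nat.coprime_two_right).mp (Nat.Coprime.coprime_dvd_right h2f h2)
  have hv3 : ∀ t : ZMod f, IsUnit t → ∀ c ∈ O, ∃ w, v t = 1 + 2 * c * w := by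
    intro t ht c hc
    have h3 := hvodd t ht
    have h4 : c ∣ v t - 1 := (Nat.modEq_iff_dvd' h3.pos).mp (hv2 t c hc).symm
    have h5 : 2 ∣ v t - 1 := by
      obtain ⟨w, hw⟩ := h3
      exact ⟨w, by omega⟩
    have h6 : 2 * c ∣ v t - 1 :=
      Nat.Coprime.mul_dvd_of_dvd_of_dvd ((Nat.coprime_two_left).mpr (hOodd c hc)) h5 h4
    obtain ⟨w, hw⟩ := h6
    refine ⟨w, ?_⟩
    have := h3.pos
    omega
  have hmemO : ∀ c ∈ ((univ.image fun i => nm (q i)) ∪ (univ.image fun j => nm (q' j)) : Finset ℕ),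
      c ≠ b → c ≠ 2 → c ∈ O := by
    intro c hc hne hne2
    exact mem_erase.mpr ⟨hne2, mem_erase.mpr ⟨hne, hc⟩⟩
  have hmem1 : ∀ i, nm (q i) ≠ b → nm (q i) ≠ 2 → nm (q i) ∈ O := fun i hne =>
    hmemO _ (mem_union_left _ (mem_image_of_mem _ (mem_univ i))) hne
  have hmem2 : ∀ j, nm (q' j) ≠ b → nm (q' j) ≠ 2 → nm (q' j) ∈ O := fun j hne =>
    hmemO _ (mem_union_right _ (mem_image_of_mem _ (mem_univ j))) hne
  have hkodd : ∀ t : ZMod f, IsUnit t → Odd (g * v t) := fun t ht => hgodd.mul (hvodd t ht)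
  -- regularity
  have hreg : ∀ (r : Fin N → ℚ), (∀ i, 2 ≤ r i) → (∀ i, nm (r i) ≠ b → nm (r i) ≠ 2 → nm (r i) ∈ O) →
      ∀ t : ZMod f, IsUnit t → ∀ i, ¬ nm (r i) ∣ g * v t := by
    intro r hr hmem t ht i hd
    have hnot2 : ¬ 2 ∣ g * v t := by
      intro h2
      exact (Nat.not_even_iff_odd.mpr (hkodd t ht)) (even_iff_two_dvd.mpr h2)
    by_cases hi : nm (r i) = b
    · rw [hi] at hd
      exact hnot2 ((even_iff_two_dvd.mp hb).trans hd)
    · by_cases hi2 : nm (r i) = 2
      · rw [hi2] at hd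
        exact hnot2 hd
      · have hc := hmem i hi hi2
        obtain ⟨w, hw⟩ := hv3 t ht _ hc
        have h5 : Nat.Coprime (nm (r i)) (v t) := by
          rw [hw]
          have : 1 + 2 * nm (r i) * w = 1 + nm (r i) * (2 * w) := by ring
          rw [this]
          simp
        have h6 : nm (r i) ∣ g := h5.dvd_of_dvd_mul_right hd
        have h7 : nm (r i) ∣ 2 * b := by rw [h2b]; exact Dvd.dvd.mul_left h6 f
        have h8 : nm (r i) ∣ b :=
          Nat.Coprime.dvd_of_dvd_mul_left ((Nat.coprime_two_right).mpr (hOodd _ hc)) h7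
        have h9 := Nat.Coprime.eq_one_of_dvd (hOcop _ hc) h8
        have := nm_ge_two (hr i)
        omega
  -- the sum of one side at unit `t`
  have hside : ∀ (r : Fin N → ℚ), (∀ i, 2 ≤ r i) → (∀ i, nm (r i) ≠ b → nm (r i) ≠ 2 → nm (r i) ∈ O) →
      ∀ t : ZMod f, IsUnit t → ∑ i, lc (((g * v t : ℕ) : ℝ) * Real.pi / (2 * (r i : ℝ))) =
        ∑ i ∈ univ.filter (fun i => nm (r i) ≠ b), lc ((g : ℝ) * Real.pi / (2 * (r i : ℝ))) +
        ∑ i ∈ univ.filter (fun i => nm (r i) = b), Gam f (t * ((r i).den : ZMod f)) := by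
    intro r hr hmem t ht
    rw [← Finset.sum_filter_add_sum_filter_not univ (fun i => nm (r i) = b), add_comm]
    congr 1
    · apply Finset.sum_congr rfl
      intro i hi
      simp only [mem_filter, mem_univ, true_and] at hi
      by_cases hi2 : nm (r i) = 2
      · have h2 := eq_two_of_nm_eq_two (hr i) hi2
        rw [h2, lc_two (hkodd t ht), lc_two hgodd]
      · obtain ⟨w, hw⟩ := hv3 t ht _ (hmem i hi hi2)
        rw [hw]
        exact lc_other (hr i) rfl
    · apply Finset.sum_congr rfl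
      intro i hi
      simp only [mem_filter, mem_univ, true_and] at hi
      rw [angle_class_even (hr i) hi h2b hf0 hg0, ← Gam_natCast]
      push_cast
      rw [hv1]
  have hrel : ∀ t : ZMod f, IsUnit t →
      ∑ i ∈ univ.filter (fun i => nm (q i) ≠ b), lc ((g : ℝ) * Real.pi / (2 * (q i : ℝ))) +
        ∑ i ∈ univ.filter (fun i => nm (q i) = b), Gam f (t * ((q i).den : ZMod f)) =
      ∑ i ∈ univ.filter (fun i => nm (q' i) ≠ b), lc ((g : ℝ) * Real.pi / (2 * (q' i : ℝ))) +
        ∑ i ∈ univ.filter (fun i => nm (q' i) = b), Gam f (t * ((q' i).den : ZMod f)) := by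
    intro t ht
    rw [← hside q hq hmem1 t ht, ← hside q' hq' hmem2 t ht]
    apply hk
    · exact hkodd t ht
    · exact hreg q hq hmem1 t ht
    · exact hreg q' hq' hmem2 t ht
  -- summing over characters
  set T : ℂ := ∑ t : ZMod f, χ t * (Gam f t : ℂ) with hT
  have hTne : T ≠ 0 := sum_gam_even_ne_zero hf1 hf4 hp h1 he hu
  have hunit : ∀ (r : Fin N → ℚ), (∀ i, 2 ≤ r i) → ∀ i, nm (r i) = b →
      IsUnit ((r i).den : ZMod f) := by
    intro r hr i hi
    rw [ZMod.isUnit_iff_coprime]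
    have h3 := (den_facts (hr i) hi).2.1
    have h4 : Nat.Coprime (r i).den 2 :=
      Nat.Coprime.coprime_dvd_right (even_iff_two_dvd.mp hb) h3
    exact Nat.Coprime.coprime_dvd_right ⟨g, h2b⟩ (Nat.Coprime.mul_right h4 h3)
  have hsum : ∀ (r : Fin N → ℚ), (∀ i, 2 ≤ r i) → ∀ C : ℝ,
      ∑ t : ZMod f, χ t * (((C + ∑ i ∈ univ.filter (fun i => nm (r i) = b),
          Gam f (t * ((r i).den : ZMod f)) : ℝ)) : ℂ) =
        T * ∑ i ∈ univ.filter (fun i => nm (r i) = b), (χ ((r i).den : ZMod f))⁻¹ := by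
    intro r hr C
    push_cast
    simp only [mul_add, Finset.sum_add_distrib, Finset.mul_sum]
    rw [← Finset.sum_mul, MulChar.sum_eq_zero_of_ne_one h1, zero_mul, zero_add]
    rw [Finset.sum_comm]
    apply Finset.sum_congr rfl
    intro i hi
    simp only [mem_filter, mem_univ, true_and] at hi
    have h2 := sum_char_gam_mul χ (hunit r hr i hi)
    rw [← hT] at h2
    rw [h2]
    ring
  have hall : ∑ t : ZMod f, χ t * (((∑ i ∈ univ.filter (fun i => nm (q i) ≠ b),
        lc ((g : ℝ) * Real.pi / (2 * (q i : ℝ))) + ∑ i ∈ univ.filter (fun i => nm (q i) = b),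
          Gam f (t * ((q i).den : ZMod f)) : ℝ)) : ℂ) =
      ∑ t : ZMod f, χ t * (((∑ i ∈ univ.filter (fun i => nm (q' i) ≠ b),
        lc ((g : ℝ) * Real.pi / (2 * (q' i : ℝ))) + ∑ i ∈ univ.filter (fun i => nm (q' i) = b),
          Gam f (t * ((q' i).den : ZMod f)) : ℝ)) : ℂ) := by
    apply Finset.sum_congr rfl
    intro t _
    by_cases ht : IsUnit t
    · rw [hrel t ht]
    · rw [MulChar.map_nonunit χ ht, zero_mul, zero_mul]
  rw [hsum q hq, hsum q' hq'] at hall
  exact mul_left_cancel₀ hTne hall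

/-- The admissible denominators in the class `b ≥ 3`. -/
lemma den_mem_admis' {x : ℚ} (hx : 2 ≤ x) {b : ℕ} (hb : 3 ≤ b) (h : nm x = b) :
    x.den ∈ admis b := by
  obtain ⟨_, h2, h3, h4⟩ := den_facts hx h
  have h5 : 2 * x.den ≠ b := by
    intro h6
    have h7 : x.den ∣ b := ⟨2, by rw [← h6]; ring⟩
    have h8 := Nat.Coprime.eq_one_of_dvd h2 h7
    omega
  have h7 : 2 * x.den < b := lt_of_le_of_ne h3 h5
  simp only [admis, mem_filter, mem_range]
  exact ⟨by omega, h4, h7, h2⟩

/-- Fourier inversion for an even class: the counts agree. -/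
theorem class_eq_even (q q' : Fin N → ℚ) (hq : ∀ i, 2 ≤ q i) (hq' : ∀ i, 2 ≤ q' i)
    {b : ℕ} (hb : Even b) (hb3 : 3 ≤ b)
    (hchar : ∀ ψ : DirichletCharacter ℂ (2 * b), ψ.Even → ψ (((1 + b : ℕ)) : ZMod (2 * b)) = -1 →
      ∑ i ∈ univ.filter (fun i => nm (q i) = b), ψ ((q i).den : ZMod (2 * b)) =
        ∑ j ∈ univ.filter (fun j => nm (q' j) = b), ψ ((q' j).den : ZMod (2 * b))) :
    ∀ v : ℚ, ((univ.filter (fun i => nm (q i) = b)).filter (fun i => q i = v)).card =
      ((univ.filter (fun j => nm (q' j) = b)).filter (fun j => q' j = v)).card := by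
  have hL : NeZero (2 * b) := ⟨by omega⟩
  set L := 2 * b with hLdef
  set S := univ.filter (fun i => nm (q i) = b) with hS
  set S' := univ.filter (fun j => nm (q' j) = b) with hS'
  set w : ZMod L := ((1 + b : ℕ) : ZMod L) with hw
  have hww : w * w = 1 := by
    obtain ⟨m, hm⟩ := hb
    have h3 : (1 + b) * (1 + b) = 1 + L * (1 + m) := by
      rw [hLdef, hm]; ring
    rw [hw, ← Nat.cast_mul, h3]
    push_cast
    rw [ZMod.natCast_self]
    ring
  have hwunit : IsUnit w := IsUnit.of_mul_eq_one _ hww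
  -- the function Cnt
  let term : ZMod L → ZMod L → ℂ := fun x a =>
    (if x = a then 1 else 0) + (if x = -a then 1 else 0) -
      (if x = w * a then 1 else 0) - (if x = -(w * a) then 1 else 0)
  let Cnt : ZMod L → ℂ := fun x =>
    ∑ i ∈ S, term x ((q i).den : ZMod L) - ∑ j ∈ S', term x ((q' j).den : ZMod L)
  let tψ : DirichletCharacter ℂ L → ZMod L → ℂ := fun ψ a =>
    ψ a + ψ (-a) - ψ (w * a) - ψ (-(w * a))
  let B : DirichletCharacter ℂ L → ℂ := fun ψ =>
    ∑ i ∈ S, tψ ψ ((q i).den : ZMod L) - ∑ j ∈ S', tψ ψ ((q' j).den : ZMod L)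
  have hB0 : ∀ ψ : DirichletCharacter ℂ L, B ψ = 0 := by
    intro ψ
    rcases ψ.even_or_odd with he | ho
    · have hneg : ∀ a : ZMod L, ψ (-a) = ψ a := by
        intro a
        have : -a = (-1) * a := by ring
        rw [this, map_mul, he, one_mul]
      have hwsq : ψ w * ψ w = 1 := by
        rw [← map_mul, hww, map_one]
      have hcases : ψ w = 1 ∨ ψ w = -1 := by
        have : (ψ w - 1) * (ψ w + 1) = 0 := by linear_combination hwsq
        rcases mul_eq_zero.mp this with h | h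
        · left; linear_combination h
        · right; linear_combination h
      rcases hcases with h1 | h1
      · have ht : ∀ a, tψ ψ a = 0 := by
          intro a
          simp only [tψ, hneg, map_mul, h1]
          ring
        simp only [B, ht]
        simp
      · have ht : ∀ a, tψ ψ a = 4 * ψ a := by
          intro a
          simp only [tψ, hneg, map_mul, h1]
          ring
        simp only [B, ht]
        rw [← Finset.mul_sum, ← Finset.mul_sum, hchar ψ he h1, sub_self]
    · have hneg : ∀ a : ZMod L, ψ (-a) = -ψ a := by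
        intro a
        have : -a = (-1) * a := by ring
        rw [this, map_mul, ho]
        ring
      have ht : ∀ a, tψ ψ a = 0 := by
        intro a
        simp only [tψ, hneg]
        ring
      simp only [B, ht]
      simp
  have hinv : ∀ x : ZMod L, IsUnit x → (L.totient : ℂ) * Cnt x = 0 := by
    intro x hx
    have hhelp : ∀ (s : Finset (Fin N)) (r : Fin N → ℚ),
        ∑ ψ : DirichletCharacter ℂ L, ψ x⁻¹ * ∑ i ∈ s, tψ ψ ((r i).den : ZMod L) =
          (L.totient : ℂ) * ∑ i ∈ s, term x ((r i).den : ZMod L) := by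
      intro s r
      simp only [Finset.mul_sum]
      rw [Finset.sum_comm]
      apply Finset.sum_congr rfl
      intro i _
      set a : ZMod L := ((r i).den : ZMod L) with ha
      have h1 := DirichletCharacter.sum_char_inv_mul_char_eq ℂ hx a
      have h2 := DirichletCharacter.sum_char_inv_mul_char_eq ℂ hx (-a)
      have h3 := DirichletCharacter.sum_char_inv_mul_char_eq ℂ hx (w * a)
      have h4 := DirichletCharacter.sum_char_inv_mul_char_eq ℂ hx (-(w * a))
      calc ∑ ψ : DirichletCharacter ℂ L, ψ x⁻¹ * tψ ψ a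
          = ∑ ψ : DirichletCharacter ℂ L, ψ x⁻¹ * ψ a + ∑ ψ : DirichletCharacter ℂ L, ψ x⁻¹ * ψ (-a)
            - ∑ ψ : DirichletCharacter ℂ L, ψ x⁻¹ * ψ (w * a)
            - ∑ ψ : DirichletCharacter ℂ L, ψ x⁻¹ * ψ (-(w * a)) := by
            rw [← Finset.sum_add_distrib, ← Finset.sum_sub_distrib, ← Finset.sum_sub_distrib]
            apply Finset.sum_congr rfl
            intro ψ _
            simp only [tψ]
            ring
        _ = _ := by
            rw [h1, h2, h3, h4]
            simp only [term]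
            split_ifs <;> ring
    have hsum : ∑ ψ : DirichletCharacter ℂ L, ψ x⁻¹ * B ψ = (L.totient : ℂ) * Cnt x := by
      simp only [B, Cnt, mul_sub, Finset.sum_sub_distrib]
      rw [hhelp S q, hhelp S' q']
    rw [← hsum]
    apply Finset.sum_eq_zero
    intro ψ _
    rw [hB0 ψ, mul_zero]
  have hphi : (L.totient : ℂ) ≠ 0 := by
    exact_mod_cast (Nat.totient_pos.mpr (by omega)).ne'
  -- evaluate `Cnt`
  have hval : ∀ a ∈ admis b, Cnt (a : ZMod L) =
      (((S.filter (fun i => (q i).den = a)).card : ℂ) - ((S'.filter (fun j => (q' j).den = a)).card : ℂ)) := by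
    intro a ha
    simp only [admis, mem_filter, mem_range] at ha
    obtain ⟨ha0, ha1, ha2, ha3⟩ := ha
    have hterm : ∀ (s : Finset (Fin N)) (r : Fin N → ℚ), (∀ i, 2 ≤ r i) →
        s = univ.filter (fun i => nm (r i) = b) →
        ∑ i ∈ s, term (a : ZMod L) ((r i).den : ZMod L) =
        ((s.filter (fun i => (r i).den = a)).card : ℂ) := by
      intro s r hr hs
      rw [Finset.card_filter]
      push_cast
      apply Finset.sum_congr rfl
      intro i hi
      rw [hs] at hi
      simp only [mem_filter, mem_univ, true_and] at hi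
      have hden := den_mem_admis' (hr i) hb3 hi
      simp only [admis, mem_filter, mem_range] at hden
      obtain ⟨hd0, hd1, hd2, hd3⟩ := hden
      set d := (r i).den with hd
      -- `d` is odd
      have hdodd : Odd d := by
        have h4 : Nat.Coprime d 2 := Nat.Coprime.coprime_dvd_right (even_iff_two_dvd.mp hb) hd3
        exact (Nat.coprime_two_right).mp h4
      have hwd : w * (d : ZMod L) = ((d + b : ℕ) : ZMod L) := by
        obtain ⟨e, he⟩ := hdodd
        have h3 : (1 + b) * d = d + b + L * e := by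
          rw [hLdef, he]; ring
        rw [hw, ← Nat.cast_mul, h3]
        push_cast
        rw [ZMod.natCast_self]
        ring
      have hzero : ∀ n : ℕ, 0 < n → n < L → ((n : ℕ) : ZMod L) ≠ 0 := by
        intro n h0 h1 h2
        rw [ZMod.natCast_eq_zero_iff] at h2
        have := Nat.le_of_dvd h0 h2
        omega
      have h1 : (a : ZMod L) = (d : ZMod L) ↔ d = a := by
        rw [ZMod.natCast_eq_natCast_iff']
        rw [Nat.mod_eq_of_lt (by omega), Nat.mod_eq_of_lt (by omega)]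
        exact eq_comm
      have h2 : ¬ (a : ZMod L) = -(d : ZMod L) := by
        intro h3
        apply hzero (a + d) (by omega) (by omega)
        push_cast
        rw [h3]; ring
      have h3 : ¬ (a : ZMod L) = w * (d : ZMod L) := by
        rw [hwd, ZMod.natCast_eq_natCast_iff']
        rw [Nat.mod_eq_of_lt (by omega), Nat.mod_eq_of_lt (by omega)]
        omega
      have h4 : ¬ (a : ZMod L) = -(w * (d : ZMod L)) := by
        rw [hwd]
        intro h5
        apply hzero (a + (d + b)) (by omega) (by omega)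
        rw [Nat.cast_add, h5]; ring
      simp only [term]
      by_cases h5 : d = a
      · rw [if_pos (h1.mpr h5), if_neg h2, if_neg h3, if_neg h4, if_pos h5]
        ring
      · rw [if_neg (fun h => h5 (h1.mp h)), if_neg h2, if_neg h3, if_neg h4, if_neg h5]
        ring
    simp only [Cnt]
    rw [hterm S q hq hS, hterm S' q' hq' hS']
  have hd : ∀ a ∈ admis b, (S.filter (fun i => (q i).den = a)).card =
      (S'.filter (fun j => (q' j).den = a)).card := by
    intro a ha
    have h1 : IsUnit (a : ZMod L) := by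
      simp only [admis, mem_filter, mem_range] at ha
      rw [ZMod.isUnit_iff_coprime]
      have h4 : Nat.Coprime a 2 := Nat.Coprime.coprime_dvd_right (even_iff_two_dvd.mp hb) ha.2.2.2
      exact Nat.Coprime.mul_right h4 ha.2.2.2
    have h2 := hinv _ h1
    have h3 : Cnt (a : ZMod L) = 0 := (mul_eq_zero.mp h2).resolve_left hphi
    rw [hval a ha, sub_eq_zero] at h3
    exact_mod_cast h3
  intro v
  by_cases hv : 2 ≤ v ∧ nm v = b
  · obtain ⟨hv1, hv2⟩ := hv
    have hset : ∀ (r : Fin N → ℚ), (∀ i, 2 ≤ r i) →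
        (univ.filter (fun i => nm (r i) = b)).filter (fun i => r i = v) =
        (univ.filter (fun i => nm (r i) = b)).filter (fun i => (r i).den = v.den) := by
      intro r hr
      ext i
      simp only [mem_filter, mem_univ, true_and]
      constructor
      · rintro ⟨h1, h2⟩
        exact ⟨h1, by rw [h2]⟩
      · rintro ⟨h1, h2⟩
        refine ⟨h1, ?_⟩
        rw [(den_facts (hr i) h1).1, (den_facts hv1 hv2).1, h2]
    rw [hset q hq, hset q' hq']
    exact hd _ (den_mem_admis' hv1 hb3 hv2)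
  · have hemp : ∀ (r : Fin N → ℚ), (∀ i, 2 ≤ r i) →
        (univ.filter (fun i => nm (r i) = b)).filter (fun i => r i = v) = ∅ := by
      intro r hr
      apply Finset.filter_false_of_mem
      intro i hi h2
      simp only [mem_filter, mem_univ, true_and] at hi
      exact hv ⟨h2 ▸ hr i, h2 ▸ hi⟩
    rw [hemp q hq, hemp q' hq']

/-- The hypothesis of `class_eq_even` for a separated even class. -/
theorem char_of_separated_even (q q' : Fin N → ℚ) (hq : ∀ i, 2 ≤ q i) (hq' : ∀ i, 2 ≤ q' i)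
    {b : ℕ} (hb : Even b) (hb3 : 3 ≤ b)
    (hcop : ∀ i, nm (q i) ≠ b → nm (q i) = 2 ∨ Nat.Coprime (nm (q i)) b)
    (hcop' : ∀ j, nm (q' j) ≠ b → nm (q' j) = 2 ∨ Nat.Coprime (nm (q' j)) b)
    (hk : ∀ k : ℕ, Odd k → (∀ i, ¬ nm (q i) ∣ k) → (∀ j, ¬ nm (q' j) ∣ k) →
      ∑ i, lc ((k : ℝ) * Real.pi / (2 * (q i : ℝ))) = ∑ j, lc ((k : ℝ) * Real.pi / (2 * (q' j : ℝ))))
    (ψ : DirichletCharacter ℂ (2 * b)) (he : ψ.Even)
    (hw : ψ (((1 + b : ℕ)) : ZMod (2 * b)) = -1) :
    ∑ i ∈ univ.filter (fun i => nm (q i) = b), ψ ((q i).den : ZMod (2 * b)) =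
      ∑ j ∈ univ.filter (fun j => nm (q' j) = b), ψ ((q' j).den : ZMod (2 * b)) := by
  have hL : NeZero (2 * b) := ⟨by omega⟩
  set φ : DirichletCharacter ℂ (2 * b) := ψ⁻¹ with hφ
  have : NeZero φ.conductor := ⟨φ.conductor_ne_zero⟩
  set f := φ.conductor with hf
  obtain ⟨g, hg⟩ : f ∣ 2 * b := φ.conductor_dvd_level
  set χ : DirichletCharacter ℂ f := φ.primitiveCharacter with hχ
  have hp : χ.IsPrimitive := φ.primitiveCharacter_isPrimitive
  have hval : ∀ a : ℕ, Nat.Coprime a (2 * b) → χ (a : ZMod f) = (ψ (a : ZMod (2 * b)))⁻¹ := by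
    intro a ha
    have h2 : IsCoprime (a : ℤ) ((2 * b : ℕ) : ℤ) := Nat.isCoprime_iff_coprime.mpr ha
    have h3 := φ.primitiveCharacter_apply_of_isCoprime h2
    rw [Int.cast_natCast, Int.cast_natCast] at h3
    rw [← hχ] at h3
    rw [h3, hφ, MulChar.inv_apply_eq_inv']
  have hcop1b : Nat.Coprime (1 + b) (2 * b) := by
    have h1 : Nat.Coprime (1 + b) b := by simp
    have h2 : Nat.Coprime (1 + b) 2 := by
      rw [Nat.coprime_two_right]
      obtain ⟨m, hm⟩ := hb
      exact ⟨m, by omega⟩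
    exact Nat.Coprime.mul_right h2 h1
  have hχw : χ (((1 + b : ℕ)) : ZMod f) = -1 := by
    rw [hval _ hcop1b, hw]
    norm_num
  -- `f` does not divide `b`
  have hfb : ¬ f ∣ b := by
    intro hd
    have h1 : (((1 + b : ℕ)) : ZMod f) = 1 := by
      push_cast
      rw [(ZMod.natCast_eq_zero_iff b f).mpr hd, add_zero]
    rw [h1, map_one] at hχw
    norm_num at hχw
  have hgodd : Odd g := by
    by_contra hne
    rw [Nat.not_odd_iff_even] at hne
    obtain ⟨m, hm⟩ := hne
    apply hfb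
    refine ⟨m, ?_⟩
    have : 2 * b = 2 * (f * m) := by rw [hg, hm]; ring
    omega
  have hf4 : 4 ∣ f := by
    obtain ⟨m, hm⟩ := hb
    have h1 : 4 ∣ f * g := by
      rw [← hg, hm]
      exact ⟨m, by ring⟩
    exact Nat.Coprime.dvd_of_dvd_mul_right (Nat.Coprime.pow_left 2 (Nat.coprime_two_left.mpr hgodd) :
      Nat.Coprime (2 ^ 2) g) h1
  have hf1 : 1 < f := by
    have h0 : f ≠ 0 := NeZero.ne f
    have := Nat.le_of_dvd (Nat.pos_of_ne_zero h0) hf4
    omega
  have hχ1 : χ ≠ 1 := by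
    intro h
    rw [h] at hχw
    by_cases hx : IsUnit (((1 + b : ℕ)) : ZMod f)
    · rw [MulChar.one_apply hx] at hχw
      norm_num at hχw
    · rw [MulChar.map_nonunit _ hx] at hχw
      norm_num at hχw
  have hχe : χ.Even := by
    have h2 : IsCoprime (-1 : ℤ) ((2 * b : ℕ) : ℤ) := isCoprime_one_left.neg_left
    have h3 := φ.primitiveCharacter_apply_of_isCoprime h2
    rw [← hχ] at h3
    push_cast at h3
    show χ (-1) = 1
    rw [h3, hφ, MulChar.inv_apply_eq_inv', he]
    simp
  have hu : χ (((1 + f / 2 : ℕ)) : ZMod f) = -1 := by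
    rw [← hχw]
    congr 1
    obtain ⟨e, he'⟩ := hgodd
    obtain ⟨m, hm⟩ := hf4
    have h1 : f / 2 = 2 * m := by omega
    have h2 : b = 2 * m + f * e := by
      rw [he', hm] at hg
      rw [hm]
      nlinarith
    rw [h1, h2]
    push_cast
    rw [ZMod.natCast_self]
    ring
  have h := prim_relation_even q q' hq hq' hb hg hgodd hf1 hf4 hcop hcop' hk χ hp hχ1 hχe hu
  have e : ∀ (r : Fin N → ℚ), (∀ i, 2 ≤ r i) →
      ∑ i ∈ univ.filter (fun i => nm (r i) = b), (χ ((r i).den : ZMod f))⁻¹ =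
      ∑ i ∈ univ.filter (fun i => nm (r i) = b), ψ ((r i).den : ZMod (2 * b)) := by
    intro r hr
    apply Finset.sum_congr rfl
    intro i hi
    simp only [mem_filter, mem_univ, true_and] at hi
    have h3 := (den_facts (hr i) hi).2.1
    have h4 : Nat.Coprime (r i).den 2 :=
      Nat.Coprime.coprime_dvd_right (even_iff_two_dvd.mp hb) h3
    rw [hval _ (Nat.Coprime.mul_right h4 h3), inv_inv]
  rw [e q hq, e q' hq'] at h
  exact h

end Vale.Agent.Lib.P268
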