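import Mathlib
import Vale.Agent.Lib.P268.SepEven

/-!
Rigid or separated numerator classes, odd or even; corollaries for small corank.
-/

open Finset

namespace Vale.Agent.Lib.P268

variable {N : ℕ}

/-- The class of numerator `b` is separated: every other numerator of `q` is `2` or coprime to `b`. -/
def SeparatedAll (q : Fin N → ℚ) (b : ℕ) : Prop :=
  ∀ i, nm (q i) ≠ b → nm (q i) = 2 ∨ Nat.Coprime (nm (q i)) b

/-- The main theorem for rigid or separated classes of either parity. -/
theorem weights_eq_all (q q' : Fin N → ℚ) (hq : ∀ i, 2 ≤ q i) (hq' : ∀ i, 2 ≤ q' i)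
    (h : ∀ m : ℕ, 1 ≤ m → monodromyTrace q m = monodromyTrace q' m)
    (hcot : ∀ k : ℕ, Odd k → (∀ i, ¬ nm (q i) ∣ k) → (∀ j, ¬ nm (q' j) ∣ k) →
      |cotK q k| = |cotK q' k|)
    (hsep : ∀ b : ℕ, 3 ≤ b → ClassRigid q b ∨ SeparatedAll q b) :
    ∀ v : ℚ, (univ.filter (fun i => q i = v)).card = (univ.filter (fun j => q' j = v)).card := by
  have hk : ∀ k : ℕ, Odd k → (∀ i, ¬ nm (q i) ∣ k) → (∀ j, ¬ nm (q' j) ∣ k) →
      ∑ i, lc ((k : ℝ) * Real.pi / (2 * (q i : ℝ))) =
        ∑ j, lc ((k : ℝ) * Real.pi / (2 * (q' j : ℝ))) := by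
    intro k hk1 hk2 hk3
    rw [← log_cotK q hq hk2, ← log_cotK q' hq' hk3, hcot k hk1 hk2 hk3]
  have hlog : ∑ i, γ (q i) = ∑ j, γ (q' j) := by
    have h1 := hk 1 odd_one
      (fun i hd => by have := nm_ge_two (hq i); have := Nat.le_of_dvd one_pos hd; omega)
      (fun j hd => by have := nm_ge_two (hq' j); have := Nat.le_of_dvd one_pos hd; omega)
    rw [Finset.sum_congr rfl (fun i _ => lc_one_eq_γ (hq i)),
      Finset.sum_congr rfl (fun j _ => lc_one_eq_γ (hq' j))] at h1
    exact h1
  apply weights_eq_of_classes q q' hq hq' hlog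
  intro b hb3
  rcases hsep b hb3 with hr | hcop
  · exact class_conclusion' q q' hq hq' hr h hb3
  · have hcop' : ∀ j, nm (q' j) ≠ b → nm (q' j) = 2 ∨ Nat.Coprime (nm (q' j)) b := by
      intro j hne
      by_cases h2 : nm (q' j) = 2
      · exact Or.inl h2
      · have h3 := nm_ge_two (hq' j)
        obtain ⟨i, hi⟩ := exists_of_numerator q q' hq hq' h j (by omega)
        rw [← hi]
        exact hcop i (by rw [hi]; exact hne)
    have hcount : ∀ v : ℚ, ((univ.filter (fun i => nm (q i) = b)).filter (fun i => q i = v)).card =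
        ((univ.filter (fun j => nm (q' j) = b)).filter (fun j => q' j = v)).card := by
      rcases Nat.even_or_odd b with he | ho
      · exact class_eq_even q q' hq hq' he hb3
          (char_of_separated_even q q' hq hq' he hb3 hcop hcop' hk)
      · have hc1 : ∀ i, nm (q i) ≠ b → Nat.Coprime (nm (q i)) b := by
          intro i hne
          rcases hcop i hne with h2 | h2
          · rw [h2]; exact (Nat.coprime_two_left).mpr ho
          · exact h2
        have hc2 : ∀ j, nm (q' j) ≠ b → Nat.Coprime (nm (q' j)) b := by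
          intro j hne
          rcases hcop' j hne with h2 | h2
          · rw [h2]; exact (Nat.coprime_two_left).mpr ho
          · exact h2
        exact class_eq_of_char q q' hq hq' ho hb3
          (cp_eq_of_trace q q' hq hq' h b (by omega))
          (char_of_separated q q' hq hq' ho hc1 hc2 hk)
    have hs := sum_eq_of_counts q q' γ _ _ hcount
    exact ⟨hs.ge, fun _ => hcount⟩

/-- At most two coordinates different from `2` (corank at most two): the hypothesis on classes
holds. -/
lemma rigid_or_sep_of_corank (q : Fin N → ℚ) (hq : ∀ i, 2 ≤ q i)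
    (hc : (univ.filter (fun i => q i ≠ 2)).card ≤ 2) :
    ∀ b : ℕ, 3 ≤ b → ClassRigid q b ∨ SeparatedAll q b := by
  intro b hb3
  by_cases h : ClassRigid q b
  · exact Or.inl h
  · right
    unfold ClassRigid at h
    push Not at h
    obtain ⟨i, j, hij, hi, hj, _⟩ := h
    have hne : ∀ k, nm (q k) = b → q k ≠ 2 := by
      intro k hk h2
      rw [h2, nm_two] at hk
      omega
    intro k hk
    left
    by_contra h2
    have hk2 : q k ≠ 2 := by
      intro h3
      apply h2
      rw [h3, nm_two]
    have hki : k ≠ i := by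
      rintro rfl
      exact hk hi
    have hkj : k ≠ j := by
      rintro rfl
      exact hk hj
    have hsub : ({i, j, k} : Finset (Fin N)) ⊆ univ.filter (fun i => q i ≠ 2) := by
      intro x hx
      simp only [mem_insert, mem_singleton] at hx
      simp only [mem_filter, mem_univ, true_and]
      rcases hx with rfl | rfl | rfl
      · exact hne _ hi
      · exact hne _ hj
      · exact hk2
    have hcard := Finset.card_le_card hsub
    rw [Finset.card_eq_three.mpr ⟨i, j, k, hij, hki.symm, hkj.symm, rfl⟩] at hcard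
    omega

end Vale.Agent.Lib.P268
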