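import Mathlib
import Vale.Agent.Lib.P268.Elim
import Vale.Agent.Lib.P268.SepAll

/-!
Rows of the cotangent relations and their evaluation on numerator classes.
-/

open Finset

namespace Vale.Agent.Lib.P268

variable {N : ℕ}

section
set_option linter.unusedSectionVars false
variable {M f : ℕ} [NeZero M] [NeZero f] (hfM : f ∣ M) (χ : DirichletCharacter ℂ f)

/-- A unit modulo an even number is odd. -/
lemma unit_val_odd (hM2 : 2 ∣ M) (v : (ZMod M)ˣ) : Odd (v : ZMod M).val := by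
  have h3 : Nat.Coprime (v : ZMod M).val M := ZMod.val_coe_unit_coprime v
  exact (Nat.coprime_two_right).mp (Nat.Coprime.coprime_dvd_right hM2 h3)

/-- The row relation. -/
theorem row_relation (hM2 : 2 ∣ M) (q q' : Fin N → ℚ)
    (hM : ∀ i, nm (q i) ∣ M) (hM' : ∀ j, nm (q' j) ∣ M)
    (hk : ∀ k : ℕ, Odd k → (∀ i, ¬ nm (q i) ∣ k) → (∀ j, ¬ nm (q' j) ∣ k) →
      ∑ i, lc ((k : ℝ) * Real.pi / (2 * (q i : ℝ))) = ∑ j, lc ((k : ℝ) * Real.pi / (2 * (q' j : ℝ))))
    {g : ℕ} (hg : Odd g) (h1 : ∀ i, ¬ nm (q i) ∣ g) (h2 : ∀ j, ¬ nm (q' j) ∣ g) :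
    ∑ i, Wy hfM χ ((g : ℝ) / (2 * (q i : ℝ))) = ∑ j, Wy hfM χ ((g : ℝ) / (2 * (q' j : ℝ))) := by
  unfold Wy
  rw [Finset.sum_comm, Finset.sum_comm (s := univ) (t := univ) (f := fun j v =>
    kap hfM χ v * (lc (Real.pi * (((v : ZMod M).val : ℕ) : ℝ) * ((g : ℝ) / (2 * (q' j : ℝ)))) : ℂ))]
  apply Finset.sum_congr rfl
  intro v _
  rw [← Finset.mul_sum, ← Finset.mul_sum]
  congr 1
  have hvc : Nat.Coprime (v : ZMod M).val M := ZMod.val_coe_unit_coprime v
  have hreg : ∀ d : ℕ, d ∣ M → ¬ d ∣ g → ¬ d ∣ g * (v : ZMod M).val := by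
    intro d hd hnd hd2
    have h3 : Nat.Coprime d (v : ZMod M).val := (Nat.Coprime.coprime_dvd_right hd hvc).symm
    exact hnd (h3.dvd_of_dvd_mul_right hd2)
  have h3 := hk (g * (v : ZMod M).val) (hg.mul (unit_val_odd hM2 v))
    (fun i => hreg _ (hM i) (h1 i)) (fun j => hreg _ (hM' j) (h2 j))
  have e : ∀ x : ℝ, lc (Real.pi * (((v : ZMod M).val : ℕ) : ℝ) * ((g : ℝ) / (2 * x))) =
      lc (((g * (v : ZMod M).val : ℕ) : ℝ) * Real.pi / (2 * x)) := by
    intro x
    congr 1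
    push_cast
    ring
  simp only [e]
  exact_mod_cast h3

/-- The angle of a coordinate. -/
lemma div_two_mul_eq {x : ℚ} (hx : 2 ≤ x) (g : ℝ) :
    g / (2 * (x : ℝ)) = g * (x.den : ℝ) / (2 * (nm x : ℝ)) := by
  have h1 := (den_facts hx (rfl : nm x = nm x)).1
  have hd : (x.den : ℝ) ≠ 0 := by exact_mod_cast x.den_pos.ne'
  have hb0 : (nm x : ℝ) ≠ 0 := by
    have := nm_ge_two hx
    exact_mod_cast (by omega : nm x ≠ 0)
  have h2 : (x : ℝ) = (nm x : ℝ) / (x.den : ℝ) := by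
    have := congrArg (Rat.cast : ℚ → ℝ) h1
    push_cast at this
    exact this
  rw [h2]
  field_simp

/-- The integrality at level `2c`. -/
lemma level_two_mul {x : ℚ} (hx : 2 ≤ x) (g : ℕ) :
    ((2 * nm x : ℕ) : ℝ) * ((g : ℝ) / (2 * (x : ℝ))) = ((g * x.den : ℕ) : ℝ) := by
  have hb0 : (nm x : ℝ) ≠ 0 := by
    have := nm_ge_two hx
    exact_mod_cast (by omega : nm x ≠ 0)
  rw [div_two_mul_eq hx]
  push_cast
  field_simp

/-- Odd modulus: coordinates of even numerator vanish, and those of odd numerator prime to the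
conductor too. -/
lemma eval_odd_zero (hp : χ.IsPrimitive) (hfo : Odd f) (hM2 : 2 ∣ M) {x : ℚ} (hx : 2 ≤ x)
    (hxM : 2 * nm x ∣ M) {g : ℕ} (hg : Odd g) (h : Even (nm x) ∨ ¬ f ∣ nm x) :
    Wy hfM χ ((g : ℝ) / (2 * (x : ℝ))) = 0 := by
  have hy := level_two_mul hx g
  have hcop2 : Nat.Coprime f 2 := (Nat.coprime_two_right).mpr hfo
  by_cases hf2c : f ∣ 2 * nm x
  · have hfc : f ∣ nm x := hcop2.dvd_of_dvd_mul_left hf2c
    rcases h with he | hn
    · obtain ⟨t, ht⟩ := he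
      have h4 : 4 ∣ 2 * nm x := ⟨t, by rw [ht]; ring⟩
      have hdiv : 2 * nm x / 2 = nm x := by omega
      have hden : Odd x.den := by
        have h3 := (den_facts hx (rfl : nm x = nm x)).2.1
        have h5 : Nat.Coprime x.den 2 := Nat.Coprime.coprime_dvd_right ⟨t, by rw [ht]; ring⟩ h3
        exact (Nat.coprime_two_right).mp h5
      exact Wy_eq_zero_half hfM χ hM2 hxM h4 (by rw [hdiv]; exact hfc) (hg.mul hden) hy
    · exact absurd hfc hn
  · have hy' : ((2 * nm x : ℕ) : ℝ) * ((g : ℝ) / (2 * (x : ℝ))) = (((g * x.den : ℕ) : ℤ) : ℝ) := by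
      rw [hy]; simp
    exact Wy_eq_zero_of_not_dvd hfM χ hp hxM hf2c hy'

/-- Odd modulus: a coordinate of odd numerator divisible by the conductor. -/
lemma eval_odd_main (hfo : Odd f) (hM2 : 2 ∣ M) {x : ℚ} (hx : 2 ≤ x)
    (hxM : nm x ∣ M) {g : ℕ} (hg : Odd g) (hco : Odd (nm x)) (hfc : f ∣ nm x) :
    Wy hfM χ ((g : ℝ) / (2 * (x : ℝ))) =
      χ (2 : ZMod f) * (sg x.den * (χ (x.den : ZMod f))⁻¹ * Wy hfM χ ((g : ℝ) / (nm x : ℝ))) := by
  set c := nm x with hc
  set a := x.den with ha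
  have hcop : Nat.Coprime a c := (den_facts hx hc.symm).2.1
  have hc0 : (c : ℝ) ≠ 0 := by
    have := nm_ge_two hx
    exact_mod_cast (by omega : c ≠ 0)
  -- the natural number `ā`
  obtain ⟨A, hA1, hA2, hA3⟩ : ∃ A : ℕ, 2 * A ≡ a [MOD c] ∧
      ((∀ w : ℕ, Odd w → lc (Real.pi * (w : ℝ) * ((g : ℝ) * (a : ℝ) / (2 * (c : ℝ)))) =
        (-1) ^ a * lc (Real.pi * (w : ℝ) * ((A : ℝ) * ((g : ℝ) / (c : ℝ)))))) ∧ True := by
    rcases Nat.even_or_odd a with he | ho
    · have he' := he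
      obtain ⟨t, ht⟩ := he
      refine ⟨t, by rw [ht, two_mul], ?_, trivial⟩
      intro w _
      rw [he'.neg_one_pow, one_mul]
      congr 1
      rw [ht]
      push_cast
      field_simp
      ring
    · have ho' := ho
      obtain ⟨t, ht⟩ := ho
      obtain ⟨s, hs⟩ := hco
      refine ⟨t + s + 1, ?_, ?_, trivial⟩
      · have h3 : 2 * (t + s + 1) = a + c := by omega
        rw [h3]
        simp [Nat.ModEq]
      · intro w hw
        rw [ho'.neg_one_pow]
        obtain ⟨μ, hμ⟩ := hw.mul hg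
        have h3 : (w : ℝ) * (g : ℝ) = 2 * (μ : ℝ) + 1 := by exact_mod_cast hμ
        have h4 : (2 : ℝ) * ((t + s + 1 : ℕ) : ℝ) = (a : ℝ) + (c : ℝ) := by
          have : 2 * (t + s + 1) = a + c := by omega
          exact_mod_cast this
        have h5 : ((t + s + 1 : ℕ) : ℝ) = ((a : ℝ) + (c : ℝ)) / 2 := by linarith
        have e : Real.pi * (w : ℝ) * (((t + s + 1 : ℕ) : ℝ) * ((g : ℝ) / (c : ℝ))) =
            Real.pi * (w : ℝ) * ((g : ℝ) * (a : ℝ) / (2 * (c : ℝ))) + Real.pi / 2 +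
              ((μ : ℤ) : ℝ) * Real.pi := by
          rw [h5]
          have e1 : Real.pi * (w : ℝ) * (((a : ℝ) + (c : ℝ)) / 2 * ((g : ℝ) / (c : ℝ))) =
              Real.pi * (w : ℝ) * ((g : ℝ) * (a : ℝ) / (2 * (c : ℝ))) +
                Real.pi * ((w : ℝ) * (g : ℝ)) / 2 := by
            field_simp
          rw [e1, h3]
          push_cast
          ring
        rw [e, lc_add_pi_div_two_int]
        ring
  have hAc : Nat.Coprime A c := by
    have h3 : Nat.Coprime (2 * A) c := by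
      rw [Nat.Coprime, hA1.gcd_eq]
      exact hcop
    exact Nat.Coprime.coprime_mul_left h3
  obtain ⟨u, hu⟩ := exists_unit_lift hfM hxM hAc
  have hyc : (c : ℝ) * ((g : ℝ) / (c : ℝ)) = ((g : ℤ) : ℝ) := by
    push_cast
    field_simp
  have htw := Wy_twist_nat hfM χ hxM hu hyc
  rw [kap_eq_of_modEq hfM χ (hu.of_dvd hfc)] at htw
  have hchi : (χ (A : ZMod f))⁻¹ = χ (2 : ZMod f) * (χ (a : ZMod f))⁻¹ := by
    have h3 : (((2 * A : ℕ)) : ZMod f) = (a : ZMod f) :=
      (ZMod.natCast_eq_natCast_iff _ _ _).mpr (hA1.of_dvd hfc)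
    push_cast at h3
    have h4 : χ (2 : ZMod f) * χ (A : ZMod f) = χ (a : ZMod f) := by
      rw [← map_mul, h3]
    have hu2 : IsUnit (2 : ZMod f) := by
      have : ((2 : ℕ) : ZMod f) = 2 := by norm_num
      rw [← this, ZMod.isUnit_iff_coprime]
      exact (Nat.coprime_two_left).mpr hfo
    have hneA : χ (A : ZMod f) ≠ 0 := by
      have h5 : IsUnit (A : ZMod f) := by
        rw [ZMod.isUnit_iff_coprime]
        exact Nat.Coprime.coprime_dvd_right hfc hAc
      obtain ⟨w, hw⟩ := h5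
      have := DirichletCharacter.unit_norm_eq_one χ w
      rw [hw] at this
      intro h0
      rw [h0] at this
      simp at this
    have hne2 : χ (2 : ZMod f) ≠ 0 := by
      obtain ⟨w, hw⟩ := hu2
      have := DirichletCharacter.unit_norm_eq_one χ w
      rw [hw] at this
      intro h0
      rw [h0] at this
      simp at this
    rw [← h4]
    field_simp
  rw [div_two_mul_eq hx, ← hc, ← ha]
  have hstep : Wy hfM χ ((g : ℝ) * (a : ℝ) / (2 * (c : ℝ))) =
      sg a * Wy hfM χ ((A : ℝ) * ((g : ℝ) / (c : ℝ))) := by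
    unfold Wy
    rw [Finset.mul_sum]
    apply Finset.sum_congr rfl
    intro v _
    rw [hA2 _ (unit_val_odd hM2 v)]
    unfold sg
    push_cast
    ring
  rw [hstep, htw, hchi]
  ring

end

end Vale.Agent.Lib.P268
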