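import Mathlib
import Vale.Agent.Lib.P268.GoodRow

/-!
Coupled classes: the relations on primitive even characters for an odd conductor.
-/

open Finset

namespace Vale.Agent.Lib.P268

variable {N : ℕ}

section
set_option linter.unusedSectionVars false
variable {M f : ℕ} [NeZero M] [NeZero f] (hfM : f ∣ M) (χ : DirichletCharacter ℂ f)

/-- One side of the row, odd conductor. -/
lemma side_odd (hp : χ.IsPrimitive) (hfo : Odd f) (hM2 : 2 ∣ M) (r : Fin N → ℚ)
    (hr : ∀ i, 2 ≤ r i) (hrM : ∀ i, 2 * nm (r i) ∣ M) (C : Finset ℕ)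
    (hCr : ∀ i, Odd (nm (r i)) → f ∣ nm (r i) → nm (r i) ∈ C)
    (hC : ∀ c ∈ C, Odd c ∧ f ∣ c) {g : ℕ} (hg : Odd g) :
    ∑ i, Wy hfM χ ((g : ℝ) / (2 * (r i : ℝ))) =
      χ (2 : ZMod f) * ∑ c ∈ C, (∑ i ∈ univ.filter (fun i => nm (r i) = c),
        sg (r i).den * (χ ((r i).den : ZMod f))⁻¹) * Wy hfM χ ((g : ℝ) / (c : ℝ)) := by
  have h1 : ∑ i, Wy hfM χ ((g : ℝ) / (2 * (r i : ℝ))) =
      ∑ i ∈ univ.filter (fun i => nm (r i) ∈ C), Wy hfM χ ((g : ℝ) / (2 * (r i : ℝ))) := by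
    symm
    apply Finset.sum_subset (filter_subset _ _)
    intro i _ hi
    have hnot : nm (r i) ∉ C := by
      intro h
      exact hi (mem_filter.mpr ⟨mem_univ i, h⟩)
    apply eval_odd_zero hfM χ hp hfo hM2 (hr i) (hrM i) hg
    by_contra hcon
    push Not at hcon
    obtain ⟨h2, h3⟩ := hcon
    rw [Nat.not_even_iff_odd] at h2
    exact hnot (hCr i h2 h3)
  rw [h1, ← Finset.sum_fiberwise_of_maps_to (t := C) (g := fun i => nm (r i))
    (fun i hi => (mem_filter.mp hi).2), Finset.mul_sum]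
  apply Finset.sum_congr rfl
  intro c hc
  obtain ⟨hc1, hc2⟩ := hC c hc
  have e : (univ.filter (fun i => nm (r i) ∈ C)).filter (fun i => nm (r i) = c) =
      univ.filter (fun i => nm (r i) = c) := by
    ext i
    simp only [mem_filter, mem_univ, true_and]
    constructor
    · exact fun h => h.2
    · intro h
      exact ⟨by rw [h]; exact hc, h⟩
  rw [e, Finset.sum_mul, Finset.mul_sum]
  apply Finset.sum_congr rfl
  intro i hi
  simp only [mem_filter, mem_univ, true_and] at hi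
  have hdvd : nm (r i) ∣ M := (Dvd.intro_left 2 rfl).trans (hrM i)
  have h2 := eval_odd_main hfM χ hfo hM2 (hr i) hdvd hg (by rw [hi]; exact hc1) (by rw [hi]; exact hc2)
  rw [h2, hi]

end

/-- A modulus with the needed divisibility. -/
lemma exists_modulus (s : Finset ℕ) (hs : ∀ c ∈ s, c ≠ 0) :
    ∃ M : ℕ, M ≠ 0 ∧ 2 ∣ M ∧ ∀ c ∈ s, 2 * c ∣ M := by
  refine ⟨2 * ∏ c ∈ s, (2 * c), ?_, ⟨_, rfl⟩, ?_⟩
  · apply mul_ne_zero (by norm_num)
    rw [Finset.prod_ne_zero_iff]
    intro c hc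
    exact mul_ne_zero (by norm_num) (hs c hc)
  · intro c hc
    exact Dvd.dvd.mul_left (Finset.dvd_prod_of_mem (fun c => 2 * c) hc) 2

/-- The relation on a primitive even character of odd conductor, with coupled classes. -/
theorem prim_relation_good_odd (q q' : Fin N → ℚ) (hq : ∀ i, 2 ≤ q i) (hq' : ∀ i, 2 ≤ q' i)
    (hk : ∀ k : ℕ, Odd k → (∀ i, ¬ nm (q i) ∣ k) → (∀ j, ¬ nm (q' j) ∣ k) →
      ∑ i, lc ((k : ℝ) * Real.pi / (2 * (q i : ℝ))) = ∑ j, lc ((k : ℝ) * Real.pi / (2 * (q' j : ℝ))))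
    {f : ℕ} [NeZero f] (hfo : Odd f) (hf1 : 1 < f) (χ : DirichletCharacter ℂ f)
    (hp : χ.IsPrimitive) (h1 : χ ≠ 1) (he : χ.Even)
    (hreg : ∀ c, ((∃ i, nm (q i) = c) ∨ (∃ j, nm (q' j) = c)) → Odd c → f ∣ c → ∀ g, g ∣ c / f →
      (∀ i, ¬ nm (q i) ∣ g) ∧ (∀ j, ¬ nm (q' j) ∣ g))
    {b : ℕ} (hb : Odd b) (hfb : f ∣ b) :
    ∑ i ∈ univ.filter (fun i => nm (q i) = b), sg (q i).den * (χ ((q i).den : ZMod f))⁻¹ =
      ∑ j ∈ univ.filter (fun j => nm (q' j) = b), sg (q' j).den * (χ ((q' j).den : ZMod f))⁻¹ := by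
  classical
  set Nums : Finset ℕ := (univ.image fun i => nm (q i)) ∪ (univ.image fun j => nm (q' j)) with hNums
  by_cases hbn : b ∈ Nums
  · have hnz : ∀ c ∈ Nums, c ≠ 0 := by
      intro c hc
      rw [hNums, mem_union, mem_image, mem_image] at hc
      rcases hc with ⟨i, _, rfl⟩ | ⟨j, _, rfl⟩
      · have := nm_ge_two (hq i); omega
      · have := nm_ge_two (hq' j); omega
    obtain ⟨M, hM0, hM2, hMd⟩ := exists_modulus Nums hnz
    have : NeZero M := ⟨hM0⟩
    have hmem1 : ∀ i, nm (q i) ∈ Nums := fun i =>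
      mem_union_left _ (mem_image_of_mem _ (mem_univ i))
    have hmem2 : ∀ j, nm (q' j) ∈ Nums := fun j =>
      mem_union_right _ (mem_image_of_mem _ (mem_univ j))
    have hbM : b ∣ M := (Dvd.intro_left 2 rfl).trans (hMd b hbn)
    have hfM : f ∣ M := hfb.trans hbM
    set C := Nums.filter (fun c => Odd c ∧ f ∣ c) with hCdef
    have hCC : ∀ c ∈ C, Odd c ∧ f ∣ c := fun c hc => (mem_filter.mp hc).2
    have hsideq := fun {g : ℕ} (hg : Odd g) => side_odd hfM χ hp hfo hM2 q hq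
      (fun i => hMd _ (hmem1 i)) C (fun i h2 h3 => mem_filter.mpr ⟨hmem1 i, h2, h3⟩) hCC hg
    have hsideq' := fun {g : ℕ} (hg : Odd g) => side_odd hfM χ hp hfo hM2 q' hq'
      (fun i => hMd _ (hmem2 i)) C (fun i h2 h3 => mem_filter.mpr ⟨hmem2 i, h2, h3⟩) hCC hg
    let E : ℕ → ℂ := fun c =>
      ∑ i ∈ univ.filter (fun i => nm (q i) = c), sg (q i).den * (χ ((q i).den : ZMod f))⁻¹ -
      ∑ j ∈ univ.filter (fun j => nm (q' j) = c), sg (q' j).den * (χ ((q' j).den : ZMod f))⁻¹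
    have hu2 : χ (2 : ZMod f) ≠ 0 := by
      have h3 : IsUnit (2 : ZMod f) := by
        have : ((2 : ℕ) : ZMod f) = 2 := by norm_num
        rw [← this, ZMod.isUnit_iff_coprime]
        exact (Nat.coprime_two_left).mpr hfo
      obtain ⟨w, hw⟩ := h3
      have := DirichletCharacter.unit_norm_eq_one χ w
      rw [hw] at this
      intro h0
      rw [h0] at this
      simp at this
    have hT : Wy hfM χ (1 / (f : ℝ)) ≠ 0 :=
      Wy_base_ne_zero hfM χ (sum_gam_ne_zero hf1 hfo hp h1 he)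
    have hf2 : 2 < f := by
      obtain ⟨t, ht⟩ := hfo
      omega
    have helim := elim hfM χ hp hf2 hT C
      (fun c hc => by
        obtain ⟨h2, h3⟩ := hCC c hc
        have hcN := (mem_filter.mp hc).1
        refine ⟨h3, (Dvd.intro_left 2 rfl).trans (hMd c hcN), ?_⟩
        exact Odd.of_dvd_nat h2 (Nat.div_dvd_of_dvd h3))
      E
      (by
        intro c hc g hg
        obtain ⟨h2, h3⟩ := hCC c hc
        have hcN := (mem_filter.mp hc).1
        have hgo : Odd g := Odd.of_dvd_nat (Odd.of_dvd_nat h2 (Nat.div_dvd_of_dvd h3)) hg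
        have hcn : (∃ i, nm (q i) = c) ∨ (∃ j, nm (q' j) = c) := by
          rw [hNums, mem_union, mem_image, mem_image] at hcN
          rcases hcN with ⟨i, _, hi⟩ | ⟨j, _, hj⟩
          · exact Or.inl ⟨i, hi⟩
          · exact Or.inr ⟨j, hj⟩
        obtain ⟨hr1, hr2⟩ := hreg c hcn h2 h3 g hg
        have hrow := row_relation hfM χ hM2 q q'
          (fun i => (Dvd.intro_left 2 rfl).trans (hMd _ (hmem1 i)))
          (fun j => (Dvd.intro_left 2 rfl).trans (hMd _ (hmem2 j))) hk hgo hr1 hr2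
        rw [hsideq hgo, hsideq' hgo] at hrow
        have h4 := mul_left_cancel₀ hu2 hrow
        simp only [E, sub_mul, Finset.sum_sub_distrib]
        rw [h4, sub_self])
    have hbC : b ∈ C := mem_filter.mpr ⟨hbn, hb, hfb⟩
    have := helim b hbC
    simp only [E] at this
    exact sub_eq_zero.mp this
  · have hemp : ∀ (r : Fin N → ℚ), (∀ i, nm (r i) ∈ Nums) →
        univ.filter (fun i => nm (r i) = b) = ∅ := by
      intro r hr
      apply Finset.filter_false_of_mem
      intro i _ h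
      exact hbn (h ▸ hr i)
    rw [hemp q (fun i => mem_union_left _ (mem_image_of_mem _ (mem_univ i))),
      hemp q' (fun j => mem_union_right _ (mem_image_of_mem _ (mem_univ j))), Finset.sum_empty,
      Finset.sum_empty]

/-- No even nontrivial character modulo three. -/
lemma even_char_three (χ : DirichletCharacter ℂ 3) (he : χ.Even) : χ = 1 := by
  apply MulChar.ext
  intro a
  have h : ∀ a : (ZMod 3)ˣ, a = 1 ∨ a = -1 := by decide
  rcases h a with rfl | rfl
  · simp
  · have : ((-1 : (ZMod 3)ˣ) : ZMod 3) = -1 := by simp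
    rw [this, he]
    exact (MulChar.one_apply isUnit_one.neg).symm

/-- No even nontrivial character modulo four. -/
lemma even_char_four (χ : DirichletCharacter ℂ 4) (he : χ.Even) : χ = 1 := by
  apply MulChar.ext
  intro a
  have h : ∀ a : (ZMod 4)ˣ, a = 1 ∨ a = -1 := by decide
  rcases h a with rfl | rfl
  · simp
  · have : ((-1 : (ZMod 4)ˣ) : ZMod 4) = -1 := by simp
    rw [this, he]
    exact (MulChar.one_apply isUnit_one.neg).symm

end Vale.Agent.Lib.P268
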