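import Mathlib
import Vale.Agent.Lib.P268.GoodOdd

/-!
Coupled classes: the relations on primitive even characters for a conductor divisible by four.
-/

open Finset

namespace Vale.Agent.Lib.P268

variable {N : ℕ}

section
set_option linter.unusedSectionVars false
variable {M f : ℕ} [NeZero M] [NeZero f] (hfM : f ∣ M) (χ : DirichletCharacter ℂ f)

lemma eval_even_zero (hp : χ.IsPrimitive) (hf4 : 4 ∣ f) (hM2 : 2 ∣ M) {x : ℚ} (hx : 2 ≤ x)
    (hxM : 2 * nm x ∣ M) {g : ℕ} (hg : Odd g)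
    (h : Odd (nm x) ∨ ¬ f ∣ 2 * nm x ∨ f ∣ nm x) :
    Wy hfM χ ((g : ℝ) / (2 * (x : ℝ))) = 0 := by
  have hy := level_two_mul hx g
  have hy' : ((2 * nm x : ℕ) : ℝ) * ((g : ℝ) / (2 * (x : ℝ))) = (((g * x.den : ℕ) : ℤ) : ℝ) := by
    rw [hy]; simp
  rcases h with ho | hn | hd
  · have hn : ¬ f ∣ 2 * nm x := by
      intro hd
      obtain ⟨t, ht⟩ := ho
      have h4 : 4 ∣ 2 * nm x := hf4.trans hd
      omega
    exact Wy_eq_zero_of_not_dvd hfM χ hp hxM hn hy'
  · exact Wy_eq_zero_of_not_dvd hfM χ hp hxM hn hy'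
  · have h4c : 4 ∣ nm x := hf4.trans hd
    have h4 : 4 ∣ 2 * nm x := Dvd.dvd.mul_left h4c 2
    have hdiv : 2 * nm x / 2 = nm x := by omega
    have hden : Odd x.den := by
      have h3 := (den_facts hx (rfl : nm x = nm x)).2.1
      have h5 : Nat.Coprime x.den 2 :=
        Nat.Coprime.coprime_dvd_right ((by norm_num : 2 ∣ 4).trans h4c) h3
      exact (Nat.coprime_two_right).mp h5
    exact Wy_eq_zero_half hfM χ hM2 hxM h4 (by rw [hdiv]; exact hd) (hg.mul hden) hy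

lemma eval_even_main {x : ℚ} (hx : 2 ≤ x) (hxM : 2 * nm x ∣ M) (g : ℕ) (he : Even (nm x))
    (hfc : f ∣ 2 * nm x) :
    Wy hfM χ ((g : ℝ) / (2 * (x : ℝ))) =
      (χ (x.den : ZMod f))⁻¹ * Wy hfM χ ((g : ℝ) / ((2 * nm x : ℕ) : ℝ)) := by
  have h3 := (den_facts hx (rfl : nm x = nm x)).2.1
  have h5 : Nat.Coprime x.den 2 := Nat.Coprime.coprime_dvd_right (even_iff_two_dvd.mp he) h3
  have hcop : Nat.Coprime x.den (2 * nm x) := Nat.Coprime.mul_right h5 h3
  obtain ⟨u, hu⟩ := exists_unit_lift hfM hxM hcop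
  have hb0 : (nm x : ℝ) ≠ 0 := by
    have := nm_ge_two hx
    exact_mod_cast (by omega : nm x ≠ 0)
  have hyc : ((2 * nm x : ℕ) : ℝ) * ((g : ℝ) / ((2 * nm x : ℕ) : ℝ)) = ((g : ℤ) : ℝ) := by
    push_cast
    field_simp
  have htw := Wy_twist_nat hfM χ hxM hu hyc
  rw [kap_eq_of_modEq hfM χ (hu.of_dvd hfc)] at htw
  rw [← htw, div_two_mul_eq hx]
  congr 1
  push_cast
  ring

/-- One side of the row, conductor divisible by four. -/
lemma side_even (hp : χ.IsPrimitive) (hf4 : 4 ∣ f) (hM2 : 2 ∣ M) (r : Fin N → ℚ)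
    (hr : ∀ i, 2 ≤ r i) (hrM : ∀ i, 2 * nm (r i) ∣ M) (C : Finset ℕ)
    (hCr : ∀ i, Even (nm (r i)) → f ∣ 2 * nm (r i) → ¬ f ∣ nm (r i) → 2 * nm (r i) ∈ C)
    (hC : ∀ L ∈ C, ∃ c, L = 2 * c ∧ Even c ∧ f ∣ 2 * c) {g : ℕ} (hg : Odd g) :
    ∑ i, Wy hfM χ ((g : ℝ) / (2 * (r i : ℝ))) =
      ∑ L ∈ C, (∑ i ∈ univ.filter (fun i => 2 * nm (r i) = L),
        (χ ((r i).den : ZMod f))⁻¹) * Wy hfM χ ((g : ℝ) / (L : ℝ)) := by
  have h1 : ∑ i, Wy hfM χ ((g : ℝ) / (2 * (r i : ℝ))) =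
      ∑ i ∈ univ.filter (fun i => 2 * nm (r i) ∈ C), Wy hfM χ ((g : ℝ) / (2 * (r i : ℝ))) := by
    symm
    apply Finset.sum_subset (filter_subset _ _)
    intro i _ hi
    have hnot : 2 * nm (r i) ∉ C := by
      intro h
      exact hi (mem_filter.mpr ⟨mem_univ i, h⟩)
    apply eval_even_zero hfM χ hp hf4 hM2 (hr i) (hrM i) hg
    by_contra hcon
    push Not at hcon
    obtain ⟨h2, h3, h4⟩ := hcon
    rw [Nat.not_odd_iff_even] at h2
    exact hnot (hCr i h2 h3 h4)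
  rw [h1, ← Finset.sum_fiberwise_of_maps_to (t := C) (g := fun i => 2 * nm (r i))
    (fun i hi => (mem_filter.mp hi).2)]
  apply Finset.sum_congr rfl
  intro L hL
  obtain ⟨c, hc1, hc2, hc3⟩ := hC L hL
  have e : (univ.filter (fun i => 2 * nm (r i) ∈ C)).filter (fun i => 2 * nm (r i) = L) =
      univ.filter (fun i => 2 * nm (r i) = L) := by
    ext i
    simp only [mem_filter, mem_univ, true_and]
    constructor
    · exact fun h => h.2
    · intro h
      exact ⟨by rw [h]; exact hL, h⟩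
  rw [e, Finset.sum_mul]
  apply Finset.sum_congr rfl
  intro i hi
  simp only [mem_filter, mem_univ, true_and] at hi
  have hic : nm (r i) = c := by omega
  have h2 := eval_even_main hfM χ (hr i) (hrM i) g (by rw [hic]; exact hc2)
    (by rw [hic]; exact hc3)
  rw [h2, hi]

end

/-- The relation on a primitive even character with conductor divisible by four, coupled classes. -/
theorem prim_relation_good_even (q q' : Fin N → ℚ) (hq : ∀ i, 2 ≤ q i) (hq' : ∀ i, 2 ≤ q' i)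
    (hk : ∀ k : ℕ, Odd k → (∀ i, ¬ nm (q i) ∣ k) → (∀ j, ¬ nm (q' j) ∣ k) →
      ∑ i, lc ((k : ℝ) * Real.pi / (2 * (q i : ℝ))) = ∑ j, lc ((k : ℝ) * Real.pi / (2 * (q' j : ℝ))))
    {f : ℕ} [NeZero f] (hf4 : 4 ∣ f) (χ : DirichletCharacter ℂ f)
    (hp : χ.IsPrimitive) (h1 : χ ≠ 1) (he : χ.Even)
    (hu : χ (((1 + f / 2 : ℕ)) : ZMod f) = -1)
    (hreg : ∀ c, ((∃ i, nm (q i) = c) ∨ (∃ j, nm (q' j) = c)) → Even c → f ∣ 2 * c → ¬ f ∣ c →
      ∀ g, g ∣ 2 * c / f → (∀ i, ¬ nm (q i) ∣ g) ∧ (∀ j, ¬ nm (q' j) ∣ g))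
    {b : ℕ} (hb : Even b) (hfb : f ∣ 2 * b) (hfb' : ¬ f ∣ b) :
    ∑ i ∈ univ.filter (fun i => nm (q i) = b), (χ ((q i).den : ZMod f))⁻¹ =
      ∑ j ∈ univ.filter (fun j => nm (q' j) = b), (χ ((q' j).den : ZMod f))⁻¹ := by
  classical
  have hf0 : f ≠ 0 := NeZero.ne f
  have hf4le : 4 ≤ f := Nat.le_of_dvd (Nat.pos_of_ne_zero hf0) hf4
  set Nums : Finset ℕ := (univ.image fun i => nm (q i)) ∪ (univ.image fun j => nm (q' j)) with hNums
  by_cases hbn : b ∈ Nums
  · have hnz : ∀ c ∈ Nums, c ≠ 0 := by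
      intro c hc
      rw [hNums, mem_union, mem_image, mem_image] at hc
      rcases hc with ⟨i, _, rfl⟩ | ⟨j, _, rfl⟩
      · have := nm_ge_two (hq i); omega
      · have := nm_ge_two (hq' j); omega
    obtain ⟨M, hM0, hM2, hMd⟩ := exists_modulus Nums hnz
    have : NeZero M := ⟨hM0⟩
    have hmem1 : ∀ i, nm (q i) ∈ Nums := fun i =>
      mem_union_left _ (mem_image_of_mem _ (mem_univ i))
    have hmem2 : ∀ j, nm (q' j) ∈ Nums := fun j =>
      mem_union_right _ (mem_image_of_mem _ (mem_univ j))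
    have hfM : f ∣ M := hfb.trans (hMd b hbn)
    set C₀ := Nums.filter (fun c => Even c ∧ f ∣ 2 * c ∧ ¬ f ∣ c) with hC₀
    set C := C₀.image (fun c => 2 * c) with hCdef
    have hCC : ∀ L ∈ C, ∃ c, c ∈ Nums ∧ L = 2 * c ∧ Even c ∧ f ∣ 2 * c ∧ ¬ f ∣ c := by
      intro L hL
      obtain ⟨c, hc, rfl⟩ := mem_image.mp hL
      obtain ⟨h2, h3, h4, h5⟩ := mem_filter.mp hc
      exact ⟨c, h2, rfl, h3, h4, h5⟩
    have hsideq := fun {g : ℕ} (hg : Odd g) => side_even hfM χ hp hf4 hM2 q hq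
      (fun i => hMd _ (hmem1 i)) C
      (fun i h2 h3 h4 => mem_image_of_mem _ (mem_filter.mpr ⟨hmem1 i, h2, h3, h4⟩))
      (fun L hL => by
        obtain ⟨c, _, h3, h4, h5, _⟩ := hCC L hL
        exact ⟨c, h3, h4, h5⟩) hg
    have hsideq' := fun {g : ℕ} (hg : Odd g) => side_even hfM χ hp hf4 hM2 q' hq'
      (fun i => hMd _ (hmem2 i)) C
      (fun i h2 h3 h4 => mem_image_of_mem _ (mem_filter.mpr ⟨hmem2 i, h2, h3, h4⟩))
      (fun L hL => by
        obtain ⟨c, _, h3, h4, h5, _⟩ := hCC L hL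
        exact ⟨c, h3, h4, h5⟩) hg
    let E : ℕ → ℂ := fun L =>
      ∑ i ∈ univ.filter (fun i => 2 * nm (q i) = L), (χ ((q i).den : ZMod f))⁻¹ -
      ∑ j ∈ univ.filter (fun j => 2 * nm (q' j) = L), (χ ((q' j).den : ZMod f))⁻¹
    have hf1 : 1 < f := by omega
    have hT : Wy hfM χ (1 / (f : ℝ)) ≠ 0 :=
      Wy_base_ne_zero hfM χ (sum_gam_even_ne_zero hf1 hf4 hp h1 he hu)
    have hf2 : 2 < f := by omega
    have hoddq : ∀ c, f ∣ 2 * c → ¬ f ∣ c → Odd (2 * c / f) := by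
      intro c h3 h4
      obtain ⟨t, ht⟩ := h3
      have h5 : 2 * c / f = t := by
        rw [ht]
        exact Nat.mul_div_cancel_left _ (Nat.pos_of_ne_zero hf0)
      rw [h5]
      by_contra hne
      rw [Nat.not_odd_iff_even] at hne
      obtain ⟨s, hs⟩ := hne
      apply h4
      refine ⟨s, ?_⟩
      have : 2 * c = 2 * (f * s) := by rw [ht, hs]; ring
      omega
    have helim := elim hfM χ hp hf2 hT C
      (fun L hL => by
        obtain ⟨c, h2, h3, _, h5, h6⟩ := hCC L hL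
        rw [h3]
        exact ⟨h5, hMd c h2, hoddq c h5 h6⟩)
      E
      (by
        intro L hL g hg
        obtain ⟨c, h2, h3, h4, h5, h6⟩ := hCC L hL
        rw [h3] at hg
        have hgo : Odd g := Odd.of_dvd_nat (hoddq c h5 h6) hg
        have hcn : (∃ i, nm (q i) = c) ∨ (∃ j, nm (q' j) = c) := by
          rw [hNums, mem_union, mem_image, mem_image] at h2
          rcases h2 with ⟨i, _, hi⟩ | ⟨j, _, hj⟩
          · exact Or.inl ⟨i, hi⟩
          · exact Or.inr ⟨j, hj⟩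
        obtain ⟨hr1, hr2⟩ := hreg c hcn h4 h5 h6 g hg
        have hrow := row_relation hfM χ hM2 q q'
          (fun i => (Dvd.intro_left 2 rfl).trans (hMd _ (hmem1 i)))
          (fun j => (Dvd.intro_left 2 rfl).trans (hMd _ (hmem2 j))) hk hgo hr1 hr2
        rw [hsideq hgo, hsideq' hgo] at hrow
        simp only [E, sub_mul, Finset.sum_sub_distrib]
        rw [hrow, sub_self])
    have hbC : 2 * b ∈ C := mem_image_of_mem _ (mem_filter.mpr ⟨hbn, hb, hfb, hfb'⟩)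
    have := helim (2 * b) hbC
    simp only [E] at this
    have e : ∀ r : Fin N → ℚ, univ.filter (fun i => 2 * nm (r i) = 2 * b) =
        univ.filter (fun i => nm (r i) = b) := by
      intro r
      ext i
      simp only [mem_filter, mem_univ, true_and]
      omega
    rw [e q, e q'] at this
    exact sub_eq_zero.mp this
  · have hemp : ∀ (r : Fin N → ℚ), (∀ i, nm (r i) ∈ Nums) →
        univ.filter (fun i => nm (r i) = b) = ∅ := by
      intro r hr
      apply Finset.filter_false_of_mem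
      intro i _ h
      exact hbn (h ▸ hr i)
    rw [hemp q (fun i => mem_union_left _ (mem_image_of_mem _ (mem_univ i))),
      hemp q' (fun j => mem_union_right _ (mem_image_of_mem _ (mem_univ j))), Finset.sum_empty,
      Finset.sum_empty]

end Vale.Agent.Lib.P268
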