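import Mathlib
import Vale.Agent.Lib.P268.GoodEven

/-!
The main theorem for coupled numerator classes.
-/

open Finset

namespace Vale.Agent.Lib.P268

variable {N : ℕ}

/-- The class of numerator `b` is unobstructed: among the numerators `c` of `q` of the parity of `b`
sharing a factor with `b`, every odd numerator `d` of `q` dividing `c` satisfies `c ≤ 3 d`. -/
def Unobstructed (q : Fin N → ℚ) (b : ℕ) : Prop :=
  ∀ i j, nm (q i) % 2 = b % 2 → 1 < Nat.gcd b (nm (q i)) → Odd (nm (q j)) →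
    nm (q j) ∣ nm (q i) → nm (q i) ≤ 3 * nm (q j)

lemma numerator_of_q (q q' : Fin N → ℚ) (hq : ∀ i, 2 ≤ q i) (hq' : ∀ i, 2 ≤ q' i)
    (h : ∀ m : ℕ, 1 ≤ m → monodromyTrace q m = monodromyTrace q' m) {c : ℕ} (hc : 3 ≤ c)
    (hn : (∃ i, nm (q i) = c) ∨ (∃ j, nm (q' j) = c)) : ∃ i, nm (q i) = c := by
  rcases hn with hn | ⟨j, rfl⟩
  · exact hn
  · exact exists_of_numerator q q' hq hq' h j hc

lemma aux_three {f : ℕ} (h1 : 1 < f) (h3 : f ≠ 3) (h7 : f ≤ 3) (hfo : Odd f) : False := by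
  obtain ⟨t, ht⟩ := hfo
  omega

lemma aux_four {f : ℕ} (h4 : 4 ∣ f) (hne : f ≠ 4) (h6 : f ≤ 6) (h0 : f ≠ 0) : False := by
  obtain ⟨t, ht⟩ := h4
  omega

/-- Regular rows, odd conductor. -/
lemma reg_of_good_odd (q q' : Fin N → ℚ) (hq : ∀ i, 2 ≤ q i) (hq' : ∀ i, 2 ≤ q' i)
    (h : ∀ m : ℕ, 1 ≤ m → monodromyTrace q m = monodromyTrace q' m)
    {b f : ℕ} (hgood : Unobstructed q b) (hb : Odd b) (hfb : f ∣ b) (hf1 : 1 < f) (hf3 : f ≠ 3)
    (hfo : Odd f) (c : ℕ) (hn : (∃ i, nm (q i) = c) ∨ (∃ j, nm (q' j) = c)) (hco : Odd c)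
    (hfc : f ∣ c) (g : ℕ) (hg : g ∣ c / f) :
    (∀ i, ¬ nm (q i) ∣ g) ∧ (∀ j, ¬ nm (q' j) ∣ g) := by
  have hc0 : 0 < c := hco.pos
  have hc3 : 3 ≤ c := by
    have h1 : 2 ≤ c := by
      rcases hn with ⟨i, rfl⟩ | ⟨j, rfl⟩
      · exact nm_ge_two (hq i)
      · exact nm_ge_two (hq' j)
    obtain ⟨t, ht⟩ := hco
    omega
  obtain ⟨i₀, hi₀⟩ := numerator_of_q q q' hq hq' h hc3 hn
  have key : ∀ d : ℕ, 2 ≤ d → ((∃ i, nm (q i) = d) ∨ (∃ j, nm (q' j) = d)) → ¬ d ∣ g := by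
    intro d hd2 hdn hdg
    have hdc : d ∣ c / f := hdg.trans hg
    have hdo : Odd d := Odd.of_dvd_nat (Odd.of_dvd_nat hco (Nat.div_dvd_of_dvd hfc)) hdc
    have hd3 : 3 ≤ d := by
      obtain ⟨t, ht⟩ := hdo
      omega
    obtain ⟨j₀, hj₀⟩ := numerator_of_q q q' hq hq' h hd3 hdn
    have hfd : d * f ∣ c := by
      obtain ⟨t, ht⟩ := hdc
      have h3 : c = f * (c / f) := (Nat.mul_div_cancel' hfc).symm
      refine ⟨t, ?_⟩
      rw [h3, ht]
      ring
    have hdc' : d ∣ c := (Dvd.intro _ rfl).trans hfd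
    have h4 := hgood i₀ j₀ (by
        rw [hi₀]
        rw [Nat.odd_iff] at hb hco
        omega) (by
        rw [hi₀]
        have h5 : f ∣ Nat.gcd b c := Nat.dvd_gcd hfb hfc
        have h6 : 0 < Nat.gcd b c := Nat.gcd_pos_of_pos_left _ hb.pos
        have := Nat.le_of_dvd h6 h5
        omega) (by rw [hj₀]; exact hdo) (by rw [hj₀, hi₀]; exact hdc')
    rw [hi₀, hj₀] at h4
    have h5 := Nat.le_of_dvd hc0 hfd
    have h6 : d * f ≤ d * 3 := by linarith
    have h7 : f ≤ 3 := Nat.le_of_mul_le_mul_left h6 (by omega)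
    exact aux_three hf1 hf3 h7 hfo
  constructor
  · intro i
    exact key _ (nm_ge_two (hq i)) (Or.inl ⟨i, rfl⟩)
  · intro j
    exact key _ (nm_ge_two (hq' j)) (Or.inr ⟨j, rfl⟩)

/-- The hypothesis of `class_eq_of_char`, odd class. -/
theorem char_of_good_odd (q q' : Fin N → ℚ) (hq : ∀ i, 2 ≤ q i) (hq' : ∀ i, 2 ≤ q' i)
    (h : ∀ m : ℕ, 1 ≤ m → monodromyTrace q m = monodromyTrace q' m)
    {b : ℕ} (hb : Odd b) (hgood : Unobstructed q b)
    (hk : ∀ k : ℕ, Odd k → (∀ i, ¬ nm (q i) ∣ k) → (∀ j, ¬ nm (q' j) ∣ k) →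
      ∑ i, lc ((k : ℝ) * Real.pi / (2 * (q i : ℝ))) = ∑ j, lc ((k : ℝ) * Real.pi / (2 * (q' j : ℝ))))
    (ψ : DirichletCharacter ℂ b) (hψ : ψ ≠ 1) (he : ψ.Even) :
    ∑ i ∈ univ.filter (fun i => nm (q i) = b), sg (q i).den * ψ ((q i).den : ZMod b) =
      ∑ j ∈ univ.filter (fun j => nm (q' j) = b), sg (q' j).den * ψ ((q' j).den : ZMod b) := by
  have hb0 : b ≠ 0 := by
    intro h0
    rw [h0] at hb
    exact absurd hb (by decide)
  have : NeZero b := ⟨hb0⟩
  set φ : DirichletCharacter ℂ b := ψ⁻¹ with hφ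
  have hφ1 : φ ≠ 1 := by
    intro h
    exact hψ (inv_eq_one.mp h)
  have : NeZero φ.conductor := ⟨φ.conductor_ne_zero⟩
  have hf1 : 1 < φ.conductor := by
    have h0 := φ.conductor_ne_zero
    have h1 : φ.conductor ≠ 1 := fun h => hφ1 (φ.eq_one_iff_conductor_eq_one.mpr h)
    omega
  have hfb : φ.conductor ∣ b := φ.conductor_dvd_level
  set χ : DirichletCharacter ℂ φ.conductor := φ.primitiveCharacter with hχ
  have hp : χ.IsPrimitive := φ.primitiveCharacter_isPrimitive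
  have hχ1 : χ ≠ 1 := by
    intro h
    have h2 : χ.conductor = φ.conductor := hp
    rw [h, DirichletCharacter.conductor_one] at h2
    omega
  have hval : ∀ a : ℕ, Nat.Coprime a b → (χ (a : ZMod φ.conductor))⁻¹ = ψ (a : ZMod b) := by
    intro a ha
    have h2 : IsCoprime (a : ℤ) (b : ℤ) := Nat.isCoprime_iff_coprime.mpr ha
    have h3 := φ.primitiveCharacter_apply_of_isCoprime h2
    rw [Int.cast_natCast, Int.cast_natCast] at h3
    rw [← hχ] at h3
    rw [h3, hφ, MulChar.inv_apply_eq_inv', inv_inv]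
  have hχe : χ.Even := by
    have h2 : IsCoprime (-1 : ℤ) (b : ℤ) := by
      exact isCoprime_one_left.neg_left
    have h3 := φ.primitiveCharacter_apply_of_isCoprime h2
    rw [← hχ] at h3
    push_cast at h3
    show χ (-1) = 1
    rw [h3, hφ, MulChar.inv_apply_eq_inv', he]
    simp
  have hfo : Odd φ.conductor := Odd.of_dvd_nat hb hfb
  have hf3 : φ.conductor ≠ 3 := by
    intro h3
    have key : ∀ (f : ℕ) (_ : f = 3) (χ' : DirichletCharacter ℂ f), χ'.Even → χ' = 1 := by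
      intro f hf χ' hχ'
      subst hf
      exact even_char_three χ' hχ'
    exact hχ1 (key _ h3 χ hχe)
  have hreg := reg_of_good_odd q q' hq hq' h hgood hb hfb hf1 hf3 hfo
  have hh := prim_relation_good_odd q q' hq hq' hk hfo hf1 χ hp hχ1 hχe hreg hb hfb
  have e : ∀ (r : Fin N → ℚ), (∀ i, 2 ≤ r i) →
      ∑ i ∈ univ.filter (fun i => nm (r i) = b), sg (r i).den * (χ ((r i).den : ZMod φ.conductor))⁻¹ =
      ∑ i ∈ univ.filter (fun i => nm (r i) = b), sg (r i).den * ψ ((r i).den : ZMod b) := by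
    intro r hr
    apply Finset.sum_congr rfl
    intro i hi
    simp only [mem_filter, mem_univ, true_and] at hi
    rw [hval _ (den_facts (hr i) hi).2.1]
  rw [e q hq, e q' hq'] at hh
  exact hh

/-- The hypothesis of `class_eq_even`, even class. -/
theorem char_of_good_even (q q' : Fin N → ℚ) (hq : ∀ i, 2 ≤ q i) (hq' : ∀ i, 2 ≤ q' i)
    (htr : ∀ m : ℕ, 1 ≤ m → monodromyTrace q m = monodromyTrace q' m)
    {b : ℕ} (hb : Even b) (hb3 : 3 ≤ b) (hgood : Unobstructed q b)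
    (hk : ∀ k : ℕ, Odd k → (∀ i, ¬ nm (q i) ∣ k) → (∀ j, ¬ nm (q' j) ∣ k) →
      ∑ i, lc ((k : ℝ) * Real.pi / (2 * (q i : ℝ))) = ∑ j, lc ((k : ℝ) * Real.pi / (2 * (q' j : ℝ))))
    (ψ : DirichletCharacter ℂ (2 * b)) (he : ψ.Even)
    (hw : ψ (((1 + b : ℕ)) : ZMod (2 * b)) = -1) :
    ∑ i ∈ univ.filter (fun i => nm (q i) = b), ψ ((q i).den : ZMod (2 * b)) =
      ∑ j ∈ univ.filter (fun j => nm (q' j) = b), ψ ((q' j).den : ZMod (2 * b)) := by
  have hL : NeZero (2 * b) := ⟨by omega⟩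
  set φ : DirichletCharacter ℂ (2 * b) := ψ⁻¹ with hφ
  have : NeZero φ.conductor := ⟨φ.conductor_ne_zero⟩
  set f := φ.conductor with hf
  obtain ⟨g, hg⟩ : f ∣ 2 * b := φ.conductor_dvd_level
  set χ : DirichletCharacter ℂ f := φ.primitiveCharacter with hχ
  have hp : χ.IsPrimitive := φ.primitiveCharacter_isPrimitive
  have hval : ∀ a : ℕ, Nat.Coprime a (2 * b) → χ (a : ZMod f) = (ψ (a : ZMod (2 * b)))⁻¹ := by
    intro a ha
    have h2 : IsCoprime (a : ℤ) ((2 * b : ℕ) : ℤ) := Nat.isCoprime_iff_coprime.mpr ha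
    have h3 := φ.primitiveCharacter_apply_of_isCoprime h2
    rw [Int.cast_natCast, Int.cast_natCast] at h3
    rw [← hχ] at h3
    rw [h3, hφ, MulChar.inv_apply_eq_inv']
  have hcop1b : Nat.Coprime (1 + b) (2 * b) := by
    have h1 : Nat.Coprime (1 + b) b := by simp
    have h2 : Nat.Coprime (1 + b) 2 := by
      rw [Nat.coprime_two_right]
      obtain ⟨m, hm⟩ := hb
      exact ⟨m, by omega⟩
    exact Nat.Coprime.mul_right h2 h1
  have hχw : χ (((1 + b : ℕ)) : ZMod f) = -1 := by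
    rw [hval _ hcop1b, hw]
    norm_num
  -- `f` does not divide `b`
  have hfb : ¬ f ∣ b := by
    intro hd
    have h1 : (((1 + b : ℕ)) : ZMod f) = 1 := by
      push_cast
      rw [(ZMod.natCast_eq_zero_iff b f).mpr hd, add_zero]
    rw [h1, map_one] at hχw
    norm_num at hχw
  have hgodd : Odd g := by
    by_contra hne
    rw [Nat.not_odd_iff_even] at hne
    obtain ⟨m, hm⟩ := hne
    apply hfb
    refine ⟨m, ?_⟩
    have : 2 * b = 2 * (f * m) := by rw [hg, hm]; ring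
    omega
  have hf4 : 4 ∣ f := by
    obtain ⟨m, hm⟩ := hb
    have h1 : 4 ∣ f * g := by
      rw [← hg, hm]
      exact ⟨m, by ring⟩
    exact Nat.Coprime.dvd_of_dvd_mul_right (Nat.Coprime.pow_left 2 (Nat.coprime_two_left.mpr hgodd) :
      Nat.Coprime (2 ^ 2) g) h1
  have hχ1 : χ ≠ 1 := by
    intro h
    rw [h] at hχw
    by_cases hx : IsUnit (((1 + b : ℕ)) : ZMod f)
    · rw [MulChar.one_apply hx] at hχw
      norm_num at hχw
    · rw [MulChar.map_nonunit _ hx] at hχw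
      norm_num at hχw
  have hχe : χ.Even := by
    have h2 : IsCoprime (-1 : ℤ) ((2 * b : ℕ) : ℤ) := isCoprime_one_left.neg_left
    have h3 := φ.primitiveCharacter_apply_of_isCoprime h2
    rw [← hχ] at h3
    push_cast at h3
    show χ (-1) = 1
    rw [h3, hφ, MulChar.inv_apply_eq_inv', he]
    simp
  have hu : χ (((1 + f / 2 : ℕ)) : ZMod f) = -1 := by
    rw [← hχw]
    congr 1
    obtain ⟨e, he'⟩ := hgodd
    obtain ⟨m, hm⟩ := hf4
    have h1 : f / 2 = 2 * m := by omega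
    have h2 : b = 2 * m + f * e := by
      rw [he', hm] at hg
      rw [hm]
      nlinarith
    rw [h1, h2]
    push_cast
    rw [ZMod.natCast_self]
    ring
  have hf0 : f ≠ 0 := NeZero.ne f
  have hf4ne : f ≠ 4 := by
    intro h4
    have key : ∀ (f' : ℕ) (_ : f' = 4) (χ' : DirichletCharacter ℂ f'), χ'.Even → χ' = 1 := by
      intro f' hf' χ' hχ'
      subst hf'
      exact even_char_four χ' hχ'
    exact hχ1 (key _ h4 χ hχe)
  -- regular rows
  have hreg : ∀ c, ((∃ i, nm (q i) = c) ∨ (∃ j, nm (q' j) = c)) → Even c → f ∣ 2 * c → ¬ f ∣ c →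
      ∀ g', g' ∣ 2 * c / f → (∀ i, ¬ nm (q i) ∣ g') ∧ (∀ j, ¬ nm (q' j) ∣ g') := by
    intro c hn hce hf2c hfc g' hg'
    have hc2 : 2 ≤ c := by
      rcases hn with ⟨i, rfl⟩ | ⟨j, rfl⟩
      · exact nm_ge_two (hq i)
      · exact nm_ge_two (hq' j)
    have hoddq : Odd (2 * c / f) := by
      obtain ⟨t, ht⟩ := hf2c
      have h5 : 2 * c / f = t := by
        rw [ht]
        exact Nat.mul_div_cancel_left _ (Nat.pos_of_ne_zero hf0)
      rw [h5]
      by_contra hne
      rw [Nat.not_odd_iff_even] at hne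
      obtain ⟨s, hs⟩ := hne
      apply hfc
      refine ⟨s, ?_⟩
      have : 2 * c = 2 * (f * s) := by rw [ht, hs]; ring
      omega
    have key : ∀ d : ℕ, 2 ≤ d → ((∃ i, nm (q i) = d) ∨ (∃ j, nm (q' j) = d)) → ¬ d ∣ g' := by
      intro d hd2 hdn hdg
      have hdc : d ∣ 2 * c / f := hdg.trans hg'
      have hdo : Odd d := Odd.of_dvd_nat hoddq hdc
      have hd3 : 3 ≤ d := by
        obtain ⟨t, ht⟩ := hdo
        omega
      obtain ⟨j₀, hj₀⟩ := numerator_of_q q q' hq hq' htr hd3 hdn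
      have hfd : d * f ∣ 2 * c := by
        obtain ⟨t, ht⟩ := hdc
        have h3 : 2 * c = f * (2 * c / f) := (Nat.mul_div_cancel' hf2c).symm
        refine ⟨t, ?_⟩
        rw [h3, ht]
        ring
      have hf4le : 4 ≤ f := Nat.le_of_dvd (Nat.pos_of_ne_zero hf0) hf4
      have h2cpos : 0 < 2 * c := by omega
      have h5 := Nat.le_of_dvd h2cpos hfd
      by_cases hc3 : 3 ≤ c
      · obtain ⟨i₀, hi₀⟩ := numerator_of_q q q' hq hq' htr hc3 hn
        have hdc' : d ∣ c := by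
          have h6 : d ∣ 2 * c := (Dvd.intro _ rfl).trans hfd
          exact Nat.Coprime.dvd_of_dvd_mul_left ((Nat.coprime_two_right).mpr hdo) h6
        have h4 := hgood i₀ j₀ (by
            rw [hi₀]
            rw [Nat.even_iff] at hb hce
            omega) (by
            rw [hi₀]
            have h6 : 2 ∣ Nat.gcd b c :=
              Nat.dvd_gcd (even_iff_two_dvd.mp hb) (even_iff_two_dvd.mp hce)
            have h7 : 0 < Nat.gcd b c := Nat.gcd_pos_of_pos_left _ (by omega)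
            have := Nat.le_of_dvd h7 h6
            omega) (by rw [hj₀]; exact hdo) (by rw [hj₀, hi₀]; exact hdc')
        rw [hi₀, hj₀] at h4
        have h6 : d * f ≤ d * 6 := by linarith
        have h7 : f ≤ 6 := Nat.le_of_mul_le_mul_left h6 (by omega)
        exact aux_four hf4 hf4ne h7 hf0
      · have hc22 : c = 2 := by omega
        rw [hc22] at h5
        have h6 : d * f ≤ d * 1 := by nlinarith
        have h7 : f ≤ 1 := Nat.le_of_mul_le_mul_left h6 (by omega)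
        omega
    constructor
    · intro i
      exact key _ (nm_ge_two (hq i)) (Or.inl ⟨i, rfl⟩)
    · intro j
      exact key _ (nm_ge_two (hq' j)) (Or.inr ⟨j, rfl⟩)
  have hh := prim_relation_good_even q q' hq hq' hk hf4 χ hp hχ1 hχe hu hreg hb ⟨g, hg⟩ hfb
  have e : ∀ (r : Fin N → ℚ), (∀ i, 2 ≤ r i) →
      ∑ i ∈ univ.filter (fun i => nm (r i) = b), (χ ((r i).den : ZMod f))⁻¹ =
      ∑ i ∈ univ.filter (fun i => nm (r i) = b), ψ ((r i).den : ZMod (2 * b)) := by
    intro r hr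
    apply Finset.sum_congr rfl
    intro i hi
    simp only [mem_filter, mem_univ, true_and] at hi
    have h3 := (den_facts (hr i) hi).2.1
    have h4 : Nat.Coprime (r i).den 2 :=
      Nat.Coprime.coprime_dvd_right (even_iff_two_dvd.mp hb) h3
    rw [hval _ (Nat.Coprime.mul_right h4 h3), inv_inv]
  rw [e q hq, e q' hq'] at hh
  exact hh

/-- The main theorem: rigid or unobstructed classes. -/
theorem weights_eq_good (q q' : Fin N → ℚ) (hq : ∀ i, 2 ≤ q i) (hq' : ∀ i, 2 ≤ q' i)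
    (h : ∀ m : ℕ, 1 ≤ m → monodromyTrace q m = monodromyTrace q' m)
    (hcot : ∀ k : ℕ, Odd k → (∀ i, ¬ nm (q i) ∣ k) → (∀ j, ¬ nm (q' j) ∣ k) →
      |cotK q k| = |cotK q' k|)
    (hsep : ∀ b : ℕ, 3 ≤ b → ClassRigid q b ∨ Unobstructed q b) :
    ∀ v : ℚ, (univ.filter (fun i => q i = v)).card = (univ.filter (fun j => q' j = v)).card := by
  have hk : ∀ k : ℕ, Odd k → (∀ i, ¬ nm (q i) ∣ k) → (∀ j, ¬ nm (q' j) ∣ k) →
      ∑ i, lc ((k : ℝ) * Real.pi / (2 * (q i : ℝ))) =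
        ∑ j, lc ((k : ℝ) * Real.pi / (2 * (q' j : ℝ))) := by
    intro k hk1 hk2 hk3
    rw [← log_cotK q hq hk2, ← log_cotK q' hq' hk3, hcot k hk1 hk2 hk3]
  have hlog : ∑ i, γ (q i) = ∑ j, γ (q' j) := by
    have h1 := hk 1 odd_one
      (fun i hd => by have := nm_ge_two (hq i); have := Nat.le_of_dvd one_pos hd; omega)
      (fun j hd => by have := nm_ge_two (hq' j); have := Nat.le_of_dvd one_pos hd; omega)
    rw [Finset.sum_congr rfl (fun i _ => lc_one_eq_γ (hq i)),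
      Finset.sum_congr rfl (fun j _ => lc_one_eq_γ (hq' j))] at h1
    exact h1
  apply weights_eq_of_classes q q' hq hq' hlog
  intro b hb3
  rcases hsep b hb3 with hr | hgood
  · exact class_conclusion' q q' hq hq' hr h hb3
  · have hcount : ∀ v : ℚ, ((univ.filter (fun i => nm (q i) = b)).filter (fun i => q i = v)).card =
        ((univ.filter (fun j => nm (q' j) = b)).filter (fun j => q' j = v)).card := by
      rcases Nat.even_or_odd b with he | ho
      · exact class_eq_even q q' hq hq' he hb3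
          (char_of_good_even q q' hq hq' h he hb3 hgood hk)
      · exact class_eq_of_char q q' hq hq' ho hb3
          (cp_eq_of_trace q q' hq hq' h b (by omega))
          (char_of_good_odd q q' hq hq' h ho hgood hk)
    have hs := sum_eq_of_counts q q' γ _ _ hcount
    exact ⟨hs.ge, fun _ => hcount⟩

end Vale.Agent.Lib.P268
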