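import Mathlib
import Vale.Agent.Lib.P268.Elim

/-!
Nonvanishing of the unit sums at all levels without bad primes.
-/

open Finset

namespace Vale.Agent.Lib.P268

section
set_option linter.unusedSectionVars false
variable {M f : ℕ} [NeZero M] [NeZero f] (hfM : f ∣ M) (χ : DirichletCharacter ℂ f)

/-- The relation at a prime dividing the lower level. -/
theorem Wy_prime_dvd_level {p n₀ : ℕ} (hpp : p.Prime) (hodd : Odd p) (hpn : p ∣ n₀)
    (hfn : f ∣ n₀) (hn : p * n₀ ∣ M) (h2 : 2 < n₀) :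
    (p : ℂ) * Wy hfM χ (1 / ((p * n₀ : ℕ) : ℝ)) = Wy hfM χ (1 / (n₀ : ℝ)) := by
  have : Fact p.Prime := ⟨hpp⟩
  have hp0 : (p : ℝ) ≠ 0 := by exact_mod_cast hpp.ne_zero
  have hn0 : (n₀ : ℝ) ≠ 0 := by exact_mod_cast (by omega : n₀ ≠ 0)
  set n := p * n₀ with hndef
  have hnr : (n : ℝ) = (p : ℝ) * (n₀ : ℝ) := by rw [hndef]; push_cast; ring
  have hnr0 : (n : ℝ) ≠ 0 := by rw [hnr]; exact mul_ne_zero hp0 hn0
  set y : ℝ := 1 / (n : ℝ) with hy
  have hyn : (n : ℝ) * y = ((1 : ℤ) : ℝ) := by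
    rw [hy]; push_cast; field_simp
  -- the lifts
  let A : ZMod p → ℕ := fun x => 1 + x.val * n₀
  have hA2 : ∀ x : ZMod p, A x ≡ 1 [MOD n₀] := by
    intro x
    simp [A, Nat.ModEq]
  -- the key identity
  have hkey : ∀ w : ℕ, Nat.Coprime w n →
      ∑ x : ZMod p, lc (Real.pi * (w : ℝ) * ((A x : ℝ) * y)) =
        lc (Real.pi * (w : ℝ) * (1 / (n₀ : ℝ))) := by
    intro w hw
    have hwn₀ : Nat.Coprime w n₀ := Nat.Coprime.coprime_dvd_right (Dvd.intro_left p rfl) hw
    have hwp : Nat.Coprime w p := Nat.Coprime.coprime_dvd_right (Dvd.intro n₀ rfl) hw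
    set θ : ℝ := Real.pi * (w : ℝ) * y with hθ
    have hpθ : (p : ℝ) * θ = Real.pi * (w : ℝ) * (1 / (n₀ : ℝ)) := by
      rw [hθ, hy, hnr]
      field_simp
    have hpi := Real.pi_ne_zero
    have hs : Real.sin ((p : ℝ) * θ) ≠ 0 := by
      rw [hpθ]
      intro h0
      rw [Real.sin_eq_zero_iff] at h0
      obtain ⟨m, hm⟩ := h0
      have h3 : (m : ℝ) * (n₀ : ℝ) = (w : ℝ) := by
        field_simp at hm
        linarith
      have h4 : m * (n₀ : ℤ) = (w : ℤ) := by exact_mod_cast h3
      have h5 : (n₀ : ℤ) ∣ (w : ℤ) := ⟨m, by rw [← h4]; ring⟩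
      have h6 : n₀ ∣ w := by exact_mod_cast h5
      have h7 := Nat.Coprime.eq_one_of_dvd hwn₀.symm h6
      omega
    have hc : Real.cos ((p : ℝ) * θ) ≠ 0 := by
      rw [hpθ]
      intro h0
      rw [Real.cos_eq_zero_iff] at h0
      obtain ⟨m, hm⟩ := h0
      have h3 : (2 : ℝ) * (w : ℝ) = (2 * (m : ℝ) + 1) * (n₀ : ℝ) := by
        field_simp at hm
        linarith
      have h4 : (2 : ℤ) * (w : ℤ) = (2 * m + 1) * (n₀ : ℤ) := by exact_mod_cast h3
      have h5 : (n₀ : ℤ) ∣ ((2 * w : ℕ) : ℤ) := ⟨2 * m + 1, by push_cast; rw [h4]; ring⟩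
      have h6 : n₀ ∣ 2 * w := by exact_mod_cast h5
      have h7 : n₀ ∣ 2 := Nat.Coprime.dvd_of_dvd_mul_right hwn₀.symm h6
      have := Nat.le_of_dvd (by norm_num) h7
      omega
    rw [← hpθ, ← lc_distrib hodd θ hs hc]
    -- the bijection
    have hwu : (w : ZMod p) ≠ 0 := by
      intro h0
      rw [ZMod.natCast_eq_zero_iff] at h0
      have := Nat.Coprime.eq_one_of_dvd hwp.symm h0
      exact hpp.one_lt.ne' this
    set c : ZMod p := (w : ZMod p) with hc'
    let τ : ZMod p ≃ ZMod p :=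
      { toFun := fun x => c * x
        invFun := fun j => c⁻¹ * j
        left_inv := fun x => by field_simp
        right_inv := fun j => by field_simp }
    have hrange : ∑ j ∈ range p, lc (θ + (j : ℝ) * Real.pi / (p : ℝ)) =
        ∑ j : ZMod p, lc (θ + ((j.val : ℕ) : ℝ) * Real.pi / (p : ℝ)) := by
      symm
      apply Finset.sum_nbij (fun j : ZMod p => j.val)
      · intro j _
        exact mem_range.mpr (ZMod.val_lt j)
      · intro a _ b _ hab
        exact ZMod.val_injective p hab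
      · intro j hj
        refine ⟨(j : ZMod p), by simp, ?_⟩
        exact ZMod.val_cast_of_lt (mem_coe.mp hj |> mem_range.mp)
      · intro j _
        rfl
    rw [hrange]
    apply Fintype.sum_equiv τ
    intro x
    have hmod0 : w * x.val ≡ (τ x).val [MOD p] := by
      rw [← ZMod.natCast_eq_natCast_iff]
      push_cast
      rw [ZMod.natCast_zmod_val, ZMod.natCast_zmod_val]
      show (w : ZMod p) * x = c * x
      rw [hc']
    have hmod : w * A x ≡ w + n₀ * (τ x).val [MOD p * n₀] := by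
      have h3 : w * A x = w + n₀ * (w * x.val) := by
        simp only [A]
        ring
      rw [h3]
      apply Nat.ModEq.add_left
      rw [mul_comm p n₀]
      exact Nat.ModEq.mul_left' _ hmod0
    have h5 := lc_congr hmod hyn
    have e1 : Real.pi * (w : ℝ) * ((A x : ℝ) * y) = Real.pi * ((w * A x : ℕ) : ℝ) * y := by
      push_cast
      ring
    have e2 : θ + (((τ x).val : ℕ) : ℝ) * Real.pi / (p : ℝ) =
        Real.pi * ((w + n₀ * (τ x).val : ℕ) : ℝ) * y := by
      rw [hθ, hy, hnr]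
      push_cast
      field_simp
    rw [e1, e2]
    exact h5
  -- all terms agree
  have hnz : ∀ x : ZMod p, Wy hfM χ ((A x : ℝ) * y) = Wy hfM χ y := by
    intro x
    have hcop1 : Nat.Coprime (A x) n₀ := by
      rw [Nat.Coprime, (hA2 x).gcd_eq]
      simp
    have hcop : Nat.Coprime (A x) n :=
      Nat.Coprime.mul_right (Nat.Coprime.coprime_dvd_right hpn hcop1) hcop1
    obtain ⟨u, hu⟩ := exists_unit_lift hfM hn hcop
    rw [Wy_twist_nat hfM χ hn hu hyn]
    have h3 : (u : ZMod M).val ≡ 1 [MOD f] :=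
      ((hu.of_dvd (Dvd.intro_left p rfl : n₀ ∣ n)).trans (hA2 x)).of_dvd hfn
    rw [kap_eq_of_modEq hfM χ h3]
    simp
  have hcard : (((univ : Finset (ZMod p))).card : ℂ) = (p : ℂ) := by
    rw [Finset.card_univ, ZMod.card]
  have hsum1 : (p : ℂ) * Wy hfM χ y = ∑ x : ZMod p, Wy hfM χ ((A x : ℝ) * y) := by
    rw [Finset.sum_congr rfl (fun x _ => hnz x), Finset.sum_const, nsmul_eq_mul, hcard]
  have hsum2 : ∑ x : ZMod p, Wy hfM χ ((A x : ℝ) * y) =
      ∑ v : (ZMod M)ˣ, kap hfM χ v *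
        ∑ x : ZMod p, (lc (Real.pi * (((v : ZMod M).val : ℕ) : ℝ) * ((A x : ℝ) * y)) : ℂ) := by
    unfold Wy
    rw [Finset.sum_comm]
    apply Finset.sum_congr rfl
    intro v _
    rw [Finset.mul_sum]
  rw [hsum1, hsum2]
  unfold Wy
  apply Finset.sum_congr rfl
  intro v _
  congr 1
  have hcopv : Nat.Coprime (v : ZMod M).val n :=
    Nat.Coprime.coprime_dvd_right hn (ZMod.val_coe_unit_coprime v)
  have h3 := hkey _ hcopv
  rw [← h3]
  push_cast
  rfl

/-- Nonvanishing at all levels without bad primes. -/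
theorem Wy_ne_zero_good (hf2 : 2 < f) (hT : Wy hfM χ (1 / (f : ℝ)) ≠ 0) :
    ∀ r : ℕ, f * r ∣ M → Odd r → (∀ p : ℕ, p.Prime → p ∣ r → ¬ p ∣ f → χ (p : ZMod f) ≠ 1) →
      Wy hfM χ (1 / ((f * r : ℕ) : ℝ)) ≠ 0 := by
  intro r
  induction r using Nat.strong_induction_on with
  | _ r ih =>
    intro hrM hr hbad
    by_cases hr1 : r = 1
    · subst hr1
      simpa using hT
    · have hr0 : r ≠ 0 := by
        rintro rfl
        exact absurd hr (by decide)
      have hpp : r.minFac.Prime := Nat.minFac_prime hr1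
      set p := r.minFac with hp
      obtain ⟨r', hr'⟩ : p ∣ r := Nat.minFac_dvd r
      have hr'0 : r' ≠ 0 := by
        rintro rfl
        rw [mul_zero] at hr'
        exact hr0 hr'
      have hlt : r' < r := by
        rw [hr']
        have := hpp.two_le
        have h3 : 0 < r' := Nat.pos_of_ne_zero hr'0
        nlinarith
      have hoddp : Odd p := Odd.of_dvd_nat hr (Dvd.intro _ hr'.symm)
      have hoddr' : Odd r' := Odd.of_dvd_nat hr (Dvd.intro_left _ hr'.symm)
      have hdvd : p * (f * r') ∣ M := by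
        have e : p * (f * r') = f * r := by rw [hr']; ring
        rw [e]
        exact hrM
      have hn₀M : f * r' ∣ M := (Dvd.intro_left p rfl).trans hdvd
      have hbad' : ∀ p' : ℕ, p'.Prime → p' ∣ r' → ¬ p' ∣ f → χ (p' : ZMod f) ≠ 1 := by
        intro p' h1 h2 h3
        exact hbad p' h1 (h2.trans (Dvd.intro_left _ hr'.symm)) h3
      have hne := ih r' hlt hn₀M hoddr' hbad'
      have hmpos : 0 < r' := Nat.pos_of_ne_zero hr'0
      have h2n : 2 < f * r' := lt_of_lt_of_le hf2 (Nat.le_mul_of_pos_right f hmpos)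
      have e : f * r = p * (f * r') := by rw [hr']; ring
      rw [e]
      by_cases hpn : p ∣ f * r'
      · have h3 := Wy_prime_dvd_level hfM χ hpp hoddp hpn (Dvd.intro _ rfl) hdvd h2n
        intro h0
        rw [h0, mul_zero] at h3
        exact hne h3.symm
      · have hcop : Nat.Coprime p (f * r') := (Nat.Prime.coprime_iff_not_dvd hpp).mpr hpn
        have hpf : ¬ p ∣ f := fun h => hpn (Dvd.dvd.mul_right h r')
        have h3 := Wy_prime_level hfM χ hpp hoddp hcop (Dvd.intro _ rfl) hdvd h2n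
        intro h0
        rw [h0, mul_zero] at h3
        have h4 : (1 - χ (p : ZMod f)) ≠ 0 :=
          sub_ne_zero.mpr (Ne.symm (hbad p hpp (Nat.minFac_dvd r) hpf))
        exact (mul_ne_zero h4 hne) h3.symm

end

/-- Splitting off the bad part of a number. -/
lemma good_split (Bad : ℕ → Prop) : ∀ r : ℕ, r ≠ 0 →
    ∃ g : ℕ, g ∣ r ∧ (∀ p : ℕ, p.Prime → p ∣ g → Bad p) ∧
      (∀ p : ℕ, p.Prime → p ∣ r / g → ¬ Bad p) := by
  intro r
  induction r using Nat.strong_induction_on with
  | _ r ih =>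
    intro hr
    by_cases hex : ∃ p : ℕ, p.Prime ∧ p ∣ r ∧ Bad p
    · obtain ⟨p, hpp, ⟨r', hr'⟩, hb⟩ := hex
      have hr'0 : r' ≠ 0 := by
        rintro rfl
        rw [mul_zero] at hr'
        exact hr hr'
      have hlt : r' < r := by
        rw [hr']
        have := hpp.two_le
        have h3 : 0 < r' := Nat.pos_of_ne_zero hr'0
        nlinarith
      obtain ⟨g, hg1, hg2, hg3⟩ := ih r' hlt hr'0
      refine ⟨p * g, ?_, ?_, ?_⟩
      · rw [hr']
        exact mul_dvd_mul_left p hg1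
      · intro l hl hd
        rcases (Nat.Prime.dvd_mul hl).mp hd with h | h
        · rw [(Nat.prime_dvd_prime_iff_eq hl hpp).mp h]
          exact hb
        · exact hg2 l hl h
      · intro l hl hd
        rw [hr', Nat.mul_div_mul_left _ _ hpp.pos] at hd
        exact hg3 l hl hd
    · refine ⟨1, one_dvd r, ?_, ?_⟩
      · intro p hp hd
        exact absurd (Nat.le_of_dvd one_pos hd) (by have := hp.two_le; omega)
      · intro p hp hd hb
        rw [Nat.div_one] at hd
        exact hex ⟨p, hp, hd, hb⟩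

end Vale.Agent.Lib.P268
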