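import Mathlib
import Vale.Agent.Lib.P268.Good
import Vale.Agent.Lib.P268.Wne

/-!
Rows of the cotangent relations with other classes already known: a nonzero class defect forces a
blocking numerator all of whose primes are bad for the character.
-/

open Finset

namespace Vale.Agent.Lib.P268

variable {N : ℕ}

/-- The defect of the odd class `c` at `χ`. -/
noncomputable def Eo {f : ℕ} (q q' : Fin N → ℚ) (χ : DirichletCharacter ℂ f) (c : ℕ) : ℂ :=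
  ∑ i ∈ univ.filter (fun i => nm (q i) = c), sg (q i).den * (χ ((q i).den : ZMod f))⁻¹ -
  ∑ j ∈ univ.filter (fun j => nm (q' j) = c), sg (q' j).den * (χ ((q' j).den : ZMod f))⁻¹

/-- The defect of the even class of level `L` at `χ`. -/
noncomputable def Ee {f : ℕ} (q q' : Fin N → ℚ) (χ : DirichletCharacter ℂ f) (L : ℕ) : ℂ :=
  ∑ i ∈ univ.filter (fun i => 2 * nm (q i) = L), (χ ((q i).den : ZMod f))⁻¹ -
  ∑ j ∈ univ.filter (fun j => 2 * nm (q' j) = L), (χ ((q' j).den : ZMod f))⁻¹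

/-- The classes of numerator `b` agree as multisets. -/
def Counts (q q' : Fin N → ℚ) (b : ℕ) : Prop :=
  ∀ v : ℚ, ((univ.filter (fun i => nm (q i) = b)).filter (fun i => q i = v)).card =
    ((univ.filter (fun j => nm (q' j) = b)).filter (fun j => q' j = v)).card

lemma sum_eq_of_counts_c (q q' : Fin N → ℚ) (F : ℚ → ℂ) (s s' : Finset (Fin N))
    (h : ∀ v : ℚ, (s.filter (fun i => q i = v)).card = (s'.filter (fun j => q' j = v)).card) :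
    ∑ i ∈ s, F (q i) = ∑ j ∈ s', F (q' j) := by
  classical
  set V : Finset ℚ := (s.image q) ∪ (s'.image q') with hV
  have h1 : ∀ (r : Fin N → ℚ) (t : Finset (Fin N)), (∀ i ∈ t, r i ∈ V) →
      ∑ i ∈ t, F (r i) = ∑ v ∈ V, ((t.filter (fun i => r i = v)).card : ℂ) * F v := by
    intro r t ht
    rw [← Finset.sum_fiberwise_of_maps_to ht]
    apply Finset.sum_congr rfl
    intro v _
    rw [Finset.sum_congr rfl (g := fun _ => F v)]
    · rw [Finset.sum_const, nsmul_eq_mul]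
    · intro i hi
      rw [(mem_filter.mp hi).2]
  rw [h1 q s (fun i hi => mem_union_left _ (mem_image_of_mem _ hi)),
    h1 q' s' (fun i hi => mem_union_right _ (mem_image_of_mem _ hi))]
  apply Finset.sum_congr rfl
  intro v _
  rw [h v]

section
set_option linter.unusedSectionVars false
variable {M f : ℕ} [NeZero M] [NeZero f] (hfM : f ∣ M) (χ : DirichletCharacter ℂ f)

/-- A row for an odd conductor. -/
theorem odd_row (q q' : Fin N → ℚ) (hq : ∀ i, 2 ≤ q i) (hq' : ∀ i, 2 ≤ q' i)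
    (hk : ∀ k : ℕ, Odd k → (∀ i, ¬ nm (q i) ∣ k) → (∀ j, ¬ nm (q' j) ∣ k) →
      ∑ i, lc ((k : ℝ) * Real.pi / (2 * (q i : ℝ))) = ∑ j, lc ((k : ℝ) * Real.pi / (2 * (q' j : ℝ))))
    (hp : χ.IsPrimitive) (hfo : Odd f) (hM2 : 2 ∣ M)
    (hMd : ∀ i, 2 * nm (q i) ∣ M) (hMd' : ∀ j, 2 * nm (q' j) ∣ M) (C : Finset ℕ)
    (hCq : ∀ i, Odd (nm (q i)) → f ∣ nm (q i) → nm (q i) ∈ C)
    (hCq' : ∀ j, Odd (nm (q' j)) → f ∣ nm (q' j) → nm (q' j) ∈ C)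
    (hC : ∀ c ∈ C, Odd c ∧ f ∣ c) {g : ℕ} (hg : Odd g)
    (h1 : ∀ i, ¬ nm (q i) ∣ g) (h2 : ∀ j, ¬ nm (q' j) ∣ g) :
    ∑ c ∈ C, Eo q q' χ c * Wy hfM χ ((g : ℝ) / (c : ℝ)) = 0 := by
  have hrow := row_relation hfM χ hM2 q q'
    (fun i => (Dvd.intro_left 2 rfl).trans (hMd i))
    (fun j => (Dvd.intro_left 2 rfl).trans (hMd' j)) hk hg h1 h2
  rw [side_odd hfM χ hp hfo hM2 q hq hMd C hCq hC hg,
    side_odd hfM χ hp hfo hM2 q' hq' hMd' C hCq' hC hg] at hrow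
  have hu2 : χ (2 : ZMod f) ≠ 0 := by
    have h3 : IsUnit (2 : ZMod f) := by
      have : ((2 : ℕ) : ZMod f) = 2 := by norm_num
      rw [← this, ZMod.isUnit_iff_coprime]
      exact (Nat.coprime_two_left).mpr hfo
    obtain ⟨w, hw⟩ := h3
    have := DirichletCharacter.unit_norm_eq_one χ w
    rw [hw] at this
    intro h0
    rw [h0] at this
    simp at this
  have h4 := mul_left_cancel₀ hu2 hrow
  simp only [Eo, sub_mul, Finset.sum_sub_distrib]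
  rw [h4, sub_self]

/-- A row for a conductor divisible by four. -/
theorem even_row (q q' : Fin N → ℚ) (hq : ∀ i, 2 ≤ q i) (hq' : ∀ i, 2 ≤ q' i)
    (hk : ∀ k : ℕ, Odd k → (∀ i, ¬ nm (q i) ∣ k) → (∀ j, ¬ nm (q' j) ∣ k) →
      ∑ i, lc ((k : ℝ) * Real.pi / (2 * (q i : ℝ))) = ∑ j, lc ((k : ℝ) * Real.pi / (2 * (q' j : ℝ))))
    (hp : χ.IsPrimitive) (hf4 : 4 ∣ f) (hM2 : 2 ∣ M)
    (hMd : ∀ i, 2 * nm (q i) ∣ M) (hMd' : ∀ j, 2 * nm (q' j) ∣ M) (C : Finset ℕ)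
    (hCq : ∀ i, Even (nm (q i)) → f ∣ 2 * nm (q i) → ¬ f ∣ nm (q i) → 2 * nm (q i) ∈ C)
    (hCq' : ∀ j, Even (nm (q' j)) → f ∣ 2 * nm (q' j) → ¬ f ∣ nm (q' j) → 2 * nm (q' j) ∈ C)
    (hC : ∀ L ∈ C, ∃ c, L = 2 * c ∧ Even c ∧ f ∣ 2 * c) {g : ℕ} (hg : Odd g)
    (h1 : ∀ i, ¬ nm (q i) ∣ g) (h2 : ∀ j, ¬ nm (q' j) ∣ g) :
    ∑ L ∈ C, Ee q q' χ L * Wy hfM χ ((g : ℝ) / (L : ℝ)) = 0 := by
  have hrow := row_relation hfM χ hM2 q q'
    (fun i => (Dvd.intro_left 2 rfl).trans (hMd i))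
    (fun j => (Dvd.intro_left 2 rfl).trans (hMd' j)) hk hg h1 h2
  rw [side_even hfM χ hp hf4 hM2 q hq hMd C hCq hC hg,
    side_even hfM χ hp hf4 hM2 q' hq' hMd' C hCq' hC hg] at hrow
  simp only [Ee, sub_mul, Finset.sum_sub_distrib]
  rw [hrow, sub_self]

end

/-- The finset of all numerators. -/
def numsOf (q q' : Fin N → ℚ) : Finset ℕ :=
  (univ.image fun i => nm (q i)) ∪ (univ.image fun j => nm (q' j))

lemma mem_numsOf {q q' : Fin N → ℚ} {c : ℕ} :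
    c ∈ numsOf q q' ↔ (∃ i, nm (q i) = c) ∨ (∃ j, nm (q' j) = c) := by
  simp [numsOf]

lemma numsOf_ne_zero {q q' : Fin N → ℚ} (hq : ∀ i, 2 ≤ q i) (hq' : ∀ i, 2 ≤ q' i) :
    ∀ c ∈ numsOf q q', c ≠ 0 := by
  intro c hc
  rcases mem_numsOf.mp hc with ⟨i, rfl⟩ | ⟨j, rfl⟩
  · have := nm_ge_two (hq i); omega
  · have := nm_ge_two (hq' j); omega

/-- Relevant odd characters. -/
theorem odd_relevant (q q' : Fin N → ℚ) (hq : ∀ i, 2 ≤ q i) (hq' : ∀ i, 2 ≤ q' i)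
    (hk : ∀ k : ℕ, Odd k → (∀ i, ¬ nm (q i) ∣ k) → (∀ j, ¬ nm (q' j) ∣ k) →
      ∑ i, lc ((k : ℝ) * Real.pi / (2 * (q i : ℝ))) = ∑ j, lc ((k : ℝ) * Real.pi / (2 * (q' j : ℝ))))
    {f : ℕ} [NeZero f] (hfo : Odd f) (hf1 : 1 < f) (χ : DirichletCharacter ℂ f)
    (hp : χ.IsPrimitive) (h1 : χ ≠ 1) (he : χ.Even) {b : ℕ} (hb : Odd b) (hfb : f ∣ b)
    (hoth : ∀ c, c ≠ b → Odd c → f ∣ c → Eo q q' χ c = 0) (hne : Eo q q' χ b ≠ 0) :
    ∃ d, ((∃ i, nm (q i) = d) ∨ (∃ j, nm (q' j) = d)) ∧ d ∣ b / f ∧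
      ∀ p : ℕ, p.Prime → p ∣ d → ¬ p ∣ f ∧ χ (p : ZMod f) = 1 := by
  classical
  set Nums := numsOf q q' with hNums
  have hbn : b ∈ Nums := by
    by_contra hbn
    apply hne
    have hemp : ∀ (r : Fin N → ℚ), (∀ i, nm (r i) ∈ Nums) →
        univ.filter (fun i => nm (r i) = b) = ∅ := by
      intro r hr
      apply Finset.filter_false_of_mem
      intro i _ h
      exact hbn (h ▸ hr i)
    unfold Eo
    rw [hemp q (fun i => mem_numsOf.mpr (Or.inl ⟨i, rfl⟩)),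
      hemp q' (fun j => mem_numsOf.mpr (Or.inr ⟨j, rfl⟩))]
    simp
  obtain ⟨M, hM0, hM2, hMd⟩ := exists_modulus Nums (numsOf_ne_zero hq hq')
  have : NeZero M := ⟨hM0⟩
  have hmem1 : ∀ i, nm (q i) ∈ Nums := fun i => mem_numsOf.mpr (Or.inl ⟨i, rfl⟩)
  have hmem2 : ∀ j, nm (q' j) ∈ Nums := fun j => mem_numsOf.mpr (Or.inr ⟨j, rfl⟩)
  have hbM : b ∣ M := (Dvd.intro_left 2 rfl).trans (hMd b hbn)
  have hfM : f ∣ M := hfb.trans hbM
  have hb0 : b ≠ 0 := numsOf_ne_zero hq hq' b hbn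
  set r := b / f with hr
  have hbr : b = f * r := (Nat.mul_div_cancel' hfb).symm
  have hr0 : r ≠ 0 := by
    intro h0
    rw [h0, mul_zero] at hbr
    exact hb0 hbr
  have hro : Odd r := Odd.of_dvd_nat hb (Dvd.intro_left _ hbr.symm)
  obtain ⟨g, hg1, hg2, hg3⟩ := good_split (fun p => ¬ p ∣ f ∧ χ (p : ZMod f) = 1) r hr0
  by_contra hno
  have h1' : ∀ i, ¬ nm (q i) ∣ g := fun i hd => hno ⟨nm (q i), Or.inl ⟨i, rfl⟩, hd.trans hg1,
    fun p hp' hpd => hg2 p hp' (hpd.trans hd)⟩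
  have h2' : ∀ j, ¬ nm (q' j) ∣ g := fun j hd => hno ⟨nm (q' j), Or.inr ⟨j, rfl⟩, hd.trans hg1,
    fun p hp' hpd => hg2 p hp' (hpd.trans hd)⟩
  have hgo : Odd g := Odd.of_dvd_nat hro hg1
  set C := Nums.filter (fun c => Odd c ∧ f ∣ c) with hCdef
  have hrow := odd_row hfM χ q q' hq hq' hk hp hfo hM2 (fun i => hMd _ (hmem1 i))
    (fun j => hMd _ (hmem2 j)) C (fun i h2 h3 => mem_filter.mpr ⟨hmem1 i, h2, h3⟩)
    (fun j h2 h3 => mem_filter.mpr ⟨hmem2 j, h2, h3⟩) (fun c hc => (mem_filter.mp hc).2) hgo h1' h2'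
  have hbC : b ∈ C := mem_filter.mpr ⟨hbn, hb, hfb⟩
  rw [Finset.sum_eq_single b (fun c hc hcb => by
      obtain ⟨h3, h4⟩ := (mem_filter.mp hc).2
      rw [hoth c hcb h3 h4, zero_mul])
    (fun h => absurd hbC h)] at hrow
  have hW : Wy hfM χ ((g : ℝ) / (b : ℝ)) = 0 := (mul_eq_zero.mp hrow).resolve_left hne
  obtain ⟨r', hr'⟩ := hg1
  have hg0 : g ≠ 0 := by
    intro h0
    rw [h0, zero_mul] at hr'
    exact hr0 hr'
  have hrr : r / g = r' := by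
    rw [hr']
    exact Nat.mul_div_cancel_left _ (Nat.pos_of_ne_zero hg0)
  have hr'0 : r' ≠ 0 := by
    intro h0
    rw [h0, mul_zero] at hr'
    exact hr0 hr'
  have e : (g : ℝ) / (b : ℝ) = 1 / ((f * r' : ℕ) : ℝ) := by
    rw [hbr, hr']
    have h3 : (g : ℝ) ≠ 0 := by exact_mod_cast hg0
    have h4 : (r' : ℝ) ≠ 0 := by exact_mod_cast hr'0
    have h5 : (f : ℝ) ≠ 0 := by exact_mod_cast (NeZero.ne f)
    push_cast
    field_simp
  rw [e] at hW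
  have hf2 : 2 < f := by
    obtain ⟨t, ht⟩ := hfo
    omega
  have hT : Wy hfM χ (1 / (f : ℝ)) ≠ 0 :=
    Wy_base_ne_zero hfM χ (sum_gam_ne_zero hf1 hfo hp h1 he)
  refine Wy_ne_zero_good hfM χ hf2 hT r' ?_ ?_ ?_ hW
  · have h3 : f * r' ∣ b := by
      rw [hbr, hr']
      exact ⟨g, by ring⟩
    exact h3.trans hbM
  · exact Odd.of_dvd_nat hro (Dvd.intro_left _ hr'.symm)
  · intro p hpp hpr hpf h3
    have h4 : p ∣ r / g := by rw [hrr]; exact hpr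
    exact hg3 p hpp h4 ⟨hpf, h3⟩

/-- Relevant even characters. -/
theorem even_relevant (q q' : Fin N → ℚ) (hq : ∀ i, 2 ≤ q i) (hq' : ∀ i, 2 ≤ q' i)
    (hk : ∀ k : ℕ, Odd k → (∀ i, ¬ nm (q i) ∣ k) → (∀ j, ¬ nm (q' j) ∣ k) →
      ∑ i, lc ((k : ℝ) * Real.pi / (2 * (q i : ℝ))) = ∑ j, lc ((k : ℝ) * Real.pi / (2 * (q' j : ℝ))))
    {f : ℕ} [NeZero f] (hf4 : 4 ∣ f) (χ : DirichletCharacter ℂ f)
    (hp : χ.IsPrimitive) (h1 : χ ≠ 1) (he : χ.Even)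
    (hu : χ (((1 + f / 2 : ℕ)) : ZMod f) = -1) {b : ℕ} (hfb : f ∣ 2 * b) (hfb' : ¬ f ∣ b)
    (hoth : ∀ c, c ≠ b → Even c → f ∣ 2 * c → ¬ f ∣ c → Ee q q' χ (2 * c) = 0)
    (hne : Ee q q' χ (2 * b) ≠ 0) :
    ∃ d, ((∃ i, nm (q i) = d) ∨ (∃ j, nm (q' j) = d)) ∧ d ∣ 2 * b / f ∧
      ∀ p : ℕ, p.Prime → p ∣ d → ¬ p ∣ f ∧ χ (p : ZMod f) = 1 := by
  classical
  have hf0 : f ≠ 0 := NeZero.ne f
  have hf4le : 4 ≤ f := Nat.le_of_dvd (Nat.pos_of_ne_zero hf0) hf4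
  set Nums := numsOf q q' with hNums
  have hbn : b ∈ Nums := by
    by_contra hbn
    apply hne
    have hemp : ∀ (r : Fin N → ℚ), (∀ i, nm (r i) ∈ Nums) →
        univ.filter (fun i => 2 * nm (r i) = 2 * b) = ∅ := by
      intro r hr
      apply Finset.filter_false_of_mem
      intro i _ h
      have h3 : nm (r i) = b := by omega
      exact hbn (h3 ▸ hr i)
    unfold Ee
    rw [hemp q (fun i => mem_numsOf.mpr (Or.inl ⟨i, rfl⟩)),
      hemp q' (fun j => mem_numsOf.mpr (Or.inr ⟨j, rfl⟩))]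
    simp
  obtain ⟨M, hM0, hM2, hMd⟩ := exists_modulus Nums (numsOf_ne_zero hq hq')
  have : NeZero M := ⟨hM0⟩
  have hmem1 : ∀ i, nm (q i) ∈ Nums := fun i => mem_numsOf.mpr (Or.inl ⟨i, rfl⟩)
  have hmem2 : ∀ j, nm (q' j) ∈ Nums := fun j => mem_numsOf.mpr (Or.inr ⟨j, rfl⟩)
  have hbM : 2 * b ∣ M := hMd b hbn
  have hfM : f ∣ M := hfb.trans hbM
  have hb0 : b ≠ 0 := numsOf_ne_zero hq hq' b hbn
  have hboth : ∀ c, f ∣ 2 * c → ¬ f ∣ c → Even c ∧ Odd (2 * c / f) := by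
    intro c h3 h4
    have h5 : Even c := by
      obtain ⟨t, ht⟩ := h3
      obtain ⟨s, hs⟩ := hf4
      rw [even_iff_two_dvd]
      refine ⟨s * t * 2 / 2 * 1, ?_⟩
      have h6 : 2 * c = 2 * (2 * (s * t)) := by rw [ht, hs]; ring
      have h7 : c = 2 * (s * t) := by omega
      rw [h7]
      simp
    refine ⟨h5, ?_⟩
    obtain ⟨t, ht⟩ := h3
    have h6 : 2 * c / f = t := by
      rw [ht]
      exact Nat.mul_div_cancel_left _ (Nat.pos_of_ne_zero hf0)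
    rw [h6]
    by_contra hne'
    rw [Nat.not_odd_iff_even] at hne'
    obtain ⟨s, hs⟩ := hne'
    apply h4
    refine ⟨s, ?_⟩
    have : 2 * c = 2 * (f * s) := by rw [ht, hs]; ring
    omega
  obtain ⟨hbe, hro⟩ := hboth b hfb hfb'
  set r := 2 * b / f with hr
  have hbr : 2 * b = f * r := (Nat.mul_div_cancel' hfb).symm
  have hr0 : r ≠ 0 := by
    intro h0
    rw [h0, mul_zero] at hbr
    omega
  obtain ⟨g, hg1, hg2, hg3⟩ := good_split (fun p => ¬ p ∣ f ∧ χ (p : ZMod f) = 1) r hr0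
  by_contra hno
  have h1' : ∀ i, ¬ nm (q i) ∣ g := fun i hd => hno ⟨nm (q i), Or.inl ⟨i, rfl⟩, hd.trans hg1,
    fun p hp' hpd => hg2 p hp' (hpd.trans hd)⟩
  have h2' : ∀ j, ¬ nm (q' j) ∣ g := fun j hd => hno ⟨nm (q' j), Or.inr ⟨j, rfl⟩, hd.trans hg1,
    fun p hp' hpd => hg2 p hp' (hpd.trans hd)⟩
  have hgo : Odd g := Odd.of_dvd_nat hro hg1
  set C₀ := Nums.filter (fun c => Even c ∧ f ∣ 2 * c ∧ ¬ f ∣ c) with hC₀
  set C := C₀.image (fun c => 2 * c) with hCdef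
  have hCC : ∀ L ∈ C, ∃ c, L = 2 * c ∧ Even c ∧ f ∣ 2 * c ∧ ¬ f ∣ c := by
    intro L hL
    obtain ⟨c, hc, rfl⟩ := mem_image.mp hL
    obtain ⟨_, h3, h4, h5⟩ := mem_filter.mp hc
    exact ⟨c, rfl, h3, h4, h5⟩
  have hrow := even_row hfM χ q q' hq hq' hk hp hf4 hM2 (fun i => hMd _ (hmem1 i))
    (fun j => hMd _ (hmem2 j)) C
    (fun i h2 h3 h4 => mem_image_of_mem _ (mem_filter.mpr ⟨hmem1 i, h2, h3, h4⟩))
    (fun j h2 h3 h4 => mem_image_of_mem _ (mem_filter.mpr ⟨hmem2 j, h2, h3, h4⟩))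
    (fun L hL => by
      obtain ⟨c, h3, h4, h5, _⟩ := hCC L hL
      exact ⟨c, h3, h4, h5⟩) hgo h1' h2'
  have hbC : 2 * b ∈ C := mem_image_of_mem _ (mem_filter.mpr ⟨hbn, hbe, hfb, hfb'⟩)
  rw [Finset.sum_eq_single (2 * b) (fun L hL hLb => by
      obtain ⟨c, h3, h4, h5, h6⟩ := hCC L hL
      have hcb : c ≠ b := by
        rintro rfl
        exact hLb h3
      rw [h3, hoth c hcb h4 h5 h6, zero_mul])
    (fun h => absurd hbC h)] at hrow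
  have hW : Wy hfM χ ((g : ℝ) / ((2 * b : ℕ) : ℝ)) = 0 := (mul_eq_zero.mp hrow).resolve_left hne
  obtain ⟨r', hr'⟩ := hg1
  have hg0 : g ≠ 0 := by
    intro h0
    rw [h0, zero_mul] at hr'
    exact hr0 hr'
  have hrr : r / g = r' := by
    rw [hr']
    exact Nat.mul_div_cancel_left _ (Nat.pos_of_ne_zero hg0)
  have hr'0 : r' ≠ 0 := by
    intro h0
    rw [h0, mul_zero] at hr'
    exact hr0 hr'
  have e : (g : ℝ) / ((2 * b : ℕ) : ℝ) = 1 / ((f * r' : ℕ) : ℝ) := by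
    rw [hbr, hr']
    have h3 : (g : ℝ) ≠ 0 := by exact_mod_cast hg0
    have h4 : (r' : ℝ) ≠ 0 := by exact_mod_cast hr'0
    have h5 : (f : ℝ) ≠ 0 := by exact_mod_cast hf0
    push_cast
    field_simp
  rw [e] at hW
  have hf2 : 2 < f := by omega
  have hf1 : 1 < f := by omega
  have hT : Wy hfM χ (1 / (f : ℝ)) ≠ 0 :=
    Wy_base_ne_zero hfM χ (sum_gam_even_ne_zero hf1 hf4 hp h1 he hu)
  refine Wy_ne_zero_good hfM χ hf2 hT r' ?_ ?_ ?_ hW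
  · have h3 : f * r' ∣ 2 * b := by
      rw [hbr, hr']
      exact ⟨g, by ring⟩
    exact h3.trans hbM
  · exact Odd.of_dvd_nat hro (Dvd.intro_left _ hr'.symm)
  · intro p hpp hpr hpf h3
    have h4 : p ∣ r / g := by rw [hrr]; exact hpr
    exact hg3 p hpp h4 ⟨hpf, h3⟩

end Vale.Agent.Lib.P268
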