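import Mathlib
import Vale.Agent.Lib.P268.Rows

/-!
From primitive characters to characters of the class level.
-/

open Finset

namespace Vale.Agent.Lib.P268

variable {N : ℕ}

/-- `ψ` is trivial on the integers `n ≡ ± z ^ k` modulo `f`. -/
def BadFor {L : ℕ} (ψ : DirichletCharacter ℂ L) (z : ℤ) (f : ℕ) : Prop :=
  f ∣ L ∧ ∀ n : ℕ, Nat.Coprime n L → ∀ k : ℕ,
    ((n : ZMod f) = (z : ZMod f) ^ k ∨ (n : ZMod f) = -(z : ZMod f) ^ k) → ψ (n : ZMod L) = 1

lemma badfor_of {L : ℕ} [NeZero L] (ψ : DirichletCharacter ℂ L) (he : ψ.Even) (z : ℤ)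
    (hz : (ψ⁻¹).primitiveCharacter (z : ZMod (ψ⁻¹).conductor) = 1) :
    BadFor ψ z (ψ⁻¹).conductor := by
  set φ := ψ⁻¹ with hφ
  have : NeZero φ.conductor := ⟨φ.conductor_ne_zero⟩
  refine ⟨φ.conductor_dvd_level, ?_⟩
  intro n hn k hk
  have h2 : IsCoprime (n : ℤ) (L : ℤ) := Nat.isCoprime_iff_coprime.mpr hn
  have h3 := φ.primitiveCharacter_apply_of_isCoprime h2
  rw [Int.cast_natCast, Int.cast_natCast] at h3
  have hχe : φ.primitiveCharacter (-1) = 1 := by
    have h4 : IsCoprime (-1 : ℤ) (L : ℤ) := isCoprime_one_left.neg_left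
    have h5 := φ.primitiveCharacter_apply_of_isCoprime h4
    push_cast at h5
    rw [h5, hφ, MulChar.inv_apply_eq_inv', he]
    simp
  have h6 : φ.primitiveCharacter (n : ZMod φ.conductor) = 1 := by
    rcases hk with h | h
    · rw [h, map_pow, hz, one_pow]
    · rw [h, ← neg_one_mul, map_mul, map_pow, hz, one_pow, hχe, one_mul]
  rw [h6, hφ, MulChar.inv_apply_eq_inv'] at h3
  have h7 : (ψ (n : ZMod L))⁻¹ = 1 := h3.symm
  exact inv_eq_one.mp h7

/-- The relevant characters of an odd class. -/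
theorem odd_relevant_psi (q q' : Fin N → ℚ) (hq : ∀ i, 2 ≤ q i) (hq' : ∀ i, 2 ≤ q' i)
    (hk : ∀ k : ℕ, Odd k → (∀ i, ¬ nm (q i) ∣ k) → (∀ j, ¬ nm (q' j) ∣ k) →
      ∑ i, lc ((k : ℝ) * Real.pi / (2 * (q i : ℝ))) = ∑ j, lc ((k : ℝ) * Real.pi / (2 * (q' j : ℝ))))
    {b : ℕ} (hb : Odd b) (ψ : DirichletCharacter ℂ b) (hψ : ψ ≠ 1) (he : ψ.Even)
    (hoth : ∀ c, c ≠ b → Odd c → 3 ≤ c → Counts q q' c)
    (hne : ∑ i ∈ univ.filter (fun i => nm (q i) = b), sg (q i).den * ψ ((q i).den : ZMod b) ≠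
      ∑ j ∈ univ.filter (fun j => nm (q' j) = b), sg (q' j).den * ψ ((q' j).den : ZMod b)) :
    ∃ d, ((∃ i, nm (q i) = d) ∨ (∃ j, nm (q' j) = d)) ∧ d ∣ b ∧ d ≠ b ∧
      ∀ p : ℕ, p.Prime → p ∣ d → ∃ f, ¬ p ∣ f ∧ BadFor ψ (p : ℤ) f := by
  have hb0 : b ≠ 0 := by
    intro h0
    rw [h0] at hb
    exact absurd hb (by decide)
  have : NeZero b := ⟨hb0⟩
  set φ : DirichletCharacter ℂ b := ψ⁻¹ with hφ
  have hφ1 : φ ≠ 1 := by
    intro h
    exact hψ (inv_eq_one.mp h)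
  have : NeZero φ.conductor := ⟨φ.conductor_ne_zero⟩
  have hf1 : 1 < φ.conductor := by
    have h0 := φ.conductor_ne_zero
    have h1 : φ.conductor ≠ 1 := fun h => hφ1 (φ.eq_one_iff_conductor_eq_one.mpr h)
    omega
  have hfb : φ.conductor ∣ b := φ.conductor_dvd_level
  set χ : DirichletCharacter ℂ φ.conductor := φ.primitiveCharacter with hχ
  have hp : χ.IsPrimitive := φ.primitiveCharacter_isPrimitive
  have hχ1 : χ ≠ 1 := by
    intro h
    have h2 : χ.conductor = φ.conductor := hp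
    rw [h, DirichletCharacter.conductor_one] at h2
    omega
  have hval : ∀ a : ℕ, Nat.Coprime a b → (χ (a : ZMod φ.conductor))⁻¹ = ψ (a : ZMod b) := by
    intro a ha
    have h2 : IsCoprime (a : ℤ) (b : ℤ) := Nat.isCoprime_iff_coprime.mpr ha
    have h3 := φ.primitiveCharacter_apply_of_isCoprime h2
    rw [Int.cast_natCast, Int.cast_natCast] at h3
    rw [← hχ] at h3
    rw [h3, hφ, MulChar.inv_apply_eq_inv', inv_inv]
  have hχe : χ.Even := by
    have h2 : IsCoprime (-1 : ℤ) (b : ℤ) := by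
      exact isCoprime_one_left.neg_left
    have h3 := φ.primitiveCharacter_apply_of_isCoprime h2
    rw [← hχ] at h3
    push_cast at h3
    show χ (-1) = 1
    rw [h3, hφ, MulChar.inv_apply_eq_inv', he]
    simp
  have hfo : Odd φ.conductor := Odd.of_dvd_nat hb hfb
  have e : ∀ (r : Fin N → ℚ), (∀ i, 2 ≤ r i) →
      ∑ i ∈ univ.filter (fun i => nm (r i) = b), sg (r i).den * (χ ((r i).den : ZMod φ.conductor))⁻¹ =
      ∑ i ∈ univ.filter (fun i => nm (r i) = b), sg (r i).den * ψ ((r i).den : ZMod b) := by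
    intro r hr
    apply Finset.sum_congr rfl
    intro i hi
    simp only [mem_filter, mem_univ, true_and] at hi
    rw [hval _ (den_facts (hr i) hi).2.1]
  have hE : Eo q q' χ b ≠ 0 := by
    unfold Eo
    rw [e q hq, e q' hq']
    exact sub_ne_zero.mpr hne
  have hoth' : ∀ c, c ≠ b → Odd c → φ.conductor ∣ c → Eo q q' χ c = 0 := by
    intro c hc hco hfc
    have hc3 : 3 ≤ c := by
      have h5 := Nat.le_of_dvd hco.pos hfc
      obtain ⟨t, ht⟩ := hfo
      omega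
    unfold Eo
    rw [sub_eq_zero]
    exact sum_eq_of_counts_c q q' (fun x => sg x.den * (χ (x.den : ZMod φ.conductor))⁻¹) _ _
      (hoth c hc hco hc3)
  obtain ⟨d, hd1, hd2, hd3⟩ := odd_relevant q q' hq hq' hk hfo hf1 χ hp hχ1 hχe hb hfb hoth' hE
  have hbdiv : b / φ.conductor < b := Nat.div_lt_self (Nat.pos_of_ne_zero hb0) hf1
  have hdivpos : 0 < b / φ.conductor := Nat.div_pos (Nat.le_of_dvd (Nat.pos_of_ne_zero hb0) hfb)
    (by omega)
  refine ⟨d, hd1, hd2.trans (Nat.div_dvd_of_dvd hfb), ?_, ?_⟩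
  · rintro rfl
    have := Nat.le_of_dvd hdivpos hd2
    omega
  · intro p hpp hpd
    obtain ⟨h1, h2⟩ := hd3 p hpp hpd
    refine ⟨φ.conductor, h1, badfor_of ψ he (p : ℤ) ?_⟩
    rw [Int.cast_natCast]
    exact h2

/-- The relevant characters of an even class. -/
theorem even_relevant_psi (q q' : Fin N → ℚ) (hq : ∀ i, 2 ≤ q i) (hq' : ∀ i, 2 ≤ q' i)
    (hk : ∀ k : ℕ, Odd k → (∀ i, ¬ nm (q i) ∣ k) → (∀ j, ¬ nm (q' j) ∣ k) →
      ∑ i, lc ((k : ℝ) * Real.pi / (2 * (q i : ℝ))) = ∑ j, lc ((k : ℝ) * Real.pi / (2 * (q' j : ℝ))))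
    {b : ℕ} (hb : Even b) (hb3 : 3 ≤ b) (ψ : DirichletCharacter ℂ (2 * b)) (he : ψ.Even)
    (hw : ψ (((1 + b : ℕ)) : ZMod (2 * b)) = -1)
    (hoth : ∀ c, c ≠ b → Even c → 3 ≤ c → Counts q q' c)
    (hne : ∑ i ∈ univ.filter (fun i => nm (q i) = b), ψ ((q i).den : ZMod (2 * b)) ≠
      ∑ j ∈ univ.filter (fun j => nm (q' j) = b), ψ ((q' j).den : ZMod (2 * b))) :
    ∃ d, ((∃ i, nm (q i) = d) ∨ (∃ j, nm (q' j) = d)) ∧ d ∣ b ∧ Odd d ∧
      ∀ p : ℕ, p.Prime → p ∣ d → ∃ f, ¬ p ∣ f ∧ BadFor ψ (p : ℤ) f := by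
  have hL : NeZero (2 * b) := ⟨by omega⟩
  set φ : DirichletCharacter ℂ (2 * b) := ψ⁻¹ with hφ
  have : NeZero φ.conductor := ⟨φ.conductor_ne_zero⟩
  set f := φ.conductor with hf
  obtain ⟨g, hg⟩ : f ∣ 2 * b := φ.conductor_dvd_level
  set χ : DirichletCharacter ℂ f := φ.primitiveCharacter with hχ
  have hp : χ.IsPrimitive := φ.primitiveCharacter_isPrimitive
  have hval : ∀ a : ℕ, Nat.Coprime a (2 * b) → χ (a : ZMod f) = (ψ (a : ZMod (2 * b)))⁻¹ := by
    intro a ha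
    have h2 : IsCoprime (a : ℤ) ((2 * b : ℕ) : ℤ) := Nat.isCoprime_iff_coprime.mpr ha
    have h3 := φ.primitiveCharacter_apply_of_isCoprime h2
    rw [Int.cast_natCast, Int.cast_natCast] at h3
    rw [← hχ] at h3
    rw [h3, hφ, MulChar.inv_apply_eq_inv']
  have hcop1b : Nat.Coprime (1 + b) (2 * b) := by
    have h1 : Nat.Coprime (1 + b) b := by simp
    have h2 : Nat.Coprime (1 + b) 2 := by
      rw [Nat.coprime_two_right]
      obtain ⟨m, hm⟩ := hb
      exact ⟨m, by omega⟩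
    exact Nat.Coprime.mul_right h2 h1
  have hχw : χ (((1 + b : ℕ)) : ZMod f) = -1 := by
    rw [hval _ hcop1b, hw]
    norm_num
  have hfb : ¬ f ∣ b := by
    intro hd
    have h1 : (((1 + b : ℕ)) : ZMod f) = 1 := by
      push_cast
      rw [(ZMod.natCast_eq_zero_iff b f).mpr hd, add_zero]
    rw [h1, map_one] at hχw
    norm_num at hχw
  have hgodd : Odd g := by
    by_contra hne'
    rw [Nat.not_odd_iff_even] at hne'
    obtain ⟨m, hm⟩ := hne'
    apply hfb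
    refine ⟨m, ?_⟩
    have : 2 * b = 2 * (f * m) := by rw [hg, hm]; ring
    omega
  have hf4 : 4 ∣ f := by
    obtain ⟨m, hm⟩ := hb
    have h1 : 4 ∣ f * g := by
      rw [← hg, hm]
      exact ⟨m, by ring⟩
    exact Nat.Coprime.dvd_of_dvd_mul_right (Nat.Coprime.pow_left 2 (Nat.coprime_two_left.mpr hgodd) :
      Nat.Coprime (2 ^ 2) g) h1
  have hχ1 : χ ≠ 1 := by
    intro h
    rw [h] at hχw
    by_cases hx : IsUnit (((1 + b : ℕ)) : ZMod f)
    · rw [MulChar.one_apply hx] at hχw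
      norm_num at hχw
    · rw [MulChar.map_nonunit _ hx] at hχw
      norm_num at hχw
  have hχe : χ.Even := by
    have h2 : IsCoprime (-1 : ℤ) ((2 * b : ℕ) : ℤ) := isCoprime_one_left.neg_left
    have h3 := φ.primitiveCharacter_apply_of_isCoprime h2
    rw [← hχ] at h3
    push_cast at h3
    show χ (-1) = 1
    rw [h3, hφ, MulChar.inv_apply_eq_inv', he]
    simp
  have hu : χ (((1 + f / 2 : ℕ)) : ZMod f) = -1 := by
    rw [← hχw]
    congr 1
    obtain ⟨e, he'⟩ := hgodd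
    obtain ⟨m, hm⟩ := hf4
    have h1 : f / 2 = 2 * m := by omega
    have h2 : b = 2 * m + f * e := by
      rw [he', hm] at hg
      rw [hm]
      nlinarith
    rw [h1, h2]
    push_cast
    rw [ZMod.natCast_self]
    ring
  have hf0 : f ≠ 0 := NeZero.ne f
  have hef : ∀ (r : Fin N → ℚ), (∀ i, 2 ≤ r i) →
      ∑ i ∈ univ.filter (fun i => nm (r i) = b), (χ ((r i).den : ZMod f))⁻¹ =
      ∑ i ∈ univ.filter (fun i => nm (r i) = b), ψ ((r i).den : ZMod (2 * b)) := by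
    intro r hr
    apply Finset.sum_congr rfl
    intro i hi
    simp only [mem_filter, mem_univ, true_and] at hi
    have h3 := (den_facts (hr i) hi).2.1
    have h4 : Nat.Coprime (r i).den 2 :=
      Nat.Coprime.coprime_dvd_right (even_iff_two_dvd.mp hb) h3
    rw [hval _ (Nat.Coprime.mul_right h4 h3), inv_inv]
  have hfilt : ∀ (r : Fin N → ℚ) (c : ℕ), univ.filter (fun i => 2 * nm (r i) = 2 * c) =
      univ.filter (fun i => nm (r i) = c) := by
    intro r c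
    ext i
    simp only [mem_filter, mem_univ, true_and]
    omega
  have hE : Ee q q' χ (2 * b) ≠ 0 := by
    unfold Ee
    rw [hfilt q, hfilt q', hef q hq, hef q' hq']
    exact sub_ne_zero.mpr hne
  have hoth' : ∀ c, c ≠ b → Even c → f ∣ 2 * c → ¬ f ∣ c → Ee q q' χ (2 * c) = 0 := by
    intro c hc hce h2c hnc
    have hc3 : 3 ≤ c := by
      by_contra hlt
      have hm := Nat.even_iff.mp hce
      have hc02 : c = 0 ∨ c = 2 := by omega
      rcases hc02 with rfl | rfl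
      · exact hnc (dvd_zero f)
      · have hf4le := Nat.le_of_dvd (Nat.pos_of_ne_zero hf0) hf4
        have hfle : f ≤ 4 := Nat.le_of_dvd (by norm_num) h2c
        have hf44 : f = 4 := by omega
        have key : ∀ (f' : ℕ) (_ : f' = 4) (χ' : DirichletCharacter ℂ f'), χ'.Even → χ' = 1 := by
          intro f' hf' χ' hχ'
          subst hf'
          exact even_char_four χ' hχ'
        exact hχ1 (key _ hf44 χ hχe)
    unfold Ee
    rw [hfilt q, hfilt q', sub_eq_zero]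
    exact sum_eq_of_counts_c q q' (fun x => (χ (x.den : ZMod f))⁻¹) _ _ (hoth c hc hce hc3)
  obtain ⟨d, hd1, hd2, hd3⟩ := even_relevant q q' hq hq' hk hf4 χ hp hχ1 hχe hu ⟨g, hg⟩ hfb hoth' hE
  have hdiv : 2 * b / f = g := by
    rw [hg]
    exact Nat.mul_div_cancel_left _ (Nat.pos_of_ne_zero hf0)
  rw [hdiv] at hd2
  have hdo : Odd d := Odd.of_dvd_nat hgodd hd2
  have hd2b : d ∣ 2 * b := hd2.trans (Dvd.intro_left f hg.symm)
  refine ⟨d, hd1, Nat.Coprime.dvd_of_dvd_mul_left ((Nat.coprime_two_right).mpr hdo) hd2b, hdo, ?_⟩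
  intro p hpp hpd
  obtain ⟨h1, h2⟩ := hd3 p hpp hpd
  refine ⟨f, h1, badfor_of ψ he (p : ℤ) ?_⟩
  rw [Int.cast_natCast]
  exact h2

end Vale.Agent.Lib.P268
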