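import Mathlib
import Vale.Agent.Lib.P268.Bridge

/-!
Two coupled odd classes `v ∣ u`: the relevant characters of the top class.
-/

open Finset

namespace Vale.Agent.Lib.P268

variable {N : ℕ}

theorem coupled_relevant (q q' : Fin N → ℚ) (hq : ∀ i, 2 ≤ q i) (hq' : ∀ i, 2 ≤ q' i)
    (hk : ∀ k : ℕ, Odd k → (∀ i, ¬ nm (q i) ∣ k) → (∀ j, ¬ nm (q' j) ∣ k) →
      ∑ i, lc ((k : ℝ) * Real.pi / (2 * (q i : ℝ))) = ∑ j, lc ((k : ℝ) * Real.pi / (2 * (q' j : ℝ))))
    {f : ℕ} [NeZero f] (hfo : Odd f) (hf1 : 1 < f) (χ : DirichletCharacter ℂ f)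
    (hp : χ.IsPrimitive) (h1 : χ ≠ 1) (he : χ.Even)
    {u v t : ℕ} (huo : Odd u) (hvo : Odd v) (ht : u = v * t) (huv : u ≠ v)
    (hnum : ∀ i, Odd (nm (q i)) → nm (q i) = u ∨ nm (q i) = v)
    (hnum' : ∀ j, Odd (nm (q' j)) → nm (q' j) = u ∨ nm (q' j) = v)
    (hfu : f ∣ u) (hne : Eo q q' χ u ≠ 0) :
    (∀ l : ℕ, l.Prime → l ∣ v → ¬ l ∣ f ∧ χ (l : ZMod f) = 1) ∨
    (f.Prime ∧ f ∣ v ∧ f ∣ t ∧
      ∀ l : ℕ, l.Prime → l ∣ v → l ≠ f → ¬ l ∣ f ∧ χ (l : ZMod f) = 1) := by
  classical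
  have hu0 : u ≠ 0 := huo.pos.ne'
  have hv0 : v ≠ 0 := hvo.pos.ne'
  have ht0 : t ≠ 0 := by
    rintro rfl
    rw [mul_zero] at ht
    exact hu0 ht
  have hf0 : f ≠ 0 := NeZero.ne f
  have hvleu : v ≤ u := Nat.le_of_dvd (Nat.pos_of_ne_zero hu0) (Dvd.intro _ ht.symm)
  set Nums := insert u (insert v (numsOf q q')) with hNums
  have hnz : ∀ c ∈ Nums, c ≠ 0 := by
    intro c hc
    rw [hNums, mem_insert, mem_insert] at hc
    rcases hc with rfl | rfl | hc
    · exact hu0
    · exact hv0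
    · exact numsOf_ne_zero hq hq' c hc
  obtain ⟨M, hM0, hM2, hMd⟩ := exists_modulus Nums hnz
  have : NeZero M := ⟨hM0⟩
  have hmem1 : ∀ i, nm (q i) ∈ Nums := fun i =>
    mem_insert_of_mem (mem_insert_of_mem (mem_numsOf.mpr (Or.inl ⟨i, rfl⟩)))
  have hmem2 : ∀ j, nm (q' j) ∈ Nums := fun j =>
    mem_insert_of_mem (mem_insert_of_mem (mem_numsOf.mpr (Or.inr ⟨j, rfl⟩)))
  have huM : u ∣ M := (Dvd.intro_left 2 rfl).trans (hMd u (mem_insert_self _ _))
  have hvM : v ∣ M :=
    (Dvd.intro_left 2 rfl).trans (hMd v (mem_insert_of_mem (mem_insert_self _ _)))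
  have hfM : f ∣ M := hfu.trans huM
  have hf2 : 2 < f := by
    obtain ⟨s, hs⟩ := hfo
    omega
  have hT : Wy hfM χ (1 / (f : ℝ)) ≠ 0 :=
    Wy_base_ne_zero hfM χ (sum_gam_ne_zero hf1 hfo hp h1 he)
  obtain ⟨r, hur⟩ := hfu
  have hr0 : r ≠ 0 := by
    rintro rfl
    rw [mul_zero] at hur
    exact hu0 hur
  have hro : Odd r := Odd.of_dvd_nat huo (Dvd.intro_left _ hur.symm)
  have hrltu : r < u := by
    rw [hur]
    have : 0 < r := Nat.pos_of_ne_zero hr0
    nlinarith
  -- unblocked rows below the top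
  have hunb : ∀ g, g ∣ r → ¬ v ∣ g → (∀ i, ¬ nm (q i) ∣ g) ∧ (∀ j, ¬ nm (q' j) ∣ g) := by
    intro g hg hvg
    have hgo : Odd g := Odd.of_dvd_nat hro hg
    have hgle : g ≤ r := Nat.le_of_dvd (Nat.pos_of_ne_zero hr0) hg
    have key : ∀ d, (d = u ∨ d = v) → ¬ d ∣ g := by
      rintro d (rfl | rfl) hd
      · have := Nat.le_of_dvd hgo.pos hd
        omega
      · exact hvg hd
    constructor
    · intro i hd
      exact key _ (hnum i (Odd.of_dvd_nat hgo hd)) hd
    · intro j hd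
      exact key _ (hnum' j (Odd.of_dvd_nat hgo hd)) hd
  -- nonvanishing on the top
  have hWne : ∀ g r', r = g * r' → (∀ p : ℕ, p.Prime → p ∣ r' → ¬ (¬ p ∣ f ∧ χ (p : ZMod f) = 1)) →
      Wy hfM χ ((g : ℝ) / (u : ℝ)) ≠ 0 := by
    intro g r' hgr hbad
    have hg0 : g ≠ 0 := by
      rintro rfl
      rw [zero_mul] at hgr
      exact hr0 hgr
    have hr'0 : r' ≠ 0 := by
      rintro rfl
      rw [mul_zero] at hgr
      exact hr0 hgr
    have e : (g : ℝ) / (u : ℝ) = 1 / ((f * r' : ℕ) : ℝ) := by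
      rw [hur, hgr]
      have h3 : (g : ℝ) ≠ 0 := by exact_mod_cast hg0
      have h4 : (r' : ℝ) ≠ 0 := by exact_mod_cast hr'0
      have h5 : (f : ℝ) ≠ 0 := by exact_mod_cast hf0
      push_cast
      field_simp
    rw [e]
    refine Wy_ne_zero_good hfM χ hf2 hT r' ?_ ?_ ?_
    · have h3 : f * r' ∣ u := by
        rw [hur, hgr]
        exact ⟨g, by ring⟩
      exact h3.trans huM
    · exact Odd.of_dvd_nat hro (Dvd.intro_left _ hgr.symm)
    · intro p hpp hpr hpf h3
      exact hbad p hpp hpr ⟨hpf, h3⟩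
  by_cases hfv : f ∣ v
  · obtain ⟨v₁, hv₁⟩ := hfv
    have hv₁0 : v₁ ≠ 0 := by
      rintro rfl
      rw [mul_zero] at hv₁
      exact hv0 hv₁
    have hrv : r = v₁ * t := by
      have h3 : f * r = f * (v₁ * t) := by
        rw [← hur, ht, hv₁]
        ring
      exact mul_left_cancel₀ hf0 h3
    -- the two term sum
    have hCC : ∀ c ∈ ({u, v} : Finset ℕ), Odd c ∧ f ∣ c := by
      intro c hc
      rw [mem_insert, mem_singleton] at hc
      rcases hc with rfl | rfl
      · exact ⟨huo, ⟨r, hur⟩⟩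
      · exact ⟨hvo, ⟨v₁, hv₁⟩⟩
    have hrow2 : ∀ g, Odd g → (∀ i, ¬ nm (q i) ∣ g) → (∀ j, ¬ nm (q' j) ∣ g) →
        ∑ c ∈ ({u, v} : Finset ℕ), Eo q q' χ c * Wy hfM χ ((g : ℝ) / (c : ℝ)) = 0 := by
      intro g hg h3 h4
      apply odd_row hfM χ q q' hq hq' hk hp hfo hM2 (fun i => hMd _ (hmem1 i))
        (fun j => hMd _ (hmem2 j)) {u, v} ?_ ?_ hCC hg h3 h4
      · intro i h5 _
        rcases hnum i h5 with h6 | h6 <;> simp [h6]
      · intro j h5 _
        rcases hnum' j h5 with h6 | h6 <;> simp [h6]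
    by_cases hcomm : ∃ p : ℕ, p.Prime ∧ p ∣ f ∧ p ∣ t
    · obtain ⟨p, hpp, ⟨f', hf'⟩, ⟨t', ht'⟩⟩ := hcomm
      obtain ⟨e, v₂, hp2, hv₂⟩ := Nat.exists_eq_pow_mul_and_not_dvd hv₁0 p hpp.ne_one
      have hf'0 : f' ≠ 0 := by
        rintro rfl
        rw [mul_zero] at hf'
        exact hf0 hf'
      have hv₂0 : v₂ ≠ 0 := by
        rintro rfl
        rw [mul_zero] at hv₂
        exact hv₁0 hv₂
      have ht'0 : t' ≠ 0 := by
        rintro rfl
        rw [mul_zero] at ht'
        exact ht0 ht'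
      have hrform : r = p ^ (e + 1) * (v₂ * t') := by
        rw [hrv, hv₂, ht', pow_succ]
        ring
      have hvform : v = p ^ (e + 1) * (f' * v₂) := by
        rw [hv₁, hf', hv₂, pow_succ]
        ring
      have hr'0 : v₂ * t' ≠ 0 := mul_ne_zero hv₂0 ht'0
      obtain ⟨g, ⟨r'', hr''⟩, hg2, hg3⟩ :=
        good_split (fun p => ¬ p ∣ f ∧ χ (p : ZMod f) = 1) (v₂ * t') hr'0
      have hg0 : g ≠ 0 := by
        rintro rfl
        rw [zero_mul] at hr''
        exact hr'0 hr''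
      have hrr : (v₂ * t') / g = r'' := by
        rw [hr'']
        exact Nat.mul_div_cancel_left _ (Nat.pos_of_ne_zero hg0)
      have hr₁ : r = (p ^ (e + 1) * g) * r'' := by
        rw [hrform, hr'']
        ring
      have hppos : 0 < p ^ (e + 1) := pow_pos hpp.pos _
      by_cases hvg : v ∣ p ^ (e + 1) * g
      · right
        have h3 : f' * v₂ ∣ g := by
          rw [hvform] at hvg
          exact Nat.dvd_of_mul_dvd_mul_left hppos hvg
        have hf'1 : f' = 1 := by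
          by_contra hne1
          have h4 := Nat.minFac_prime hne1
          have h5 : f'.minFac ∣ g := (Nat.minFac_dvd f').trans ((Dvd.intro _ rfl).trans h3)
          have h6 := (hg2 _ h4 h5).1
          exact h6 ((Nat.minFac_dvd f').trans (Dvd.intro_left _ hf'.symm))
        have hfp : f = p := by rw [hf', hf'1, mul_one]
        refine ⟨by rw [hfp]; exact hpp, ⟨v₁, hv₁⟩, by rw [hfp]; exact ⟨t', ht'⟩, ?_⟩
        intro l hl hlv hlf
        rw [hvform, hf'1, one_mul] at hlv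
        rcases (Nat.Prime.dvd_mul hl).mp hlv with h4 | h4
        · have h5 := (Nat.prime_dvd_prime_iff_eq hl hpp).mp (hl.dvd_of_dvd_pow h4)
          exact absurd (h5.trans hfp.symm) hlf
        · have h5 : v₂ ∣ g := by
            rw [hf'1, one_mul] at h3
            exact h3
          exact hg2 l hl (h4.trans h5)
      · exfalso
        obtain ⟨h3, h4⟩ := hunb (p ^ (e + 1) * g) ⟨r'', hr₁⟩ hvg
        have hg₁o : Odd (p ^ (e + 1) * g) := Odd.of_dvd_nat hro ⟨r'', hr₁⟩
        have hrow := hrow2 _ hg₁o h3 h4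
        rw [Finset.sum_pair huv] at hrow
        have hW0 : Wy hfM χ (((p ^ (e + 1) * g : ℕ) : ℝ) / (v : ℝ)) = 0 := by
          have hnM : f' * v₂ ∣ M := (Dvd.intro_left _ hvform.symm).trans hvM
          have hfn : ¬ f ∣ f' * v₂ := by
            rw [hf']
            intro hd
            have h5 : p * f' ∣ v₂ * f' := by rwa [mul_comm f' v₂] at hd
            exact hp2 (Nat.dvd_of_mul_dvd_mul_right (Nat.pos_of_ne_zero hf'0) h5)
          have hy : ((f' * v₂ : ℕ) : ℝ) * (((p ^ (e + 1) * g : ℕ) : ℝ) / (v : ℝ)) = ((g : ℤ) : ℝ) := by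
            rw [hvform]
            have h5 : (f' : ℝ) ≠ 0 := by exact_mod_cast hf'0
            have h6 : (v₂ : ℝ) ≠ 0 := by exact_mod_cast hv₂0
            have h7 : (p : ℝ) ≠ 0 := by exact_mod_cast hpp.ne_zero
            push_cast
            field_simp
          exact Wy_eq_zero_of_not_dvd hfM χ hp hnM hfn hy
        rw [hW0, mul_zero, add_zero] at hrow
        have hW1 := (mul_eq_zero.mp hrow).resolve_left hne
        refine hWne (p ^ (e + 1) * g) r'' hr₁ ?_ hW1
        intro l hl hlr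
        exact hg3 l hl (by rw [hrr]; exact hlr)
    · exfalso
      push Not at hcomm
      have hC : ∀ N' ∈ ({u, v} : Finset ℕ), f ∣ N' ∧ N' ∣ M ∧ Odd (N' / f) := by
        intro N' hN'
        obtain ⟨h3, h4⟩ := hCC N' hN'
        refine ⟨h4, ?_, Odd.of_dvd_nat h3 (Nat.div_dvd_of_dvd h4)⟩
        rw [mem_insert, mem_singleton] at hN'
        rcases hN' with rfl | rfl
        · exact huM
        · exact hvM
      have helim := elim hfM χ hp hf2 hT {u, v} hC (Eo q q' χ) (by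
        intro N' hN' g hg
        obtain ⟨hN'o, hfN'⟩ := hCC N' hN'
        have hN'0 : N' ≠ 0 := hN'o.pos.ne'
        have hdo : Odd (N' / f) := Odd.of_dvd_nat hN'o (Nat.div_dvd_of_dvd hfN')
        have hgo : Odd g := Odd.of_dvd_nat hdo hg
        have hgle : g ≤ N' / f := Nat.le_of_dvd hdo.pos hg
        have hlt : N' / f < N' := Nat.div_lt_self (Nat.pos_of_ne_zero hN'0) hf1
        have hN'le : N' ≤ u := by
          rw [mem_insert, mem_singleton] at hN'
          rcases hN' with rfl | rfl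
          · exact le_refl _
          · exact hvleu
        have key : ∀ d, (d = u ∨ d = v) → ¬ d ∣ g := by
          rintro d (rfl | rfl) hd
          · have := Nat.le_of_dvd hgo.pos hd
            omega
          · rw [mem_insert, mem_singleton] at hN'
            rcases hN' with rfl | rfl
            · -- the top level
              have hrdiv : N' / f = r := by
                rw [hur]
                exact Nat.mul_div_cancel_left _ (Nat.pos_of_ne_zero hf0)
              rw [hrdiv] at hg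
              have h3 : f * v₁ ∣ v₁ * t := by
                rw [← hv₁, ← hrv]
                exact hd.trans hg
              have h4 : f ∣ t := by
                rw [mul_comm f v₁] at h3
                exact Nat.dvd_of_mul_dvd_mul_left (Nat.pos_of_ne_zero hv₁0) h3
              have hf1' : f ≠ 1 := by omega
              exact hcomm f.minFac (Nat.minFac_prime hf1') (Nat.minFac_dvd f)
                ((Nat.minFac_dvd f).trans h4)
            · have := Nat.le_of_dvd hgo.pos hd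
              omega
        exact hrow2 g hgo
          (fun i hd => key _ (hnum i (Odd.of_dvd_nat hgo hd)) hd)
          (fun j hd => key _ (hnum' j (Odd.of_dvd_nat hgo hd)) hd))
      exact hne (helim u (mem_insert_self _ _))
  · obtain ⟨g, ⟨r', hr'⟩, hg2, hg3⟩ :=
      good_split (fun p => ¬ p ∣ f ∧ χ (p : ZMod f) = 1) r hr0
    have hg0 : g ≠ 0 := by
      rintro rfl
      rw [zero_mul] at hr'
      exact hr0 hr'
    have hrr : r / g = r' := by
      rw [hr']
      exact Nat.mul_div_cancel_left _ (Nat.pos_of_ne_zero hg0)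
    by_cases hvg : v ∣ g
    · left
      intro l hl hlv
      exact hg2 l hl (hlv.trans hvg)
    · exfalso
      obtain ⟨h3, h4⟩ := hunb g ⟨r', hr'⟩ hvg
      have hgo : Odd g := Odd.of_dvd_nat hro ⟨r', hr'⟩
      have hrow := odd_row hfM χ q q' hq hq' hk hp hfo hM2 (fun i => hMd _ (hmem1 i))
        (fun j => hMd _ (hmem2 j)) {u}
        (fun i h5 h6 => by
          rcases hnum i h5 with h7 | h7
          · simp [h7]
          · exact absurd (h7 ▸ h6) hfv)
        (fun j h5 h6 => by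
          rcases hnum' j h5 with h7 | h7
          · simp [h7]
          · exact absurd (h7 ▸ h6) hfv)
        (fun c hc => by
          rw [mem_singleton] at hc
          rw [hc]
          exact ⟨huo, ⟨r, hur⟩⟩) hgo h3 h4
      rw [Finset.sum_singleton] at hrow
      have hW1 := (mul_eq_zero.mp hrow).resolve_left hne
      refine hWne g r' hr' ?_ hW1
      intro l hl hlr
      exact hg3 l hl (by rw [hrr]; exact hlr)

/-- The relevant characters of the top class in `ψ` form. -/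
theorem coupled_relevant_psi (q q' : Fin N → ℚ) (hq : ∀ i, 2 ≤ q i) (hq' : ∀ i, 2 ≤ q' i)
    (hk : ∀ k : ℕ, Odd k → (∀ i, ¬ nm (q i) ∣ k) → (∀ j, ¬ nm (q' j) ∣ k) →
      ∑ i, lc ((k : ℝ) * Real.pi / (2 * (q i : ℝ))) = ∑ j, lc ((k : ℝ) * Real.pi / (2 * (q' j : ℝ))))
    {u v t : ℕ} (huo : Odd u) (hvo : Odd v) (ht : u = v * t) (huv : u ≠ v)
    (hnum : ∀ i, Odd (nm (q i)) → nm (q i) = u ∨ nm (q i) = v)
    (hnum' : ∀ j, Odd (nm (q' j)) → nm (q' j) = u ∨ nm (q' j) = v)
    (ψ : DirichletCharacter ℂ u) (hψ : ψ ≠ 1) (he : ψ.Even)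
    (hne : ∑ i ∈ univ.filter (fun i => nm (q i) = u), sg (q i).den * ψ ((q i).den : ZMod u) ≠
      ∑ j ∈ univ.filter (fun j => nm (q' j) = u), sg (q' j).den * ψ ((q' j).den : ZMod u)) :
    (∀ l : ℕ, l.Prime → l ∣ v → ∃ f, ¬ l ∣ f ∧ BadFor ψ (l : ℤ) f) ∨
    (∃ p : ℕ, p.Prime ∧ p ≠ 3 ∧ p ∣ v ∧ p ∣ t ∧ BadFor ψ 1 p ∧
      ∀ l : ℕ, l.Prime → l ∣ v → l ≠ p → ∃ f, ¬ l ∣ f ∧ BadFor ψ (l : ℤ) f) := by
  have hu0 : u ≠ 0 := huo.pos.ne'
  have : NeZero u := ⟨hu0⟩
  set φ : DirichletCharacter ℂ u := ψ⁻¹ with hφ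
  have hφ1 : φ ≠ 1 := by
    intro h
    exact hψ (inv_eq_one.mp h)
  have : NeZero φ.conductor := ⟨φ.conductor_ne_zero⟩
  have hf1 : 1 < φ.conductor := by
    have h0 := φ.conductor_ne_zero
    have h1 : φ.conductor ≠ 1 := fun h => hφ1 (φ.eq_one_iff_conductor_eq_one.mpr h)
    omega
  have hfb : φ.conductor ∣ u := φ.conductor_dvd_level
  set χ : DirichletCharacter ℂ φ.conductor := φ.primitiveCharacter with hχ
  have hp : χ.IsPrimitive := φ.primitiveCharacter_isPrimitive
  have hχ1 : χ ≠ 1 := by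
    intro h
    have h2 : χ.conductor = φ.conductor := hp
    rw [h, DirichletCharacter.conductor_one] at h2
    omega
  have hval : ∀ a : ℕ, Nat.Coprime a u → (χ (a : ZMod φ.conductor))⁻¹ = ψ (a : ZMod u) := by
    intro a ha
    have h2 : IsCoprime (a : ℤ) (u : ℤ) := Nat.isCoprime_iff_coprime.mpr ha
    have h3 := φ.primitiveCharacter_apply_of_isCoprime h2
    rw [Int.cast_natCast, Int.cast_natCast] at h3
    rw [← hχ] at h3
    rw [h3, hφ, MulChar.inv_apply_eq_inv', inv_inv]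
  have hχe : χ.Even := by
    have h2 : IsCoprime (-1 : ℤ) (u : ℤ) := by
      exact isCoprime_one_left.neg_left
    have h3 := φ.primitiveCharacter_apply_of_isCoprime h2
    rw [← hχ] at h3
    push_cast at h3
    show χ (-1) = 1
    rw [h3, hφ, MulChar.inv_apply_eq_inv', he]
    simp
  have hfo : Odd φ.conductor := Odd.of_dvd_nat huo hfb
  have e : ∀ (r : Fin N → ℚ), (∀ i, 2 ≤ r i) →
      ∑ i ∈ univ.filter (fun i => nm (r i) = u), sg (r i).den * (χ ((r i).den : ZMod φ.conductor))⁻¹ =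
      ∑ i ∈ univ.filter (fun i => nm (r i) = u), sg (r i).den * ψ ((r i).den : ZMod u) := by
    intro r hr
    apply Finset.sum_congr rfl
    intro i hi
    simp only [mem_filter, mem_univ, true_and] at hi
    rw [hval _ (den_facts (hr i) hi).2.1]
  have hE : Eo q q' χ u ≠ 0 := by
    unfold Eo
    rw [e q hq, e q' hq']
    exact sub_ne_zero.mpr hne
  have hbad : ∀ l : ℕ, ¬ l ∣ φ.conductor ∧ χ (l : ZMod φ.conductor) = 1 →
      ∃ f, ¬ l ∣ f ∧ BadFor ψ (l : ℤ) f := by
    rintro l ⟨h1, h2⟩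
    refine ⟨φ.conductor, h1, badfor_of ψ he (l : ℤ) ?_⟩
    rw [Int.cast_natCast]
    exact h2
  rcases coupled_relevant q q' hq hq' hk hfo hf1 χ hp hχ1 hχe huo hvo ht huv hnum hnum' hfb hE with
    h | ⟨h1, h2, h3, h4⟩
  · left
    intro l hl hlv
    exact hbad l (h l hl hlv)
  · right
    refine ⟨φ.conductor, h1, ?_, h2, h3, ?_, ?_⟩
    · intro h33
      have key : ∀ (f : ℕ) (_ : f = 3) (χ' : DirichletCharacter ℂ f), χ'.Even → χ' = 1 := by
        intro f hf χ' hχ'
        subst hf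
        exact even_char_three χ' hχ'
      exact hχ1 (key _ h33 χ hχe)
    · refine badfor_of ψ he 1 ?_
      simp
    · intro l hl hlv hlf
      exact hbad l (h4 l hl hlv hlf)

end Vale.Agent.Lib.P268
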