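import Mathlib
import Vale.Agent.Lib.P268.Coupled

/-!
Fourier invariance and small supports on the unit group.
-/

open Finset

namespace Vale.Agent.Lib.P268

section Abstract
variable {G : Type*} [CommGroup G] [DecidableEq G]

lemma card_bad (S₀ : Finset G) (w : G) (T : Finset G)
    (hfree : ∀ h ∈ T, ∀ h' ∈ T, h = w * h' → h = h') (x : G) :
    (T.filter (fun h => h * x ∈ S₀ ∨ w * (h * x) ∈ S₀)).card ≤ S₀.card := by
  apply Finset.card_le_card_of_injOn (fun h => if h * x ∈ S₀ then h * x else w * (h * x))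
  · intro h hh
    simp only [coe_filter, Set.mem_ofPred_eq] at hh
    obtain ⟨_, h2⟩ := hh
    by_cases c : h * x ∈ S₀
    · simpa [c] using c
    · have := h2.resolve_left c
      simpa [c] using this
  · intro h hh h' hh' heq
    simp only [coe_filter, Set.mem_ofPred_eq] at hh hh'
    dsimp only at heq
    split_ifs at heq with c1 c2 c2
    · exact mul_right_cancel heq
    · have h3 : h = w * h' := by
        apply mul_right_cancel (b := x)
        rw [heq, mul_assoc]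
      exact hfree h hh.1 h' hh'.1 h3
    · have h3 : h' = w * h := by
        apply mul_right_cancel (b := x)
        rw [← heq, mul_assoc]
      exact (hfree h' hh'.1 h hh.1 h3).symm
    · have h3 := mul_left_cancel heq
      exact mul_right_cancel h3

theorem kill_single (C : G → ℂ) (S₀ : Finset G) (w : G)
    (hsupp : ∀ x, C x ≠ 0 → x ∈ S₀ ∨ w * x ∈ S₀) (T : Finset G)
    (hfree : ∀ h ∈ T, ∀ h' ∈ T, h = w * h' → h = h')
    (hinvT : ∀ h ∈ T, ∀ x, C (h * x) = C x) (hcard : S₀.card < T.card) : ∀ x, C x = 0 := by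
  by_contra hcon
  push Not at hcon
  obtain ⟨x, hx⟩ := hcon
  have h1 : T.filter (fun h => h * x ∈ S₀ ∨ w * (h * x) ∈ S₀) = T := by
    apply Finset.filter_true_of_mem
    intro h hh
    apply hsupp
    rw [hinvT h hh]
    exact hx
  have h2 := card_bad S₀ w T hfree x
  rw [h1] at h2
  omega

theorem kill_two (C : G → ℂ) (S₀ : Finset G) (w : G)
    (hsupp : ∀ x, C x ≠ 0 → x ∈ S₀ ∨ w * x ∈ S₀) (T₁ T₂ : Finset G)
    (hfree₁ : ∀ h ∈ T₁, ∀ h' ∈ T₁, h = w * h' → h = h')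
    (hfree₂ : ∀ h ∈ T₂, ∀ h' ∈ T₂, h = w * h' → h = h')
    (hcube : ∀ x, ∀ h₁ ∈ T₁, ∀ h₂ ∈ T₂, C x - C (h₁ * x) - C (h₂ * x) + C (h₁ * (h₂ * x)) = 0)
    (hc₁ : S₀.card < T₁.card) (hc₂ : 2 * S₀.card < T₂.card) : ∀ x, C x = 0 := by
  by_contra hcon
  push Not at hcon
  obtain ⟨x, hx⟩ := hcon
  have hb₁ := card_bad S₀ w T₁ hfree₁ x
  obtain ⟨h₁, hh₁, hn₁⟩ := Finset.exists_mem_notMem_of_card_lt_card (lt_of_le_of_lt hb₁ hc₁)
  have h10 : C (h₁ * x) = 0 := by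
    by_contra h0
    exact hn₁ (mem_filter.mpr ⟨hh₁, hsupp _ h0⟩)
  have hb₂ := card_bad S₀ w T₂ hfree₂ x
  have hb₃ := card_bad S₀ w T₂ hfree₂ (h₁ * x)
  have hb₄ := Finset.card_union_le (T₂.filter (fun h => h * x ∈ S₀ ∨ w * (h * x) ∈ S₀))
    (T₂.filter (fun h => h * (h₁ * x) ∈ S₀ ∨ w * (h * (h₁ * x)) ∈ S₀))
  obtain ⟨h₂, hh₂, hn₂⟩ := Finset.exists_mem_notMem_of_card_lt_card
    (lt_of_le_of_lt (hb₄.trans (by omega : _ ≤ 2 * S₀.card)) hc₂)
  rw [mem_union, not_or] at hn₂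
  have h20 : C (h₂ * x) = 0 := by
    by_contra h0
    exact hn₂.1 (mem_filter.mpr ⟨hh₂, hsupp _ h0⟩)
  have h30 : C (h₂ * (h₁ * x)) = 0 := by
    by_contra h0
    exact hn₂.2 (mem_filter.mpr ⟨hh₂, hsupp _ h0⟩)
  have h4 := hcube x h₁ hh₁ h₂ hh₂
  rw [mul_left_comm, h10, h20, h30] at h4
  apply hx
  linear_combination h4

end Abstract

section Fourier
variable {L : ℕ} [NeZero L]

/-- Fourier inversion on the units. -/
def FourierData (C : (ZMod L)ˣ → ℂ) (B : DirichletCharacter ℂ L → ℂ) : Prop :=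
  ∀ x : (ZMod L)ˣ, (L.totient : ℂ) * C x =
    ∑ ψ : DirichletCharacter ℂ L, ψ ((x⁻¹ : (ZMod L)ˣ) : ZMod L) * B ψ

lemma psi_inv_one (ψ : DirichletCharacter ℂ L) (h : (ZMod L)ˣ) (hh : ψ (h : ZMod L) = 1) :
    ψ ((h⁻¹ : (ZMod L)ˣ) : ZMod L) = 1 := by
  have h2 : ψ (h : ZMod L) * ψ ((h⁻¹ : (ZMod L)ˣ) : ZMod L) = 1 := by
    rw [← map_mul, Units.mul_inv, map_one]
  rwa [hh, one_mul] at h2

lemma psi_mul_inv (ψ : DirichletCharacter ℂ L) (h x : (ZMod L)ˣ) :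
    ψ (((h * x)⁻¹ : (ZMod L)ˣ) : ZMod L) =
      ψ ((h⁻¹ : (ZMod L)ˣ) : ZMod L) * ψ ((x⁻¹ : (ZMod L)ˣ) : ZMod L) := by
  rw [mul_inv, Units.val_mul, map_mul]

lemma totient_ne : (L.totient : ℂ) ≠ 0 := by
  exact_mod_cast (Nat.totient_pos.mpr (Nat.pos_of_ne_zero (NeZero.ne L))).ne'

variable {C : (ZMod L)ˣ → ℂ} {B : DirichletCharacter ℂ L → ℂ}

lemma zero_of_B (hF : FourierData C B) (hB : ∀ ψ, B ψ = 0) (x : (ZMod L)ˣ) : C x = 0 := by
  have h := hF x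
  rw [Finset.sum_eq_zero (fun ψ _ => by rw [hB ψ, mul_zero])] at h
  exact (mul_eq_zero.mp h).resolve_left totient_ne

theorem inv_of_rel (hF : FourierData C B) (h : (ZMod L)ˣ)
    (hrel : ∀ ψ, B ψ ≠ 0 → ψ (h : ZMod L) = 1) (x : (ZMod L)ˣ) : C (h * x) = C x := by
  apply mul_left_cancel₀ (totient_ne (L := L))
  rw [hF, hF]
  apply Finset.sum_congr rfl
  intro ψ _
  by_cases hB : B ψ = 0
  · simp [hB]
  · rw [psi_mul_inv, psi_inv_one ψ h (hrel ψ hB), one_mul]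

theorem cube_of_rel (hF : FourierData C B) (h₁ h₂ : (ZMod L)ˣ)
    (hrel : ∀ ψ, B ψ ≠ 0 → ψ (h₁ : ZMod L) = 1 ∨ ψ (h₂ : ZMod L) = 1) (x : (ZMod L)ˣ) :
    C x - C (h₁ * x) - C (h₂ * x) + C (h₁ * (h₂ * x)) = 0 := by
  have h := totient_ne (L := L)
  apply mul_left_cancel₀ h
  rw [mul_zero, mul_add, mul_sub, mul_sub, hF, hF, hF, hF, ← Finset.sum_sub_distrib,
    ← Finset.sum_sub_distrib, ← Finset.sum_add_distrib]
  apply Finset.sum_eq_zero
  intro ψ _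
  by_cases hB : B ψ = 0
  · simp [hB]
  · rw [psi_mul_inv, psi_mul_inv, psi_mul_inv, psi_mul_inv]
    rcases hrel ψ hB with h1 | h1
    · rw [psi_inv_one ψ h₁ h1]
      ring
    · rw [psi_inv_one ψ h₂ h1]
      ring

/-- One family of invariances. -/
theorem kill_of_rel_single (hF : FourierData C B) (S₀ : Finset (ZMod L)ˣ) (w : (ZMod L)ˣ)
    (hww : w = 1 ∨ ∀ ψ, B ψ ≠ 0 → ψ (w : ZMod L) = -1)
    (hsupp : ∀ x, C x ≠ 0 → x ∈ S₀ ∨ w * x ∈ S₀) (T : Finset (ZMod L)ˣ)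
    (hrel : ∀ ψ, B ψ ≠ 0 → ∀ h ∈ T, ψ (h : ZMod L) = 1) (hcard : S₀.card < T.card) :
    ∀ x, C x = 0 := by
  by_cases hB : ∀ ψ, B ψ = 0
  · exact zero_of_B hF hB
  · push Not at hB
    obtain ⟨ψ₀, hψ₀⟩ := hB
    apply kill_single C S₀ w hsupp T ?_ (fun h hh x => inv_of_rel hF h (fun ψ hψ => hrel ψ hψ h hh) x) hcard
    intro h hh h' hh' heq
    rcases hww with rfl | hw
    · rw [heq, one_mul]
    · exfalso
      have h1 := hrel ψ₀ hψ₀ h hh
      have h2 := hrel ψ₀ hψ₀ h' hh'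
      rw [heq, Units.val_mul, map_mul, h2, hw ψ₀ hψ₀] at h1
      norm_num at h1

/-- Two families of invariances. -/
theorem kill_of_rel_two (hF : FourierData C B) (S₀ : Finset (ZMod L)ˣ) (w : (ZMod L)ˣ)
    (hww : w = 1 ∨ ∀ ψ, B ψ ≠ 0 → ψ (w : ZMod L) = -1)
    (hsupp : ∀ x, C x ≠ 0 → x ∈ S₀ ∨ w * x ∈ S₀) (T₁ T₂ : Finset (ZMod L)ˣ)
    (hrel : ∀ ψ, B ψ ≠ 0 → (∀ h ∈ T₁, ψ (h : ZMod L) = 1) ∨ (∀ h ∈ T₂, ψ (h : ZMod L) = 1))
    (hex₁ : ∃ ψ, B ψ ≠ 0 ∧ ∀ h ∈ T₁, ψ (h : ZMod L) = 1)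
    (hex₂ : ∃ ψ, B ψ ≠ 0 ∧ ∀ h ∈ T₂, ψ (h : ZMod L) = 1)
    (hc₁ : S₀.card < T₁.card) (hc₂ : 2 * S₀.card < T₂.card) :
    ∀ x, C x = 0 := by
  have hfr : ∀ T : Finset (ZMod L)ˣ, (∃ ψ, B ψ ≠ 0 ∧ ∀ h ∈ T, ψ (h : ZMod L) = 1) →
      ∀ h ∈ T, ∀ h' ∈ T, h = w * h' → h = h' := by
    rintro T ⟨ψ₀, hψ₀, hT⟩ h hh h' hh' heq
    rcases hww with rfl | hw
    · rw [heq, one_mul]
    · exfalso
      have h1 := hT h hh
      have h2 := hT h' hh'
      rw [heq, Units.val_mul, map_mul, h2, hw ψ₀ hψ₀] at h1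
      norm_num at h1
  apply kill_two C S₀ w hsupp T₁ T₂ (hfr T₁ hex₁) (hfr T₂ hex₂) ?_ hc₁ hc₂
  intro x h₁ hh₁ h₂ hh₂
  apply cube_of_rel hF h₁ h₂ _ x
  intro ψ hψ
  rcases hrel ψ hψ with h | h
  · exact Or.inl (h h₁ hh₁)
  · exact Or.inr (h h₂ hh₂)

end Fourier

section TSets
variable {L D : ℕ} [NeZero L] [NeZero D]

/-- The elements `± e ^ k`, `k < o`. -/
def KSet (e : (ZMod D)ˣ) (o : ℕ) : Finset (ZMod D)ˣ :=
  ((range o) ×ˢ ({1, -1} : Finset (ZMod D)ˣ)).image (fun kε => kε.2 * e ^ kε.1)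

lemma mem_KSet {e : (ZMod D)ˣ} {o : ℕ} {x : (ZMod D)ˣ} :
    x ∈ KSet e o ↔ ∃ k < o, x = e ^ k ∨ x = -e ^ k := by
  simp only [KSet, mem_image, mem_product, mem_range, mem_insert, mem_singleton, Prod.exists]
  constructor
  · rintro ⟨k, ε, ⟨hk, rfl | rfl⟩, rfl⟩
    · exact ⟨k, hk, Or.inl (one_mul _)⟩
    · exact ⟨k, hk, Or.inr (by simp)⟩
  · rintro ⟨k, hk, rfl | rfl⟩
    · exact ⟨k, 1, ⟨hk, Or.inl rfl⟩, one_mul _⟩
    · exact ⟨k, -1, ⟨hk, Or.inr rfl⟩, by simp⟩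

lemma card_KSet (e : (ZMod D)ˣ) (o : ℕ) (hD : (-1 : (ZMod D)ˣ) ≠ 1)
    (hH : ∀ k, 0 < k → k < o → e ^ k ≠ 1 ∧ e ^ k ≠ -1) : (KSet e o).card = 2 * o := by
  have key : ∀ d, 0 < d → d < o → ∀ ε ε' : (ZMod D)ˣ, (ε = 1 ∨ ε = -1) → (ε' = 1 ∨ ε' = -1) →
      ε ≠ ε' * e ^ d := by
    intro d h0 h1 ε ε' h2 h3 heq
    obtain ⟨h4, h5⟩ := hH d h0 h1
    rcases h2 with rfl | rfl <;> rcases h3 with rfl | rfl
    · rw [one_mul] at heq
      exact h4 heq.symm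
    · apply h5
      have : (-1 : (ZMod D)ˣ) * e ^ d = - e ^ d := by simp
      rw [this] at heq
      have h6 := congrArg (fun z => -z) heq
      simpa using h6.symm
    · rw [one_mul] at heq
      exact h5 heq.symm
    · apply h4
      have : (-1 : (ZMod D)ˣ) * e ^ d = - e ^ d := by simp
      rw [this] at heq
      have h6 := congrArg (fun z => -z) heq
      simpa using h6.symm
  unfold KSet
  rw [Finset.card_image_of_injOn, Finset.card_product, card_range, Finset.card_pair (Ne.symm hD)]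
  · ring
  · rintro ⟨k, ε⟩ h1 ⟨k', ε'⟩ h2 heq
    simp only [coe_product, coe_range, Set.mem_prod, Set.mem_Iio, coe_insert, coe_singleton,
      Set.mem_insert_iff, Set.mem_singleton_iff] at h1 h2
    dsimp only at heq
    obtain ⟨h3, h4⟩ := h1
    obtain ⟨h5, h6⟩ := h2
    rcases lt_trichotomy k k' with hlt | rfl | hlt
    · exfalso
      obtain ⟨d, rfl⟩ : ∃ d, k' = k + d := ⟨k' - k, by omega⟩
      have h7 : ε = ε' * e ^ d := by
        apply mul_right_cancel (b := e ^ k)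
        rw [heq, pow_add]
        simp only [mul_comm, mul_left_comm]
      exact key d (by omega) (by omega) ε ε' h4 h6 h7
    · have := mul_right_cancel heq
      rw [this]
    · exfalso
      obtain ⟨d, rfl⟩ : ∃ d, k = k' + d := ⟨k - k', by omega⟩
      have h7 : ε' = ε * e ^ d := by
        apply mul_right_cancel (b := e ^ k')
        rw [← heq, pow_add]
        simp only [mul_comm, mul_left_comm]
      exact key d (by omega) (by omega) ε' ε h6 h4 h7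

/-- The fiber size. -/
noncomputable def kappaT (hDL : D ∣ L) : ℕ :=
  (univ.filter (fun h : (ZMod L)ˣ => ZMod.unitsMap hDL h = 1)).card

lemma fiber_card (hDL : D ∣ L) (t : (ZMod D)ˣ) :
    (univ.filter (fun h : (ZMod L)ˣ => ZMod.unitsMap hDL h = t)).card = kappaT hDL := by
  have hsurj := ZMod.unitsMap_surjective hDL
  exact MonoidHom.card_fiber_eq_of_mem_range (ZMod.unitsMap hDL) (hsurj t) (hsurj 1)

lemma kappaT_mul (hDL : D ∣ L) : D.totient * kappaT hDL = L.totient := by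
  have h1 : (univ : Finset (ZMod L)ˣ).card = ∑ t : (ZMod D)ˣ,
      (univ.filter (fun h : (ZMod L)ˣ => ZMod.unitsMap hDL h = t)).card :=
    Finset.card_eq_sum_card_fiberwise (fun h _ => mem_univ _)
  rw [Finset.sum_congr rfl (fun t _ => fiber_card hDL t), Finset.sum_const, Finset.card_univ,
    Finset.card_univ, ZMod.card_units_eq_totient, ZMod.card_units_eq_totient, smul_eq_mul] at h1
  exact h1.symm

/-- The preimage of a set of units. -/
def TSet (hDL : D ∣ L) (K : Finset (ZMod D)ˣ) : Finset (ZMod L)ˣ :=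
  univ.filter (fun h => ZMod.unitsMap hDL h ∈ K)

lemma card_TSet (hDL : D ∣ L) (K : Finset (ZMod D)ˣ) :
    (TSet hDL K).card = K.card * kappaT hDL := by
  have h1 : (TSet hDL K).card = ∑ t ∈ K,
      ((TSet hDL K).filter (fun h => ZMod.unitsMap hDL h = t)).card :=
    Finset.card_eq_sum_card_fiberwise (fun h hh => (mem_filter.mp hh).2)
  rw [h1, Finset.sum_congr rfl (g := fun _ => kappaT hDL), Finset.sum_const, smul_eq_mul]
  intro t ht
  rw [← fiber_card hDL t]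
  congr 1
  ext h
  simp only [TSet, mem_filter, mem_univ, true_and]
  constructor
  · exact fun h2 => h2.2
  · intro h2
    exact ⟨by rw [h2]; exact ht, h2⟩

end TSets

end Vale.Agent.Lib.P268
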