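import Mathlib
import Vale.Agent.Lib.P268.Orbit

/-!
The signed count functions of a numerator class and their character sums.
-/

open Finset

namespace Vale.Agent.Lib.P268

variable {N : ℕ}

section pm
variable {L : ℕ} [NeZero L]

/-- The units equal to `± a i` with `i ∈ S`. -/
def pmSet {ι : Type*} (S : Finset ι) (a : ι → ZMod L) : Finset (ZMod L)ˣ :=
  by
    classical
    exact S.biUnion (fun i => univ.filter (fun x : (ZMod L)ˣ => (x : ZMod L) = a i ∨ (x : ZMod L) = -a i))

lemma mem_pmSet {ι : Type*} {S : Finset ι} {a : ι → ZMod L} {x : (ZMod L)ˣ} :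
    x ∈ pmSet S a ↔ ∃ i ∈ S, (x : ZMod L) = a i ∨ (x : ZMod L) = -a i := by
  classical
  simp [pmSet]

lemma card_pmSet {ι : Type*} (S : Finset ι) (a : ι → ZMod L) : (pmSet S a).card ≤ 2 * S.card := by
  classical
  unfold pmSet
  refine Finset.card_biUnion_le.trans ?_
  rw [mul_comm, ← smul_eq_mul]
  apply Finset.sum_le_card_nsmul
  intro i _
  have h1 : (univ.filter (fun x : (ZMod L)ˣ => (x : ZMod L) = a i ∨ (x : ZMod L) = -a i)).card ≤
      ({a i, -a i} : Finset (ZMod L)).card := by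
    apply Finset.card_le_card_of_injOn (fun x : (ZMod L)ˣ => (x : ZMod L))
    · intro x hx
      simp only [coe_filter, mem_univ, true_and, Set.mem_ofPred_eq] at hx
      simp only [coe_insert, coe_singleton, Set.mem_insert_iff, Set.mem_singleton_iff]
      exact hx
    · intro x _ y _ hxy
      exact Units.ext hxy
  exact h1.trans Finset.card_le_two

end pm

section Odd

/-- The signed count of an odd class. -/
noncomputable def cntO (q q' : Fin N → ℚ) (b : ℕ) (x : (ZMod b)ˣ) : ℂ :=
  ∑ i ∈ univ.filter (fun i => nm (q i) = b), sg (q i).den *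
    ((if (x : ZMod b) = ((q i).den : ZMod b) then 1 else 0) +
      (if (x : ZMod b) = -((q i).den : ZMod b) then 1 else 0)) -
  ∑ j ∈ univ.filter (fun j => nm (q' j) = b), sg (q' j).den *
    ((if (x : ZMod b) = ((q' j).den : ZMod b) then 1 else 0) +
      (if (x : ZMod b) = -((q' j).den : ZMod b) then 1 else 0))

/-- The character sums of an odd class. -/
noncomputable def bO (q q' : Fin N → ℚ) (b : ℕ) (ψ : DirichletCharacter ℂ b) : ℂ :=
  ∑ i ∈ univ.filter (fun i => nm (q i) = b), sg (q i).den *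
    (ψ ((q i).den : ZMod b) + ψ (-((q i).den : ZMod b))) -
  ∑ j ∈ univ.filter (fun j => nm (q' j) = b), sg (q' j).den *
    (ψ ((q' j).den : ZMod b) + ψ (-((q' j).den : ZMod b)))

lemma fourier_O (q q' : Fin N → ℚ) (b : ℕ) [NeZero b] : FourierData (cntO q q' b) (bO q q' b) := by
  intro x
  have hx : IsUnit (x : ZMod b) := x.isUnit
  have hinv : (((x⁻¹ : (ZMod b)ˣ)) : ZMod b) = (x : ZMod b)⁻¹ := (ZMod.inv_coe_unit x).symm
  rw [hinv]
  have hhelp : ∀ (s : Finset (Fin N)) (r : Fin N → ℚ),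
      ∑ ψ : DirichletCharacter ℂ b, ψ (x : ZMod b)⁻¹ *
          ∑ i ∈ s, sg (r i).den * (ψ ((r i).den : ZMod b) + ψ (-((r i).den : ZMod b))) =
        (b.totient : ℂ) * ∑ i ∈ s, sg (r i).den *
          ((if (x : ZMod b) = ((r i).den : ZMod b) then 1 else 0) +
          (if (x : ZMod b) = -((r i).den : ZMod b) then 1 else 0)) := by
    intro s r
    simp only [Finset.mul_sum]
    rw [Finset.sum_comm]
    apply Finset.sum_congr rfl
    intro i _
    have h1 := DirichletCharacter.sum_char_inv_mul_char_eq ℂ hx ((r i).den : ZMod b)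
    have h2 := DirichletCharacter.sum_char_inv_mul_char_eq ℂ hx (-((r i).den : ZMod b))
    calc ∑ ψ : DirichletCharacter ℂ b, ψ (x : ZMod b)⁻¹ * (sg (r i).den * (ψ ((r i).den : ZMod b) + ψ (-((r i).den : ZMod b))))
        = sg (r i).den * (∑ ψ : DirichletCharacter ℂ b, ψ (x : ZMod b)⁻¹ * ψ ((r i).den : ZMod b) +
            ∑ ψ : DirichletCharacter ℂ b, ψ (x : ZMod b)⁻¹ * ψ (-((r i).den : ZMod b))) := by
          rw [← Finset.sum_add_distrib, Finset.mul_sum]
          apply Finset.sum_congr rfl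
          intro ψ _
          ring
      _ = _ := by
          rw [h1, h2]
          split_ifs <;> ring
  simp only [bO, cntO, mul_sub, Finset.sum_sub_distrib]
  rw [hhelp _ q, hhelp _ q']

lemma bO_rel (q q' : Fin N → ℚ) (b : ℕ) (ψ : DirichletCharacter ℂ b) (h : bO q q' b ψ ≠ 0) :
    ψ.Even ∧ ∑ i ∈ univ.filter (fun i => nm (q i) = b), sg (q i).den * ψ ((q i).den : ZMod b) ≠
      ∑ j ∈ univ.filter (fun j => nm (q' j) = b), sg (q' j).den * ψ ((q' j).den : ZMod b) := by
  rcases ψ.even_or_odd with he | ho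
  · refine ⟨he, ?_⟩
    intro heq
    apply h
    have hneg : ∀ a : ZMod b, ψ (-a) = ψ a := by
      intro a
      have : -a = (-1) * a := by ring
      rw [this, map_mul, he, one_mul]
    simp only [bO, hneg]
    have h2 : ∀ (s : Finset (Fin N)) (r : Fin N → ℚ),
        ∑ i ∈ s, sg (r i).den * (ψ ((r i).den : ZMod b) + ψ ((r i).den : ZMod b)) =
          2 * ∑ i ∈ s, sg (r i).den * ψ ((r i).den : ZMod b) := by
      intro s r
      rw [Finset.mul_sum]
      apply Finset.sum_congr rfl
      intro i _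
      ring
    rw [h2, h2, heq, sub_self]
  · exfalso
    apply h
    have hneg : ∀ a : ZMod b, ψ (-a) = -ψ a := by
      intro a
      have : -a = (-1) * a := by ring
      rw [this, map_mul, ho]
      ring
    simp only [bO, hneg]
    simp

/-- The support of the odd signed count. -/
def supO (q q' : Fin N → ℚ) (b : ℕ) [NeZero b] : Finset (ZMod b)ˣ :=
  pmSet (univ.filter (fun i => nm (q i) = b)) (fun i => ((q i).den : ZMod b)) ∪
    pmSet (univ.filter (fun j => nm (q' j) = b)) (fun j => ((q' j).den : ZMod b))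

lemma card_supO (q q' : Fin N → ℚ) (b : ℕ) [NeZero b] :
    (supO q q' b).card ≤ 2 * ((univ.filter (fun i => nm (q i) = b)).card +
      (univ.filter (fun j => nm (q' j) = b)).card) := by
  unfold supO
  have h1 := Finset.card_union_le (pmSet (univ.filter (fun i => nm (q i) = b)) (fun i => ((q i).den : ZMod b)))
    (pmSet (univ.filter (fun j => nm (q' j) = b)) (fun j => ((q' j).den : ZMod b)))
  have h2 := card_pmSet (univ.filter (fun i => nm (q i) = b)) (fun i => ((q i).den : ZMod b))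
  have h3 := card_pmSet (univ.filter (fun j => nm (q' j) = b)) (fun j => ((q' j).den : ZMod b))
  omega

lemma cntO_supp (q q' : Fin N → ℚ) (b : ℕ) [NeZero b] (x : (ZMod b)ˣ) (h : cntO q q' b x ≠ 0) :
    x ∈ supO q q' b := by
  by_contra hx
  apply h
  unfold supO at hx
  rw [mem_union, not_or, mem_pmSet, mem_pmSet] at hx
  push Not at hx
  obtain ⟨h1, h2⟩ := hx
  unfold cntO
  rw [Finset.sum_eq_zero, Finset.sum_eq_zero, sub_zero]
  · intro j hj
    obtain ⟨h3, h4⟩ := h2 j hj
    rw [if_neg h3, if_neg h4]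
    ring
  · intro i hi
    obtain ⟨h3, h4⟩ := h1 i hi
    rw [if_neg h3, if_neg h4]
    ring

/-- The value of the odd signed count. -/
lemma cntO_val (q q' : Fin N → ℚ) (hq : ∀ i, 2 ≤ q i) (hq' : ∀ i, 2 ≤ q' i)
    {b : ℕ} [NeZero b] (hb : Odd b) (x : (ZMod b)ˣ) {a : ℕ} (ha : a ∈ admis b)
    (hx : (x : ZMod b) = (a : ZMod b)) :
    cntO q q' b x = sg a * (dcount q q' b a : ℂ) := by
  simp only [admis, mem_filter, mem_range] at ha
  obtain ⟨ha0, ha1, ha2, ha3⟩ := ha
  have hterm : ∀ (s : Finset (Fin N)) (r : Fin N → ℚ), (∀ i, 2 ≤ r i) →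
      s = univ.filter (fun i => nm (r i) = b) →
      ∑ i ∈ s, sg (r i).den * ((if (a : ZMod b) = ((r i).den : ZMod b) then 1 else 0) +
        (if (a : ZMod b) = -((r i).den : ZMod b) then 1 else 0)) =
      sg a * ((s.filter (fun i => (r i).den = a)).card : ℂ) := by
    intro s r hr hs
    rw [Finset.card_filter]
    push_cast
    rw [Finset.mul_sum]
    apply Finset.sum_congr rfl
    intro i hi
    rw [hs] at hi
    simp only [mem_filter, mem_univ, true_and] at hi
    have hden := den_mem_admis (hr i) hb hi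
    simp only [admis, mem_filter, mem_range] at hden
    obtain ⟨hd0, hd1, hd2, hd3⟩ := hden
    have h1 : (a : ZMod b) = ((r i).den : ZMod b) ↔ (r i).den = a := by
      rw [ZMod.natCast_eq_natCast_iff']
      rw [Nat.mod_eq_of_lt ha0, Nat.mod_eq_of_lt hd0]
      exact eq_comm
    have h2 : ¬ (a : ZMod b) = -((r i).den : ZMod b) := by
      intro h3
      have h4 : ((a + (r i).den : ℕ) : ZMod b) = 0 := by
        push_cast
        rw [h3]; ring
      rw [ZMod.natCast_eq_zero_iff] at h4
      have h5 := Nat.le_of_dvd (by omega) h4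
      omega
    by_cases h3 : (r i).den = a
    · rw [if_pos (h1.mpr h3), if_neg h2, if_pos h3, h3]
      ring
    · rw [if_neg (fun h => h3 (h1.mp h)), if_neg h2, if_neg h3]
      ring
  simp only [cntO, dcount, hx]
  rw [hterm _ q hq rfl, hterm _ q' hq' rfl]
  push_cast
  ring

lemma sg_ne_zero (a : ℕ) : sg a ≠ 0 := by
  unfold sg
  exact pow_ne_zero _ (by norm_num)

/-- Counts from the vanishing of the signed defect. -/
lemma counts_of_dcount (q q' : Fin N → ℚ) (hq : ∀ i, 2 ≤ q i) (hq' : ∀ i, 2 ≤ q' i)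
    {b : ℕ} (hmem : ∀ x : ℚ, 2 ≤ x → nm x = b → x.den ∈ admis b)
    (hd : ∀ a ∈ admis b, dcount q q' b a = 0) : Counts q q' b := by
  intro v
  by_cases hv : 2 ≤ v ∧ nm v = b
  · obtain ⟨hv1, hv2⟩ := hv
    have hset : ∀ (r : Fin N → ℚ), (∀ i, 2 ≤ r i) →
        (univ.filter (fun i => nm (r i) = b)).filter (fun i => r i = v) =
        (univ.filter (fun i => nm (r i) = b)).filter (fun i => (r i).den = v.den) := by
      intro r hr
      ext i
      simp only [mem_filter, mem_univ, true_and]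
      constructor
      · rintro ⟨h1, h2⟩
        exact ⟨h1, by rw [h2]⟩
      · rintro ⟨h1, h2⟩
        refine ⟨h1, ?_⟩
        rw [(den_facts (hr i) h1).1, (den_facts hv1 hv2).1, h2]
    rw [hset q hq, hset q' hq']
    have hmem' := hmem v hv1 hv2
    have := hd _ hmem'
    unfold dcount at this
    omega
  · have hemp : ∀ (r : Fin N → ℚ), (∀ i, 2 ≤ r i) →
        (univ.filter (fun i => nm (r i) = b)).filter (fun i => r i = v) = ∅ := by
      intro r hr
      apply Finset.filter_false_of_mem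
      intro i hi h2
      simp only [mem_filter, mem_univ, true_and] at hi
      exact hv ⟨h2 ▸ hr i, h2 ▸ hi⟩
    rw [hemp q hq, hemp q' hq']

lemma admis_unit {b a : ℕ} [NeZero b] (ha : a ∈ admis b) :
    ∃ x : (ZMod b)ˣ, (x : ZMod b) = (a : ZMod b) := by
  simp only [admis, mem_filter, mem_range] at ha
  exact ⟨ZMod.unitOfCoprime a ha.2.2.2, ZMod.coe_unitOfCoprime _ _⟩

lemma counts_of_cntO (q q' : Fin N → ℚ) (hq : ∀ i, 2 ≤ q i) (hq' : ∀ i, 2 ≤ q' i)
    {b : ℕ} [NeZero b] (hb : Odd b) (h : ∀ x, cntO q q' b x = 0) : Counts q q' b := by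
  apply counts_of_dcount q q' hq hq' (fun x hx hn => den_mem_admis hx hb hn)
  intro a ha
  obtain ⟨x, hx⟩ := admis_unit ha
  have h1 := cntO_val q q' hq hq' hb x ha hx
  rw [h x] at h1
  have h2 := (mul_eq_zero.mp h1.symm).resolve_left (sg_ne_zero a)
  exact_mod_cast h2

end Odd

section Even
variable {b : ℕ}

/-- The unit `1 + b` modulo `2 b`. -/
def wU (hb : Even b) : (ZMod (2 * b))ˣ :=
  ZMod.unitOfCoprime (1 + b) (by
    have h1 : Nat.Coprime (1 + b) b := by simp
    have h2 : Nat.Coprime (1 + b) 2 := by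
      rw [Nat.coprime_two_right]
      obtain ⟨m, hm⟩ := hb
      exact ⟨m, by omega⟩
    exact Nat.Coprime.mul_right h2 h1)

lemma coe_wU (hb : Even b) : ((wU hb : (ZMod (2 * b))ˣ) : ZMod (2 * b)) = ((1 + b : ℕ) : ZMod (2 * b)) :=
  ZMod.coe_unitOfCoprime _ _

lemma wU_sq (hb : Even b) : wU hb * wU hb = 1 := by
  apply Units.ext
  rw [Units.val_mul, coe_wU, Units.val_one]
  obtain ⟨m, hm⟩ := hb
  have h3 : (1 + b) * (1 + b) = 1 + (2 * b) * (1 + m) := by
    rw [hm]; ring
  have h0 : (2 : ZMod (2 * b)) * (b : ZMod (2 * b)) = 0 := by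
    have := ZMod.natCast_self (2 * b)
    push_cast at this
    exact this
  rw [← Nat.cast_mul, h3]
  push_cast
  rw [h0]
  ring

/-- One term of the even signed count. -/
noncomputable def termE (w x a : ZMod (2 * b)) : ℂ :=
  (if x = a then 1 else 0) + (if x = -a then 1 else 0) -
    (if x = w * a then 1 else 0) - (if x = -(w * a) then 1 else 0)

/-- The signed count of an even class. -/
noncomputable def cntE (q q' : Fin N → ℚ) (b : ℕ) (x : (ZMod (2 * b))ˣ) : ℂ :=
  ∑ i ∈ univ.filter (fun i => nm (q i) = b),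
    termE ((1 + b : ℕ) : ZMod (2 * b)) (x : ZMod (2 * b)) ((q i).den : ZMod (2 * b)) -
  ∑ j ∈ univ.filter (fun j => nm (q' j) = b),
    termE ((1 + b : ℕ) : ZMod (2 * b)) (x : ZMod (2 * b)) ((q' j).den : ZMod (2 * b))

/-- One term of the even character sums. -/
noncomputable def tPsi (ψ : DirichletCharacter ℂ (2 * b)) (w a : ZMod (2 * b)) : ℂ :=
  ψ a + ψ (-a) - ψ (w * a) - ψ (-(w * a))

/-- The character sums of an even class. -/
noncomputable def bE (q q' : Fin N → ℚ) (b : ℕ) (ψ : DirichletCharacter ℂ (2 * b)) : ℂ :=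
  ∑ i ∈ univ.filter (fun i => nm (q i) = b),
    tPsi ψ ((1 + b : ℕ) : ZMod (2 * b)) ((q i).den : ZMod (2 * b)) -
  ∑ j ∈ univ.filter (fun j => nm (q' j) = b),
    tPsi ψ ((1 + b : ℕ) : ZMod (2 * b)) ((q' j).den : ZMod (2 * b))

lemma fourier_E (q q' : Fin N → ℚ) (b : ℕ) [NeZero (2 * b)] :
    FourierData (cntE q q' b) (bE q q' b) := by
  intro x
  have hx : IsUnit (x : ZMod (2 * b)) := x.isUnit
  have hinv : (((x⁻¹ : (ZMod (2 * b))ˣ)) : ZMod (2 * b)) = (x : ZMod (2 * b))⁻¹ :=
    (ZMod.inv_coe_unit x).symm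
  rw [hinv]
  set w : ZMod (2 * b) := ((1 + b : ℕ) : ZMod (2 * b)) with hw
  have hhelp : ∀ (s : Finset (Fin N)) (r : Fin N → ℚ),
      ∑ ψ : DirichletCharacter ℂ (2 * b), ψ (x : ZMod (2 * b))⁻¹ *
          ∑ i ∈ s, tPsi ψ w ((r i).den : ZMod (2 * b)) =
        ((2 * b).totient : ℂ) * ∑ i ∈ s, termE w (x : ZMod (2 * b)) ((r i).den : ZMod (2 * b)) := by
    intro s r
    simp only [Finset.mul_sum]
    rw [Finset.sum_comm]
    apply Finset.sum_congr rfl
    intro i _
    set a : ZMod (2 * b) := ((r i).den : ZMod (2 * b)) with ha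
    have h1 := DirichletCharacter.sum_char_inv_mul_char_eq ℂ hx a
    have h2 := DirichletCharacter.sum_char_inv_mul_char_eq ℂ hx (-a)
    have h3 := DirichletCharacter.sum_char_inv_mul_char_eq ℂ hx (w * a)
    have h4 := DirichletCharacter.sum_char_inv_mul_char_eq ℂ hx (-(w * a))
    calc ∑ ψ : DirichletCharacter ℂ (2 * b), ψ (x : ZMod (2 * b))⁻¹ * tPsi ψ w a
        = ∑ ψ : DirichletCharacter ℂ (2 * b), ψ (x : ZMod (2 * b))⁻¹ * ψ a +
            ∑ ψ : DirichletCharacter ℂ (2 * b), ψ (x : ZMod (2 * b))⁻¹ * ψ (-a)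
          - ∑ ψ : DirichletCharacter ℂ (2 * b), ψ (x : ZMod (2 * b))⁻¹ * ψ (w * a)
          - ∑ ψ : DirichletCharacter ℂ (2 * b), ψ (x : ZMod (2 * b))⁻¹ * ψ (-(w * a)) := by
          rw [← Finset.sum_add_distrib, ← Finset.sum_sub_distrib, ← Finset.sum_sub_distrib]
          apply Finset.sum_congr rfl
          intro ψ _
          simp only [tPsi]
          ring
      _ = _ := by
          rw [h1, h2, h3, h4]
          simp only [termE]
          split_ifs <;> ring
  simp only [bE, cntE, mul_sub, Finset.sum_sub_distrib]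
  rw [hhelp _ q, hhelp _ q']

lemma bE_rel (q q' : Fin N → ℚ) (hb : Even b) (ψ : DirichletCharacter ℂ (2 * b))
    (h : bE q q' b ψ ≠ 0) :
    ψ.Even ∧ ψ ((wU hb : (ZMod (2 * b))ˣ) : ZMod (2 * b)) = -1 ∧
      ∑ i ∈ univ.filter (fun i => nm (q i) = b), ψ ((q i).den : ZMod (2 * b)) ≠
      ∑ j ∈ univ.filter (fun j => nm (q' j) = b), ψ ((q' j).den : ZMod (2 * b)) := by
  set w : ZMod (2 * b) := ((1 + b : ℕ) : ZMod (2 * b)) with hw
  have hww : w * w = 1 := by
    have := congrArg (fun u : (ZMod (2 * b))ˣ => (u : ZMod (2 * b))) (wU_sq hb)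
    simp only [Units.val_mul, coe_wU, Units.val_one] at this
    exact this
  rw [coe_wU]
  rcases ψ.even_or_odd with he | ho
  · have hneg : ∀ a : ZMod (2 * b), ψ (-a) = ψ a := by
      intro a
      have : -a = (-1) * a := by ring
      rw [this, map_mul, he, one_mul]
    have hwsq : ψ w * ψ w = 1 := by
      rw [← map_mul, hww, map_one]
    have hcases : ψ w = 1 ∨ ψ w = -1 := by
      have : (ψ w - 1) * (ψ w + 1) = 0 := by linear_combination hwsq
      rcases mul_eq_zero.mp this with h | h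
      · left; linear_combination h
      · right; linear_combination h
    rcases hcases with h1 | h1
    · exfalso
      apply h
      have ht : ∀ a, tPsi ψ w a = 0 := by
        intro a
        simp only [tPsi, hneg, map_mul, h1]
        ring
      simp only [bE, ← hw, ht]
      simp
    · refine ⟨he, h1, ?_⟩
      intro heq
      apply h
      have ht : ∀ a, tPsi ψ w a = 4 * ψ a := by
        intro a
        simp only [tPsi, hneg, map_mul, h1]
        ring
      simp only [bE, ← hw, ht]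
      rw [← Finset.mul_sum, ← Finset.mul_sum, heq, sub_self]
  · exfalso
    apply h
    have hneg : ∀ a : ZMod (2 * b), ψ (-a) = -ψ a := by
      intro a
      have : -a = (-1) * a := by ring
      rw [this, map_mul, ho]
      ring
    have ht : ∀ a, tPsi ψ w a = 0 := by
      intro a
      simp only [tPsi, hneg]
      ring
    simp only [bE, ← hw, ht]
    simp

/-- The support of the even signed count, up to `wU`. -/
def supE (q q' : Fin N → ℚ) (b : ℕ) [NeZero (2 * b)] : Finset (ZMod (2 * b))ˣ :=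
  pmSet (univ.filter (fun i => nm (q i) = b)) (fun i => ((q i).den : ZMod (2 * b))) ∪
    pmSet (univ.filter (fun j => nm (q' j) = b)) (fun j => ((q' j).den : ZMod (2 * b)))

lemma card_supE (q q' : Fin N → ℚ) (b : ℕ) [NeZero (2 * b)] :
    (supE q q' b).card ≤ 2 * ((univ.filter (fun i => nm (q i) = b)).card +
      (univ.filter (fun j => nm (q' j) = b)).card) := by
  unfold supE
  have h1 := Finset.card_union_le (pmSet (univ.filter (fun i => nm (q i) = b)) (fun i => ((q i).den : ZMod (2 * b))))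
    (pmSet (univ.filter (fun j => nm (q' j) = b)) (fun j => ((q' j).den : ZMod (2 * b))))
  have h2 := card_pmSet (univ.filter (fun i => nm (q i) = b)) (fun i => ((q i).den : ZMod (2 * b)))
  have h3 := card_pmSet (univ.filter (fun j => nm (q' j) = b)) (fun j => ((q' j).den : ZMod (2 * b)))
  omega

lemma cntE_supp (q q' : Fin N → ℚ) [NeZero (2 * b)] (hb : Even b) (x : (ZMod (2 * b))ˣ)
    (h : cntE q q' b x ≠ 0) : x ∈ supE q q' b ∨ wU hb * x ∈ supE q q' b := by
  by_contra hx
  apply h
  rw [not_or] at hx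
  obtain ⟨hx1, hx2⟩ := hx
  unfold supE at hx1 hx2
  rw [mem_union, not_or, mem_pmSet, mem_pmSet] at hx1 hx2
  push Not at hx1 hx2
  obtain ⟨h1, h2⟩ := hx1
  obtain ⟨h1', h2'⟩ := hx2
  set w : ZMod (2 * b) := ((1 + b : ℕ) : ZMod (2 * b)) with hw
  have hww : w * w = 1 := by
    have := congrArg (fun u : (ZMod (2 * b))ˣ => (u : ZMod (2 * b))) (wU_sq hb)
    simp only [Units.val_mul, coe_wU, Units.val_one] at this
    exact this
  have hz : ∀ a : ZMod (2 * b), ((x : ZMod (2 * b)) ≠ a ∧ (x : ZMod (2 * b)) ≠ -a) →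
      ((((wU hb * x : (ZMod (2 * b))ˣ)) : ZMod (2 * b)) ≠ a ∧
        ((wU hb * x : (ZMod (2 * b))ˣ) : ZMod (2 * b)) ≠ -a) →
      termE w (x : ZMod (2 * b)) a = 0 := by
    rintro a ⟨h3, h4⟩ ⟨h5, h6⟩
    have h7 : (x : ZMod (2 * b)) ≠ w * a := by
      intro h8
      apply h5
      rw [Units.val_mul, coe_wU, h8, ← mul_assoc, ← hw, hww, one_mul]
    have h8 : (x : ZMod (2 * b)) ≠ -(w * a) := by
      intro h9
      apply h6
      rw [Units.val_mul, coe_wU, h9, ← hw]
      linear_combination (-a) * hww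
    unfold termE
    rw [if_neg h3, if_neg h4, if_neg h7, if_neg h8]
    ring
  unfold cntE
  rw [Finset.sum_eq_zero, Finset.sum_eq_zero, sub_zero]
  · intro j hj
    exact hz _ (h2 j hj) (h2' j hj)
  · intro i hi
    exact hz _ (h1 i hi) (h1' i hi)

/-- Antisymmetry under `wU`. -/
lemma cntE_anti (q q' : Fin N → ℚ) (hb : Even b) (x : (ZMod (2 * b))ˣ) :
    cntE q q' b (wU hb * x) = - cntE q q' b x := by
  set w : ZMod (2 * b) := ((1 + b : ℕ) : ZMod (2 * b)) with hw
  have hww : w * w = 1 := by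
    have := congrArg (fun u : (ZMod (2 * b))ˣ => (u : ZMod (2 * b))) (wU_sq hb)
    simp only [Units.val_mul, coe_wU, Units.val_one] at this
    exact this
  have hwu : IsUnit w := IsUnit.of_mul_eq_one _ hww
  have hcancel : ∀ u v : ZMod (2 * b), w * u = v ↔ u = w * v := by
    intro u v
    constructor
    · rintro rfl
      rw [← mul_assoc, hww, one_mul]
    · rintro rfl
      rw [← mul_assoc, hww, one_mul]
  have ht : ∀ a : ZMod (2 * b), termE w (w * (x : ZMod (2 * b))) a = - termE w (x : ZMod (2 * b)) a := by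
    intro a
    unfold termE
    have e1 : w * (x : ZMod (2 * b)) = a ↔ (x : ZMod (2 * b)) = w * a := hcancel _ _
    have e2 : w * (x : ZMod (2 * b)) = -a ↔ (x : ZMod (2 * b)) = -(w * a) := by
      rw [hcancel]
      rw [mul_neg]
    have e3 : w * (x : ZMod (2 * b)) = w * a ↔ (x : ZMod (2 * b)) = a := by
      rw [hcancel, ← mul_assoc, hww, one_mul]
    have e4 : w * (x : ZMod (2 * b)) = -(w * a) ↔ (x : ZMod (2 * b)) = -a := by
      rw [hcancel, mul_neg, ← mul_assoc, hww, one_mul]
    simp only [e1, e2, e3, e4]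
    ring
  unfold cntE
  rw [Units.val_mul, coe_wU, ← hw]
  simp only [ht]
  rw [Finset.sum_neg_distrib, Finset.sum_neg_distrib]
  ring

/-- The value of the even signed count. -/
lemma cntE_val (q q' : Fin N → ℚ) (hq : ∀ i, 2 ≤ q i) (hq' : ∀ i, 2 ≤ q' i)
    (hb : Even b) (hb3 : 3 ≤ b) [NeZero (2 * b)] (x : (ZMod (2 * b))ˣ) {a : ℕ} (ha : a ∈ admis b)
    (hx : (x : ZMod (2 * b)) = (a : ZMod (2 * b))) :
    cntE q q' b x = (dcount q q' b a : ℂ) := by
  simp only [admis, mem_filter, mem_range] at ha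
  obtain ⟨ha0, ha1, ha2, ha3⟩ := ha
  set L := 2 * b with hLdef
  set w : ZMod L := ((1 + b : ℕ) : ZMod L) with hw
  have hterm : ∀ (s : Finset (Fin N)) (r : Fin N → ℚ), (∀ i, 2 ≤ r i) →
      s = univ.filter (fun i => nm (r i) = b) →
      ∑ i ∈ s, termE w (a : ZMod L) ((r i).den : ZMod L) =
      ((s.filter (fun i => (r i).den = a)).card : ℂ) := by
    intro s r hr hs
    rw [Finset.card_filter]
    push_cast
    apply Finset.sum_congr rfl
    intro i hi
    rw [hs] at hi
    simp only [mem_filter, mem_univ, true_and] at hi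
    have hden := den_mem_admis' (hr i) hb3 hi
    simp only [admis, mem_filter, mem_range] at hden
    obtain ⟨hd0, hd1, hd2, hd3⟩ := hden
    set d := (r i).den with hd
    have hdodd : Odd d := by
      have h4 : Nat.Coprime d 2 := Nat.Coprime.coprime_dvd_right (even_iff_two_dvd.mp hb) hd3
      exact (Nat.coprime_two_right).mp h4
    have hwd : w * (d : ZMod L) = ((d + b : ℕ) : ZMod L) := by
      obtain ⟨e, he⟩ := hdodd
      have h3 : (1 + b) * d = d + b + L * e := by
        rw [hLdef, he]; ring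
      rw [hw, ← Nat.cast_mul, h3]
      push_cast
      rw [ZMod.natCast_self]
      ring
    have hzero : ∀ n : ℕ, 0 < n → n < L → ((n : ℕ) : ZMod L) ≠ 0 := by
      intro n h0 h1 h2
      rw [ZMod.natCast_eq_zero_iff] at h2
      have := Nat.le_of_dvd h0 h2
      omega
    have h1 : (a : ZMod L) = (d : ZMod L) ↔ d = a := by
      rw [ZMod.natCast_eq_natCast_iff']
      rw [Nat.mod_eq_of_lt (by omega), Nat.mod_eq_of_lt (by omega)]
      exact eq_comm
    have h2 : ¬ (a : ZMod L) = -(d : ZMod L) := by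
      intro h3
      apply hzero (a + d) (by omega) (by omega)
      push_cast
      rw [h3]; ring
    have h3 : ¬ (a : ZMod L) = w * (d : ZMod L) := by
      rw [hwd, ZMod.natCast_eq_natCast_iff']
      rw [Nat.mod_eq_of_lt (by omega), Nat.mod_eq_of_lt (by omega)]
      omega
    have h4 : ¬ (a : ZMod L) = -(w * (d : ZMod L)) := by
      rw [hwd]
      intro h5
      apply hzero (a + (d + b)) (by omega) (by omega)
      rw [Nat.cast_add, h5]; ring
    simp only [termE]
    by_cases h5 : d = a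
    · rw [if_pos (h1.mpr h5), if_neg h2, if_neg h3, if_neg h4, if_pos h5]
      ring
    · rw [if_neg (fun h => h5 (h1.mp h)), if_neg h2, if_neg h3, if_neg h4, if_neg h5]
      ring
  simp only [cntE, dcount, hx]
  rw [hterm _ q hq rfl, hterm _ q' hq' rfl]
  push_cast
  ring

lemma admis_unit_even {a : ℕ} (hb : Even b) [NeZero (2 * b)] (ha : a ∈ admis b) :
    ∃ x : (ZMod (2 * b))ˣ, (x : ZMod (2 * b)) = (a : ZMod (2 * b)) := by
  simp only [admis, mem_filter, mem_range] at ha
  have h4 : Nat.Coprime a 2 := Nat.Coprime.coprime_dvd_right (even_iff_two_dvd.mp hb) ha.2.2.2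
  exact ⟨ZMod.unitOfCoprime a (Nat.Coprime.mul_right h4 ha.2.2.2), ZMod.coe_unitOfCoprime _ _⟩

lemma counts_of_cntE (q q' : Fin N → ℚ) (hq : ∀ i, 2 ≤ q i) (hq' : ∀ i, 2 ≤ q' i)
    (hb : Even b) (hb3 : 3 ≤ b) [NeZero (2 * b)] (h : ∀ x, cntE q q' b x = 0) : Counts q q' b := by
  apply counts_of_dcount q q' hq hq' (fun x hx hn => den_mem_admis' hx hb3 hn)
  intro a ha
  obtain ⟨x, hx⟩ := admis_unit_even hb ha
  have h1 := cntE_val q q' hq hq' hb hb3 x ha hx
  rw [h x] at h1
  exact_mod_cast h1.symm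

end Even

end Vale.Agent.Lib.P268
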