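import Mathlib
import Vale.Agent.Lib.P268.ClassData

/-!
Sizes of the sets of units on which the relevant characters are trivial.
-/

open Finset

namespace Vale.Agent.Lib.P268

/-- No power of `p` below `o` is `± 1` modulo `D`. -/
def HH (p D o : ℕ) : Prop := ∀ k, 0 < k → k < o → ¬ D ∣ p ^ k - 1 ∧ ¬ D ∣ p ^ k + 1

lemma phi_cases {p w : ℕ} (hpp : p.Prime) (hodd : Odd p) (hw : 1 ≤ w) :
    (10 ≤ (p ^ w).totient) ∨ (p = 7 ∧ w = 1 ∧ (p ^ w).totient = 6) ∨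
      (p = 5 ∧ w = 1 ∧ (p ^ w).totient = 4) ∨ (p = 3 ∧ w = 1 ∧ (p ^ w).totient = 2) ∨
      (p = 3 ∧ w = 2 ∧ (p ^ w).totient = 6) := by
  rw [Nat.totient_prime_pow hpp (by omega)]
  by_cases h11 : 11 ≤ p
  · left
    have h1 : 1 ≤ p ^ (w - 1) := Nat.one_le_pow _ _ hpp.pos
    have h2 : 10 ≤ p - 1 := by omega
    nlinarith
  · have hlt : p < 11 := by omega
    have h2 := hpp.two_le
    interval_cases p
    · exact absurd hodd (by decide)
    · obtain rfl | rfl | h3 : w = 1 ∨ w = 2 ∨ 3 ≤ w := by omega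
      · right; right; right; left; norm_num
      · right; right; right; right; norm_num
      · left
        have h4 : 3 ^ 2 ≤ 3 ^ (w - 1) := Nat.pow_le_pow_right (by norm_num) (by omega)
        norm_num at h4 ⊢
        omega
    · exact absurd hpp (by norm_num)
    · obtain rfl | h3 : w = 1 ∨ 2 ≤ w := by omega
      · right; right; left; norm_num
      · left
        have h4 : 5 ^ 1 ≤ 5 ^ (w - 1) := Nat.pow_le_pow_right (by norm_num) (by omega)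
        norm_num at h4 ⊢
        omega
    · exact absurd hpp (by norm_num)
    · obtain rfl | h3 : w = 1 ∨ 2 ≤ w := by omega
      · right; left; norm_num
      · left
        have h4 : 7 ^ 1 ≤ 7 ^ (w - 1) := Nat.pow_le_pow_right (by norm_num) (by omega)
        norm_num at h4 ⊢
        omega
    · exact absurd hpp (by norm_num)
    · exact absurd hpp (by norm_num)
    · exact absurd hpp (by norm_num)

lemma table8 {p w D : ℕ} (hpp : p.Prime) (hodd : Odd p) (hw : 1 ≤ w) :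
    (∃ o, 8 < 2 * o * (p ^ w).totient ∧ HH p D o) ∨
      (p = 5 ∧ w = 1 ∧ (D ∣ 4 ∨ D ∣ 6)) ∨
      (p = 3 ∧ w = 1 ∧ (D ∣ 2 ∨ D ∣ 4 ∨ D ∣ 8 ∨ D ∣ 10)) := by
  have hHH1 : HH p D 1 := fun k h1 h2 => by omega
  rcases phi_cases hpp hodd hw with h | ⟨_, _, h⟩ | ⟨rfl, rfl, h⟩ | ⟨rfl, rfl, h⟩ | ⟨_, _, h⟩
  · left
    exact ⟨1, by omega, hHH1⟩
  · left
    exact ⟨1, by omega, hHH1⟩
  · by_cases hc : D ∣ 4 ∨ D ∣ 6
    · right; left
      exact ⟨rfl, rfl, hc⟩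
    · left
      push Not at hc
      refine ⟨2, by omega, ?_⟩
      intro k h1 h2
      obtain rfl : k = 1 := by omega
      exact ⟨by norm_num; exact hc.1, by norm_num; exact hc.2⟩
  · by_cases hc : D ∣ 2 ∨ D ∣ 4 ∨ D ∣ 8 ∨ D ∣ 10
    · right; right
      exact ⟨rfl, rfl, hc⟩
    · left
      push Not at hc
      obtain ⟨c1, c2, c3, c4⟩ := hc
      refine ⟨3, by omega, ?_⟩
      intro k h1 h2
      obtain rfl | rfl : k = 1 ∨ k = 2 := by omega
      · exact ⟨by norm_num; exact c1, by norm_num; exact c2⟩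
      · exact ⟨by norm_num; exact c3, by norm_num; exact c4⟩
  · left
    exact ⟨1, by omega, hHH1⟩

lemma table12 {p w D : ℕ} (hpp : p.Prime) (hodd : Odd p) (hw : 1 ≤ w) :
    (∃ o, 12 < 2 * o * (p ^ w).totient ∧ HH p D o) ∨
      (p = 7 ∧ w = 1 ∧ (D ∣ 6 ∨ D ∣ 8)) ∨
      (p = 5 ∧ w = 1 ∧ (D ∣ 4 ∨ D ∣ 6)) ∨
      (p = 3 ∧ w = 1 ∧ (D ∣ 2 ∨ D ∣ 4 ∨ D ∣ 8 ∨ D ∣ 10 ∨ D ∣ 26 ∨ D ∣ 28)) ∨
      (p = 3 ∧ w = 2 ∧ (D ∣ 2 ∨ D ∣ 4)) := by
  have hHH1 : HH p D 1 := fun k h1 h2 => by omega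
  rcases phi_cases hpp hodd hw with h | ⟨rfl, rfl, h⟩ | ⟨rfl, rfl, h⟩ | ⟨rfl, rfl, h⟩ | ⟨rfl, rfl, h⟩
  · left
    exact ⟨1, by omega, hHH1⟩
  · by_cases hc : D ∣ 6 ∨ D ∣ 8
    · right; left
      exact ⟨rfl, rfl, hc⟩
    · left
      push Not at hc
      refine ⟨2, by omega, ?_⟩
      intro k h1 h2
      obtain rfl : k = 1 := by omega
      exact ⟨by norm_num; exact hc.1, by norm_num; exact hc.2⟩
  · by_cases hc : D ∣ 4 ∨ D ∣ 6
    · right; right; left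
      exact ⟨rfl, rfl, hc⟩
    · left
      push Not at hc
      refine ⟨2, by omega, ?_⟩
      intro k h1 h2
      obtain rfl : k = 1 := by omega
      exact ⟨by norm_num; exact hc.1, by norm_num; exact hc.2⟩
  · by_cases hc : D ∣ 2 ∨ D ∣ 4 ∨ D ∣ 8 ∨ D ∣ 10 ∨ D ∣ 26 ∨ D ∣ 28
    · right; right; right; left
      exact ⟨rfl, rfl, hc⟩
    · left
      push Not at hc
      obtain ⟨c1, c2, c3, c4, c5, c6⟩ := hc
      refine ⟨4, by omega, ?_⟩
      intro k h1 h2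
      obtain rfl | rfl | rfl : k = 1 ∨ k = 2 ∨ k = 3 := by omega
      · exact ⟨by norm_num; exact c1, by norm_num; exact c2⟩
      · exact ⟨by norm_num; exact c3, by norm_num; exact c4⟩
      · exact ⟨by norm_num; exact c5, by norm_num; exact c6⟩
  · by_cases hc : D ∣ 2 ∨ D ∣ 4
    · right; right; right; right
      exact ⟨rfl, rfl, hc⟩
    · left
      push Not at hc
      refine ⟨2, by omega, ?_⟩
      intro k h1 h2
      obtain rfl : k = 1 := by omega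
      exact ⟨by norm_num; exact hc.1, by norm_num; exact hc.2⟩

lemma table16 {p w D : ℕ} (hpp : p.Prime) (hodd : Odd p) (hw : 1 ≤ w) (hp5 : 5 ≤ p) :
    (∃ o, 16 < 2 * o * (p ^ w).totient ∧ HH p D o) ∨
      (p = 7 ∧ w = 1 ∧ (D ∣ 6 ∨ D ∣ 8)) ∨
      (p = 5 ∧ w = 1 ∧ (D ∣ 4 ∨ D ∣ 6 ∨ D ∣ 24 ∨ D ∣ 26)) := by
  have hHH1 : HH p D 1 := fun k h1 h2 => by omega
  rcases phi_cases hpp hodd hw with h | ⟨rfl, rfl, h⟩ | ⟨rfl, rfl, h⟩ | ⟨rfl, rfl, h⟩ | ⟨rfl, rfl, h⟩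
  · left
    exact ⟨1, by omega, hHH1⟩
  · by_cases hc : D ∣ 6 ∨ D ∣ 8
    · right; left
      exact ⟨rfl, rfl, hc⟩
    · left
      push Not at hc
      refine ⟨2, by omega, ?_⟩
      intro k h1 h2
      obtain rfl : k = 1 := by omega
      exact ⟨by norm_num; exact hc.1, by norm_num; exact hc.2⟩
  · by_cases hc : D ∣ 4 ∨ D ∣ 6 ∨ D ∣ 24 ∨ D ∣ 26
    · right; right
      exact ⟨rfl, rfl, hc⟩
    · left
      push Not at hc
      obtain ⟨c1, c2, c3, c4⟩ := hc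
      refine ⟨3, by omega, ?_⟩
      intro k h1 h2
      obtain rfl | rfl : k = 1 ∨ k = 2 := by omega
      · exact ⟨by norm_num; exact c1, by norm_num; exact c2⟩
      · exact ⟨by norm_num; exact c3, by norm_num; exact c4⟩
  · omega
  · omega

section
variable {L D : ℕ} [NeZero L] [NeZero D]

lemma HH_units {p o : ℕ} (hcop : Nat.Coprime p D) (h : HH p D o) (k : ℕ) (h0 : 0 < k) (h1 : k < o) :
    (ZMod.unitOfCoprime p hcop) ^ k ≠ 1 ∧ (ZMod.unitOfCoprime p hcop) ^ k ≠ -1 := by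
  obtain ⟨h2, h3⟩ := h k h0 h1
  have hp0 : 0 < p := by
    rcases Nat.eq_zero_or_pos p with rfl | hp
    · rw [Nat.coprime_zero_left] at hcop
      subst hcop
      exact absurd (one_dvd _) h2
    · exact hp
  have hc : (((ZMod.unitOfCoprime p hcop) ^ k : (ZMod D)ˣ) : ZMod D) = ((p ^ k : ℕ) : ZMod D) := by
    rw [Units.val_pow_eq_pow_val, ZMod.coe_unitOfCoprime]
    push_cast
    rfl
  constructor
  · intro he
    have h4 := congrArg (fun u : (ZMod D)ˣ => (u : ZMod D)) he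
    simp only [hc, Units.val_one] at h4
    have h5 : ((p ^ k : ℕ) : ZMod D) = ((1 : ℕ) : ZMod D) := by
      rw [h4]; simp
    rw [ZMod.natCast_eq_natCast_iff] at h5
    exact h2 ((Nat.modEq_iff_dvd' (Nat.one_le_pow _ _ hp0)).mp h5.symm)
  · intro he
    have h4 := congrArg (fun u : (ZMod D)ˣ => (u : ZMod D)) he
    simp only [hc, Units.val_neg, Units.val_one] at h4
    have h5 : ((p ^ k + 1 : ℕ) : ZMod D) = 0 := by
      push_cast at h4 ⊢
      rw [h4]; ring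
    exact h3 ((ZMod.natCast_eq_zero_iff _ _).mp h5)

lemma neg_one_ne_units (hD : 2 < D) : (-1 : (ZMod D)ˣ) ≠ 1 := by
  intro h
  have h4 := congrArg (fun u : (ZMod D)ˣ => (u : ZMod D)) h
  simp only [Units.val_neg, Units.val_one] at h4
  have : Fact (2 < D) := ⟨hD⟩
  exact ZMod.neg_one_ne_one h4

/-- The size of the set of units. -/
lemma card_T_pow {p w o : ℕ} (hL : L = p ^ w * D) (hDL : D ∣ L) (hcop : Nat.Coprime p D)
    (hD : 2 < D) (h : HH p D o) :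
    (TSet hDL (KSet (ZMod.unitOfCoprime p hcop) o)).card = 2 * o * (p ^ w).totient := by
  rw [card_TSet, card_KSet _ _ (neg_one_ne_units hD) (HH_units hcop h)]
  congr 1
  have h1 := kappaT_mul hDL
  have hφ : L.totient = (p ^ w).totient * D.totient := by
    rw [hL]
    exact Nat.totient_mul (Nat.Coprime.pow_left w hcop)
  have h2 : 0 < D.totient := Nat.totient_pos.mpr (Nat.pos_of_ne_zero (NeZero.ne D))
  have h3 : D.totient * kappaT hDL = D.totient * (p ^ w).totient := by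
    rw [mul_comm D.totient (p ^ w).totient, h1, hφ]
  exact Nat.eq_of_mul_eq_mul_left h2 h3

end

section
variable {L D f : ℕ} [NeZero L]

lemma badfor_T (ψ : DirichletCharacter ℂ L) {z : ℤ} (hB : BadFor ψ z f) (hfD : f ∣ D)
    (hDL : D ∣ L) [NeZero D] (e : (ZMod D)ˣ) (he : (e : ZMod D) = (z : ZMod D)) (h : (ZMod L)ˣ) (k : ℕ)
    (hh : ZMod.unitsMap hDL h = e ^ k ∨ ZMod.unitsMap hDL h = -e ^ k) :
    ψ (h : ZMod L) = 1 := by
  have hn : Nat.Coprime (h : ZMod L).val L := ZMod.val_coe_unit_coprime h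
  have hnL : (((h : ZMod L).val : ℕ) : ZMod L) = (h : ZMod L) := ZMod.natCast_zmod_val _
  rw [← hnL]
  apply hB.2 _ hn k
  have h1 : (((h : ZMod L).val : ℕ) : ZMod D) = ((ZMod.unitsMap hDL h : (ZMod D)ˣ) : ZMod D) := by
    rw [ZMod.unitsMap_val, ZMod.natCast_val]
  have h2 : (((h : ZMod L).val : ℕ) : ZMod f) =
      ZMod.castHom hfD (ZMod f) (((h : ZMod L).val : ℕ) : ZMod D) :=
    (map_natCast (ZMod.castHom hfD (ZMod f)) _).symm
  have h3 : (z : ZMod f) = ZMod.castHom hfD (ZMod f) (z : ZMod D) :=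
    (map_intCast (ZMod.castHom hfD (ZMod f)) z).symm
  rcases hh with hh | hh
  · left
    rw [h2, h1, hh, Units.val_pow_eq_pow_val, he, map_pow, ← h3]
  · right
    rw [h2, h1, hh, Units.val_neg, Units.val_pow_eq_pow_val, he, map_neg, map_pow, ← h3]

lemma psi_trivial_of_all (ψ : DirichletCharacter ℂ L) {z : ℤ} (hB : BadFor ψ z f) (hfD : f ∣ D)
    (hDL : D ∣ L) [NeZero D] (e : (ZMod D)ˣ) (he : (e : ZMod D) = (z : ZMod D))
    (hall : ∀ x : (ZMod D)ˣ, ∃ k : ℕ, x = e ^ k ∨ x = -e ^ k) : ψ = 1 := by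
  apply MulChar.ext
  intro a
  obtain ⟨k, hk⟩ := hall (ZMod.unitsMap hDL a)
  rw [badfor_T ψ hB hfD hDL e he a k hk, MulChar.one_apply a.isUnit]

end

lemma hall1 (e : (ZMod 1)ˣ) : ∀ x : (ZMod 1)ˣ, ∃ k : ℕ, x = e ^ k ∨ x = -e ^ k := by
  intro x
  exact ⟨0, Or.inl (Subsingleton.elim _ _)⟩

lemma hall3 (e : (ZMod 3)ˣ) : ∀ x : (ZMod 3)ˣ, ∃ k : ℕ, x = e ^ k ∨ x = -e ^ k := by
  intro x
  have h : ∀ a : (ZMod 3)ˣ, a = 1 ∨ a = -1 := by decide
  rcases h x with rfl | rfl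
  · exact ⟨0, Or.inl (by simp)⟩
  · exact ⟨0, Or.inr (by simp)⟩

lemma hall5 (hc : Nat.Coprime 3 5) :
    ∀ x : (ZMod 5)ˣ, ∃ k : ℕ, x = (ZMod.unitOfCoprime 3 hc) ^ k ∨ x = -(ZMod.unitOfCoprime 3 hc) ^ k := by
  have h : ∀ x : (ZMod 5)ˣ, x = 1 ∨ x = -1 ∨ x = ZMod.unitOfCoprime 3 (by decide) ∨
      x = -ZMod.unitOfCoprime 3 (by decide) := by
    decide
  intro x
  rcases h x with h | h | h | h
  · exact ⟨0, Or.inl (by simp [h])⟩
  · exact ⟨0, Or.inr (by simp [h])⟩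
  · exact ⟨1, Or.inl (by simp [h])⟩
  · exact ⟨1, Or.inr (by simp [h])⟩

lemma hall7 (hc : Nat.Coprime 3 7) :
    ∀ x : (ZMod 7)ˣ, ∃ k : ℕ, x = (ZMod.unitOfCoprime 3 hc) ^ k ∨ x = -(ZMod.unitOfCoprime 3 hc) ^ k := by
  have h : ∀ x : (ZMod 7)ˣ, x = 1 ∨ x = -1 ∨ x = ZMod.unitOfCoprime 3 (by decide) ∨
      x = -ZMod.unitOfCoprime 3 (by decide) ∨
      x = (ZMod.unitOfCoprime 3 (by decide)) ^ 2 ∨ x = -(ZMod.unitOfCoprime 3 (by decide)) ^ 2 := by
    decide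
  intro x
  rcases h x with h | h | h | h | h | h
  · exact ⟨0, Or.inl (by simp [h])⟩
  · exact ⟨0, Or.inr (by simp [h])⟩
  · exact ⟨1, Or.inl (by simp [h])⟩
  · exact ⟨1, Or.inr (by simp [h])⟩
  · exact ⟨2, Or.inl h⟩
  · exact ⟨2, Or.inr h⟩

end Vale.Agent.Lib.P268
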