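import Mathlib
import Vale.Agent.Lib.P268.Sizes

/-!
Killing the signed count of an odd numerator class.
-/

open Finset

namespace Vale.Agent.Lib.P268

variable {N : ℕ}

lemma padic_prod_gen {ι : Type*} (π : ℕ) [Fact π.Prime] (s : Finset ι) (f : ι → ℚ)
    (hf : ∀ i ∈ s, f i ≠ 0) :
    padicValRat π (∏ i ∈ s, f i) = ∑ i ∈ s, padicValRat π (f i) := by
  classical
  induction s using Finset.induction_on with
  | empty => simp
  | insert a s ha ih =>
    rw [Finset.prod_insert ha, Finset.sum_insert ha, padicValRat.mul (hf a (mem_insert_self a s))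
      (Finset.prod_ne_zero_iff.mpr (fun i hi => hf i (mem_insert_of_mem hi))),
      ih (fun i hi => hf i (mem_insert_of_mem hi))]

lemma padic_cp_gen (π : ℕ) [Fact π.Prime] (r : Fin N → ℚ) (hr : ∀ i, 2 ≤ r i) {b : ℕ}
    (hmem : ∀ x : ℚ, 2 ≤ x → nm x = b → x.den ∈ admis b) :
    padicValRat π (cp r b) = ∑ a ∈ admis b,
      (((univ.filter (fun i => nm (r i) = b)).filter (fun i => (r i).den = a)).card : ℤ) *
        padicValRat π ((b : ℚ) / (a : ℚ) - 1) := by
  unfold cp
  have hne : ∀ i ∈ univ.filter (fun i => nm (r i) = b), r i - 1 ≠ 0 := by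
    intro i _
    have := hr i
    intro h0
    linarith
  rw [padic_prod_gen π _ _ hne]
  rw [← Finset.sum_fiberwise_of_maps_to (t := admis b) (g := fun i => (r i).den)]
  · apply Finset.sum_congr rfl
    intro a _
    rw [Finset.sum_congr rfl (g := fun _ => padicValRat π ((b : ℚ) / (a : ℚ) - 1))]
    · rw [Finset.sum_const, nsmul_eq_mul]
    · intro i hi
      simp only [mem_filter, mem_univ, true_and] at hi
      obtain ⟨hi1, hi2⟩ := hi
      have h1 := (den_facts (hr i) hi1).1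
      congr 1
      rw [← hi2, ← h1]
  · intro i hi
    simp only [mem_filter, mem_univ, true_and] at hi
    exact hmem _ (hr i) hi

lemma val_term (π : ℕ) [Fact π.Prime] {b a : ℕ} (ha : a ∈ admis b) :
    padicValRat π ((b : ℚ) / (a : ℚ) - 1) = (padicValNat π (b - a) : ℤ) - (padicValNat π a : ℤ) := by
  simp only [admis, mem_filter, mem_range] at ha
  obtain ⟨ha0, ha1, ha2, ha3⟩ := ha
  have hane : (a : ℚ) ≠ 0 := by exact_mod_cast ha1.ne'
  have hba : 0 < b - a := by omega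
  have hbane : ((b - a : ℕ) : ℚ) ≠ 0 := by exact_mod_cast hba.ne'
  have h1 : (b : ℚ) / (a : ℚ) - 1 = ((b - a : ℕ) : ℚ) / (a : ℚ) := by
    rw [Nat.cast_sub (by omega)]
    field_simp
  rw [h1, padicValRat.div hbane hane, padicValRat.of_nat, padicValRat.of_nat]

/-- A prime occurring in exactly one admissible term detects that count. -/
lemma dcount_zero_of_prime (q q' : Fin N → ℚ) (hq : ∀ i, 2 ≤ q i) (hq' : ∀ i, 2 ≤ q' i) {b : ℕ}
    (hmem : ∀ x : ℚ, 2 ≤ x → nm x = b → x.den ∈ admis b) (hcp : cp q b = cp q' b)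
    {π : ℕ} (hπ : π.Prime) {a₀ : ℕ} (ha₀ : a₀ ∈ admis b)
    (h1 : ∀ a ∈ admis b, a ≠ a₀ → ¬ π ∣ b - a ∧ ¬ π ∣ a)
    (h2 : (π ∣ b - a₀ ∧ ¬ π ∣ a₀) ∨ (π ∣ a₀ ∧ ¬ π ∣ b - a₀)) : dcount q q' b a₀ = 0 := by
  have : Fact π.Prime := ⟨hπ⟩
  have hzero : ∀ a ∈ admis b, a ≠ a₀ → padicValRat π ((b : ℚ) / (a : ℚ) - 1) = 0 := by
    intro a ha hne
    obtain ⟨h3, h4⟩ := h1 a ha hne
    rw [val_term π ha, padicValNat.eq_zero_of_not_dvd h3, padicValNat.eq_zero_of_not_dvd h4]
    simp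
  have ht : padicValRat π ((b : ℚ) / (a₀ : ℚ) - 1) ≠ 0 := by
    rw [val_term π ha₀]
    simp only [admis, mem_filter, mem_range] at ha₀
    obtain ⟨ha0, ha1, ha2, ha3⟩ := ha₀
    rcases h2 with ⟨h3, h4⟩ | ⟨h3, h4⟩
    · rw [padicValNat.eq_zero_of_not_dvd h4]
      have h6 : 1 ≤ padicValNat π (b - a₀) := one_le_padicValNat_of_dvd (by omega) h3
      omega
    · rw [padicValNat.eq_zero_of_not_dvd h4]
      have h6 : 1 ≤ padicValNat π a₀ := one_le_padicValNat_of_dvd (by omega) h3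
      omega
  have e : ∀ (r : Fin N → ℚ), (∀ i, 2 ≤ r i) → padicValRat π (cp r b) =
      (((univ.filter (fun i => nm (r i) = b)).filter (fun i => (r i).den = a₀)).card : ℤ) *
        padicValRat π ((b : ℚ) / (a₀ : ℚ) - 1) := by
    intro r hr
    rw [padic_cp_gen π r hr hmem]
    apply Finset.sum_eq_single a₀
    · intro a ha hne
      rw [hzero a ha hne, mul_zero]
    · intro h
      exact absurd ha₀ h
  have h3 := e q hq
  rw [hcp, e q' hq'] at h3
  have h4 := mul_right_cancel₀ ht h3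
  unfold dcount
  omega

lemma f_dvd_D {f L p w D : ℕ} (hf : f ∣ L) (hL : L = p ^ w * D) (hp : p.Prime) (hpf : ¬ p ∣ f) :
    f ∣ D := by
  rw [hL] at hf
  exact Nat.Coprime.dvd_of_dvd_mul_left
    (Nat.Coprime.pow_right w ((Nat.Prime.coprime_iff_not_dvd hp).mpr hpf).symm) hf

lemma unitsMap_unitOfCoprime {L D a : ℕ} [NeZero D] (hDL : D ∣ L) (h1 : Nat.Coprime a L)
    (h2 : Nat.Coprime a D) :
    ZMod.unitsMap hDL (ZMod.unitOfCoprime a h1) = ZMod.unitOfCoprime a h2 := by
  apply Units.ext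
  rw [ZMod.unitsMap_val, ZMod.coe_unitOfCoprime, ZMod.coe_unitOfCoprime, ZMod.cast_natCast hDL]

/-- The exceptional class of numerator 39. -/
lemma odd_exc39 (q q' : Fin N → ℚ) (hq : ∀ i, 2 ≤ q i) (hq' : ∀ i, 2 ≤ q' i)
    (hcp : cp q 39 = cp q' 39)
    (hrel : ∀ ψ : DirichletCharacter ℂ 39, ψ ≠ 1 → ψ.Even →
      ∑ i ∈ univ.filter (fun i => nm (q i) = 39), sg (q i).den * ψ ((q i).den : ZMod 39) ≠
        ∑ j ∈ univ.filter (fun j => nm (q' j) = 39), sg (q' j).den * ψ ((q' j).den : ZMod 39) →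
      ∃ f, ¬ 3 ∣ f ∧ BadFor ψ ((3 : ℕ) : ℤ) f) : Counts q q' 39 := by
  have hb39 : Odd 39 := by decide
  have hDL : 13 ∣ 39 := by norm_num
  have hL : 39 = 3 ^ 1 * 13 := by norm_num
  have hc3 : Nat.Coprime 3 13 := by decide
  have he : ((ZMod.unitOfCoprime 3 hc3 : (ZMod 13)ˣ) : ZMod 13) = (((3 : ℕ) : ℤ) : ZMod 13) := by
    rw [ZMod.coe_unitOfCoprime]
    simp
  have hinvT : ∀ h : (ZMod 39)ˣ, (∃ k : ℕ, ZMod.unitsMap hDL h = (ZMod.unitOfCoprime 3 hc3) ^ k ∨
      ZMod.unitsMap hDL h = -(ZMod.unitOfCoprime 3 hc3) ^ k) →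
      ∀ x, cntO q q' 39 (h * x) = cntO q q' 39 x := by
    rintro h ⟨k, hk⟩ x
    apply inv_of_rel (fourier_O q q' 39) h _ x
    intro ψ hψ
    by_cases hψ1 : ψ = 1
    · rw [hψ1, MulChar.one_apply h.isUnit]
    · obtain ⟨he', hne⟩ := bO_rel q q' 39 ψ hψ
      obtain ⟨f, hf, hB⟩ := hrel ψ hψ1 he' hne
      exact badfor_T ψ hB (f_dvd_D hB.1 hL Nat.prime_three hf) hDL _ he h k hk
  have hmem : ∀ x : ℚ, 2 ≤ x → nm x = 39 → x.den ∈ admis 39 :=
    fun x hx hn => den_mem_admis hx hb39 hn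
  have h10 : dcount q q' 39 10 = 0 := by
    apply dcount_zero_of_prime q q' hq hq' hmem hcp (π := 29) (by norm_num) (by decide)
    · decide
    · left
      decide
  have h2 : dcount q q' 39 2 = 0 := by
    apply dcount_zero_of_prime q q' hq hq' hmem hcp (π := 37) (by norm_num) (by decide)
    · decide
    · left
      decide
  have hu10 : Nat.Coprime 10 39 := by decide
  have hu2 : Nat.Coprime 2 39 := by decide
  have hC10 : cntO q q' 39 (ZMod.unitOfCoprime 10 hu10) = 0 := by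
    rw [cntO_val q q' hq hq' hb39 _ (a := 10) (by decide) (ZMod.coe_unitOfCoprime _ _), h10]
    simp
  have hC2 : cntO q q' 39 (ZMod.unitOfCoprime 2 hu2) = 0 := by
    rw [cntO_val q q' hq hq' hb39 _ (a := 2) (by decide) (ZMod.coe_unitOfCoprime _ _), h2]
    simp
  have hgen : ∀ y : (ZMod 13)ˣ,
      (∃ k < 3, y * (ZMod.unitOfCoprime 10 (by decide))⁻¹ = (ZMod.unitOfCoprime 3 (by decide)) ^ k ∨
        y * (ZMod.unitOfCoprime 10 (by decide))⁻¹ = -(ZMod.unitOfCoprime 3 (by decide)) ^ k) ∨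
      (∃ k < 3, y * (ZMod.unitOfCoprime 2 (by decide))⁻¹ = (ZMod.unitOfCoprime 3 (by decide)) ^ k ∨
        y * (ZMod.unitOfCoprime 2 (by decide))⁻¹ = -(ZMod.unitOfCoprime 3 (by decide)) ^ k) := by
    decide +kernel
  apply counts_of_cntO q q' hq hq' hb39
  intro x
  rcases hgen (ZMod.unitsMap hDL x) with ⟨k, _, hk⟩ | ⟨k, _, hk⟩
  · have h3 := hinvT (x * (ZMod.unitOfCoprime 10 hu10)⁻¹) ⟨k, by
      rw [map_mul, map_inv, unitsMap_unitOfCoprime hDL hu10 (by decide)]
      exact hk⟩ (ZMod.unitOfCoprime 10 hu10)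
    rw [inv_mul_cancel_right, hC10] at h3
    exact h3
  · have h3 := hinvT (x * (ZMod.unitOfCoprime 2 hu2)⁻¹) ⟨k, by
      rw [map_mul, map_inv, unitsMap_unitOfCoprime hDL hu2 (by decide)]
      exact hk⟩ (ZMod.unitOfCoprime 2 hu2)
    rw [inv_mul_cancel_right, hC2] at h3
    exact h3

/-- An odd class all of whose relevant characters are bad for one prime. -/
theorem odd_single (q q' : Fin N → ℚ) (hq : ∀ i, 2 ≤ q i) (hq' : ∀ i, 2 ≤ q' i) {b : ℕ}
    (hb : Odd b) (hb3 : 3 ≤ b) (hcp : cp q b = cp q' b) {p : ℕ} (hpp : p.Prime) (hpb : p ∣ b)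
    (hrel : ∀ ψ : DirichletCharacter ℂ b, ψ ≠ 1 → ψ.Even →
      ∑ i ∈ univ.filter (fun i => nm (q i) = b), sg (q i).den * ψ ((q i).den : ZMod b) ≠
        ∑ j ∈ univ.filter (fun j => nm (q' j) = b), sg (q' j).den * ψ ((q' j).den : ZMod b) →
      ∃ f, ¬ p ∣ f ∧ BadFor ψ (p : ℤ) f)
    (hm : (univ.filter (fun i => nm (q i) = b)).card +
      (univ.filter (fun j => nm (q' j) = b)).card ≤ 6) : Counts q q' b := by
  have hb0 : b ≠ 0 := by omega
  have : NeZero b := ⟨hb0⟩
  have hpo : Odd p := Odd.of_dvd_nat hb hpb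
  obtain ⟨w, D, hpD, hL⟩ := Nat.exists_eq_pow_mul_and_not_dvd hb0 p hpp.ne_one
  have hw : 1 ≤ w := by
    by_contra h0
    have hw0 : w = 0 := by omega
    rw [hw0, pow_zero, one_mul] at hL
    exact hpD (hL ▸ hpb)
  have hDL : D ∣ b := Dvd.intro_left _ hL.symm
  have hD0 : D ≠ 0 := by
    rintro rfl
    rw [mul_zero] at hL
    exact hb0 hL
  have : NeZero D := ⟨hD0⟩
  have hDo : Odd D := Odd.of_dvd_nat hb hDL
  have hDm : D % 2 = 1 := Nat.odd_iff.mp hDo
  have hcop : Nat.Coprime p D := (Nat.Prime.coprime_iff_not_dvd hpp).mpr hpD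
  have he : ((ZMod.unitOfCoprime p hcop : (ZMod D)ˣ) : ZMod D) = (((p : ℕ) : ℤ) : ZMod D) := by
    rw [ZMod.coe_unitOfCoprime]
    simp
  by_cases hex : ∃ ψ : DirichletCharacter ℂ b, ψ ≠ 1 ∧ ψ.Even ∧
      ∑ i ∈ univ.filter (fun i => nm (q i) = b), sg (q i).den * ψ ((q i).den : ZMod b) ≠
        ∑ j ∈ univ.filter (fun j => nm (q' j) = b), sg (q' j).den * ψ ((q' j).den : ZMod b)
  · obtain ⟨ψ₀, h1, h2, h3⟩ := hex
    obtain ⟨f₀, hf₀, hB₀⟩ := hrel ψ₀ h1 h2 h3
    have hf₀D := f_dvd_D hB₀.1 hL hpp hf₀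
    have hnot : ¬ ∀ x : (ZMod D)ˣ, ∃ k : ℕ, x = (ZMod.unitOfCoprime p hcop) ^ k ∨
        x = -(ZMod.unitOfCoprime p hcop) ^ k :=
      fun hall => h1 (psi_trivial_of_all ψ₀ hB₀ hf₀D hDL _ he hall)
    have hD1 : D ≠ 1 := by
      rintro rfl
      exact hnot (hall1 _)
    have hD3 : D ≠ 3 := by
      rintro rfl
      exact hnot (hall3 _)
    have hD2 : 2 < D := by omega
    have hT : ∀ o, ∀ ψ, bO q q' b ψ ≠ 0 → ∀ h ∈ TSet hDL (KSet (ZMod.unitOfCoprime p hcop) o),
        ψ (h : ZMod b) = 1 := by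
      intro o ψ hψ h hh
      by_cases hψ1 : ψ = 1
      · rw [hψ1, MulChar.one_apply h.isUnit]
      · obtain ⟨he', hne⟩ := bO_rel q q' b ψ hψ
        obtain ⟨f, hf, hB⟩ := hrel ψ hψ1 he' hne
        have hh' := (mem_filter.mp hh).2
        rw [mem_KSet] at hh'
        obtain ⟨k, _, hk⟩ := hh'
        exact badfor_T ψ hB (f_dvd_D hB.1 hL hpp hf) hDL _ he h k hk
    have hlist : ∀ n : ℕ, 0 < n → D ∣ n → D ≤ n := fun n hn hd => Nat.le_of_dvd hn hd
    rcases table12 (D := D) hpp hpo hw with ⟨o, ho1, ho2⟩ | ⟨rfl, hw1, hc⟩ | ⟨rfl, hw1, hc⟩ |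
      ⟨rfl, hw1, hc⟩ | ⟨rfl, hw1, hc⟩
    · apply counts_of_cntO q q' hq hq' hb
      apply kill_of_rel_single (fourier_O q q' b) (supO q q' b) 1 (Or.inl rfl)
        (fun x hx => Or.inl (cntO_supp q q' b x hx)) _ (hT o)
      rw [card_T_pow hL hDL hcop hD2 ho2]
      have := card_supO q q' b
      omega
    · exfalso
      rcases hc with h | h
      · have := hlist 6 (by norm_num) h
        interval_cases D <;> omega
      · have := hlist 8 (by norm_num) h
        interval_cases D <;> omega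
    · exfalso
      rcases hc with h | h
      · have := hlist 4 (by norm_num) h
        interval_cases D <;> omega
      · have := hlist 6 (by norm_num) h
        interval_cases D <;> omega
    · have hD5 : D ≠ 5 := by
        rintro rfl
        exact hnot (hall5 _)
      have hD7 : D ≠ 7 := by
        rintro rfl
        exact hnot (hall7 _)
      have hD13 : D = 13 := by
        rcases hc with h | h | h | h | h | h
        · have := hlist 2 (by norm_num) h
          interval_cases D <;> omega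
        · have := hlist 4 (by norm_num) h
          interval_cases D <;> omega
        · have := hlist 8 (by norm_num) h
          interval_cases D <;> omega
        · have := hlist 10 (by norm_num) h
          interval_cases D <;> omega
        · have := hlist 26 (by norm_num) h
          interval_cases D <;> omega
        · have := hlist 28 (by norm_num) h
          interval_cases D <;> omega
      have hb39 : b = 39 := by
        rw [hL, hw1, hD13]
        norm_num
      subst hb39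
      exact odd_exc39 q q' hq hq' hcp hrel
    · exfalso
      rcases hc with h | h
      · have := hlist 2 (by norm_num) h
        interval_cases D <;> omega
      · have := hlist 4 (by norm_num) h
        interval_cases D <;> omega
  · push Not at hex
    exact class_eq_of_char q q' hq hq' hb hb3 hcp hex

end Vale.Agent.Lib.P268
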