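import Mathlib
import Vale.Agent.Lib.P268.SingleOdd

/-!
Odd classes: two primes, and the top of two coupled classes.
-/

open Finset

namespace Vale.Agent.Lib.P268

variable {N : ℕ}

lemma bO_ne (q q' : Fin N → ℚ) (b : ℕ) (ψ : DirichletCharacter ℂ b) (he : ψ.Even)
    (hne : ∑ i ∈ univ.filter (fun i => nm (q i) = b), sg (q i).den * ψ ((q i).den : ZMod b) ≠
      ∑ j ∈ univ.filter (fun j => nm (q' j) = b), sg (q' j).den * ψ ((q' j).den : ZMod b)) :
    bO q q' b ψ ≠ 0 := by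
  have hneg : ∀ a : ZMod b, ψ (-a) = ψ a := by
    intro a
    have : -a = (-1) * a := by ring
    rw [this, map_mul, he, one_mul]
  have h2 : ∀ (s : Finset (Fin N)) (r : Fin N → ℚ),
      ∑ i ∈ s, sg (r i).den * (ψ ((r i).den : ZMod b) + ψ ((r i).den : ZMod b)) =
        2 * ∑ i ∈ s, sg (r i).den * ψ ((r i).den : ZMod b) := by
    intro s r
    rw [Finset.mul_sum]
    apply Finset.sum_congr rfl
    intro i _
    ring
  simp only [bO, hneg]
  rw [h2, h2, ← mul_sub]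
  exact mul_ne_zero (by norm_num) (sub_ne_zero.mpr hne)

/-- A large set of units for a prime with a relevant character. -/
lemma odd_T8 {b : ℕ} [NeZero b] (hb : Odd b) {p : ℕ} (hpp : p.Prime) (hpb : p ∣ b)
    (ψ₀ : DirichletCharacter ℂ b) (h1 : ψ₀ ≠ 1) (hB₀ : ∃ f, ¬ p ∣ f ∧ BadFor ψ₀ (p : ℤ) f) :
    ∃ T : Finset (ZMod b)ˣ, 8 < T.card ∧ ∀ ψ : DirichletCharacter ℂ b,
      (∃ f, ¬ p ∣ f ∧ BadFor ψ (p : ℤ) f) → ∀ h ∈ T, ψ (h : ZMod b) = 1 := by
  have hb0 : b ≠ 0 := NeZero.ne b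
  have hpo : Odd p := Odd.of_dvd_nat hb hpb
  obtain ⟨w, D, hpD, hL⟩ := Nat.exists_eq_pow_mul_and_not_dvd hb0 p hpp.ne_one
  have hw : 1 ≤ w := by
    by_contra h0
    have hw0 : w = 0 := by omega
    rw [hw0, pow_zero, one_mul] at hL
    exact hpD (hL ▸ hpb)
  have hDL : D ∣ b := Dvd.intro_left _ hL.symm
  have hD0 : D ≠ 0 := by
    rintro rfl
    rw [mul_zero] at hL
    exact hb0 hL
  have : NeZero D := ⟨hD0⟩
  have hDo : Odd D := Odd.of_dvd_nat hb hDL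
  have hDm : D % 2 = 1 := Nat.odd_iff.mp hDo
  have hcop : Nat.Coprime p D := (Nat.Prime.coprime_iff_not_dvd hpp).mpr hpD
  have he : ((ZMod.unitOfCoprime p hcop : (ZMod D)ˣ) : ZMod D) = (((p : ℕ) : ℤ) : ZMod D) := by
    rw [ZMod.coe_unitOfCoprime]
    simp
  obtain ⟨f₀, hf₀, hB₀⟩ := hB₀
  have hf₀D := f_dvd_D hB₀.1 hL hpp hf₀
  have hnot : ¬ ∀ x : (ZMod D)ˣ, ∃ k : ℕ, x = (ZMod.unitOfCoprime p hcop) ^ k ∨
      x = -(ZMod.unitOfCoprime p hcop) ^ k :=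
    fun hall => h1 (psi_trivial_of_all ψ₀ hB₀ hf₀D hDL _ he hall)
  have hD1 : D ≠ 1 := by
    rintro rfl
    exact hnot (hall1 _)
  have hD3 : D ≠ 3 := by
    rintro rfl
    exact hnot (hall3 _)
  have hD2 : 2 < D := by omega
  have hlist : ∀ n : ℕ, 0 < n → D ∣ n → D ≤ n := fun n hn hd => Nat.le_of_dvd hn hd
  rcases table8 (D := D) hpp hpo hw with ⟨o, ho1, ho2⟩ | ⟨rfl, hw1, hc⟩ | ⟨rfl, hw1, hc⟩
  · refine ⟨TSet hDL (KSet (ZMod.unitOfCoprime p hcop) o), ?_, ?_⟩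
    · rw [card_T_pow hL hDL hcop hD2 ho2]
      exact ho1
    · rintro ψ ⟨f, hf, hB⟩ h hh
      have hh' := (mem_filter.mp hh).2
      rw [mem_KSet] at hh'
      obtain ⟨k, _, hk⟩ := hh'
      exact badfor_T ψ hB (f_dvd_D hB.1 hL hpp hf) hDL _ he h k hk
  · exfalso
    rcases hc with h | h
    · have := hlist 4 (by norm_num) h
      interval_cases D <;> omega
    · have := hlist 6 (by norm_num) h
      interval_cases D <;> omega
  · exfalso
    have hD5 : D ≠ 5 := by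
      rintro rfl
      exact hnot (hall5 _)
    rcases hc with h | h | h | h
    · have := hlist 2 (by norm_num) h
      interval_cases D <;> omega
    · have := hlist 4 (by norm_num) h
      interval_cases D <;> omega
    · have := hlist 8 (by norm_num) h
      interval_cases D <;> omega
    · have := hlist 10 (by norm_num) h
      interval_cases D <;> omega

/-- A larger set of units for the larger prime. -/
lemma odd_T16 {b : ℕ} [NeZero b] (hb : Odd b) {p p₁ : ℕ} (hpp : p.Prime) (hpb : p ∣ b)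
    (hp₁ : p₁.Prime) (hlt : p₁ < p) (hd₁ : p₁ ∣ b)
    (ψ₀ : DirichletCharacter ℂ b) (h1 : ψ₀ ≠ 1) (hB₀ : ∃ f, ¬ p ∣ f ∧ BadFor ψ₀ (p : ℤ) f) :
    ∃ T : Finset (ZMod b)ˣ, 16 < T.card ∧ ∀ ψ : DirichletCharacter ℂ b,
      (∃ f, ¬ p ∣ f ∧ BadFor ψ (p : ℤ) f) → ∀ h ∈ T, ψ (h : ZMod b) = 1 := by
  have hb0 : b ≠ 0 := NeZero.ne b
  have hpo : Odd p := Odd.of_dvd_nat hb hpb
  have hp₁o : Odd p₁ := Odd.of_dvd_nat hb hd₁
  have hp₁2 : 2 ≤ p₁ := hp₁.two_le
  have hp₁m := Nat.odd_iff.mp hp₁o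
  have hpm := Nat.odd_iff.mp hpo
  have hp5 : 5 ≤ p := by omega
  obtain ⟨w, D, hpD, hL⟩ := Nat.exists_eq_pow_mul_and_not_dvd hb0 p hpp.ne_one
  have hw : 1 ≤ w := by
    by_contra h0
    have hw0 : w = 0 := by omega
    rw [hw0, pow_zero, one_mul] at hL
    exact hpD (hL ▸ hpb)
  have hDL : D ∣ b := Dvd.intro_left _ hL.symm
  have hD0 : D ≠ 0 := by
    rintro rfl
    rw [mul_zero] at hL
    exact hb0 hL
  have : NeZero D := ⟨hD0⟩
  have hDo : Odd D := Odd.of_dvd_nat hb hDL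
  have hDm : D % 2 = 1 := Nat.odd_iff.mp hDo
  have hcop : Nat.Coprime p D := (Nat.Prime.coprime_iff_not_dvd hpp).mpr hpD
  have he : ((ZMod.unitOfCoprime p hcop : (ZMod D)ˣ) : ZMod D) = (((p : ℕ) : ℤ) : ZMod D) := by
    rw [ZMod.coe_unitOfCoprime]
    simp
  obtain ⟨f₀, hf₀, hB₀⟩ := hB₀
  have hf₀D := f_dvd_D hB₀.1 hL hpp hf₀
  have hnot : ¬ ∀ x : (ZMod D)ˣ, ∃ k : ℕ, x = (ZMod.unitOfCoprime p hcop) ^ k ∨
      x = -(ZMod.unitOfCoprime p hcop) ^ k :=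
    fun hall => h1 (psi_trivial_of_all ψ₀ hB₀ hf₀D hDL _ he hall)
  have hD1 : D ≠ 1 := by
    rintro rfl
    exact hnot (hall1 _)
  have hD3 : D ≠ 3 := by
    rintro rfl
    exact hnot (hall3 _)
  have hD2 : 2 < D := by omega
  have hlist : ∀ n : ℕ, 0 < n → D ∣ n → D ≤ n := fun n hn hd => Nat.le_of_dvd hn hd
  rcases table16 (D := D) hpp hpo hw hp5 with ⟨o, ho1, ho2⟩ | ⟨rfl, hw1, hc⟩ | ⟨rfl, hw1, hc⟩
  · refine ⟨TSet hDL (KSet (ZMod.unitOfCoprime p hcop) o), ?_, ?_⟩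
    · rw [card_T_pow hL hDL hcop hD2 ho2]
      exact ho1
    · rintro ψ ⟨f, hf, hB⟩ h hh
      have hh' := (mem_filter.mp hh).2
      rw [mem_KSet] at hh'
      obtain ⟨k, _, hk⟩ := hh'
      exact badfor_T ψ hB (f_dvd_D hB.1 hL hpp hf) hDL _ he h k hk
  · exfalso
    rcases hc with h | h
    · have := hlist 6 (by norm_num) h
      interval_cases D <;> omega
    · have := hlist 8 (by norm_num) h
      interval_cases D <;> omega
  · exfalso
    have hp3 : p₁ = 3 := by omega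
    have hd3 : 3 ∣ D := by
      rw [hp3] at hd₁
      rw [hL, hw1, pow_one] at hd₁
      rcases (Nat.Prime.dvd_mul Nat.prime_three).mp hd₁ with h | h
      · omega
      · exact h
    rcases hc with h | h | h | h
    · have := hlist 4 (by norm_num) h
      interval_cases D <;> omega
    · have := hlist 6 (by norm_num) h
      interval_cases D <;> omega
    · have := hlist 24 (by norm_num) h
      interval_cases D <;> omega
    · have := hlist 26 (by norm_num) h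
      interval_cases D <;> omega

/-- An odd class whose relevant characters are bad for one of two primes. -/
theorem odd_two (q q' : Fin N → ℚ) (hq : ∀ i, 2 ≤ q i) (hq' : ∀ i, 2 ≤ q' i) {b : ℕ}
    (hb : Odd b) (hb3 : 3 ≤ b) (hcp : cp q b = cp q' b) {p₁ p₂ : ℕ} (hp₁ : p₁.Prime)
    (hp₂ : p₂.Prime) (hlt : p₁ < p₂) (hd₁ : p₁ ∣ b) (hd₂ : p₂ ∣ b)
    (hrel : ∀ ψ : DirichletCharacter ℂ b, ψ ≠ 1 → ψ.Even →
      ∑ i ∈ univ.filter (fun i => nm (q i) = b), sg (q i).den * ψ ((q i).den : ZMod b) ≠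
        ∑ j ∈ univ.filter (fun j => nm (q' j) = b), sg (q' j).den * ψ ((q' j).den : ZMod b) →
      (∃ f, ¬ p₁ ∣ f ∧ BadFor ψ (p₁ : ℤ) f) ∨ (∃ f, ¬ p₂ ∣ f ∧ BadFor ψ (p₂ : ℤ) f))
    (hm : (univ.filter (fun i => nm (q i) = b)).card +
      (univ.filter (fun j => nm (q' j) = b)).card ≤ 4) : Counts q q' b := by
  have hb0 : b ≠ 0 := by omega
  have : NeZero b := ⟨hb0⟩
  by_cases h₁ : ∃ ψ : DirichletCharacter ℂ b, ψ ≠ 1 ∧ ψ.Even ∧
      (∑ i ∈ univ.filter (fun i => nm (q i) = b), sg (q i).den * ψ ((q i).den : ZMod b) ≠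
        ∑ j ∈ univ.filter (fun j => nm (q' j) = b), sg (q' j).den * ψ ((q' j).den : ZMod b)) ∧
      ∃ f, ¬ p₁ ∣ f ∧ BadFor ψ (p₁ : ℤ) f
  · by_cases h₂ : ∃ ψ : DirichletCharacter ℂ b, ψ ≠ 1 ∧ ψ.Even ∧
        (∑ i ∈ univ.filter (fun i => nm (q i) = b), sg (q i).den * ψ ((q i).den : ZMod b) ≠
          ∑ j ∈ univ.filter (fun j => nm (q' j) = b), sg (q' j).den * ψ ((q' j).den : ZMod b)) ∧
        ∃ f, ¬ p₂ ∣ f ∧ BadFor ψ (p₂ : ℤ) f
    · obtain ⟨ψ₁, a1, a2, a3, a4⟩ := h₁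
      obtain ⟨ψ₂, b1, b2, b3, b4⟩ := h₂
      obtain ⟨T₁, hT₁, htr₁⟩ := odd_T8 hb hp₁ hd₁ ψ₁ a1 a4
      obtain ⟨T₂, hT₂, htr₂⟩ := odd_T16 hb hp₂ hd₂ hp₁ hlt hd₁ ψ₂ b1 b4
      have hS := card_supO q q' b
      apply counts_of_cntO q q' hq hq' hb
      apply kill_of_rel_two (fourier_O q q' b) (supO q q' b) 1 (Or.inl rfl)
        (fun x hx => Or.inl (cntO_supp q q' b x hx)) T₁ T₂ ?_
        ⟨ψ₁, bO_ne q q' b ψ₁ a2 a3, htr₁ ψ₁ a4⟩ ⟨ψ₂, bO_ne q q' b ψ₂ b2 b3, htr₂ ψ₂ b4⟩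
        (by omega) (by omega)
      intro ψ hψ
      by_cases hψ1 : ψ = 1
      · left
        intro h _
        rw [hψ1, MulChar.one_apply h.isUnit]
      · obtain ⟨he', hne⟩ := bO_rel q q' b ψ hψ
        rcases hrel ψ hψ1 he' hne with h | h
        · exact Or.inl (htr₁ ψ h)
        · exact Or.inr (htr₂ ψ h)
    · apply odd_single q q' hq hq' hb hb3 hcp hp₁ hd₁ _ (by omega)
      intro ψ h1 h2 h3
      rcases hrel ψ h1 h2 h3 with h | h
      · exact h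
      · exact absurd ⟨ψ, h1, h2, h3, h⟩ h₂
  · apply odd_single q q' hq hq' hb hb3 hcp hp₂ hd₂ _ (by omega)
    intro ψ h1 h2 h3
    rcases hrel ψ h1 h2 h3 with h | h
    · exact absurd ⟨ψ, h1, h2, h3, h⟩ h₁
    · exact h

/-- A prime whose square divides the class: all relevant conductors divide `b / p`. -/
theorem odd_sq (q q' : Fin N → ℚ) (hq : ∀ i, 2 ≤ q i) (hq' : ∀ i, 2 ≤ q' i) {b D p : ℕ}
    (hb : Odd b) (hb3 : 3 ≤ b) (hpp : p.Prime) (hp5 : 5 ≤ p) (hL : b = p * D) (hpD : p ∣ D)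
    (hrel : ∀ ψ : DirichletCharacter ℂ b, ψ ≠ 1 → ψ.Even →
      ∑ i ∈ univ.filter (fun i => nm (q i) = b), sg (q i).den * ψ ((q i).den : ZMod b) ≠
        ∑ j ∈ univ.filter (fun j => nm (q' j) = b), sg (q' j).den * ψ ((q' j).den : ZMod b) →
      ∃ f, f ∣ D ∧ BadFor ψ 1 f)
    (hm : (univ.filter (fun i => nm (q i) = b)).card +
      (univ.filter (fun j => nm (q' j) = b)).card ≤ 4) : Counts q q' b := by
  have hb0 : b ≠ 0 := by omega
  have : NeZero b := ⟨hb0⟩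
  have hDL : D ∣ b := Dvd.intro_left _ hL.symm
  have hD0 : D ≠ 0 := by
    rintro rfl
    rw [mul_zero] at hL
    exact hb0 hL
  have : NeZero D := ⟨hD0⟩
  have hDp : p ≤ D := Nat.le_of_dvd (Nat.pos_of_ne_zero hD0) hpD
  have hcardK : (KSet (1 : (ZMod D)ˣ) 1).card = 2 := by
    have := card_KSet (1 : (ZMod D)ˣ) 1 (neg_one_ne_units (by omega))
      (fun k h1 h2 => by omega)
    omega
  have hkappa : kappaT hDL = p := by
    have h1 := kappaT_mul hDL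
    have hφ : b.totient = p * D.totient := by
      rw [hL]
      exact Nat.totient_mul_of_prime_of_dvd hpp hpD
    have h2 : 0 < D.totient := Nat.totient_pos.mpr (Nat.pos_of_ne_zero hD0)
    have h3 : D.totient * kappaT hDL = D.totient * p := by
      rw [mul_comm D.totient p, h1, hφ]
    exact Nat.eq_of_mul_eq_mul_left h2 h3
  have hS := card_supO q q' b
  apply counts_of_cntO q q' hq hq' hb
  apply kill_of_rel_single (fourier_O q q' b) (supO q q' b) 1 (Or.inl rfl)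
    (fun x hx => Or.inl (cntO_supp q q' b x hx)) (TSet hDL (KSet (1 : (ZMod D)ˣ) 1))
  · intro ψ hψ h hh
    by_cases hψ1 : ψ = 1
    · rw [hψ1, MulChar.one_apply h.isUnit]
    · obtain ⟨he', hne⟩ := bO_rel q q' b ψ hψ
      obtain ⟨f, hf, hB⟩ := hrel ψ hψ1 he' hne
      have hh' := (mem_filter.mp hh).2
      rw [mem_KSet] at hh'
      obtain ⟨k, _, hk⟩ := hh'
      exact badfor_T ψ hB hf hDL _ (by simp) h k hk
  · rw [card_TSet, hcardK, hkappa]
    omega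

lemma badfor_one {L f : ℕ} {ψ : DirichletCharacter ℂ L} {z : ℤ} (h : BadFor ψ z f) :
    BadFor ψ 1 f := by
  refine ⟨h.1, fun n hn k hk => h.2 n hn 0 ?_⟩
  simpa using hk

/-- The top class of two coupled odd classes. -/
theorem coupled_top (q q' : Fin N → ℚ) (hq : ∀ i, 2 ≤ q i) (hq' : ∀ i, 2 ≤ q' i)
    (hk : ∀ k : ℕ, Odd k → (∀ i, ¬ nm (q i) ∣ k) → (∀ j, ¬ nm (q' j) ∣ k) →
      ∑ i, lc ((k : ℝ) * Real.pi / (2 * (q i : ℝ))) = ∑ j, lc ((k : ℝ) * Real.pi / (2 * (q' j : ℝ))))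
    {u v t : ℕ} (huo : Odd u) (hvo : Odd v) (hv3 : 3 ≤ v) (ht : u = v * t) (huv : u ≠ v)
    (hnum : ∀ i, Odd (nm (q i)) → nm (q i) = u ∨ nm (q i) = v)
    (hnum' : ∀ j, Odd (nm (q' j)) → nm (q' j) = u ∨ nm (q' j) = v)
    (hu3 : 3 ≤ u) (hcp : cp q u = cp q' u)
    (hm : (univ.filter (fun i => nm (q i) = u)).card +
      (univ.filter (fun j => nm (q' j) = u)).card ≤ 4) : Counts q q' u := by
  have hv1 : v ≠ 1 := by omega
  have hpp := Nat.minFac_prime hv1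
  set p := v.minFac with hp
  have hpv : p ∣ v := Nat.minFac_dvd v
  have hpu : p ∣ u := hpv.trans (Dvd.intro _ ht.symm)
  have hpo : Odd p := Odd.of_dvd_nat hvo hpv
  have hrel := coupled_relevant_psi q q' hq hq' hk huo hvo ht huv hnum hnum'
  by_cases h2 : ∃ l : ℕ, l.Prime ∧ l ∣ v ∧ l ≠ p
  · obtain ⟨l, hl, hlv, hlp⟩ := h2
    have hple : p ≤ l := Nat.minFac_le_of_dvd hl.two_le hlv
    have hlt : p < l := lt_of_le_of_ne hple (Ne.symm hlp)
    apply odd_two q q' hq hq' huo hu3 hcp hpp hl hlt hpu (hlv.trans (Dvd.intro _ ht.symm)) _ hm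
    intro ψ h1 h3 h4
    rcases hrel ψ h1 h3 h4 with h | ⟨p', hp', _, hp'v, _, _, h5⟩
    · exact Or.inl (h p hpp hpv)
    · by_cases hp'p : p = p'
      · right
        exact h5 l hl hlv (by rw [← hp'p]; exact hlp)
      · left
        exact h5 p hpp hpv hp'p
  · push Not at h2
    by_cases hsq : p ∣ t ∧ 5 ≤ p
    · obtain ⟨⟨t', ht'⟩, hp5⟩ := hsq
      obtain ⟨v', hv'⟩ := hpv
      have hL : u = p * (v' * p * t') := by
        rw [ht, ht', hv']
        ring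
      have hpD : p ∣ v' * p * t' := ⟨v' * t', by ring⟩
      apply odd_sq q q' hq hq' huo hu3 hpp hp5 hL hpD _ hm
      intro ψ h1 h3 h4
      rcases hrel ψ h1 h3 h4 with h | ⟨p', hp', _, hp'v, _, h6, _⟩
      · obtain ⟨f, hf, hB⟩ := h p hpp (Nat.minFac_dvd v)
        refine ⟨f, ?_, badfor_one hB⟩
        have h5 := hB.1
        rw [hL] at h5
        exact Nat.Coprime.dvd_of_dvd_mul_left
          ((Nat.Prime.coprime_iff_not_dvd hpp).mpr hf).symm h5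
      · obtain rfl := h2 p' hp' hp'v
        exact ⟨_, hpD, h6⟩
    · apply odd_single q q' hq hq' huo hu3 hcp hpp hpu _ (by omega)
      intro ψ h1 h3 h4
      rcases hrel ψ h1 h3 h4 with h | ⟨p', hp', hne3, hp'v, hp't, _, _⟩
      · exact h p hpp hpv
      · exfalso
        obtain rfl := h2 p' hp' hp'v
        apply hsq
        refine ⟨hp't, ?_⟩
        have h6 := hp'.two_le
        have h7 := Nat.odd_iff.mp hpo
        omega

end Vale.Agent.Lib.P268
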