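import Mathlib
import Vale.Agent.Lib.P268.TwoOdd

/-!
Killing the signed count of an even numerator class.
-/

open Finset

namespace Vale.Agent.Lib.P268

variable {N : ℕ}

lemma bE_ne (q q' : Fin N → ℚ) {b : ℕ} (ψ : DirichletCharacter ℂ (2 * b)) (he : ψ.Even)
    (hw : ψ (((1 + b : ℕ)) : ZMod (2 * b)) = -1)
    (hne : ∑ i ∈ univ.filter (fun i => nm (q i) = b), ψ ((q i).den : ZMod (2 * b)) ≠
      ∑ j ∈ univ.filter (fun j => nm (q' j) = b), ψ ((q' j).den : ZMod (2 * b))) :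
    bE q q' b ψ ≠ 0 := by
  have hneg : ∀ a : ZMod (2 * b), ψ (-a) = ψ a := by
    intro a
    have : -a = (-1) * a := by ring
    rw [this, map_mul, he, one_mul]
  have ht : ∀ a, tPsi ψ ((1 + b : ℕ) : ZMod (2 * b)) a = 4 * ψ a := by
    intro a
    simp only [tPsi, hneg, map_mul, hw]
    ring
  simp only [bE, ht]
  rw [← Finset.mul_sum, ← Finset.mul_sum, ← mul_sub]
  exact mul_ne_zero (by norm_num) (sub_ne_zero.mpr hne)

/-- The class of numerator 60 is determined by the class product. -/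
lemma even_60 (q q' : Fin N → ℚ) (hq : ∀ i, 2 ≤ q i) (hq' : ∀ i, 2 ≤ q' i)
    (hcp : cp q 60 = cp q' 60) : Counts q q' 60 := by
  have hmem : ∀ x : ℚ, 2 ≤ x → nm x = 60 → x.den ∈ admis 60 :=
    fun x hx hn => den_mem_admis' hx (by norm_num) hn
  apply counts_of_dcount q q' hq hq' hmem
  have hA : admis 60 = {1, 7, 11, 13, 17, 19, 23, 29} := by decide
  intro a ha
  have ha' := ha
  rw [hA] at ha'
  simp only [mem_insert, mem_singleton] at ha'
  rcases ha' with rfl | rfl | rfl | rfl | rfl | rfl | rfl | rfl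
  · exact dcount_zero_of_prime q q' hq hq' hmem hcp (π := 59) (by norm_num) ha (by decide)
      (Or.inl (by decide))
  · exact dcount_zero_of_prime q q' hq hq' hmem hcp (π := 53) (by norm_num) ha (by decide)
      (Or.inl (by decide))
  · exact dcount_zero_of_prime q q' hq hq' hmem hcp (π := 11) (by norm_num) ha (by decide)
      (Or.inr (by decide))
  · exact dcount_zero_of_prime q q' hq hq' hmem hcp (π := 47) (by norm_num) ha (by decide)
      (Or.inl (by decide))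
  · exact dcount_zero_of_prime q q' hq hq' hmem hcp (π := 43) (by norm_num) ha (by decide)
      (Or.inl (by decide))
  · exact dcount_zero_of_prime q q' hq hq' hmem hcp (π := 41) (by norm_num) ha (by decide)
      (Or.inl (by decide))
  · exact dcount_zero_of_prime q q' hq hq' hmem hcp (π := 37) (by norm_num) ha (by decide)
      (Or.inl (by decide))
  · exact dcount_zero_of_prime q q' hq hq' hmem hcp (π := 31) (by norm_num) ha (by decide)
      (Or.inl (by decide))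

/-- The exceptional even classes. -/
lemma even_exc_gen (q q' : Fin N → ℚ) (hq : ∀ i, 2 ≤ q i) (hq' : ∀ i, 2 ≤ q' i) {b D : ℕ}
    (hb : Even b) (hb3 : 3 ≤ b) [NeZero (2 * b)] [NeZero D] (hDL : D ∣ 2 * b) (e : (ZMod D)ˣ)
    (hinvT : ∀ h : (ZMod (2 * b))ˣ, (∃ k : ℕ, ZMod.unitsMap hDL h = e ^ k ∨
      ZMod.unitsMap hDL h = -e ^ k) → ∀ x, cntE q q' b (h * x) = cntE q q' b x)
    {a₀ : ℕ} (ha₀ : a₀ ∈ admis b) (h0 : dcount q q' b a₀ = 0) (hc1 : Nat.Coprime a₀ (2 * b))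
    (hcD : Nat.Coprime a₀ D) (hcW : Nat.Coprime (1 + b) D)
    (hgen : ∀ y : (ZMod D)ˣ,
      (∃ k : ℕ, y * (ZMod.unitOfCoprime a₀ hcD)⁻¹ = e ^ k ∨ y * (ZMod.unitOfCoprime a₀ hcD)⁻¹ = -e ^ k) ∨
      (∃ k : ℕ, ZMod.unitOfCoprime (1 + b) hcW * y * (ZMod.unitOfCoprime a₀ hcD)⁻¹ = e ^ k ∨
        ZMod.unitOfCoprime (1 + b) hcW * y * (ZMod.unitOfCoprime a₀ hcD)⁻¹ = -e ^ k)) :
    Counts q q' b := by
  have hC : cntE q q' b (ZMod.unitOfCoprime a₀ hc1) = 0 := by
    rw [cntE_val q q' hq hq' hb hb3 _ ha₀ (ZMod.coe_unitOfCoprime _ _), h0]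
    simp
  have hw : ZMod.unitsMap hDL (wU hb) = ZMod.unitOfCoprime (1 + b) hcW :=
    unitsMap_unitOfCoprime hDL _ hcW
  apply counts_of_cntE q q' hq hq' hb hb3
  intro x
  rcases hgen (ZMod.unitsMap hDL x) with ⟨k, hk⟩ | ⟨k, hk⟩
  · have h3 := hinvT (x * (ZMod.unitOfCoprime a₀ hc1)⁻¹) ⟨k, by
      rw [map_mul, map_inv, unitsMap_unitOfCoprime hDL hc1 hcD]
      exact hk⟩ (ZMod.unitOfCoprime a₀ hc1)
    rw [inv_mul_cancel_right, hC] at h3
    exact h3
  · have h3 := hinvT (wU hb * x * (ZMod.unitOfCoprime a₀ hc1)⁻¹) ⟨k, by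
      rw [map_mul, map_mul, map_inv, unitsMap_unitOfCoprime hDL hc1 hcD, hw]
      exact hk⟩ (ZMod.unitOfCoprime a₀ hc1)
    rw [inv_mul_cancel_right, hC, cntE_anti] at h3
    exact neg_eq_zero.mp h3

/-- Invariance from the relevant characters. -/
lemma even_inv (q q' : Fin N → ℚ) {b p w D : ℕ} (hb : Even b) (hpp : p.Prime) [NeZero (2 * b)]
    [NeZero D] (hL : 2 * b = p ^ w * D) (hDL : D ∣ 2 * b) (e : (ZMod D)ˣ)
    (he : (e : ZMod D) = (((p : ℕ) : ℤ) : ZMod D))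
    (hrel : ∀ ψ : DirichletCharacter ℂ (2 * b), ψ.Even → ψ (((1 + b : ℕ)) : ZMod (2 * b)) = -1 →
      ∑ i ∈ univ.filter (fun i => nm (q i) = b), ψ ((q i).den : ZMod (2 * b)) ≠
        ∑ j ∈ univ.filter (fun j => nm (q' j) = b), ψ ((q' j).den : ZMod (2 * b)) →
      ∃ f, ¬ p ∣ f ∧ BadFor ψ (p : ℤ) f)
    (ψ : DirichletCharacter ℂ (2 * b)) (hψ : bE q q' b ψ ≠ 0) (h : (ZMod (2 * b))ˣ) (k : ℕ)
    (hk : ZMod.unitsMap hDL h = e ^ k ∨ ZMod.unitsMap hDL h = -e ^ k) : ψ (h : ZMod (2 * b)) = 1 := by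
  obtain ⟨h1, h2, h3⟩ := bE_rel q q' hb ψ hψ
  rw [coe_wU] at h2
  obtain ⟨f, hf, hB⟩ := hrel ψ h1 h2 h3
  exact badfor_T ψ hB (f_dvd_D hB.1 hL hpp hf) hDL e he h k hk

lemma even_exc28 (q q' : Fin N → ℚ) (hq : ∀ i, 2 ≤ q i) (hq' : ∀ i, 2 ≤ q' i)
    (hb : Even 28) (hcp : cp q 28 = cp q' 28)
    (hrel : ∀ ψ : DirichletCharacter ℂ (2 * 28), ψ.Even →
      ψ (((1 + 28 : ℕ)) : ZMod (2 * 28)) = -1 →
      ∑ i ∈ univ.filter (fun i => nm (q i) = 28), ψ ((q i).den : ZMod (2 * 28)) ≠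
        ∑ j ∈ univ.filter (fun j => nm (q' j) = 28), ψ ((q' j).den : ZMod (2 * 28)) →
      ∃ f, ¬ 7 ∣ f ∧ BadFor ψ ((7 : ℕ) : ℤ) f) : Counts q q' 28 := by
  have hDL : 8 ∣ 2 * 28 := by norm_num
  have hL : 2 * 28 = 7 ^ 1 * 8 := by norm_num
  have hmem : ∀ x : ℚ, 2 ≤ x → nm x = 28 → x.den ∈ admis 28 :=
    fun x hx hn => den_mem_admis' hx (by norm_num) hn
  have he : ((ZMod.unitOfCoprime 7 (by decide) : (ZMod 8)ˣ) : ZMod 8) = (((7 : ℕ) : ℤ) : ZMod 8) := by
    rw [ZMod.coe_unitOfCoprime]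
    simp
  have hgen : ∀ y : (ZMod 8)ˣ,
      (∃ k < 2, y * (ZMod.unitOfCoprime 5 (by decide))⁻¹ = (ZMod.unitOfCoprime 7 (by decide)) ^ k ∨
        y * (ZMod.unitOfCoprime 5 (by decide))⁻¹ = -(ZMod.unitOfCoprime 7 (by decide)) ^ k) ∨
      (∃ k < 2, ZMod.unitOfCoprime (1 + 28) (by decide) * y * (ZMod.unitOfCoprime 5 (by decide))⁻¹ =
          (ZMod.unitOfCoprime 7 (by decide)) ^ k ∨
        ZMod.unitOfCoprime (1 + 28) (by decide) * y * (ZMod.unitOfCoprime 5 (by decide))⁻¹ =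
          -(ZMod.unitOfCoprime 7 (by decide)) ^ k) := by
    decide +kernel
  apply even_exc_gen q q' hq hq' hb (by norm_num) hDL (ZMod.unitOfCoprime 7 (by decide)) ?_
    (a₀ := 5) (by decide)
    (dcount_zero_of_prime q q' hq hq' hmem hcp (π := 23) (by norm_num) (by decide) (by decide)
      (Or.inl (by decide))) (by decide) (by decide) (by decide) ?_
  · rintro h ⟨k, hk⟩ x
    exact inv_of_rel (fourier_E q q' 28) h
      (fun ψ hψ => even_inv q q' hb Nat.prime_seven hL hDL _ he hrel ψ hψ h k hk) x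
  · intro y
    rcases hgen y with ⟨k, _, hk⟩ | ⟨k, _, hk⟩
    · exact Or.inl ⟨k, hk⟩
    · exact Or.inr ⟨k, hk⟩

lemma even_exc42 (q q' : Fin N → ℚ) (hq : ∀ i, 2 ≤ q i) (hq' : ∀ i, 2 ≤ q' i)
    (hb : Even 42) (hcp : cp q 42 = cp q' 42)
    (hrel : ∀ ψ : DirichletCharacter ℂ (2 * 42), ψ.Even →
      ψ (((1 + 42 : ℕ)) : ZMod (2 * 42)) = -1 →
      ∑ i ∈ univ.filter (fun i => nm (q i) = 42), ψ ((q i).den : ZMod (2 * 42)) ≠
        ∑ j ∈ univ.filter (fun j => nm (q' j) = 42), ψ ((q' j).den : ZMod (2 * 42)) →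
      ∃ f, ¬ 3 ∣ f ∧ BadFor ψ ((3 : ℕ) : ℤ) f) : Counts q q' 42 := by
  have hDL : 28 ∣ 2 * 42 := by norm_num
  have hL : 2 * 42 = 3 ^ 1 * 28 := by norm_num
  have hmem : ∀ x : ℚ, 2 ≤ x → nm x = 42 → x.den ∈ admis 42 :=
    fun x hx hn => den_mem_admis' hx (by norm_num) hn
  have he : ((ZMod.unitOfCoprime 3 (by decide) : (ZMod 28)ˣ) : ZMod 28) = (((3 : ℕ) : ℤ) : ZMod 28) := by
    rw [ZMod.coe_unitOfCoprime]
    simp
  have hgen : ∀ y : (ZMod 28)ˣ,
      (∃ k < 3, y * (ZMod.unitOfCoprime 1 (by decide))⁻¹ = (ZMod.unitOfCoprime 3 (by decide)) ^ k ∨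
        y * (ZMod.unitOfCoprime 1 (by decide))⁻¹ = -(ZMod.unitOfCoprime 3 (by decide)) ^ k) ∨
      (∃ k < 3, ZMod.unitOfCoprime (1 + 42) (by decide) * y * (ZMod.unitOfCoprime 1 (by decide))⁻¹ =
          (ZMod.unitOfCoprime 3 (by decide)) ^ k ∨
        ZMod.unitOfCoprime (1 + 42) (by decide) * y * (ZMod.unitOfCoprime 1 (by decide))⁻¹ =
          -(ZMod.unitOfCoprime 3 (by decide)) ^ k) := by
    decide +kernel
  apply even_exc_gen q q' hq hq' hb (by norm_num) hDL (ZMod.unitOfCoprime 3 (by decide)) ?_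
    (a₀ := 1) (by decide)
    (dcount_zero_of_prime q q' hq hq' hmem hcp (π := 41) (by norm_num) (by decide) (by decide)
      (Or.inl (by decide))) (by decide) (by decide) (by decide) ?_
  · rintro h ⟨k, hk⟩ x
    exact inv_of_rel (fourier_E q q' 42) h
      (fun ψ hψ => even_inv q q' hb Nat.prime_three hL hDL _ he hrel ψ hψ h k hk) x
  · intro y
    rcases hgen y with ⟨k, _, hk⟩ | ⟨k, _, hk⟩
    · exact Or.inl ⟨k, hk⟩
    · exact Or.inr ⟨k, hk⟩

lemma wbar_neg {b D p k : ℕ} (hb : Even b) [NeZero (2 * b)] [NeZero D] (hDL : D ∣ 2 * b)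
    (hcop : Nat.Coprime p D) (hd : D ∣ 1 + b + p ^ k) :
    ZMod.unitsMap hDL (wU hb) = -(ZMod.unitOfCoprime p hcop) ^ k := by
  apply Units.ext
  rw [ZMod.unitsMap_val, coe_wU, ZMod.cast_natCast hDL, Units.val_neg, Units.val_pow_eq_pow_val,
    ZMod.coe_unitOfCoprime]
  have h1 : ((1 + b + p ^ k : ℕ) : ZMod D) = 0 := (ZMod.natCast_eq_zero_iff _ _).mpr hd
  push_cast at h1 ⊢
  linear_combination h1

/-- An even class all of whose relevant characters are bad for one prime. -/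
theorem even_single (q q' : Fin N → ℚ) (hq : ∀ i, 2 ≤ q i) (hq' : ∀ i, 2 ≤ q' i) {b : ℕ}
    (hb : Even b) (hb3 : 3 ≤ b) (hcp : cp q b = cp q' b) {p : ℕ} (hpp : p.Prime) (hpo : Odd p)
    (hpb : p ∣ b)
    (hrel : ∀ ψ : DirichletCharacter ℂ (2 * b), ψ.Even → ψ (((1 + b : ℕ)) : ZMod (2 * b)) = -1 →
      ∑ i ∈ univ.filter (fun i => nm (q i) = b), ψ ((q i).den : ZMod (2 * b)) ≠
        ∑ j ∈ univ.filter (fun j => nm (q' j) = b), ψ ((q' j).den : ZMod (2 * b)) →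
      ∃ f, ¬ p ∣ f ∧ BadFor ψ (p : ℤ) f)
    (hm : (univ.filter (fun i => nm (q i) = b)).card +
      (univ.filter (fun j => nm (q' j) = b)).card ≤ 6) : Counts q q' b := by
  have hL0 : 2 * b ≠ 0 := by omega
  have : NeZero (2 * b) := ⟨hL0⟩
  obtain ⟨w, D, hpD, hL⟩ := Nat.exists_eq_pow_mul_and_not_dvd hL0 p hpp.ne_one
  have hw : 1 ≤ w := by
    by_contra h0
    have hw0 : w = 0 := by omega
    rw [hw0, pow_zero, one_mul] at hL
    exact hpD (hL ▸ hpb.trans (Dvd.intro_left 2 rfl))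
  have hDL : D ∣ 2 * b := Dvd.intro_left _ hL.symm
  have hD0 : D ≠ 0 := by
    rintro rfl
    rw [mul_zero] at hL
    exact hL0 hL
  have : NeZero D := ⟨hD0⟩
  have h4D : 4 ∣ D := by
    have h1 : 4 ∣ p ^ w * D := by
      rw [← hL]
      obtain ⟨m, hm'⟩ := hb
      exact ⟨m, by rw [hm']; ring⟩
    have h2 : Nat.Coprime 4 (p ^ w) :=
      Nat.Coprime.pow_right w (by
        have : Nat.Coprime 2 p := (Nat.coprime_two_left).mpr hpo
        exact Nat.Coprime.pow_left 2 this)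
    exact h2.dvd_of_dvd_mul_left h1
  have hcop : Nat.Coprime p D := (Nat.Prime.coprime_iff_not_dvd hpp).mpr hpD
  have he : ((ZMod.unitOfCoprime p hcop : (ZMod D)ˣ) : ZMod D) = (((p : ℕ) : ℤ) : ZMod D) := by
    rw [ZMod.coe_unitOfCoprime]
    simp
  by_cases hex : ∃ ψ : DirichletCharacter ℂ (2 * b), ψ.Even ∧ ψ (((1 + b : ℕ)) : ZMod (2 * b)) = -1 ∧
      ∑ i ∈ univ.filter (fun i => nm (q i) = b), ψ ((q i).den : ZMod (2 * b)) ≠
        ∑ j ∈ univ.filter (fun j => nm (q' j) = b), ψ ((q' j).den : ZMod (2 * b))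
  · obtain ⟨ψ₀, h1, h2, h3⟩ := hex
    obtain ⟨f₀, hf₀, hB₀⟩ := hrel ψ₀ h1 h2 h3
    have hf₀D := f_dvd_D hB₀.1 hL hpp hf₀
    have hnow : ∀ k, ¬ D ∣ 1 + b + p ^ k := by
      intro k hd
      have h5 := badfor_T ψ₀ hB₀ hf₀D hDL _ he (wU hb) k (Or.inr (wbar_neg hb hDL hcop hd))
      rw [coe_wU, h2] at h5
      norm_num at h5
    have hD2 : 2 < D := by
      have := Nat.le_of_dvd (Nat.pos_of_ne_zero hD0) h4D
      omega
    have hT : ∀ o, ∀ ψ, bE q q' b ψ ≠ 0 → ∀ h ∈ TSet hDL (KSet (ZMod.unitOfCoprime p hcop) o),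
        ψ (h : ZMod (2 * b)) = 1 := by
      intro o ψ hψ h hh
      have hh' := (mem_filter.mp hh).2
      rw [mem_KSet] at hh'
      obtain ⟨k, _, hk⟩ := hh'
      exact even_inv q q' hb hpp hL hDL _ he hrel ψ hψ h k hk
    have hlist : ∀ n : ℕ, 0 < n → D ∣ n → D ≤ n := fun n hn hd => Nat.le_of_dvd hn hd
    have hD4 : D = 4 → False := by
      rintro rfl
      obtain ⟨m, hm'⟩ : Odd (p ^ w) := hpo.pow
      apply hnow 0
      rw [pow_zero]
      have : b = 2 * (2 * m + 1) := by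
        rw [hm'] at hL
        omega
      omega
    rcases table12 (D := D) hpp hpo hw with ⟨o, ho1, ho2⟩ | ⟨rfl, hw1, hc⟩ | ⟨rfl, hw1, hc⟩ |
      ⟨rfl, hw1, hc⟩ | ⟨rfl, hw1, hc⟩
    · apply counts_of_cntE q q' hq hq' hb hb3
      apply kill_of_rel_single (fourier_E q q' b) (supE q q' b) (wU hb)
        (Or.inr (fun ψ hψ => (bE_rel q q' hb ψ hψ).2.1))
        (fun x hx => cntE_supp q q' hb x hx) _ (hT o)
      rw [card_T_pow hL hDL hcop hD2 ho2]
      have := card_supE q q' b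
      omega
    · -- `p = 7`
      have hD8 : D = 8 := by
        have h5 : D = 4 ∨ D = 8 := by
          rcases hc with h | h
          · have := hlist 6 (by norm_num) h
            interval_cases D <;> omega
          · have := hlist 8 (by norm_num) h
            interval_cases D <;> omega
        rcases h5 with h5 | h5
        · exact absurd h5 (fun h => hD4 h)
        · exact h5
      have hb28 : b = 28 := by
        rw [hw1, hD8] at hL
        omega
      subst hb28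
      exact even_exc28 q q' hq hq' hb hcp hrel
    · -- `p = 5`
      exfalso
      apply hD4
      rcases hc with h | h
      · have := hlist 4 (by norm_num) h
        interval_cases D <;> omega
      · have := hlist 6 (by norm_num) h
        interval_cases D <;> omega
    · -- `p = 3`, exponent one
      have h5 : D = 4 ∨ D = 8 ∨ D = 28 := by
        rcases hc with h | h | h | h | h | h
        · have := hlist 2 (by norm_num) h
          interval_cases D <;> omega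
        · have := hlist 4 (by norm_num) h
          interval_cases D <;> omega
        · have := hlist 8 (by norm_num) h
          interval_cases D <;> omega
        · have := hlist 10 (by norm_num) h
          interval_cases D <;> omega
        · have := hlist 26 (by norm_num) h
          interval_cases D <;> omega
        · have := hlist 28 (by norm_num) h
          interval_cases D <;> omega
      rcases h5 with h5 | h5 | h5
      · exact absurd h5 (fun h => hD4 h)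
      · exfalso
        apply hnow 1
        rw [hw1, h5] at hL
        rw [h5]
        omega
      · have hb42 : b = 42 := by
          rw [hw1, h5] at hL
          omega
        subst hb42
        exact even_exc42 q q' hq hq' hb hcp hrel
    · -- `p = 3`, exponent two
      exfalso
      apply hD4
      rcases hc with h | h
      · have := hlist 2 (by norm_num) h
        interval_cases D <;> omega
      · have := hlist 4 (by norm_num) h
        interval_cases D <;> omega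
  · push Not at hex
    exact class_eq_even q q' hq hq' hb hb3 hex

/-- A large set of units for a prime with a relevant character. -/
lemma even_T8 {b : ℕ} (hb : Even b) (hb3 : 3 ≤ b) [NeZero (2 * b)] {p : ℕ} (hpp : p.Prime)
    (hpo : Odd p) (hpb : p ∣ b) (ψ₀ : DirichletCharacter ℂ (2 * b))
    (h2 : ψ₀ (((1 + b : ℕ)) : ZMod (2 * b)) = -1)
    (hB₀ : ∃ f, ¬ p ∣ f ∧ BadFor ψ₀ (p : ℤ) f) :
    ∃ T : Finset (ZMod (2 * b))ˣ, 8 < T.card ∧ ∀ ψ : DirichletCharacter ℂ (2 * b),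
      (∃ f, ¬ p ∣ f ∧ BadFor ψ (p : ℤ) f) → ∀ h ∈ T, ψ (h : ZMod (2 * b)) = 1 := by
  have hL0 : 2 * b ≠ 0 := NeZero.ne _
  obtain ⟨w, D, hpD, hL⟩ := Nat.exists_eq_pow_mul_and_not_dvd hL0 p hpp.ne_one
  have hw : 1 ≤ w := by
    by_contra h0
    have hw0 : w = 0 := by omega
    rw [hw0, pow_zero, one_mul] at hL
    exact hpD (hL ▸ hpb.trans (Dvd.intro_left 2 rfl))
  have hDL : D ∣ 2 * b := Dvd.intro_left _ hL.symm
  have hD0 : D ≠ 0 := by
    rintro rfl
    rw [mul_zero] at hL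
    exact hL0 hL
  have : NeZero D := ⟨hD0⟩
  have h4D : 4 ∣ D := by
    have h1 : 4 ∣ p ^ w * D := by
      rw [← hL]
      obtain ⟨m, hm'⟩ := hb
      exact ⟨m, by rw [hm']; ring⟩
    have h2 : Nat.Coprime 4 (p ^ w) :=
      Nat.Coprime.pow_right w (by
        have : Nat.Coprime 2 p := (Nat.coprime_two_left).mpr hpo
        exact Nat.Coprime.pow_left 2 this)
    exact h2.dvd_of_dvd_mul_left h1
  have hcop : Nat.Coprime p D := (Nat.Prime.coprime_iff_not_dvd hpp).mpr hpD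
  have he : ((ZMod.unitOfCoprime p hcop : (ZMod D)ˣ) : ZMod D) = (((p : ℕ) : ℤ) : ZMod D) := by
    rw [ZMod.coe_unitOfCoprime]
    simp
  obtain ⟨f₀, hf₀, hB₀⟩ := hB₀
  have hf₀D := f_dvd_D hB₀.1 hL hpp hf₀
  have hnow : ∀ k, ¬ D ∣ 1 + b + p ^ k := by
    intro k hd
    have h5 := badfor_T ψ₀ hB₀ hf₀D hDL _ he (wU hb) k (Or.inr (wbar_neg hb hDL hcop hd))
    rw [coe_wU, h2] at h5
    norm_num at h5
  have hD2 : 2 < D := by
    have := Nat.le_of_dvd (Nat.pos_of_ne_zero hD0) h4D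
    omega
  have hlist : ∀ n : ℕ, 0 < n → D ∣ n → D ≤ n := fun n hn hd => Nat.le_of_dvd hn hd
  have hD4 : D = 4 → False := by
    rintro rfl
    obtain ⟨m, hm'⟩ : Odd (p ^ w) := hpo.pow
    apply hnow 0
    rw [pow_zero]
    have : b = 2 * (2 * m + 1) := by
      rw [hm'] at hL
      omega
    omega
  rcases table8 (D := D) hpp hpo hw with ⟨o, ho1, ho2⟩ | ⟨rfl, hw1, hc⟩ | ⟨rfl, hw1, hc⟩
  · refine ⟨TSet hDL (KSet (ZMod.unitOfCoprime p hcop) o), ?_, ?_⟩
    · rw [card_T_pow hL hDL hcop hD2 ho2]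
      exact ho1
    · rintro ψ ⟨f, hf, hB⟩ h hh
      have hh' := (mem_filter.mp hh).2
      rw [mem_KSet] at hh'
      obtain ⟨k, _, hk⟩ := hh'
      exact badfor_T ψ hB (f_dvd_D hB.1 hL hpp hf) hDL _ he h k hk
  · exfalso
    apply hD4
    rcases hc with h | h
    · have := hlist 4 (by norm_num) h
      interval_cases D <;> omega
    · have := hlist 6 (by norm_num) h
      interval_cases D <;> omega
  · exfalso
    have h5 : D = 4 ∨ D = 8 := by
      rcases hc with h | h | h | h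
      · have := hlist 2 (by norm_num) h
        interval_cases D <;> omega
      · have := hlist 4 (by norm_num) h
        interval_cases D <;> omega
      · have := hlist 8 (by norm_num) h
        interval_cases D <;> omega
      · have := hlist 10 (by norm_num) h
        interval_cases D <;> omega
    rcases h5 with h5 | h5
    · exact hD4 h5
    · apply hnow 1
      rw [hw1, h5] at hL
      rw [h5]
      omega

/-- A larger set of units for the larger prime. -/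
lemma even_T16 {b : ℕ} (hb : Even b) (hb3 : 3 ≤ b) [NeZero (2 * b)] {p p₁ : ℕ} (hpp : p.Prime)
    (hpo : Odd p) (hpb : p ∣ b) (hp₁ : p₁.Prime) (hp₁o : Odd p₁) (hlt : p₁ < p) (hd₁ : p₁ ∣ b)
    (hb60 : b ≠ 60) (ψ₀ : DirichletCharacter ℂ (2 * b))
    (h2 : ψ₀ (((1 + b : ℕ)) : ZMod (2 * b)) = -1)
    (hB₀ : ∃ f, ¬ p ∣ f ∧ BadFor ψ₀ (p : ℤ) f) :
    ∃ T : Finset (ZMod (2 * b))ˣ, 16 < T.card ∧ ∀ ψ : DirichletCharacter ℂ (2 * b),
      (∃ f, ¬ p ∣ f ∧ BadFor ψ (p : ℤ) f) → ∀ h ∈ T, ψ (h : ZMod (2 * b)) = 1 := by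
  have hL0 : 2 * b ≠ 0 := NeZero.ne _
  have hp₁2 : 2 ≤ p₁ := hp₁.two_le
  have hp₁m := Nat.odd_iff.mp hp₁o
  have hpm := Nat.odd_iff.mp hpo
  have hp5 : 5 ≤ p := by omega
  obtain ⟨w, D, hpD, hL⟩ := Nat.exists_eq_pow_mul_and_not_dvd hL0 p hpp.ne_one
  have hw : 1 ≤ w := by
    by_contra h0
    have hw0 : w = 0 := by omega
    rw [hw0, pow_zero, one_mul] at hL
    exact hpD (hL ▸ hpb.trans (Dvd.intro_left 2 rfl))
  have hDL : D ∣ 2 * b := Dvd.intro_left _ hL.symm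
  have hD0 : D ≠ 0 := by
    rintro rfl
    rw [mul_zero] at hL
    exact hL0 hL
  have : NeZero D := ⟨hD0⟩
  have h4D : 4 ∣ D := by
    have h1 : 4 ∣ p ^ w * D := by
      rw [← hL]
      obtain ⟨m, hm'⟩ := hb
      exact ⟨m, by rw [hm']; ring⟩
    have h2 : Nat.Coprime 4 (p ^ w) :=
      Nat.Coprime.pow_right w (by
        have : Nat.Coprime 2 p := (Nat.coprime_two_left).mpr hpo
        exact Nat.Coprime.pow_left 2 this)
    exact h2.dvd_of_dvd_mul_left h1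
  have hcop : Nat.Coprime p D := (Nat.Prime.coprime_iff_not_dvd hpp).mpr hpD
  have he : ((ZMod.unitOfCoprime p hcop : (ZMod D)ˣ) : ZMod D) = (((p : ℕ) : ℤ) : ZMod D) := by
    rw [ZMod.coe_unitOfCoprime]
    simp
  obtain ⟨f₀, hf₀, hB₀⟩ := hB₀
  have hf₀D := f_dvd_D hB₀.1 hL hpp hf₀
  have hnow : ∀ k, ¬ D ∣ 1 + b + p ^ k := by
    intro k hd
    have h5 := badfor_T ψ₀ hB₀ hf₀D hDL _ he (wU hb) k (Or.inr (wbar_neg hb hDL hcop hd))
    rw [coe_wU, h2] at h5
    norm_num at h5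
  have hD2 : 2 < D := by
    have := Nat.le_of_dvd (Nat.pos_of_ne_zero hD0) h4D
    omega
  have hlist : ∀ n : ℕ, 0 < n → D ∣ n → D ≤ n := fun n hn hd => Nat.le_of_dvd hn hd
  have hp₁D : p₁ ∣ D := by
    have h3 : p₁ ∣ p ^ w * D := by
      rw [← hL]
      exact hd₁.trans (Dvd.intro_left 2 rfl)
    rcases (Nat.Prime.dvd_mul hp₁).mp h3 with h | h
    · have h5 := (Nat.prime_dvd_prime_iff_eq hp₁ hpp).mp (hp₁.dvd_of_dvd_pow h)
      omega
    · exact h
  rcases table16 (D := D) hpp hpo hw hp5 with ⟨o, ho1, ho2⟩ | ⟨rfl, hw1, hc⟩ | ⟨rfl, hw1, hc⟩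
  · refine ⟨TSet hDL (KSet (ZMod.unitOfCoprime p hcop) o), ?_, ?_⟩
    · rw [card_T_pow hL hDL hcop hD2 ho2]
      exact ho1
    · rintro ψ ⟨f, hf, hB⟩ h hh
      have hh' := (mem_filter.mp hh).2
      rw [mem_KSet] at hh'
      obtain ⟨k, _, hk⟩ := hh'
      exact badfor_T ψ hB (f_dvd_D hB.1 hL hpp hf) hDL _ he h k hk
  · exfalso
    have hp₁lt : p₁ < 7 := hlt
    have h5 : p₁ = 3 ∨ p₁ = 5 := by
      interval_cases p₁ <;> omega
    rcases hc with h | h
    · have := hlist 6 (by norm_num) h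
      interval_cases D <;> omega
    · have := hlist 8 (by norm_num) h
      rcases h5 with rfl | rfl <;> interval_cases D <;> omega
  · exfalso
    have hp3 : p₁ = 3 := by omega
    rw [hp3] at hp₁D
    rcases hc with h | h | h | h
    · have := hlist 4 (by norm_num) h
      interval_cases D <;> omega
    · have := hlist 6 (by norm_num) h
      interval_cases D <;> omega
    · have := hlist 24 (by norm_num) h
      have h5 : D = 12 ∨ D = 24 := by
        interval_cases D <;> omega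
      rcases h5 with h5 | h5
      · apply hnow 1
        rw [hw1, h5] at hL
        rw [h5]
        omega
      · rw [hw1, h5] at hL
        omega
    · have := hlist 26 (by norm_num) h
      interval_cases D <;> omega

/-- An even class whose relevant characters are bad for one of two primes. -/
theorem even_two (q q' : Fin N → ℚ) (hq : ∀ i, 2 ≤ q i) (hq' : ∀ i, 2 ≤ q' i) {b : ℕ}
    (hb : Even b) (hb3 : 3 ≤ b) (hcp : cp q b = cp q' b) {p₁ p₂ : ℕ} (hp₁ : p₁.Prime)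
    (hp₂ : p₂.Prime) (ho₁ : Odd p₁) (ho₂ : Odd p₂) (hlt : p₁ < p₂) (hd₁ : p₁ ∣ b) (hd₂ : p₂ ∣ b)
    (hrel : ∀ ψ : DirichletCharacter ℂ (2 * b), ψ.Even → ψ (((1 + b : ℕ)) : ZMod (2 * b)) = -1 →
      ∑ i ∈ univ.filter (fun i => nm (q i) = b), ψ ((q i).den : ZMod (2 * b)) ≠
        ∑ j ∈ univ.filter (fun j => nm (q' j) = b), ψ ((q' j).den : ZMod (2 * b)) →
      (∃ f, ¬ p₁ ∣ f ∧ BadFor ψ (p₁ : ℤ) f) ∨ (∃ f, ¬ p₂ ∣ f ∧ BadFor ψ (p₂ : ℤ) f))
    (hm : (univ.filter (fun i => nm (q i) = b)).card +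
      (univ.filter (fun j => nm (q' j) = b)).card ≤ 4) : Counts q q' b := by
  by_cases hb60 : b = 60
  · subst hb60
    exact even_60 q q' hq hq' hcp
  have hL0 : 2 * b ≠ 0 := by omega
  have : NeZero (2 * b) := ⟨hL0⟩
  by_cases h₁ : ∃ ψ : DirichletCharacter ℂ (2 * b), ψ.Even ∧ ψ (((1 + b : ℕ)) : ZMod (2 * b)) = -1 ∧
      (∑ i ∈ univ.filter (fun i => nm (q i) = b), ψ ((q i).den : ZMod (2 * b)) ≠
        ∑ j ∈ univ.filter (fun j => nm (q' j) = b), ψ ((q' j).den : ZMod (2 * b))) ∧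
      ∃ f, ¬ p₁ ∣ f ∧ BadFor ψ (p₁ : ℤ) f
  · by_cases h₂ : ∃ ψ : DirichletCharacter ℂ (2 * b), ψ.Even ∧
        ψ (((1 + b : ℕ)) : ZMod (2 * b)) = -1 ∧
        (∑ i ∈ univ.filter (fun i => nm (q i) = b), ψ ((q i).den : ZMod (2 * b)) ≠
          ∑ j ∈ univ.filter (fun j => nm (q' j) = b), ψ ((q' j).den : ZMod (2 * b))) ∧
        ∃ f, ¬ p₂ ∣ f ∧ BadFor ψ (p₂ : ℤ) f
    · obtain ⟨ψ₁, a1, a2, a3, a4⟩ := h₁
      obtain ⟨ψ₂, b1, b2, b3, b4⟩ := h₂
      obtain ⟨T₁, hT₁, htr₁⟩ := even_T8 hb hb3 hp₁ ho₁ hd₁ ψ₁ a2 a4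
      obtain ⟨T₂, hT₂, htr₂⟩ := even_T16 hb hb3 hp₂ ho₂ hd₂ hp₁ ho₁ hlt hd₁ hb60 ψ₂ b2 b4
      have hS := card_supE q q' b
      apply counts_of_cntE q q' hq hq' hb hb3
      apply kill_of_rel_two (fourier_E q q' b) (supE q q' b) (wU hb)
        (Or.inr (fun ψ hψ => (bE_rel q q' hb ψ hψ).2.1))
        (fun x hx => cntE_supp q q' hb x hx) T₁ T₂ ?_
        ⟨ψ₁, bE_ne q q' ψ₁ a1 a2 a3, htr₁ ψ₁ a4⟩ ⟨ψ₂, bE_ne q q' ψ₂ b1 b2 b3, htr₂ ψ₂ b4⟩
        (by omega) (by omega)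
      intro ψ hψ
      obtain ⟨he', hw', hne⟩ := bE_rel q q' hb ψ hψ
      rw [coe_wU] at hw'
      rcases hrel ψ he' hw' hne with h | h
      · exact Or.inl (htr₁ ψ h)
      · exact Or.inr (htr₂ ψ h)
    · apply even_single q q' hq hq' hb hb3 hcp hp₁ ho₁ hd₁ _ (by omega)
      intro ψ h1 h2 h3
      rcases hrel ψ h1 h2 h3 with h | h
      · exact h
      · exact absurd ⟨ψ, h1, h2, h3, h⟩ h₂
  · apply even_single q q' hq hq' hb hb3 hcp hp₂ ho₂ hd₂ _ (by omega)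
    intro ψ h1 h2 h3
    rcases hrel ψ h1 h2 h3 with h | h
    · exact absurd ⟨ψ, h1, h2, h3, h⟩ h₁
    · exact h

end Vale.Agent.Lib.P268
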