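import Mathlib
import Vale.Agent.Lib.P268.SingleEven

/-!
The assembly for at most four variables: every numerator class is determined.
-/

open Finset

namespace Vale.Agent.Lib.P268

variable {N : ℕ}

/-- Size of the numerator class. -/
def sz (r : Fin N → ℚ) (b : ℕ) : ℕ := (univ.filter (fun i => nm (r i) = b)).card

lemma trace_sign (r : Fin N → ℚ) (hr : ∀ i, 2 ≤ r i) (m : ℕ) :
    0 < monodromyTrace r m * (-1) ^ (univ.filter (fun i => ¬ nm (r i) ∣ m)).card := by
  unfold monodromyTrace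
  have h : ∀ i, ((if nm (r i) ∣ m then r i else 0) - 1) =
      (if nm (r i) ∣ m then r i - 1 else -1 : ℚ) := by
    intro i
    split_ifs <;> ring
  rw [Finset.prod_congr rfl (fun i _ => h i), Finset.prod_ite, Finset.prod_const, mul_assoc,
    ← pow_add, ← two_mul, pow_mul]
  simp only [neg_one_sq, one_pow, mul_one]
  exact Finset.prod_pos (fun i _ => by have := hr i; linarith)

lemma card_dvd_eq (r : Fin N → ℚ) {m : ℕ} (hm : m ≠ 0) :
    (univ.filter (fun i => nm (r i) ∣ m)).card = ∑ d ∈ m.divisors, sz r d := by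
  rw [Finset.card_eq_sum_card_fiberwise (f := fun i => nm (r i)) (t := m.divisors)]
  · apply Finset.sum_congr rfl
    intro d hd
    unfold sz
    congr 1
    ext i
    simp only [mem_filter, mem_univ, true_and]
    constructor
    · exact fun h => h.2
    · intro h
      exact ⟨h ▸ (Nat.mem_divisors.mp hd).1, h⟩
  · intro i hi
    have hi' := (mem_filter.mp (Finset.mem_coe.mp hi)).2
    exact Finset.mem_coe.mpr (Nat.mem_divisors.mpr ⟨hi', hm⟩)

/-- The class sizes have the same parity. -/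
lemma parity_class (q q' : Fin N → ℚ) (hq : ∀ i, 2 ≤ q i) (hq' : ∀ i, 2 ≤ q' i)
    (h : ∀ m : ℕ, 1 ≤ m → monodromyTrace q m = monodromyTrace q' m) :
    ∀ b : ℕ, 1 ≤ b → sz q b % 2 = sz q' b % 2 := by
  intro b
  induction b using Nat.strong_induction_on with
  | _ b ih =>
    intro hb
    have hb0 : b ≠ 0 := by omega
    have h1 : (univ.filter (fun i => nm (q i) ∣ b)).card % 2 =
        (univ.filter (fun j => nm (q' j) ∣ b)).card % 2 := by
      have hs1 := trace_sign q hq b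
      have hs2 := trace_sign q' hq' b
      rw [h b hb] at hs1
      have hc1 := Finset.card_filter_add_card_filter_not (s := (univ : Finset (Fin N)))
        (fun i => nm (q i) ∣ b)
      have hc2 := Finset.card_filter_add_card_filter_not (s := (univ : Finset (Fin N)))
        (fun i => nm (q' i) ∣ b)
      rw [Finset.card_univ, Fintype.card_fin] at hc1 hc2
      have hpar : (univ.filter (fun i => ¬ nm (q i) ∣ b)).card % 2 =
          (univ.filter (fun i => ¬ nm (q' i) ∣ b)).card % 2 := by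
        rcases Nat.even_or_odd (univ.filter (fun i => ¬ nm (q i) ∣ b)).card with ha | ha <;>
          rcases Nat.even_or_odd (univ.filter (fun i => ¬ nm (q' i) ∣ b)).card with hb' | hb'
        · rw [Nat.even_iff] at ha hb'
          omega
        · rw [ha.neg_one_pow] at hs1
          rw [hb'.neg_one_pow] at hs2
          linarith
        · rw [ha.neg_one_pow] at hs1
          rw [hb'.neg_one_pow] at hs2
          linarith
        · rw [Nat.odd_iff] at ha hb'
          omega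
      omega
    rw [card_dvd_eq q hb0, card_dvd_eq q' hb0, ← Nat.insert_self_properDivisors hb0,
      Finset.sum_insert Nat.self_notMem_properDivisors,
      Finset.sum_insert Nat.self_notMem_properDivisors] at h1
    have h3 : (∑ d ∈ b.properDivisors, sz q d) % 2 = (∑ d ∈ b.properDivisors, sz q' d) % 2 := by
      rw [Finset.sum_nat_mod, Finset.sum_nat_mod (f := fun d => sz q' d)]
      congr 1
      apply Finset.sum_congr rfl
      intro d hd
      have hd' := Nat.mem_properDivisors.mp hd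
      exact ih d hd'.2 (Nat.pos_of_dvd_of_pos hd'.1 (by omega))
    omega

/-- The coordinates with `r i ≠ 2` number at most `K`. -/
def CorankLe (r : Fin N → ℚ) (K : ℕ) : Prop := (univ.filter (fun i => r i ≠ 2)).card ≤ K

lemma corankLe_of_le (r : Fin N → ℚ) {K : ℕ} (h : N ≤ K) : CorankLe r K := by
  unfold CorankLe
  calc _ ≤ (univ : Finset (Fin N)).card := Finset.card_filter_le _ _
    _ = N := by simp
    _ ≤ K := h

lemma sum_sz_le (r : Fin N → ℚ) {K : ℕ} (hK : CorankLe r K) (C : Finset ℕ)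
    (hC : ∀ c ∈ C, 3 ≤ c) : ∑ c ∈ C, sz r c ≤ K := by
  have h : (univ.filter (fun i => nm (r i) ∈ C)).card = ∑ c ∈ C, sz r c := by
    rw [Finset.card_eq_sum_card_fiberwise (f := fun i => nm (r i)) (t := C)]
    · apply Finset.sum_congr rfl
      intro c hc
      unfold sz
      congr 1
      ext i
      simp only [mem_filter, mem_univ, true_and]
      constructor
      · exact fun h => h.2
      · intro h
        exact ⟨h ▸ hc, h⟩
    · intro i hi
      exact Finset.mem_coe.mpr (mem_filter.mp (Finset.mem_coe.mp hi)).2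
  rw [← h]
  refine le_trans (Finset.card_le_card ?_) hK
  intro i hi
  simp only [mem_filter, mem_univ, true_and] at hi ⊢
  intro h2
  have h3 := hC _ hi
  rw [h2, nm_two] at h3
  omega

lemma sz_pair (r : Fin N → ℚ) {K : ℕ} (hK : CorankLe r K) {b c : ℕ} (hb : 3 ≤ b) (hc : 3 ≤ c)
    (hbc : b ≠ c) : sz r b + sz r c ≤ K := by
  have := sum_sz_le r hK {b, c} (by
    intro x hx
    simp only [mem_insert, mem_singleton] at hx
    rcases hx with rfl | rfl <;> assumption)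
  rwa [Finset.sum_pair hbc] at this

lemma sz_triple (r : Fin N → ℚ) {K : ℕ} (hK : CorankLe r K) {b c d : ℕ} (hb : 3 ≤ b) (hc : 3 ≤ c)
    (hd : 3 ≤ d) (hbc : b ≠ c) (hbd : b ≠ d) (hcd : c ≠ d) :
    sz r b + sz r c + sz r d ≤ K := by
  have := sum_sz_le r hK {b, c, d} (by
    intro x hx
    simp only [mem_insert, mem_singleton] at hx
    rcases hx with rfl | rfl | rfl <;> assumption)
  rw [Finset.sum_insert (by simp [hbc, hbd]), Finset.sum_pair hcd] at this
  omega

lemma sz_pos (r : Fin N → ℚ) (i : Fin N) : 1 ≤ sz r (nm (r i)) := by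
  unfold sz
  exact Finset.card_pos.mpr ⟨i, by simp⟩

lemma sz_pos_of {r : Fin N → ℚ} {d : ℕ} (h : ∃ i, nm (r i) = d) : 1 ≤ sz r d := by
  obtain ⟨i, rfl⟩ := h
  exact sz_pos r i

lemma exists_of_sz {r : Fin N → ℚ} {d : ℕ} (h : sz r d ≠ 0) : ∃ i, nm (r i) = d := by
  have h1 : (univ.filter (fun i => nm (r i) = d)).Nonempty :=
    Finset.card_pos.mp (Nat.pos_of_ne_zero h)
  obtain ⟨i, hi⟩ := h1
  exact ⟨i, (mem_filter.mp hi).2⟩

lemma sz_blockers (r : Fin N → ℚ) {K : ℕ} (hK : CorankLe r K) (D : Finset ℕ) {b : ℕ} (hb : b ∉ D)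
    (hb3 : 3 ≤ b) (hD3 : ∀ d ∈ D, 3 ≤ d)
    (hD : ∀ d ∈ D, ∃ i, nm (r i) = d) : D.card + sz r b ≤ K := by
  have h1 := sum_sz_le r hK (insert b D) (by
    intro x hx
    rcases Finset.mem_insert.mp hx with rfl | hx
    · exact hb3
    · exact hD3 x hx)
  rw [Finset.sum_insert hb] at h1
  have h2 : D.card ≤ ∑ d ∈ D, sz r d := by
    rw [Finset.card_eq_sum_ones]
    exact Finset.sum_le_sum (fun d hd => sz_pos_of (hD d hd))
  omega

/-- Classes of small total size are determined by the traces. -/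
lemma counts_trivial (q q' : Fin N → ℚ) (hq : ∀ i, 2 ≤ q i) (hq' : ∀ i, 2 ≤ q' i)
    (htr : ∀ m : ℕ, 1 ≤ m → monodromyTrace q m = monodromyTrace q' m) {c : ℕ} (hc : 3 ≤ c)
    (hs : ¬ 4 ≤ sz q c + sz q' c) : Counts q q' c := by
  have hpar := parity_class q q' hq hq' htr c (by omega)
  have hz : sz q c = 0 ↔ sz q' c = 0 := by
    constructor
    · intro h0
      by_contra hne
      obtain ⟨j, hj⟩ := exists_of_sz hne
      have h1 := sz_pos_of (numerator_of_q q q' hq hq' htr hc (Or.inr ⟨j, hj⟩))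
      omega
    · intro h0
      by_contra hne
      obtain ⟨i, hi⟩ := exists_of_sz hne
      have h1 := sz_pos_of (numerator_of_q q' q hq' hq
        (fun m hm => (htr m hm).symm) hc (Or.inr ⟨i, hi⟩))
      omega
  by_cases h0 : sz q c = 0
  · have h0' := hz.mp h0
    intro v
    unfold sz at h0 h0'
    rw [Finset.card_eq_zero.mp h0, Finset.card_eq_zero.mp h0']
    simp
  · have h00 : sz q' c ≠ 0 := fun h => h0 (hz.mpr h)
    have h1 : sz q c = 1 := by omega
    have h2 : sz q' c = 1 := by omega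
    obtain ⟨i, hi⟩ := Finset.card_eq_one.mp h1
    obtain ⟨j, hj⟩ := Finset.card_eq_one.mp h2
    have hcp := cp_eq_of_trace q q' hq hq' htr c (by omega)
    unfold cp at hcp
    rw [hi, hj] at hcp
    simp only [Finset.prod_singleton] at hcp
    have hqq : q i = q' j := by linarith
    intro v
    rw [hi, hj]
    simp only [Finset.filter_singleton]
    by_cases hv : q i = v
    · rw [if_pos hv, if_pos (hqq ▸ hv)]
      simp
    · rw [if_neg hv, if_neg (hqq ▸ hv)]

/-- Choice of primes among the blocking numerators. -/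
lemma pick_primes (D : Finset ℕ) (hD : ∀ d ∈ D, 2 ≤ d) (hne : D.Nonempty) (hc : D.card ≤ 2) :
    (∃ p : ℕ, p.Prime ∧ (∃ d ∈ D, p ∣ d) ∧ ∀ d ∈ D, p ∣ d) ∨
    (D.card = 2 ∧ ∃ p₁ p₂ : ℕ, p₁.Prime ∧ p₂.Prime ∧ p₁ < p₂ ∧ (∃ d ∈ D, p₁ ∣ d) ∧
      (∃ d ∈ D, p₂ ∣ d) ∧ ∀ d ∈ D, p₁ ∣ d ∨ p₂ ∣ d) := by
  have h1 : 1 ≤ D.card := Finset.card_pos.mpr hne
  have hcases : D.card = 1 ∨ D.card = 2 := by omega
  rcases hcases with h1' | h2'
  · left
    obtain ⟨x, hx⟩ := Finset.card_eq_one.mp h1'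
    have hxm : x ∈ D := by rw [hx]; simp
    have hxp := Nat.minFac_prime (show x ≠ 1 by have := hD x hxm; omega)
    refine ⟨x.minFac, hxp, ⟨x, hxm, Nat.minFac_dvd x⟩, ?_⟩
    intro d hd
    rw [hx, Finset.mem_singleton] at hd
    rw [hd]
    exact Nat.minFac_dvd x
  · obtain ⟨x, y, hxy, hD'⟩ := Finset.card_eq_two.mp h2'
    have hxm : x ∈ D := by rw [hD']; simp
    have hym : y ∈ D := by rw [hD']; simp
    have hxp := Nat.minFac_prime (show x ≠ 1 by have := hD x hxm; omega)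
    have hyp := Nat.minFac_prime (show y ≠ 1 by have := hD y hym; omega)
    have hallD : ∀ d ∈ D, d = x ∨ d = y := by
      intro d hd
      rw [hD'] at hd
      simpa using hd
    rcases lt_trichotomy x.minFac y.minFac with hlt | heq | hgt
    · right
      refine ⟨h2', x.minFac, y.minFac, hxp, hyp, hlt, ⟨x, hxm, Nat.minFac_dvd x⟩,
        ⟨y, hym, Nat.minFac_dvd y⟩, ?_⟩
      intro d hd
      rcases hallD d hd with rfl | rfl
      · exact Or.inl (Nat.minFac_dvd _)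
      · exact Or.inr (Nat.minFac_dvd _)
    · left
      refine ⟨x.minFac, hxp, ⟨x, hxm, Nat.minFac_dvd x⟩, ?_⟩
      intro d hd
      rcases hallD d hd with rfl | rfl
      · exact Nat.minFac_dvd _
      · rw [heq]
        exact Nat.minFac_dvd _
    · right
      refine ⟨h2', y.minFac, x.minFac, hyp, hxp, hgt, ⟨y, hym, Nat.minFac_dvd y⟩,
        ⟨x, hxm, Nat.minFac_dvd x⟩, ?_⟩
      intro d hd
      rcases hallD d hd with rfl | rfl
      · exact Or.inr (Nat.minFac_dvd _)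
      · exact Or.inl (Nat.minFac_dvd _)

/-- An odd class, with the other odd classes known. -/
theorem class_known_odd (q q' : Fin N → ℚ) (hq : ∀ i, 2 ≤ q i) (hq' : ∀ i, 2 ≤ q' i)
    (htr : ∀ m : ℕ, 1 ≤ m → monodromyTrace q m = monodromyTrace q' m)
    (hk : ∀ k : ℕ, Odd k → (∀ i, ¬ nm (q i) ∣ k) → (∀ j, ¬ nm (q' j) ∣ k) →
      ∑ i, lc ((k : ℝ) * Real.pi / (2 * (q i : ℝ))) = ∑ j, lc ((k : ℝ) * Real.pi / (2 * (q' j : ℝ))))
    (hK : CorankLe q 4) (hK' : CorankLe q' 4) {b : ℕ} (hb : Odd b) (hb3 : 3 ≤ b)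
    (hoth : ∀ c, c ≠ b → Odd c → 3 ≤ c → Counts q q' c) : Counts q q' b := by
  by_cases hbig : 4 ≤ sz q b + sz q' b
  swap
  · exact counts_trivial q q' hq hq' htr hb3 hbig
  have hcp := cp_eq_of_trace q q' hq hq' htr b (by omega)
  set D := (numsOf q q').filter (fun d => Odd d ∧ d ∣ b ∧ d ≠ b) with hDdef
  have hDmem : ∀ d, d ∈ D ↔ ((∃ i, nm (q i) = d) ∨ (∃ j, nm (q' j) = d)) ∧ Odd d ∧ d ∣ b ∧ d ≠ b := by
    intro d
    rw [hDdef, Finset.mem_filter, mem_numsOf]
  have hD2 : ∀ d ∈ D, 2 ≤ d := by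
    intro d hd
    rcases ((hDmem d).mp hd).1 with ⟨i, rfl⟩ | ⟨j, rfl⟩
    · exact nm_ge_two (hq i)
    · exact nm_ge_two (hq' j)
  have hD3 : ∀ d ∈ D, 3 ≤ d := by
    intro d hd
    have h2 := hD2 d hd
    obtain ⟨t, ht⟩ := ((hDmem d).mp hd).2.1
    omega
  have hDb : b ∉ D := fun h => ((hDmem b).mp h).2.2.2 rfl
  have hDq : D.card + sz q b ≤ 4 := sz_blockers q hK D hDb hb3 hD3 (fun d hd =>
    numerator_of_q q q' hq hq' htr (hD3 d hd) ((hDmem d).mp hd).1)
  have hDq' : D.card + sz q' b ≤ 4 := sz_blockers q' hK' D hDb hb3 hD3 (fun d hd =>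
    numerator_of_q q' q hq' hq (fun m hm => (htr m hm).symm) (hD3 d hd)
      ((hDmem d).mp hd).1.symm)
  have hrel : ∀ ψ : DirichletCharacter ℂ b, ψ ≠ 1 → ψ.Even →
      ∑ i ∈ univ.filter (fun i => nm (q i) = b), sg (q i).den * ψ ((q i).den : ZMod b) ≠
        ∑ j ∈ univ.filter (fun j => nm (q' j) = b), sg (q' j).den * ψ ((q' j).den : ZMod b) →
      ∃ d ∈ D, ∀ p : ℕ, p.Prime → p ∣ d → ∃ f, ¬ p ∣ f ∧ BadFor ψ (p : ℤ) f := by
    intro ψ hψ he hn
    obtain ⟨d, hd1, hd2, hd3, hd4⟩ := odd_relevant_psi q q' hq hq' hk hb ψ hψ he hoth hn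
    exact ⟨d, (hDmem d).mpr ⟨hd1, Odd.of_dvd_nat hb hd2, hd2, hd3⟩, hd4⟩
  rcases D.eq_empty_or_nonempty with h0 | hne
  · exact class_eq_of_char q q' hq hq' hb hb3 hcp (fun ψ hψ he => by
      by_contra hn
      obtain ⟨d, hd, _⟩ := hrel ψ hψ he hn
      rw [h0] at hd
      simp at hd)
  · have hcard1 : 1 ≤ D.card := Finset.card_pos.mpr hne
    have hcard : D.card ≤ 2 := by omega
    rcases pick_primes D hD2 hne hcard with ⟨p, hp, ⟨d₀, hd₀, hpd₀⟩, hall⟩ |
      ⟨hc2, p₁, p₂, hp₁, hp₂, hlt, ⟨d₁, hd₁, h₁⟩, ⟨d₂, hd₂, h₂⟩, hall⟩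
    · have hm : sz q b + sz q' b ≤ 6 := by omega
      refine odd_single q q' hq hq' hb hb3 hcp hp (hpd₀.trans ((hDmem d₀).mp hd₀).2.2.1) ?_ hm
      intro ψ hψ he hn
      obtain ⟨d, hd, hbad⟩ := hrel ψ hψ he hn
      exact hbad p hp (hall d hd)
    · have hm : sz q b + sz q' b ≤ 4 := by omega
      refine odd_two q q' hq hq' hb hb3 hcp hp₁ hp₂ hlt (h₁.trans ((hDmem d₁).mp hd₁).2.2.1)
        (h₂.trans ((hDmem d₂).mp hd₂).2.2.1) ?_ hm
      intro ψ hψ he hn
      obtain ⟨d, hd, hbad⟩ := hrel ψ hψ he hn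
      rcases hall d hd with h | h
      · exact Or.inl (hbad p₁ hp₁ h)
      · exact Or.inr (hbad p₂ hp₂ h)

/-- An even class, with the other even classes known. -/
theorem class_known_even (q q' : Fin N → ℚ) (hq : ∀ i, 2 ≤ q i) (hq' : ∀ i, 2 ≤ q' i)
    (htr : ∀ m : ℕ, 1 ≤ m → monodromyTrace q m = monodromyTrace q' m)
    (hk : ∀ k : ℕ, Odd k → (∀ i, ¬ nm (q i) ∣ k) → (∀ j, ¬ nm (q' j) ∣ k) →
      ∑ i, lc ((k : ℝ) * Real.pi / (2 * (q i : ℝ))) = ∑ j, lc ((k : ℝ) * Real.pi / (2 * (q' j : ℝ))))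
    (hK : CorankLe q 4) (hK' : CorankLe q' 4) {b : ℕ} (hb : Even b) (hb3 : 3 ≤ b)
    (hoth : ∀ c, c ≠ b → Even c → 3 ≤ c → Counts q q' c) : Counts q q' b := by
  by_cases hbig : 4 ≤ sz q b + sz q' b
  swap
  · exact counts_trivial q q' hq hq' htr hb3 hbig
  have hcp := cp_eq_of_trace q q' hq hq' htr b (by omega)
  set D := (numsOf q q').filter (fun d => Odd d ∧ d ∣ b) with hDdef
  have hDmem : ∀ d, d ∈ D ↔ ((∃ i, nm (q i) = d) ∨ (∃ j, nm (q' j) = d)) ∧ Odd d ∧ d ∣ b := by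
    intro d
    rw [hDdef, Finset.mem_filter, mem_numsOf]
  have hD2 : ∀ d ∈ D, 2 ≤ d := by
    intro d hd
    rcases ((hDmem d).mp hd).1 with ⟨i, rfl⟩ | ⟨j, rfl⟩
    · exact nm_ge_two (hq i)
    · exact nm_ge_two (hq' j)
  have hD3 : ∀ d ∈ D, 3 ≤ d := by
    intro d hd
    have h2 := hD2 d hd
    obtain ⟨t, ht⟩ := ((hDmem d).mp hd).2.1
    omega
  have hDb : b ∉ D := fun h => (Nat.not_even_iff_odd.mpr ((hDmem b).mp h).2.1) hb
  have hDq : D.card + sz q b ≤ 4 := sz_blockers q hK D hDb hb3 hD3 (fun d hd =>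
    numerator_of_q q q' hq hq' htr (hD3 d hd) ((hDmem d).mp hd).1)
  have hDq' : D.card + sz q' b ≤ 4 := sz_blockers q' hK' D hDb hb3 hD3 (fun d hd =>
    numerator_of_q q' q hq' hq (fun m hm => (htr m hm).symm) (hD3 d hd)
      ((hDmem d).mp hd).1.symm)
  have hrel : ∀ ψ : DirichletCharacter ℂ (2 * b), ψ.Even → ψ (((1 + b : ℕ)) : ZMod (2 * b)) = -1 →
      ∑ i ∈ univ.filter (fun i => nm (q i) = b), ψ ((q i).den : ZMod (2 * b)) ≠
        ∑ j ∈ univ.filter (fun j => nm (q' j) = b), ψ ((q' j).den : ZMod (2 * b)) →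
      ∃ d ∈ D, ∀ p : ℕ, p.Prime → p ∣ d → ∃ f, ¬ p ∣ f ∧ BadFor ψ (p : ℤ) f := by
    intro ψ he hw hn
    obtain ⟨d, hd1, hd2, hd3, hd4⟩ := even_relevant_psi q q' hq hq' hk hb hb3 ψ he hw hoth hn
    exact ⟨d, (hDmem d).mpr ⟨hd1, hd3, hd2⟩, hd4⟩
  rcases D.eq_empty_or_nonempty with h0 | hne
  · exact class_eq_even q q' hq hq' hb hb3 (fun ψ he hw => by
      by_contra hn
      obtain ⟨d, hd, _⟩ := hrel ψ he hw hn
      rw [h0] at hd
      simp at hd)
  · have hcard1 : 1 ≤ D.card := Finset.card_pos.mpr hne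
    have hcard : D.card ≤ 2 := by omega
    rcases pick_primes D hD2 hne hcard with ⟨p, hp, ⟨d₀, hd₀, hpd₀⟩, hall⟩ |
      ⟨hc2, p₁, p₂, hp₁, hp₂, hlt, ⟨d₁, hd₁, h₁⟩, ⟨d₂, hd₂, h₂⟩, hall⟩
    · have hm : sz q b + sz q' b ≤ 6 := by omega
      have hpo : Odd p := Odd.of_dvd_nat ((hDmem d₀).mp hd₀).2.1 hpd₀
      refine even_single q q' hq hq' hb hb3 hcp hp hpo (hpd₀.trans ((hDmem d₀).mp hd₀).2.2) ?_ hm
      intro ψ he hw hn
      obtain ⟨d, hd, hbad⟩ := hrel ψ he hw hn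
      exact hbad p hp (hall d hd)
    · have hm : sz q b + sz q' b ≤ 4 := by omega
      have ho₁ : Odd p₁ := Odd.of_dvd_nat ((hDmem d₁).mp hd₁).2.1 h₁
      have ho₂ : Odd p₂ := Odd.of_dvd_nat ((hDmem d₂).mp hd₂).2.1 h₂
      refine even_two q q' hq hq' hb hb3 hcp hp₁ hp₂ ho₁ ho₂ hlt (h₁.trans ((hDmem d₁).mp hd₁).2.2)
        (h₂.trans ((hDmem d₂).mp hd₂).2.2) ?_ hm
      intro ψ he hw hn
      obtain ⟨d, hd, hbad⟩ := hrel ψ he hw hn
      rcases hall d hd with h | h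
      · exact Or.inl (hbad p₁ hp₁ h)
      · exact Or.inr (hbad p₂ hp₂ h)

/-- Two big classes fill up both tuples. -/
lemma big_pair_sizes (q q' : Fin N → ℚ) (hq : ∀ i, 2 ≤ q i) (hq' : ∀ i, 2 ≤ q' i)
    (hK : CorankLe q 4) (hK' : CorankLe q' 4) {b c : ℕ} (hb3 : 3 ≤ b) (hc3 : 3 ≤ c)
    (hb : 4 ≤ sz q b + sz q' b)
    (hc : 4 ≤ sz q c + sz q' c) (hbc : b ≠ c) :
    (∀ i, nm (q i) = b ∨ nm (q i) = c ∨ nm (q i) = 2) ∧
      (∀ j, nm (q' j) = b ∨ nm (q' j) = c ∨ nm (q' j) = 2) ∧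
      sz q b + sz q' b ≤ 4 ∧ sz q c + sz q' c ≤ 4 := by
  have h1 := sz_pair q hK hb3 hc3 hbc
  have h2 := sz_pair q' hK' hb3 hc3 hbc
  refine ⟨?_, ?_, by omega, by omega⟩
  · intro i
    by_contra hn
    push Not at hn
    have h0 := nm_ge_two (hq i)
    have h3 := sz_triple q hK hb3 hc3 (by omega : 3 ≤ nm (q i)) hbc (Ne.symm hn.1) (Ne.symm hn.2.1)
    have h4 := sz_pos q i
    omega
  · intro j
    by_contra hn
    push Not at hn
    have h0 := nm_ge_two (hq' j)
    have h3 := sz_triple q' hK' hb3 hc3 (by omega : 3 ≤ nm (q' j)) hbc (Ne.symm hn.1) (Ne.symm hn.2.1)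
    have h4 := sz_pos q' j
    omega

/-- Every numerator class is determined for corank at most four. -/
theorem counts_all (q q' : Fin N → ℚ) (hq : ∀ i, 2 ≤ q i) (hq' : ∀ i, 2 ≤ q' i)
    (htr : ∀ m : ℕ, 1 ≤ m → monodromyTrace q m = monodromyTrace q' m)
    (hk : ∀ k : ℕ, Odd k → (∀ i, ¬ nm (q i) ∣ k) → (∀ j, ¬ nm (q' j) ∣ k) →
      ∑ i, lc ((k : ℝ) * Real.pi / (2 * (q i : ℝ))) = ∑ j, lc ((k : ℝ) * Real.pi / (2 * (q' j : ℝ))))
    (hK : CorankLe q 4) (hK' : CorankLe q' 4) : ∀ b, 3 ≤ b → Counts q q' b := by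
  intro b hb3
  by_cases hbig : 4 ≤ sz q b + sz q' b
  swap
  · exact counts_trivial q q' hq hq' htr hb3 hbig
  have hodd2 : ¬ Odd 2 := by decide
  rcases Nat.even_or_odd b with he | ho
  · by_cases hex : ∃ c, c ≠ b ∧ Even c ∧ 3 ≤ c ∧ 4 ≤ sz q c + sz q' c
    · obtain ⟨c, hcb, hce, hc3, hcbig⟩ := hex
      obtain ⟨h1, h2, _, _⟩ := big_pair_sizes q q' hq hq' hK hK' hb3 hc3 hbig hcbig (Ne.symm hcb)
      have hgood : Unobstructed q b := by
        intro i j _ _ hoj _
        exfalso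
        rcases h1 j with h | h | h <;> rw [h] at hoj
        · exact (Nat.not_even_iff_odd.mpr hoj) he
        · exact (Nat.not_even_iff_odd.mpr hoj) hce
        · exact hodd2 hoj
      exact class_eq_even q q' hq hq' he hb3 (char_of_good_even q q' hq hq' htr he hb3 hgood hk)
    · apply class_known_even q q' hq hq' htr hk hK hK' he hb3
      intro c hcb hce hc3
      apply counts_trivial q q' hq hq' htr hc3
      intro hcbig
      exact hex ⟨c, hcb, hce, hc3, hcbig⟩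
  · have hcp := cp_eq_of_trace q q' hq hq' htr b (by omega)
    by_cases hex : ∃ c, c ≠ b ∧ Odd c ∧ 3 ≤ c ∧ 4 ≤ sz q c + sz q' c
    · obtain ⟨c, hcb, hco, hc3, hcbig⟩ := hex
      obtain ⟨h1, h2, h3, h4⟩ := big_pair_sizes q q' hq hq' hK hK' hb3 hc3 hbig hcbig (Ne.symm hcb)
      have h1o : ∀ i, Odd (nm (q i)) → nm (q i) = b ∨ nm (q i) = c := by
        intro i hi
        rcases h1 i with h | h | h
        · exact Or.inl h
        · exact Or.inr h
        · rw [h] at hi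
          exact absurd hi hodd2
      have h2o : ∀ j, Odd (nm (q' j)) → nm (q' j) = b ∨ nm (q' j) = c := by
        intro i hi
        rcases h2 i with h | h | h
        · exact Or.inl h
        · exact Or.inr h
        · rw [h] at hi
          exact absurd hi hodd2
      by_cases hcase1 : c ∣ b ∧ b > 3 * c
      · obtain ⟨⟨t, ht⟩, _⟩ := hcase1
        exact coupled_top q q' hq hq' hk ho hco hc3 ht (Ne.symm hcb) h1o h2o hb3 hcp h3
      by_cases hcase2 : b ∣ c ∧ c > 3 * b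
      · obtain ⟨⟨t, ht⟩, _⟩ := hcase2
        have hcc : Counts q q' c := coupled_top q q' hq hq' hk hco ho hb3 ht hcb
          (fun i hi => (h1o i hi).symm) (fun j hj => (h2o j hj).symm) hc3
          (cp_eq_of_trace q q' hq hq' htr c (by omega)) h4
        apply class_known_odd q q' hq hq' htr hk hK hK' ho hb3
        intro c' hc'b hc'o hc'3
        by_cases hc'c : c' = c
        · rw [hc'c]
          exact hcc
        · apply counts_trivial q q' hq hq' htr hc'3
          intro hbig'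
          have h5 := sz_triple q hK hb3 hc3 hc'3 (Ne.symm hcb) (Ne.symm hc'b) (Ne.symm hc'c)
          have h6 := sz_triple q' hK' hb3 hc3 hc'3 (Ne.symm hcb) (Ne.symm hc'b) (Ne.symm hc'c)
          omega
      · have hgood : Unobstructed q b := by
          intro i j hi0 _ hoj hd
          have hi1 : Odd (nm (q i)) := by
            rw [Nat.odd_iff]
            rw [hi0]
            exact Nat.odd_iff.mp ho
          rcases h1o i hi1 with hi | hi <;> rcases h1o j hoj with hj | hj <;> rw [hi, hj] at hd ⊢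
          · omega
          · by_contra hh
            exact hcase1 ⟨hd, by omega⟩
          · by_contra hh
            exact hcase2 ⟨hd, by omega⟩
          · omega
        exact class_eq_of_char q q' hq hq' ho hb3 hcp
          (fun ψ hψ he => char_of_good_odd q q' hq hq' htr ho hgood hk ψ hψ he)
    · apply class_known_odd q q' hq hq' htr hk hK hK' ho hb3
      intro c hcb hco hc3
      apply counts_trivial q q' hq hq' htr hc3
      intro hcbig
      exact hex ⟨c, hcb, hco, hc3, hcbig⟩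

/-- The main theorem for corank at most four. -/
theorem weights_eq_corank (q q' : Fin N → ℚ) (hq : ∀ i, 2 ≤ q i) (hq' : ∀ i, 2 ≤ q' i)
    (h : ∀ m : ℕ, 1 ≤ m → monodromyTrace q m = monodromyTrace q' m)
    (hcot : ∀ k : ℕ, Odd k → (∀ i, ¬ nm (q i) ∣ k) → (∀ j, ¬ nm (q' j) ∣ k) →
      |cotK q k| = |cotK q' k|)
    (hK : CorankLe q 4) (hK' : CorankLe q' 4) :
    ∀ v : ℚ, (univ.filter (fun i => q i = v)).card = (univ.filter (fun j => q' j = v)).card := by
  have hk : ∀ k : ℕ, Odd k → (∀ i, ¬ nm (q i) ∣ k) → (∀ j, ¬ nm (q' j) ∣ k) →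
      ∑ i, lc ((k : ℝ) * Real.pi / (2 * (q i : ℝ))) =
        ∑ j, lc ((k : ℝ) * Real.pi / (2 * (q' j : ℝ))) := by
    intro k hk1 hk2 hk3
    rw [← log_cotK q hq hk2, ← log_cotK q' hq' hk3, hcot k hk1 hk2 hk3]
  have hlog : ∑ i, γ (q i) = ∑ j, γ (q' j) := by
    have h1 := hk 1 odd_one
      (fun i hd => by have := nm_ge_two (hq i); have := Nat.le_of_dvd one_pos hd; omega)
      (fun j hd => by have := nm_ge_two (hq' j); have := Nat.le_of_dvd one_pos hd; omega)
    rw [Finset.sum_congr rfl (fun i _ => lc_one_eq_γ (hq i)),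
      Finset.sum_congr rfl (fun j _ => lc_one_eq_γ (hq' j))] at h1
    exact h1
  apply weights_eq_of_classes q q' hq hq' hlog
  intro b hb3
  have hcount := counts_all q q' hq hq' h hk hK hK' b hb3
  have hs := sum_eq_of_counts q q' γ _ _ hcount
  exact ⟨hs.ge, fun _ => hcount⟩

/-- The main theorem for `N ≤ 4`. -/
theorem weights_eq_four (q q' : Fin N → ℚ) (hq : ∀ i, 2 ≤ q i) (hq' : ∀ i, 2 ≤ q' i)
    (h : ∀ m : ℕ, 1 ≤ m → monodromyTrace q m = monodromyTrace q' m)
    (hcot : ∀ k : ℕ, Odd k → (∀ i, ¬ nm (q i) ∣ k) → (∀ j, ¬ nm (q' j) ∣ k) →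
      |cotK q k| = |cotK q' k|)
    (hN4 : N ≤ 4) :
    ∀ v : ℚ, (univ.filter (fun i => q i = v)).card = (univ.filter (fun j => q' j = v)).card :=
  weights_eq_corank q q' hq hq' h hcot (corankLe_of_le q hN4) (corankLe_of_le q' hN4)

end Vale.Agent.Lib.P268
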